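import Crest.Agent.R3.Alpha

/-!
# R3 / Dens : good pairs are dense

* `mulInd_approx`: `W` contains a product of discs.  Induction on the number of coordinates (`Fin n`): given
  independent `β' 0, …, β' (n-1)`, the set of `z` with `z ^ m = ∏ β' i ^ μ i` for some `m ≠ 0`, `μ`, is countable, a disc is
  not (`Set.Countable.dense_compl`).
* `prinNZ_approx`: the principal minors of `A + s • 1` are monic polynomials in `s`.
* `good_dense`: `alpha` with the idempotents `single i i 1` gives `b1 = b * diagonal t` near `b` with `card ι` distinct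
  eigenvalues, `diag_of_neig`; perturb the eigenvalues, then perturb `a` to `a + s • 1`.
-/

set_option autoImplicit false

noncomputable section

open Matrix Filter Topology

namespace Crest.Agent.R3

variable {ι : Type} [Fintype ι] [DecidableEq ι]

theorem dens_step (s : ι → Set ℂ) (β : ι → ℂ) (hs : ∀ i, s i ∈ 𝓝 (β i)) (S : Finset ι) :
    ∃ β' : ι → ℂ, (∀ i, β' i ∈ s i ∧ β' i ≠ 0) ∧
      ∀ μ : ι → ℤ, (∀ i ∉ S, μ i = 0) → ∏ i, β' i ^ μ i = 1 → μ = 0 := by
  induction S using Finset.induction_on with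
  | empty =>
    have h : ∀ i, ∃ z, z ∈ s i ∧ z ≠ 0 := fun i => by
      obtain ⟨z, h1, h2⟩ := ((Set.countable_singleton (0 : ℂ)).dense_compl ℂ).inter_nhds_nonempty (hs i)
      exact ⟨z, h2, h1⟩
    choose β' hβ' using h
    exact ⟨β', hβ', fun μ hμ _ => funext fun i => hμ i (Finset.notMem_empty i)⟩
  | insert j S hj ih =>
    obtain ⟨γ, h1, h2⟩ := ih
    have hc : ({0} ∪ ⋃ p : ℕ × (ι → ℤ),
        {z : ℂ | z ^ (p.1 + 1) = ∏ i ∈ Finset.univ.erase j, γ i ^ p.2 i}).Countable := by
      refine (Set.countable_singleton _).union (Set.countable_iUnion fun p => Set.Finite.countable ?_)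
      refine (Polynomial.nthRoots (p.1 + 1) (∏ i ∈ Finset.univ.erase j, γ i ^ p.2 i)).finite_toSet.subset
        fun z hz => ?_
      exact (Polynomial.mem_nthRoots p.1.succ_pos).2 hz
    obtain ⟨z, hz1, hz2⟩ := (hc.dense_compl ℂ).inter_nhds_nonempty (hs j)
    simp only [Set.mem_compl_iff, Set.mem_union, Set.mem_singleton_iff, Set.mem_iUnion, Set.mem_ofPred_eq,
      not_or, not_exists] at hz1
    refine ⟨Function.update γ j z, fun i => ?_, fun μ hμ h => ?_⟩
    · rcases eq_or_ne i j with rfl | hi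
      · rw [Function.update_self]
        exact ⟨hz2, hz1.1⟩
      · rw [Function.update_of_ne hi]
        exact h1 i
    · have e : ∏ i ∈ Finset.univ.erase j, Function.update γ j z i ^ μ i =
          ∏ i ∈ Finset.univ.erase j, γ i ^ μ i :=
        Finset.prod_congr rfl fun i hi => by rw [Function.update_of_ne (Finset.ne_of_mem_erase hi)]
      rw [← Finset.mul_prod_erase _ _ (Finset.mem_univ j), Function.update_self, e] at h
      have h0 : μ j = 0 := by
        rcases hm : μ j with (_ | n) | n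
        · rfl
        · refine (hz1.2 (n, -μ) ?_).elim
          rw [hm, Int.ofNat_eq_natCast, zpow_natCast] at h
          simp only [Pi.neg_apply, _root_.zpow_neg, Finset.prod_inv_distrib]
          exact eq_inv_of_mul_eq_one_left h
        · refine (hz1.2 (n, μ) ?_).elim
          rw [hm, zpow_negSucc] at h
          exact inv_injective (eq_inv_of_mul_eq_one_left h)
      refine h2 μ (fun i hi => ?_) ?_
      · rcases eq_or_ne i j with rfl | hij
        · exact h0
        · exact hμ i fun hh => (Finset.mem_insert.1 hh).elim hij hi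
      · rw [← Finset.mul_prod_erase _ _ (Finset.mem_univ j)]
        rw [h0, zpow_zero] at h ⊢
        exact h

theorem mulInd_approx (β : ι → ℂ) {W : Set (ι → ℂ)} (hW : W ∈ 𝓝 β) : ∃ β' ∈ W, MulInd β' := by
  rw [nhds_pi, Filter.mem_pi] at hW
  obtain ⟨I, -, s, hs, hsub⟩ := hW
  obtain ⟨β', h1, h2⟩ := dens_step s β hs Finset.univ
  exact ⟨β', hsub fun i _ => (h1 i).1, fun i => (h1 i).2,
    fun μ => h2 μ fun i hi => (hi (Finset.mem_univ i)).elim⟩

theorem prinNZ_approx (A : Matrix ι ι ℂ) {W : Set ℂ} (hW : W ∈ 𝓝 (0 : ℂ)) :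
    ∃ s ∈ W, PrinNZ (A + s • (1 : Matrix ι ι ℂ)) := by
  have hc : (⋃ I : Finset ι, {s : ℂ |
      (-(A.submatrix (fun i : I => (i : ι)) (fun i : I => (i : ι)))).charpoly.IsRoot s}).Countable :=
    Set.countable_iUnion fun I => (Polynomial.finite_setOfPred_isRoot (charpoly_monic _).ne_zero).countable
  obtain ⟨s, h1, h2⟩ := (hc.dense_compl ℂ).inter_nhds_nonempty hW
  refine ⟨s, h2, fun I hI => h1 (Set.mem_iUnion.2 ⟨I, ?_⟩)⟩
  rw [Set.mem_ofPred_eq, Polynomial.IsRoot, eval_charpoly, ← hI]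
  congr 1
  ext i j
  by_cases h : i = j
  · simp [h, add_comm]
  · simp [h, Subtype.coe_ne_coe.2 h]

theorem good_dense (a : Matrix ι ι ℂ) {b : Matrix ι ι ℂ} (hb : b.det ≠ 0)
    {W : Set (Matrix ι ι ℂ × Matrix ι ι ℂ)} (hW : W ∈ 𝓝 (a, b)) : ∃ p ∈ W, GoodPair p.1 p.2 := by
  obtain ⟨U, hU, V, hV, hUV⟩ := mem_nhds_prod_iff.1 hW
  let σ : Fin (Fintype.card ι) ≃ ι := (Fintype.equivFin ι).symm
  let e : Fin (Fintype.card ι) → Matrix ι ι ℂ := fun i => single (σ i) (σ i) 1
  have he : Idems e := by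
    refine ⟨fun i h => ?_, fun i => ?_, fun i j h => ?_, ?_⟩
    · have := congrFun (congrFun h (σ i)) (σ i)
      simp [e] at this
    · simp [e]
    · exact single_mul_single_of_ne _ _ _ _ (σ.injective.ne h) _
    · rw [σ.sum_comp fun i => single i i (1 : ℂ), sum_single_one]
  have c1 : Continuous fun t : Fin (Fintype.card ι) → ℂ => b * ∑ i, t i • e i := by fun_prop
  have hV1 : (fun t : Fin (Fintype.card ι) → ℂ => b * ∑ i, t i • e i) ⁻¹' interior V ∈ 𝓝 1 := by
    refine c1.continuousAt.preimage_mem_nhds ?_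
    simpa [he.sum] using hV
  obtain ⟨t, ht, -, hn⟩ := alpha hb he hV1
  obtain ⟨G, β, -, hG⟩ := diag_of_neig (le_antisymm (neig_le_card _) hn)
  have c2 : Continuous fun β : ι → ℂ =>
      (G : Matrix ι ι ℂ) * diagonal β * ((G⁻¹ : GLm ι ℂ) : Matrix ι ι ℂ) := by fun_prop
  have hV2 : V ∈ 𝓝 (b * ∑ i, t i • e i) := mem_interior_iff_mem_nhds.1 ht
  rw [hG] at hV2
  obtain ⟨β', h1, h2⟩ := mulInd_approx β (c2.continuousAt.preimage_mem_nhds hV2)
  have c3 : Continuous fun s : ℂ => a + s • (1 : Matrix ι ι ℂ) := by fun_prop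
  obtain ⟨s, h3, h4⟩ := prinNZ_approx (((G⁻¹ : GLm ι ℂ) : Matrix ι ι ℂ) * a * (G : Matrix ι ι ℂ))
    (c3.continuousAt.preimage_mem_nhds (t := U) (by simpa using hU))
  refine ⟨(a + s • 1, _), hUV ⟨h3, h1⟩, G, β', h2, rfl, ?_⟩
  rwa [Matrix.mul_add, Matrix.add_mul, Matrix.mul_smul, Matrix.smul_mul, Matrix.mul_one, Units.inv_mul]

end Crest.Agent.R3
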