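import Crest.Agent.R3.Surf

/-!
# R3 / Cut : points with `a ∼ diag δ`, the `δ i` having unit differences

`diag_lemma`: solve `(D + n) v = v D` for a unipotent `v = 1 + w`, `w i j = 0` unless `lev i < lev j`:
`(δ j - δ i) w i j = n i j + ∑ k, n i k * w k j`, recursion on `lev j - lev i` (or iterate the map
`w ↦ (fun i j => (δ j - δ i)⁻¹ (n (1 + w)) i j)`, or induct on the matrix size).  All entries of `w` lie in the ideal generated by
the entries of `n`, so `π w = 0`.  `1 + w` is a unit since `w` is nilpotent (or `det = 1`, block triangular).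

`cl_cut`: `a = G D G⁻¹`, `b a⁻¹ b⁻¹ = (b G) D⁻¹ (b G)⁻¹`, and `comm (T 0) * rel (tail T) = η` gives
`rel (tail T) * a * (b a⁻¹ b⁻¹) = η`.  Two punctures with `lev = Fintype.equivFin ι`, `ξ k = δ (e.symm k)` resp. its
inverse, `n = 0`.  `surf_RR` gives lifts `T̃, (g̃1, ñ1), (g̃2, ñ2)`; with `v1, v2` from `diag_lemma` put
`ã = g̃1 v1 D v1⁻¹ g̃1⁻¹`, `b̃ = g̃2 v2 v1⁻¹ g̃1⁻¹`.
-/

set_option autoImplicit false

noncomputable section

open Matrix

namespace Crest.Agent.R3

variable {O B : Type} [CommRing O] [CommRing B] [Algebra O B] [Algebra O ℂ] {π : B →ₐ[O] ℂ}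
variable {ι : Type} [Fintype ι] [DecidableEq ι] {η : Oˣ}

omit [DecidableEq ι] in
/-- approximate solutions of `(δ j - δ i) w i j = (n + n w) i j` -/
theorem cut_iter (lev : ι → ℕ) (δ : ι → Oˣ) (hδ : ∀ i j, i ≠ j → IsUnit ((δ i : O) - δ j))
    (n : Matrix ι ι B) (hn : ∀ i j, ¬ lev i < lev j → n i j = 0) (hn0 : n.map π = 0) (d : ℕ) :
    ∃ w : Matrix ι ι B, (∀ i j, ¬ lev i < lev j → w i j = 0) ∧ w.map π = 0 ∧
      ∀ i j, lev j < lev i + d → algebraMap O B ((δ j : O) - δ i) * w i j = (n + n * w) i j := by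
  have hn1 : ∀ i j, π (n i j) = 0 := fun i j => congrFun (congrFun hn0 i) j
  induction d with
  | zero => exact ⟨0, fun _ _ _ => rfl, by ext; simp, fun i j h => by simp [hn i j (by omega)]⟩
  | succ d ih =>
    obtain ⟨w, h1, -, h3⟩ := ih
    have hu : ∀ i j, lev i < lev j → ∃ c : B, algebraMap O B ((δ j : O) - δ i) * c = 1 :=
      fun i j h => ((hδ j i fun e => by rw [e] at h; exact lt_irrefl _ h).map
        (algebraMap O B)).exists_right_inv
    choose! c hc using hu
    let w' : Matrix ι ι B := Matrix.of fun i j => if lev i < lev j then c i j * (n + n * w) i j else 0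
    have h4 : ∀ i j, lev j < lev i + d → w' i j = w i j := fun i j h => by
      simp only [w', of_apply]
      split_ifs with h5
      · rw [← h3 i j h, ← mul_assoc, mul_comm (c i j), hc i j h5, one_mul]
      · exact (h1 i j h5).symm
    refine ⟨w', fun i j h => if_neg h, ?_, fun i j h => ?_⟩
    · ext i j
      simp only [w', map_apply, of_apply]
      split_ifs <;> simp [mul_apply, hn1]
    · have h5 : (n * w') i j = (n * w) i j := by
        rw [mul_apply, mul_apply]
        refine Finset.sum_congr rfl fun k _ => ?_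
        by_cases hk : lev i < lev k
        · rw [h4 k j (by omega)]
        · rw [hn i k hk, zero_mul, zero_mul]
      rw [Matrix.add_apply, h5, ← Matrix.add_apply]
      simp only [w', of_apply]
      split_ifs with h6
      · rw [← mul_assoc, hc i j h6, one_mul]
      · rw [mul_zero, Matrix.add_apply, hn i j h6, zero_add, mul_apply]
        refine (Finset.sum_eq_zero fun k _ => ?_).symm
        by_cases hk : lev i < lev k
        · rw [h1 k j (by omega), mul_zero]
        · rw [hn i k hk, zero_mul]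

/-- `dg` as a unit -/
def cutD (R : Type) [CommRing R] [Algebra O R] (δ : ι → Oˣ) : GLm ι R where
  val := dg R δ
  inv := dg R fun i => (δ i)⁻¹
  val_inv := by simp [dg, diagonal_mul_diagonal, ← map_mul]
  inv_val := by simp [dg, diagonal_mul_diagonal, ← map_mul]

theorem cutD_map (δ : ι → Oˣ) : mapU (π : B →+* ℂ) (cutD B δ) = cutD ℂ δ := by
  refine Units.ext ?_
  ext i j
  by_cases h : i = j <;> simp [cutD, dg, h]

theorem diag_lemma (lev : ι → ℕ) (δ : ι → Oˣ) (hδ : ∀ i j, i ≠ j → IsUnit ((δ i : O) - δ j))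
    (n : Matrix ι ι B) (hn : ∀ i j, ¬ lev i < lev j → n i j = 0) (hn0 : n.map π = 0) :
    ∃ v : GLm ι B, mapU (π : B →+* ℂ) v = 1 ∧
      (dg B δ + n) * (v : Matrix ι ι B) = (v : Matrix ι ι B) * dg B δ := by
  obtain ⟨w, h1, h2, h3⟩ := cut_iter lev δ hδ n hn hn0 (Finset.univ.sup lev + 1)
  have hb : (1 + w).BlockTriangular lev := fun i j h => by
    rw [Matrix.add_apply, h1 i j h.not_gt, one_apply_ne (fun e => by rw [e] at h; exact lt_irrefl _ h),
      add_zero]
  have hd : IsUnit (1 + w) := by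
    rw [isUnit_iff_isUnit_det, hb.det, Finset.prod_eq_one fun a _ => ?_]
    · exact isUnit_one
    · rw [← det_one (n := {i // lev i = a})]
      congr 1
      ext i j
      simp [toSquareBlock_def, h1 i j (by rw [i.2, j.2]; exact lt_irrefl _), one_apply, Subtype.ext_iff]
  refine ⟨hd.unit, Units.ext ?_, ?_⟩
  · ext i j
    have h4 : ∀ i j, π (w i j) = 0 := fun i j => congrFun (congrFun h2 i) j
    by_cases h : i = j <;> simp [h4, one_apply, h]
  · ext i j
    have h4 := h3 i j (by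
      have := Finset.le_sup (f := lev) (Finset.mem_univ j)
      omega)
    rw [map_sub, Matrix.add_apply] at h4
    rw [IsUnit.unit_spec, Matrix.mul_add, Matrix.mul_one, Matrix.add_mul, Matrix.add_mul,
      Matrix.one_mul]
    simp only [Matrix.add_apply, dg, diagonal_mul, mul_diagonal]
    linear_combination -h4

theorem cl_cut (hR : RR π ι (Fintype.card ι)) (h2 : 2 ≤ Fintype.card ι) (δ : ι → Oˣ)
    (hδ : ∀ i j, i ≠ j → IsUnit ((δ i : O) - δ j)) {g : ℕ} (T : Rep (g + 1) ι ℂ)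
    (hT : rel T = scalU ι ℂ η) (G : GLm ι ℂ)
    (ha : ((T 0).1 : Matrix ι ι ℂ) =
      (G : Matrix ι ι ℂ) * dg ℂ δ * ((G⁻¹ : GLm ι ℂ) : Matrix ι ι ℂ)) : CL π η T := by
  let e := Fintype.equivFin ι
  let ξ : ℕ → Oˣ := fun k => if h : k < Fintype.card ι then δ (e.symm ⟨k, h⟩) else 1
  have hξ : ∀ i, ξ (e i) = δ i := fun i => by simp [ξ]
  let P : Fin 2 → Punc O ι := ![⟨fun i => e i, ξ⟩, ⟨fun i => e i, fun k => (ξ k)⁻¹⟩]
  have ha' : (T 0).1 = G * cutD ℂ δ * G⁻¹ := Units.ext ha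
  have hlev : ∀ j i, (P j).lev i = e i := fun j i => by fin_cases j <;> rfl
  obtain ⟨T', c', h3, h4, h5, h6⟩ := surf_RR (η := η) (P := P) (T := Fin.tail T)
    (c := ![(G, 0), ((T 0).2 * G, 0)]) hR
    (fun j => ⟨e.symm ⟨0, by omega⟩, by simp [hlev]⟩) ⟨0, e.symm ⟨1, by omega⟩, by simp [hlev]⟩ (by
      refine ⟨fun j i k _ => by fin_cases j <;> rfl, ?_⟩
      have h1 : rel (Fin.tail T) * (G * cutD ℂ δ * G⁻¹ *
          ((T 0).2 * G * (cutD ℂ δ)⁻¹ * ((T 0).2 * G)⁻¹)) = scalU ι ℂ η := by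
        rw [rel_succ, ← eq_inv_mul_iff_mul_eq, ← scalU_comm] at hT
        rw [hT, comm, ha']
        group
      rw [← h1]
      simp only [List.ofFn_succ, List.ofFn_zero, List.prod_cons, List.prod_nil, Punc.val, P,
        cons_val_zero, cons_val_succ, hξ, add_zero, mul_one, Units.val_mul]
      rfl)
  obtain ⟨v1, a1, b1⟩ := diag_lemma (π := π) (fun i => e i) δ hδ (c' 0).2 (h5 0) (h4 0).2
  obtain ⟨v2, a2, b2⟩ := diag_lemma (π := π) (fun i => e i) (fun i => (δ i)⁻¹) (fun i j hij => by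
    have h7 : (((δ i)⁻¹ : Oˣ) : O) - ((δ j)⁻¹ : Oˣ) =
        ((δ i)⁻¹ * (δ j)⁻¹ : Oˣ) * ((δ j : O) - δ i) := by
      rw [Units.val_mul, mul_sub, Units.inv_mul_cancel_right, mul_right_comm, Units.inv_mul, one_mul]
    rw [h7]
    exact (Units.isUnit _).mul (hδ j i hij.symm)) (c' 1).2 (h5 1) (h4 1).2
  rw [← Units.eq_mul_inv_iff_mul_eq] at b1 b2
  have h7 : rel T' * ((c' 0).1 * (v1 * cutD B δ * v1⁻¹) * (c' 0).1⁻¹ *
      ((c' 1).1 * (v2 * (cutD B δ)⁻¹ * v2⁻¹) * (c' 1).1⁻¹)) = scalU ι B η := by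
    refine Units.ext ?_
    rw [← h6]
    simp only [List.ofFn_succ, List.ofFn_zero, List.prod_cons, List.prod_nil, Punc.val, P,
      cons_val_zero, cons_val_succ, hξ, mul_one, Units.val_mul, Fin.succ_zero_eq_one,
      b1, b2]
    rfl
  have g1 : mapU (π : B →+* ℂ) (c' 0).1 = G := (h4 0).1
  have g2 : mapU (π : B →+* ℂ) (c' 1).1 = (T 0).2 * G := (h4 1).1
  refine ⟨Fin.cons ((c' 0).1 * (v1 * cutD B δ * v1⁻¹) * (c' 0).1⁻¹,
    (c' 1).1 * v2 * v1⁻¹ * (c' 0).1⁻¹) T', funext fun i => ?_, ?_⟩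
  · cases i using Fin.cases with
    | zero =>
      refine Prod.ext ?_ ?_ <;>
        simp only [mapRep, Fin.cons_zero, map_mul, map_inv, g1, g2, a1, a2, cutD_map, ha'] <;> group
    | succ i => exact congrFun h3 i
  · rw [← eq_mul_inv_iff_mul_eq, scalU_comm] at h7
    rw [rel_succ, Fin.tail_cons, Fin.cons_zero, h7, comm]
    group

end Crest.Agent.R3
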