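import Crest.Agent.R3.Defs

/-!
# R3 / Neig : rank, number of eigenvalues, rigidity

* `isOpen_rank`: `k ≤ rank A` iff there are `P, Q` with `P A Q = 1` of size `k` (or a non-zero minor); `det (P A' Q)` is
  continuous in `A'`.
* `lemma_R`: let `ρ = rank (A 0)`.  If `A' v ∉ range (A 0)` take a row vector `w` with `w (A 0) = 0`, `w A' v ≠ 0`, and
  `P, Q` with `P (A 0) Q = 1` (size `ρ`).  The matrix `M s = [P; w] (A s) [Q, v]` of size `ρ + 1` has determinant `0` near
  `0`; dividing the last column by `s` gives a matrix with determinant `0` which tends to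
  `[[1, *], [0, w A' v]]`, contradiction.
* `hank c M` is the Hankel matrix `trace (c ^ (i + j)) = ∑_λ m_λ λ ^ i λ ^ j`; it is `Vᵀ diag(m) V` with `V` a
  Vandermonde matrix of the distinct eigenvalues, so its rank is `neig c` when `card ι ≤ M`.  (Use
  `trace (aeval c p) = ∑ over roots of the charpoly`, by triangularisation or `Matrix.charpoly` lemmas, e.g.
  `Matrix.trace_eq_sum_roots_charpoly` and spectral mapping / `Matrix.schur_triangulation`.)
* `spectral_idems`: Chinese remainder theorem / generalized eigenspaces (`Module.End.independent_maxGenEigenspace`,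
  `iSup_maxGenEigenspace_eq_top`): the projections are non-zero, commute with `c`.
* `diag_of_neig`: `card ι` eigenvectors for distinct eigenvalues form a basis.
-/

set_option autoImplicit false

noncomputable section

open Matrix Filter Topology

namespace Crest.Agent.R3

theorem neig_le_rank {p q κ : Type} [Fintype p] [Fintype q] [Fintype κ] [DecidableEq κ]
    (A : Matrix p q ℂ) (P : Matrix κ p ℂ) (Q : Matrix q κ ℂ) (h : (P * (A * Q)).det ≠ 0) :
    Fintype.card κ ≤ A.rank := by
  rw [← rank_of_isUnit _ ((isUnit_iff_isUnit_det _).2 (Ne.isUnit h))]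
  exact (rank_mul_le_right _ _).trans (rank_mul_le_left _ _)

theorem neig_exists_PQ {p q : Type} [Fintype p] [Fintype q] (A : Matrix p q ℂ) :
    ∃ (P : Matrix (Fin A.rank) p ℂ) (Q : Matrix q (Fin A.rank) ℂ), P * (A * Q) = 1 := by
  classical
  let b : Module.Basis (Fin A.rank) ℂ (LinearMap.range A.mulVecLin) :=
    Module.finBasis ℂ (LinearMap.range A.mulVecLin)
  have hu : ∀ i, ∃ u, A *ᵥ u = b i := fun i => (b i).2
  choose u hu using hu
  obtain ⟨φ, hφ⟩ := LinearMap.exists_extend (b.equivFun.toLinearMap)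
  refine ⟨LinearMap.toMatrix' φ, Matrix.of fun i j => u j i, ?_⟩
  ext i j
  have e1 : (LinearMap.toMatrix' φ * (A * Matrix.of fun i j => u j i)) i j =
      (LinearMap.toMatrix' φ *ᵥ (A *ᵥ u j)) i := rfl
  have e2 : φ (b j) = b.equivFun (b j) := LinearMap.congr_fun hφ (b j)
  rw [e1, hu, LinearMap.toMatrix'_mulVec, e2, b.equivFun_self, one_apply]
  simp only [eq_comm]

theorem isOpen_rank {p q : Type} [Fintype p] [Fintype q] (k : ℕ) :
    IsOpen {A : Matrix p q ℂ | k ≤ A.rank} := by
  refine isOpen_iff_forall_mem_open.2 fun A hA => ?_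
  obtain ⟨P, Q, h⟩ := neig_exists_PQ A
  refine ⟨{A' | (P * (A' * Q)).det ≠ 0}, fun A' hA' => ?_, ?_, ?_⟩
  · have := neig_le_rank A' P Q hA'
    rw [Fintype.card_fin] at this
    exact le_trans hA this
  · exact isOpen_ne_fun
      (Continuous.matrix_det (continuous_const.matrix_mul (continuous_id.matrix_mul continuous_const)))
      continuous_const
  · simp [h]

theorem lemma_R {p q : Type} [Fintype p] [Fintype q] (A : ℂ → Matrix p q ℂ) (A' : Matrix p q ℂ)
    (hA : ∀ i j, HasDerivAt (fun s => A s i j) (A' i j) 0)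
    (hr : ∀ᶠ s in 𝓝 (0 : ℂ), (A s).rank ≤ (A 0).rank) (v : q → ℂ) (hv : A 0 *ᵥ v = 0) :
    ∃ u : q → ℂ, A' *ᵥ v = A 0 *ᵥ u := by
  classical
  by_contra hcon
  have hn : A' *ᵥ v ∉ LinearMap.range (A 0).mulVecLin := fun ⟨u, hu⟩ => hcon ⟨u, hu.symm⟩
  obtain ⟨w, hw1, hw2⟩ := Submodule.exists_le_ker_of_notMem hn
  obtain ⟨P, Q, h⟩ := neig_exists_PQ (A 0)
  let r : Matrix Unit p ℂ := Matrix.of fun _ i => w (Pi.single i 1)
  have hr' : ∀ y : p → ℂ, ∑ i, w (Pi.single i 1) * y i = w y := fun y => by
    rw [LinearMap.pi_apply_eq_sum_univ]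
    refine Finset.sum_congr rfl fun i _ => ?_
    rw [smul_eq_mul, mul_comm]
    congr 2
    funext j
    simp [Pi.single_apply, eq_comm]
  let N : ℂ → Matrix p (Fin (A 0).rank ⊕ Unit) ℂ := fun s =>
    fromCols (A s * Q) (Matrix.of fun i _ => s⁻¹ * (A s *ᵥ v) i)
  let N0 : Matrix p (Fin (A 0).rank ⊕ Unit) ℂ :=
    fromCols (A 0 * Q) (Matrix.of fun i _ => (A' *ᵥ v) i)
  have h1 : Tendsto N (𝓝[≠] 0) (𝓝 N0) := by
    refine tendsto_pi_nhds.2 fun i => tendsto_pi_nhds.2 fun j => ?_
    rcases j with j | j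
    · refine Tendsto.mono_left ?_ nhdsWithin_le_nhds
      simp only [N, N0, fromCols_apply_inl, mul_apply]
      exact tendsto_finsetSum _ fun k _ => (hA i k).continuousAt.tendsto.mul_const _
    · have h2 : HasDerivAt (fun s => (A s *ᵥ v) i) ((A' *ᵥ v) i) 0 :=
        HasDerivAt.fun_sum fun k _ => (hA i k).mul_const (v k)
      refine (hasDerivAt_iff_tendsto_slope.1 h2).congr fun s => ?_
      simp [N, slope_def_field, hv, div_eq_inv_mul]
  have h2 : Tendsto (fun s => (fromRows P r * N s).det) (𝓝[≠] 0) (𝓝 (fromRows P r * N0).det) :=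
    ((Continuous.matrix_det (continuous_const.matrix_mul continuous_id)).tendsto N0).comp h1
  have h3 : ∀ᶠ s in 𝓝[≠] (0 : ℂ), (fromRows P r * N s).det = 0 := by
    filter_upwards [nhdsWithin_le_nhds hr] with s hs
    by_contra hne
    have e : N s = A s * fromCols Q (Matrix.of fun k _ => s⁻¹ * v k) := by
      rw [mul_fromCols]
      simp only [N]
      congr 1
      ext i j
      simp only [of_apply, mul_apply, mulVec, dotProduct, Finset.mul_sum]
      exact Finset.sum_congr rfl fun k _ => by ring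
    rw [e] at hne
    have := neig_le_rank _ _ _ hne
    simp only [Fintype.card_sum, Fintype.card_fin, Fintype.card_unit] at this
    omega
  have h4 : (fromRows P r * N0).det = 0 :=
    tendsto_nhds_unique h2 (tendsto_const_nhds.congr' (h3.mono fun s hs => hs.symm))
  have h5 : r * (A 0 * Q) = 0 := by
    ext i j
    exact (hr' fun k => (A 0 * Q) k j).trans (hw2 ⟨fun k => Q k j, rfl⟩)
  rw [fromRows_mul_fromCols, h, h5, det_fromBlocks_zero₂₁, det_one, one_mul, det_unique] at h4
  exact hw1 ((hr' _).symm.trans h4)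

variable {ι : Type} [Fintype ι] [DecidableEq ι]

theorem neig_charpoly_eq (c : Matrix ι ι ℂ) :
    c.charpoly = (c.charpoly.roots.map fun a => Polynomial.X - Polynomial.C a).prod :=
  (IsAlgClosed.splits _).eq_prod_roots_of_monic c.charpoly_monic

theorem neig_card_roots (c : Matrix ι ι ℂ) : c.charpoly.roots.card = Fintype.card ι := by
  rw [IsAlgClosed.card_roots_eq_natDegree, charpoly_natDegree_eq_dim]

theorem neig_det_aeval (c : Matrix ι ι ℂ) (p : Polynomial ℂ) :
    det (Polynomial.aeval c p) = (c.charpoly.roots.map fun l => p.eval l).prod := by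
  have hC : ∀ a : ℂ, det (Polynomial.aeval c (Polynomial.C a)) =
      (c.charpoly.roots.map fun l => (Polynomial.C a).eval l).prod := by
    intro a
    simp [Algebra.algebraMap_eq_smul_one, neig_card_roots]
  have hmul : ∀ p q : Polynomial ℂ,
      det (Polynomial.aeval c p) = (c.charpoly.roots.map fun l => p.eval l).prod →
      det (Polynomial.aeval c q) = (c.charpoly.roots.map fun l => q.eval l).prod →
      det (Polynomial.aeval c (p * q)) = (c.charpoly.roots.map fun l => (p * q).eval l).prod := by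
    intro p q h1 h2
    simp only [map_mul, det_mul, h1, h2, Polynomial.eval_mul, Multiset.prod_map_mul]
  have hX : ∀ a : ℂ, det (Polynomial.aeval c (Polynomial.X - Polynomial.C a)) =
      (c.charpoly.roots.map fun l => (Polynomial.X - Polynomial.C a).eval l).prod := by
    intro a
    have e1 : Polynomial.aeval c (Polynomial.X - Polynomial.C a) = -(scalar ι a - c) := by
      simp [Matrix.algebraMap_eq_diagonal, Pi.algebraMap_def]
    rw [e1, det_neg, ← eval_charpoly,
      (IsAlgClosed.splits _).eval_eq_prod_roots_of_monic c.charpoly_monic, ← neig_card_roots,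
      ← Multiset.prod_replicate, ← Multiset.map_const', ← Multiset.prod_map_mul]
    simp
  rw [(IsAlgClosed.splits p).eq_prod_roots]
  refine hmul _ _ (hC _) ?_
  induction p.roots using Multiset.induction_on with
  | empty => simp
  | cons a s ih =>
    rw [Multiset.map_cons, Multiset.prod_cons]
    exact hmul _ _ (hX a) ih

theorem neig_charpoly_aeval (c : Matrix ι ι ℂ) (p : Polynomial ℂ) :
    (Polynomial.aeval c p).charpoly =
      ((c.charpoly.roots.map fun l => p.eval l).map fun a => Polynomial.X - Polynomial.C a).prod := by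
  refine Polynomial.funext fun t => ?_
  have e1 : scalar ι t - Polynomial.aeval c p = Polynomial.aeval c (Polynomial.C t - p) := by
    simp [Matrix.algebraMap_eq_diagonal, Pi.algebraMap_def]
  rw [eval_charpoly, e1, neig_det_aeval, Polynomial.eval_multiset_prod]
  simp

theorem trace_aeval (c : Matrix ι ι ℂ) (p : Polynomial ℂ) :
    trace (Polynomial.aeval c p) = (c.charpoly.roots.map fun l => p.eval l).sum := by
  rw [trace_eq_sum_roots_charpoly, neig_charpoly_aeval, Polynomial.roots_multiset_prod_X_sub_C]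

/-- Hankel matrix of power sums of the eigenvalues -/
def hank (c : Matrix ι ι ℂ) (M : ℕ) : Matrix (Fin M) (Fin M) ℂ :=
  Matrix.of fun i j => trace (c ^ ((i : ℕ) + (j : ℕ)))

theorem neig_le_card (c : Matrix ι ι ℂ) : neig c ≤ Fintype.card ι := by
  rw [← neig_card_roots c]
  exact Multiset.toFinset_card_le _

/-- enumeration of the eigenvalues -/
theorem neig_enum (c : Matrix ι ι ℂ) :
    ∃ l : Fin (neig c) → ℂ, Function.Injective l ∧ (∀ i, l i ∈ c.charpoly.roots) ∧
      (∀ g : ℂ → ℂ, (c.charpoly.roots.map g).sum =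
        ∑ i, (c.charpoly.roots.count (l i) : ℂ) * g (l i)) ∧
      c.charpoly = ∏ i, (Polynomial.X - Polynomial.C (l i)) ^ c.charpoly.roots.count (l i) := by
  let e : Fin (neig c) ≃ c.charpoly.roots.toFinset := c.charpoly.roots.toFinset.equivFin.symm
  refine ⟨fun i => e i, fun i j h => e.injective (Subtype.ext h),
    fun i => Multiset.mem_toFinset.1 (e i).2, fun g => ?_, ?_⟩
  · rw [Finset.sum_multiset_map_count, ← Finset.sum_coe_sort, ← e.sum_comp]
    simp only [nsmul_eq_mul]
  · refine (neig_charpoly_eq c).trans ?_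
    rw [Finset.prod_multiset_map_count, ← Finset.prod_coe_sort, ← e.prod_comp]

theorem rank_hank (c : Matrix ι ι ℂ) {M : ℕ} (hM : Fintype.card ι ≤ M) : (hank c M).rank = neig c := by
  obtain ⟨l, hl, hm, hs, -⟩ := neig_enum c
  have hr : neig c ≤ M := (neig_le_card c).trans hM
  let D : Matrix (Fin (neig c)) (Fin (neig c)) ℂ :=
    diagonal fun i => (c.charpoly.roots.count (l i) : ℂ)
  have key : ∀ i j : ℕ, trace (c ^ (i + j)) =
      ∑ k, l k ^ i * ((c.charpoly.roots.count (l k) : ℂ) * l k ^ j) := by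
    intro i j
    have := trace_aeval c (Polynomial.X ^ (i + j))
    rw [map_pow, Polynomial.aeval_X, hs] at this
    rw [this]
    refine Finset.sum_congr rfl fun k _ => ?_
    rw [Polynomial.eval_pow, Polynomial.eval_X]
    ring
  refine le_antisymm ?_ ?_
  · let V : Matrix (Fin (neig c)) (Fin M) ℂ := Matrix.of fun k j => l k ^ (j : ℕ)
    have e : hank c M = Vᵀ * (D * V) := by
      ext i j
      simp only [hank, of_apply, key, mul_apply (M := Vᵀ), transpose_apply, V, D, diagonal_mul]
    rw [e]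
    exact (rank_mul_le_right _ _).trans (rank_le_height _)
  · have e : (hank c M).submatrix (Fin.castLE hr) (Fin.castLE hr) =
        (vandermonde l)ᵀ * (D * vandermonde l) := by
      ext i j
      simp only [hank, submatrix_apply, of_apply, key, mul_apply (M := (vandermonde l)ᵀ),
        transpose_apply, D, diagonal_mul, vandermonde_apply, Fin.val_castLE]
    refine le_trans ?_ (rank_submatrix_le (hank c M) (Fin.castLE hr) (Fin.castLE hr))
    have hV : (vandermonde l).det ≠ 0 := det_vandermonde_ne_zero_iff.2 hl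
    have hD : D.det ≠ 0 := by
      rw [det_diagonal]
      exact Finset.prod_ne_zero_iff.2 fun i _ =>
        Nat.cast_ne_zero.2 (Multiset.count_ne_zero.2 (hm i))
    have hU : ((vandermonde l)ᵀ * (D * vandermonde l)).det ≠ 0 := by
      rw [det_mul, det_mul, det_transpose]
      exact mul_ne_zero hV (mul_ne_zero hD hV)
    rw [e, rank_of_isUnit _ ((isUnit_iff_isUnit_det _).2 (Ne.isUnit hU)), Fintype.card_fin]

theorem isOpen_neig (k : ℕ) : IsOpen {c : Matrix ι ι ℂ | k ≤ neig c} := by
  have h : Continuous fun c : Matrix ι ι ℂ => hank c (Fintype.card ι) :=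
    continuous_matrix fun i j => (continuous_id.pow _).matrix_trace
  convert (isOpen_rank k).preimage h using 1
  ext c
  simp only [Set.mem_ofPred_eq, Set.mem_preimage, rank_hank c le_rfl]

theorem spectral_idems (c : Matrix ι ι ℂ) :
    ∃ e : Fin (neig c) → Matrix ι ι ℂ, Idems e ∧ ∀ i, e i * c = c * e i := by
  obtain ⟨l, hl, hm, -, hp⟩ := neig_enum c
  rcases isEmpty_or_nonempty (Fin (neig c)) with h0 | h0
  · have h1 : c.charpoly.natDegree = 0 := by rw [hp]; simp
    rw [charpoly_natDegree_eq_dim, Fintype.card_eq_zero_iff] at h1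
    exact ⟨fun _ => 0, ⟨h0.elim, h0.elim, h0.elim, Subsingleton.elim _ _⟩, h0.elim⟩
  let s : Fin (neig c) → Polynomial ℂ := fun i =>
    (Polynomial.X - Polynomial.C (l i)) ^ c.charpoly.roots.count (l i)
  obtain ⟨μ, hμ⟩ := (exists_sum_eq_one_iff_pairwise_coprime' (s := s)).2 fun i j hij =>
    (Polynomial.pairwise_coprime_X_sub_C hl hij).pow
  let E : Fin (neig c) → Polynomial ℂ := fun i => μ i * ∏ j ∈ {i}ᶜ, s j
  have hE : ∀ i j, i ≠ j → s j ∣ E i := fun i j hij =>
    Dvd.dvd.mul_left (Finset.dvd_prod_of_mem _ (by simpa using hij.symm)) _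
  have horth : ∀ i j, i ≠ j → Polynomial.aeval c (E i) * Polynomial.aeval c (E j) = 0 := by
    intro i j hij
    have : c.charpoly ∣ E i * E j := by
      rw [hp, Fintype.prod_eq_prod_compl_mul i]
      exact mul_dvd_mul (Dvd.intro_left _ rfl) (hE j i hij.symm)
    obtain ⟨g, hg⟩ := this
    rw [← map_mul, hg, map_mul, aeval_self_charpoly, zero_mul]
  have hsum : ∑ i, Polynomial.aeval c (E i) = 1 := by rw [← map_sum, hμ, map_one]
  refine ⟨fun i => Polynomial.aeval c (E i), ⟨fun i h => ?_, fun i => ?_, horth, hsum⟩, fun i => ?_⟩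
  · have h1 : (1 - E i).eval (l i) = 0 := by
      rw [← hμ, Fintype.sum_eq_sum_compl_add i, add_sub_cancel_right, Polynomial.eval_finsetSum]
      refine Finset.sum_eq_zero fun j hj => ?_
      obtain ⟨g, hg⟩ := hE j i (by simpa using hj)
      have h2 : c.charpoly.roots.count (l i) ≠ 0 := Multiset.count_ne_zero.2 (hm i)
      refine (congrArg (Polynomial.eval (l i)) hg).trans ?_
      simp only [s, Polynomial.eval_mul, Polynomial.eval_pow, Polynomial.eval_sub,
        Polynomial.eval_X, Polynomial.eval_C, sub_self, zero_pow h2, zero_mul]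
    have h2 := neig_det_aeval c (1 - E i)
    rw [map_sub, map_one, h, sub_zero, det_one,
      Multiset.prod_eq_zero (Multiset.mem_map.2 ⟨l i, hm i, h1⟩)] at h2
    exact one_ne_zero h2
  · have h1 := congrArg (Polynomial.aeval c (E i) * ·) hsum
    simp only [Finset.mul_sum, mul_one] at h1
    rwa [Finset.sum_eq_single i (fun j _ hj => horth i j hj.symm) (by simp)] at h1
  · have h1 : Polynomial.aeval c (E i * Polynomial.X) = Polynomial.aeval c (Polynomial.X * E i) := by
      rw [mul_comm]
    simpa using h1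

theorem neig_diag {c : Matrix ι ι ℂ} {δ : ι → ℂ} (hδ : Function.Injective δ)
    (h : ∀ i, c.charpoly.IsRoot (δ i)) :
    ∃ G : GLm ι ℂ, c = (G : Matrix ι ι ℂ) * diagonal δ * ((G⁻¹ : GLm ι ℂ) : Matrix ι ι ℂ) := by
  have h1 : ∀ i, ∃ v, Module.End.HasEigenvector (toLin' c) (δ i) v := fun i =>
    ((Module.End.hasEigenvalue_iff_isRoot_charpoly _ _).2
      (by rw [charpoly_toLin']; exact h i)).exists_hasEigenvector
  choose v hv using h1
  have h2 : LinearIndependent ℂ v := Module.End.eigenvectors_linearIndependent' _ δ hδ v hv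
  obtain ⟨G, hG⟩ := (linearIndependent_cols_iff_isUnit (A := Matrix.of fun i j => v j i)).1 h2
  refine ⟨G, ?_⟩
  rw [Units.eq_mul_inv_iff_mul_eq, hG]
  ext i j
  have h3 := congrFun (hv j).apply_eq_smul i
  rw [mul_diagonal, of_apply, mul_comm]
  exact h3

theorem diag_of_neig {c : Matrix ι ι ℂ} (h : neig c = Fintype.card ι) :
    ∃ (G : GLm ι ℂ) (β : ι → ℂ), Function.Injective β ∧
      c = (G : Matrix ι ι ℂ) * diagonal β * ((G⁻¹ : GLm ι ℂ) : Matrix ι ι ℂ) := by
  obtain ⟨l, hl, hm, -, -⟩ := neig_enum c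
  let e : ι ≃ Fin (neig c) := Fintype.equivFinOfCardEq h.symm
  obtain ⟨G, hG⟩ := neig_diag (c := c) (hl.comp e.injective) fun i =>
    Polynomial.isRoot_of_mem_roots (hm (e i))
  exact ⟨G, _, hl.comp e.injective, hG⟩

theorem diag_of_charpoly {c : Matrix ι ι ℂ} {δ : ι → ℂ} (hδ : Function.Injective δ)
    (h : c.charpoly = ∏ i, (Polynomial.X - Polynomial.C (δ i))) :
    ∃ G : GLm ι ℂ, c = (G : Matrix ι ι ℂ) * diagonal δ * ((G⁻¹ : GLm ι ℂ) : Matrix ι ι ℂ) := by
  refine neig_diag hδ fun i => ?_
  rw [h, Polynomial.IsRoot, Polynomial.eval_prod]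
  exact Finset.prod_eq_zero (Finset.mem_univ i) (by simp)

end Crest.Agent.R3
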