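import Crest.Agent.R3.ZZ

/-!
# R3 / Torus : Dehn twists and their Zariski closure

* `cl_dehn`: `comm (a * b ^ n, b) = comm (a, b)`; twist the lift.
* `torus_dense`: `eval (β ^ n, β ^ (-n)) p = ∑_μ c_μ (β ^ μ) ^ n` where `μ : ι → ℤ` is the difference of the exponents of a
  monomial.  The characters `n ↦ (β ^ μ) ^ n` of `Multiplicative ℤ` are distinct, hence linearly independent
  (`linearIndependent_monoidHom`), so all `c_μ = 0`; and `eval (t, t⁻¹) p = ∑_μ c_μ t ^ μ`.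
* `cl_torus`: `cl_iff_zz`.  `co` of the twisted point is a polynomial map `q` in `(t, t⁻¹)`; `q (β ^ n, β ^ (-n))` is in the
  closed set for all `n`; use `zcl_poly`, `zcl_zcl`.
-/

set_option autoImplicit false

noncomputable section

open Matrix

namespace Crest.Agent.R3

variable {ι : Type} [Fintype ι] [DecidableEq ι] {g : ℕ}

theorem cl_dehn {O B : Type} [CommRing O] [CommRing B] [Algebra O B] [Algebra O ℂ] {π : B →ₐ[O] ℂ}
    {η : Oˣ} {T T' : Rep (g + 1) ι ℂ} (n : ℤ) (ht : Fin.tail T' = Fin.tail T)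
    (h2 : (T' 0).2 = (T 0).2) (h1 : (T' 0).1 = (T 0).1 * (T 0).2 ^ n) (h : CL π η T) : CL π η T' := by
  obtain ⟨S, rfl, hS⟩ := h
  refine ⟨Fin.cons ((S 0).1 * (S 0).2 ^ n, (S 0).2) (Fin.tail S), funext fun i => ?_, ?_⟩
  · cases i using Fin.cases with
    | zero => exact Prod.ext (by rw [h1]; simp [mapRep]) h2.symm
    | succ i => exact (congrFun ht i).symm
  · rw [← hS, rel_succ, rel_succ S]
    simp only [Fin.cons_zero, Fin.tail_cons, comm]
    group

omit [DecidableEq ι] in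
theorem torus_eval (p : MvPolynomial (ι ⊕ ι) ℂ) {t : ι → ℂ} (ht : ∀ i, t i ≠ 0) :
    MvPolynomial.eval (Sum.elim t fun i => (t i)⁻¹) p =
      ∑ m ∈ p.support.image fun s i => (s (.inl i) : ℤ) - s (.inr i),
        (∑ s ∈ p.support with (fun i => (s (.inl i) : ℤ) - s (.inr i)) = m, p.coeff s) *
          ∏ i, t i ^ m i := by
  rw [MvPolynomial.eval_eq', ← Finset.sum_fiberwise_of_maps_to
    (g := fun (s : ι ⊕ ι →₀ ℕ) i => (s (.inl i) : ℤ) - s (.inr i)) fun s hs => Finset.mem_image_of_mem _ hs]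
  refine Finset.sum_congr rfl fun m _ => ?_
  rw [Finset.sum_mul]
  refine Finset.sum_congr rfl fun s hs => ?_
  rw [← (Finset.mem_filter.1 hs).2, Fintype.prod_sum_type, ← Finset.prod_mul_distrib]
  congr 1
  exact Finset.prod_congr rfl fun i _ => by simp [zpow_sub₀ (ht i), div_eq_mul_inv]

omit [DecidableEq ι] in
theorem torus_dense_nat {β : ι → ℂ} (hβ : MulInd β) {t : ι → ℂ} (ht : ∀ i, t i ≠ 0) :
    Sum.elim t (fun i => (t i)⁻¹) ∈
      zcl (Set.range fun n : ℕ => Sum.elim (fun i => β i ^ n) fun i => (β i ^ n)⁻¹) := by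
  intro p hp
  have li := (linearIndependent_monoidHom (Multiplicative ℕ) ℂ).comp
    (fun m : ι → ℤ => powersHom ℂ (∏ i, β i ^ m i)) fun m m' h => by
      have h1 := (powersHom ℂ).injective h
      refine sub_eq_zero.1 (hβ.2 _ ?_)
      simp only [Pi.sub_apply, zpow_sub₀ (hβ.1 _), Finset.prod_div_distrib, h1]
      exact div_self (Finset.prod_ne_zero_iff.2 fun i _ => zpow_ne_zero _ (hβ.1 i))
  rw [torus_eval p ht]
  refine Finset.sum_eq_zero fun m hm => mul_eq_zero_of_left ?_ _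
  refine linearIndependent_iff'.1 li _ (fun m => ∑ s ∈ p.support with
    (fun i => (s (.inl i) : ℤ) - s (.inr i)) = m, p.coeff s) (funext fun n => ?_) m hm
  have h1 := hp _ ⟨n.toAdd, rfl⟩
  rw [torus_eval p fun i => pow_ne_zero _ (hβ.1 i)] at h1
  rw [Pi.zero_apply, ← h1, Finset.sum_apply]
  refine Finset.sum_congr rfl fun m _ => ?_
  simp only [Pi.smul_apply, Function.comp, powersHom_apply, smul_eq_mul, ← Finset.prod_pow]
  simp only [← zpow_natCast, ← _root_.zpow_mul, mul_comm]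

/-- the coordinates of the twisted point as polynomials in `(t, t⁻¹)` -/
theorem torus_poly (T : Rep (g + 1) ι ℂ) (G : GLm ι ℂ) :
    ∃ q : Fin (g + 1) × Bool × Bool × ι × ι → MvPolynomial (ι ⊕ ι) ℂ,
      ∀ (T' : Rep (g + 1) ι ℂ) (t : ι → ℂ), (∀ i, t i ≠ 0) → Fin.tail T' = Fin.tail T →
        (T' 0).2 = (T 0).2 → ((T' 0).1 : Matrix ι ι ℂ) = ((T 0).1 : Matrix ι ι ℂ) *
          ((G : Matrix ι ι ℂ) * diagonal t * ((G⁻¹ : GLm ι ℂ) : Matrix ι ι ℂ)) →
        co T' = fun k => MvPolynomial.eval (Sum.elim t fun i => (t i)⁻¹) (q k) := by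
  have key : ∀ (A C : Matrix ι ι ℂ) (e : ι → ι ⊕ ι) (x : ι ⊕ ι → ℂ) (i j : ι), MvPolynomial.eval x
      ((A.map MvPolynomial.C * diagonal (fun k => MvPolynomial.X (e k)) * C.map MvPolynomial.C :
        Matrix ι ι (MvPolynomial (ι ⊕ ι) ℂ)) i j) = (A * diagonal (fun k => x (e k)) * C) i j := by
    intro A C e x i j
    simp only [mul_apply (N := C), mul_apply (N := C.map _), mul_diagonal, map_apply, map_sum, map_mul,
      MvPolynomial.eval_C, MvPolynomial.eval_X]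
  refine ⟨fun k => if k.1 = 0 ∧ k.2.1 = false then (if k.2.2.1 then
    ((G : Matrix ι ι ℂ).map MvPolynomial.C * diagonal (fun k => MvPolynomial.X (.inr k)) *
      ((G⁻¹ * (T 0).1⁻¹ : GLm ι ℂ) : Matrix ι ι ℂ).map MvPolynomial.C :
        Matrix ι ι (MvPolynomial (ι ⊕ ι) ℂ)) k.2.2.2.1 k.2.2.2.2 else
    ((((T 0).1 * G : GLm ι ℂ) : Matrix ι ι ℂ).map MvPolynomial.C *
      diagonal (fun k => MvPolynomial.X (.inl k)) * ((G⁻¹ : GLm ι ℂ) : Matrix ι ι ℂ).map MvPolynomial.C :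
        Matrix ι ι (MvPolynomial (ι ⊕ ι) ℂ)) k.2.2.2.1 k.2.2.2.2) else MvPolynomial.C (co T k),
    fun T' t ht htl h2 h1 => ?_⟩
  have h3 : (((T' 0).1⁻¹ : GLm ι ℂ) : Matrix ι ι ℂ) = (G : Matrix ι ι ℂ) * diagonal (fun i => (t i)⁻¹) *
      ((G⁻¹ * (T 0).1⁻¹ : GLm ι ℂ) : Matrix ι ι ℂ) := by
    refine Units.inv_eq_of_mul_eq_one_right ?_
    simp only [h1, Units.val_mul, Matrix.mul_assoc, Units.inv_mul_cancel_left]
    rw [← Matrix.mul_assoc (diagonal _), diagonal_mul_diagonal]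
    simp [ht]
  funext ⟨i, b, c, x, y⟩
  by_cases hk : i = 0 ∧ b = false
  · obtain ⟨rfl, rfl⟩ := hk
    cases c
    · simp only [and_self, if_true, Bool.false_eq_true, if_false, key, co, h1, Units.val_mul,
        ← Matrix.mul_assoc, Sum.elim_inl]
    · simp only [and_self, if_true, Bool.false_eq_true, if_false, key, co, h3, Sum.elim_inr]
  · simp only [if_neg hk, MvPolynomial.eval_C, co]
    cases i using Fin.cases with
    | zero =>
      have hb : b = true := by simpa using hk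
      simp only [hb, if_true, h2]
    | succ i => rw [show T' i.succ = T i.succ from congrFun htl i]

theorem torus_dense {β : ι → ℂ} (hβ : MulInd β) {t : ι → ℂ} (ht : ∀ i, t i ≠ 0) :
    Sum.elim t (fun i => (t i)⁻¹) ∈
      zcl (Set.range fun n : ℤ => Sum.elim (fun i => β i ^ n) fun i => (β i ^ n)⁻¹) := by
  refine zcl_mono ?_ (torus_dense_nat hβ ht)
  rintro _ ⟨n, rfl⟩
  exact ⟨n, by simp only [zpow_natCast]⟩

theorem cl_torus {O : Subring ℂ} {B J : Type} [CommRing B] [Algebra O B] {π : B →ₐ[O] ℂ}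
    {ev : J → (B →ₐ[O] O)} (hU : Univ O π ev) {η : Oˣ} {T T' : Rep (g + 1) ι ℂ} (G : GLm ι ℂ)
    {β t : ι → ℂ} (hβ : MulInd β) (ht : ∀ i, t i ≠ 0) (htl : Fin.tail T' = Fin.tail T)
    (h2 : (T' 0).2 = (T 0).2)
    (hb : ((T 0).2 : Matrix ι ι ℂ) =
      (G : Matrix ι ι ℂ) * diagonal β * ((G⁻¹ : GLm ι ℂ) : Matrix ι ι ℂ))
    (h1 : ((T' 0).1 : Matrix ι ι ℂ) = ((T 0).1 : Matrix ι ι ℂ) *
      ((G : Matrix ι ι ℂ) * diagonal t * ((G⁻¹ : GLm ι ℂ) : Matrix ι ι ℂ)))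
    (h : CL π η T) : CL π η T' := by
  obtain ⟨q, hq⟩ := torus_poly T G
  rw [cl_iff_zz hU, ZZ, Set.mem_ofPred_eq, hq T' t ht htl h2 h1]
  refine zcl_zcl ?_ (zcl_poly (torus_dense_nat hβ ht) q)
  rintro _ ⟨_, ⟨n, rfl⟩, rfl⟩
  have h3 := (cl_iff_zz hU _).1 (cl_dehn (T := T)
    (T' := Fin.cons ((T 0).1 * (T 0).2 ^ n, (T 0).2) (Fin.tail T)) n rfl rfl (by simp) h)
  rw [ZZ, Set.mem_ofPred_eq, hq (Fin.cons ((T 0).1 * (T 0).2 ^ n, (T 0).2) (Fin.tail T))
    (fun i => β i ^ n) (fun i => pow_ne_zero _ (hβ.1 i)) rfl rfl (by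
    rw [Fin.cons_zero, Units.val_mul, Units.val_pow_eq_pow_val, hb, Units.conj_pow, diagonal_pow]
    rfl)] at h3
  exact h3

end Crest.Agent.R3
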