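import Crest.Agent.R3.HomS
import Crest.Agent.R3.Neig
import Crest.Agent.R3.Cut
import Crest.Agent.R3.Torus

/-!
# R3 / Fried : Friedland's inverse eigenvalue theorem, and points in good position lift

`friedland`: by `Matrix.charpoly_coeff_eq_sum_minors` the coefficients of `charpoly (A * diagonal t)` are
`± e_k(t)`, `e_k = ∑_{|I| = k} det A_I ∏_{i ∈ I} t_i`, homogeneous of degree `k = 1, …, d`.  If all `e_k(t) = 0`, let `I` be the
support of `t`, `k = |I|`; then `e_k(t) = det A_I t^I ≠ 0` unless `I = ∅`.  Apply `hom_surj`.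

`cl_good`: `b = G diag β G⁻¹`, `A = G⁻¹ a G`.  Let `δ' i = δ (equivFin i)` from `HasD`; they are distinct complex numbers.
Take `t` with `charpoly (A diag t) = ∏ (X - δ' i)`; `det ≠ 0` gives `t i ≠ 0`.  Let `T1` be `T` with `a` replaced by
`a1 = a * G diag t G⁻¹` (a unit); `comm (a1, b) = comm (a, b)`, so `rel T1 = η`, and `a1` is conjugate to `dg δ'`
(`diag_of_charpoly`); `cl_cut` gives `CL T1`, `cl_torus` with `t⁻¹` gives `CL T`.
-/

set_option autoImplicit false

noncomputable section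

open Matrix

namespace Crest.Agent.R3

variable {ι : Type} [Fintype ι] [DecidableEq ι]

theorem fried_minor (A : Matrix ι ι ℂ) (t : ι → ℂ) (I : Finset ι) :
    ((A * diagonal t).submatrix (Subtype.val : I → ι) (Subtype.val : I → ι)).det =
      (A.submatrix (fun i : I => (i : ι)) (fun i : I => (i : ι))).det * ∏ i ∈ I, t i := by
  rw [← Finset.prod_coe_sort I t, ← det_diagonal, ← det_mul]
  congr 1
  ext i j
  simp

theorem friedland {A : Matrix ι ι ℂ} (hA : PrinNZ A) (q : Polynomial ℂ) (hq : q.Monic)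
    (hd : q.natDegree = Fintype.card ι) : ∃ t : ι → ℂ, (A * diagonal t).charpoly = q := by
  let e : Fin (Fintype.card ι) → MvPolynomial ι ℂ := fun k =>
    ∑ I ∈ Finset.univ.powersetCard (k + 1), MvPolynomial.C
      (A.submatrix (fun i : I => (i : ι)) (fun i : I => (i : ι))).det * ∏ i ∈ I, MvPolynomial.X i
  have ev : ∀ t k, MvPolynomial.eval t (e k) = ∑ I ∈ Finset.univ.powersetCard (k + 1),
      (A.submatrix (fun i : I => (i : ι)) (fun i : I => (i : ι))).det * ∏ i ∈ I, t i := fun t k => by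
    simp [e]
  obtain ⟨t, ht⟩ := hom_surj (Fintype.card_fin _) e (fun k => k + 1) (fun k => Nat.succ_pos _)
    (fun k => MvPolynomial.IsHomogeneous.sum _ _ _ fun I hI => by
      rw [← (Finset.mem_powersetCard.1 hI).2, Finset.card_eq_sum_ones]
      exact (MvPolynomial.IsHomogeneous.prod _ _ _ fun i _ => MvPolynomial.isHomogeneous_X _ i).C_mul _)
    (fun t h0 => by
      by_contra hne
      set S := Finset.univ.filter fun i => t i ≠ 0 with hS
      have h1 : 0 < S.card := by
        obtain ⟨i, hi⟩ := Function.ne_iff.1 hne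
        exact Finset.card_pos.2 ⟨i, Finset.mem_filter.2 ⟨Finset.mem_univ _, hi⟩⟩
      have h2 := h0 ⟨S.card - 1, lt_of_lt_of_le (by omega) (Finset.card_le_univ S)⟩
      rw [ev, Finset.sum_eq_single S] at h2
      · exact mul_ne_zero (hA S) (Finset.prod_ne_zero_iff.2 fun i hi => (Finset.mem_filter.1 hi).2) h2
      · intro I hI hIS
        refine mul_eq_zero_of_right _ ?_
        by_contra h3
        refine hIS (Finset.eq_of_subset_of_card_le (fun i hi => Finset.mem_filter.2
          ⟨Finset.mem_univ _, Finset.prod_ne_zero_iff.1 h3 i hi⟩) ?_)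
        rw [(Finset.mem_powersetCard.1 hI).2]
        simp only
        omega
      · intro h3
        exact absurd (Finset.mem_powersetCard.2 ⟨Finset.subset_univ _, by simp only; omega⟩) h3)
    fun k => (-1) ^ ((k : ℕ) + 1) * q.coeff (Fintype.card ι - (k + 1))
  refine ⟨t, ?_⟩
  ext n
  rcases lt_trichotomy n (Fintype.card ι) with hn | rfl | hn
  · have h1 := charpoly_coeff_eq_sum_minors (A * diagonal t) (Fintype.card ι - n - 1 + 1) (by omega)
    have h2 := ht ⟨Fintype.card ι - n - 1, by omega⟩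
    simp only [ev] at h2
    simp only [fried_minor] at h1
    rw [h2, ← mul_assoc, ← mul_pow, show Fintype.card ι - (Fintype.card ι - n - 1 + 1) = n by omega] at h1
    simpa using h1
  · have h1 := (charpoly_monic (A * diagonal t)).coeff_natDegree
    have h2 := hq.coeff_natDegree
    rw [charpoly_natDegree_eq_dim] at h1
    rw [hd] at h2
    rw [h1, h2]
  · rw [Polynomial.coeff_eq_zero_of_natDegree_lt (by rwa [charpoly_natDegree_eq_dim]),
      Polynomial.coeff_eq_zero_of_natDegree_lt (by rwa [hd])]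

theorem cl_good {O : Subring ℂ} {B J : Type} [CommRing B] [Algebra O B] {π : B →ₐ[O] ℂ}
    {ev : J → (B →ₐ[O] O)} (hU : Univ O π ev) {r : ℕ} (hD : HasD O r) (hr : Fintype.card ι ≤ r)
    (hR : RR π ι (Fintype.card ι)) (h2 : 2 ≤ Fintype.card ι) {η : Oˣ} {g : ℕ} {T : Rep (g + 1) ι ℂ}
    (hT : rel T = scalU ι ℂ η) (hG : GoodPair ((T 0).1 : Matrix ι ι ℂ) ((T 0).2 : Matrix ι ι ℂ)) :
    CL π η T := by
  obtain ⟨G, β, hβ, hb, hA⟩ := hG
  obtain ⟨δ0, hδ0⟩ := hD
  let δ : ι → Oˣ := fun i => δ0 (Fintype.equivFin ι i)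
  have hδ : ∀ i j, i ≠ j → IsUnit ((δ i : O) - δ j) := fun i j hij =>
    hδ0 _ (lt_of_lt_of_le (Fin.is_lt _) hr) _ (lt_of_lt_of_le (Fin.is_lt _) hr)
      fun h => hij ((Fintype.equivFin ι).injective (Fin.ext h))
  have hinj : Function.Injective fun i => algebraMap O ℂ (δ i : O) := fun i j h => by
    by_contra hij
    refine ((hδ i j hij).map (algebraMap O ℂ)).ne_zero ?_
    rw [map_sub]
    exact sub_eq_zero.2 h
  obtain ⟨t, ht⟩ := friedland hA (∏ i, (Polynomial.X - Polynomial.C (algebraMap O ℂ (δ i : O))))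
    (Polynomial.monic_prod_of_monic _ _ fun i _ => Polynomial.monic_X_sub_C _)
    (by rw [Polynomial.natDegree_finsetProd_X_sub_C_eq_card, Finset.card_univ])
  have ht0 : ∀ i, t i ≠ 0 := fun i hi => by
    have h1 := det_eq_sign_charpoly_coeff
      (((G⁻¹ : GLm ι ℂ) : Matrix ι ι ℂ) * ((T 0).1 : Matrix ι ι ℂ) * (G : Matrix ι ι ℂ) * diagonal t)
    rw [det_mul, det_diagonal, Finset.prod_eq_zero (Finset.mem_univ i) hi, mul_zero, ht,
      Polynomial.coeff_zero_eq_eval_zero, Polynomial.eval_prod] at h1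
    refine mul_ne_zero (pow_ne_zero _ (by norm_num)) (Finset.prod_ne_zero_iff.2 fun j _ => ?_) h1.symm
    simp
  let D : GLm ι ℂ := ⟨diagonal t, diagonal fun i => (t i)⁻¹,
    by simp [diagonal_mul_diagonal, ht0], by simp [diagonal_mul_diagonal, ht0]⟩
  have hc : G * D * G⁻¹ * (T 0).2 = (T 0).2 * (G * D * G⁻¹) := by
    refine Units.ext ?_
    simp only [Units.val_mul, hb, D, Matrix.mul_assoc, Units.inv_mul_cancel_left]
    simp only [← Matrix.mul_assoc (diagonal _), diagonal_mul_diagonal, mul_comm]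
  let T1 : Rep (g + 1) ι ℂ := Fin.cons ((T 0).1 * (G * D * G⁻¹), (T 0).2) (Fin.tail T)
  have h1 : rel T1 = scalU ι ℂ η := by
    rw [← hT, rel_succ, rel_succ T]
    simp only [T1, Fin.cons_zero, Fin.tail_cons, comm]
    congr 1
    rw [mul_assoc (T 0).1, hc]
    group
  obtain ⟨G1, hG1⟩ := diag_of_charpoly (c := (T1 0).1) hinj (by
    rw [← ht]
    simp only [T1, Fin.cons_zero, Units.val_mul, D, ← Matrix.mul_assoc]
    rw [charpoly_mul_comm]
    simp only [← Matrix.mul_assoc])
  refine cl_torus hU (T := T1) G hβ (t := fun i => (t i)⁻¹) (fun i => inv_ne_zero (ht0 i)) rfl rfl hb ?_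
    (cl_cut hR h2 δ hδ T1 h1 G1 hG1)
  have e : (T 0).1 = (T1 0).1 * (G * D⁻¹ * G⁻¹) := by
    simp only [T1, Fin.cons_zero]
    group
  rw [e]
  rfl

end Crest.Agent.R3
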