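import Crest.Agent.R3.Mat

/-!
# R3 / LiftB : lifting matrices along a good map `π`

* `Sup.lift`: lift entrywise, taking `0` outside the support.
* `GL_lift`: `Matrix.diagonal_transvection_induction_of_det_ne_zero`; diagonal entries lift to units
  (`usurj`), transvections lift.
* `PI.card_eq`: `trace (M' * M) = trace (M * M')`, characteristic zero.
* `PI.lift`: choose a permutation `σ` of `L` with `σ X = X1` (cards are equal, so are the cards of the
  complements); `G = M + w_σ e_{Xᶜ}` is not liftable in a support preserving way directly, so transport: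
  `X ≃ X1`, `M.submatrix` is an invertible matrix on the subtype `X`, lift it by `GL_lift` and extend by zero.
* `iso_lift`: the same for rectangular matrices (`Fintype.equivOfCardEq`).
-/

set_option autoImplicit false

noncomputable section

open Matrix

namespace Crest.Agent.R3

variable {O B : Type} [CommRing O] [CommRing B] [Algebra O B] [Algebra O ℂ] {π : B →ₐ[O] ℂ}
variable {L : Type} [Fintype L] [DecidableEq L]

theorem mat_lift (hG : Good π) {κ κ' : Type} (M : Matrix κ κ' ℂ) :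
    ∃ M' : Matrix κ κ' B, M'.map π = M := by
  choose s hs using hG.surj
  exact ⟨M.map s, by ext i j; simp [hs]⟩

theorem Sup.lift (hG : Good π) {A C : Finset L} {M : Matrix L L ℂ} (h : Sup A C M) :
    ∃ M' : Matrix L L B, M'.map π = M ∧ Sup A C M' := by
  obtain ⟨N, hN⟩ := mat_lift hG M
  refine ⟨eS B A * N * eS B C, ?_, sup_sandwich A C N⟩
  rw [Matrix.map_mul, Matrix.map_mul, eS_map, eS_map, hN, sup_iff.1 h]

theorem GL_lift (hG : Good π) (a : GLm L ℂ) : ∃ a' : GLm L B, mapU (π : B →+* ℂ) a' = a := by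
  have key : ∀ M : Matrix L L ℂ, M.det ≠ 0 → ∃ M' : Matrix L L B, IsUnit M' ∧ M'.map π = M := by
    intro M hM
    refine Matrix.diagonal_transvection_induction_of_det_ne_zero
      (fun M => ∃ M' : Matrix L L B, IsUnit M' ∧ M'.map π = M) M hM ?_ ?_ ?_
    · intro D hD
      rw [det_diagonal, Finset.prod_ne_zero_iff] at hD
      choose u hu using fun i => hG.usurj (D i) (hD i (Finset.mem_univ i))
      refine ⟨diagonal fun i => (u i : B), ?_, ?_⟩
      · rw [isUnit_iff_isUnit_det, det_diagonal]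
        exact IsUnit.prod_univ_iff.2 fun i => (u i).isUnit
      · rw [diagonal_map (map_zero π)]
        simp only [hu]
    · intro t
      obtain ⟨c, hc⟩ := hG.surj t.c
      refine ⟨transvection t.i t.j c, ?_, ?_⟩
      · rw [isUnit_iff_isUnit_det, det_transvection_of_ne _ _ t.hij]
        exact isUnit_one
      · ext i j
        simp only [TransvectionStruct.toMatrix, transvection, map_apply, Matrix.add_apply, map_add, one_apply, single,
          of_apply, apply_ite π, map_one, map_zero, hc]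
    · rintro M N - - ⟨M', hM', rfl⟩ ⟨N', hN', rfl⟩
      exact ⟨M' * N', hM'.mul hN', Matrix.map_mul⟩
  obtain ⟨M', hM', h⟩ := key a ((isUnit_iff_isUnit_det _).1 a.isUnit).ne_zero
  exact ⟨hM'.unit, Units.ext h⟩

theorem PI.card_eq {X X1 : Finset L} {M M' : Matrix L L ℂ} (h : PI X X1 M M') : X.card = X1.card := by
  have h1 := trace_mul_comm M' M
  rw [h.l, h.r] at h1
  simpa [eS, trace_diagonal] using h1

theorem iso_card {κ κ' : Type} [Fintype κ] [DecidableEq κ] [Fintype κ'] [DecidableEq κ']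
    {φ : Matrix κ κ' ℂ} {φ' : Matrix κ' κ ℂ} (h : φ * φ' = 1) (h' : φ' * φ = 1) :
    Fintype.card κ = Fintype.card κ' := by
  have h1 := trace_mul_comm φ φ'
  rw [h, h'] at h1
  simpa using h1

theorem iso_lift (hG : Good π) {κ κ' : Type} [Fintype κ] [DecidableEq κ] [Fintype κ'] [DecidableEq κ']
    {φ : Matrix κ κ' ℂ} {φ' : Matrix κ' κ ℂ} (h : φ * φ' = 1) (h' : φ' * φ = 1) :
    ∃ (ψ : Matrix κ κ' B) (ψ' : Matrix κ' κ B), ψ.map π = φ ∧ ψ'.map π = φ' ∧ ψ * ψ' = 1 ∧
      ψ' * ψ = 1 := by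
  let e : κ ≃ κ' := Fintype.equivOfCardEq (iso_card h h')
  let a : GLm κ ℂ := ⟨φ.submatrix id e, φ'.submatrix e id,
    by rw [submatrix_mul_equiv, h]; rfl,
    by rw [show (id : κ → κ) = Equiv.refl κ from rfl, submatrix_mul_equiv, h', submatrix_one_equiv]⟩
  obtain ⟨a', ha⟩ := GL_lift hG a
  have h1 : (a' : Matrix κ κ B).map π = φ.submatrix id e := congrArg Units.val ha
  have h2 : ((a'⁻¹ : GLm κ B) : Matrix κ κ B).map π = φ'.submatrix e id := congrArg Units.inv ha
  refine ⟨(a' : Matrix κ κ B).submatrix id e.symm, ((a'⁻¹ : GLm κ B) : Matrix κ κ B).submatrix e.symm id,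
    ?_, ?_, ?_, ?_⟩
  · rw [← submatrix_map, h1]
    simp
  · rw [← submatrix_map, h2]
    simp
  · rw [submatrix_mul_equiv, Units.mul_inv]; rfl
  · rw [show (id : κ → κ) = Equiv.refl κ from rfl, submatrix_mul_equiv, Units.inv_mul, submatrix_one_equiv]

/-- the inclusion of a coordinate subspace -/
def lbE (R : Type) [CommRing R] (X : Finset L) : Matrix L X R := (1 : Matrix L L R).submatrix id Subtype.val

theorem lbE_map (X : Finset L) : (lbE B X).map π = lbE ℂ X := by
  ext i j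
  simp only [lbE, map_apply, submatrix_apply, one_apply, apply_ite π, map_one, map_zero]

theorem lbE_tr_mul {R : Type} [CommRing R] (X : Finset L) : (lbE R X)ᵀ * lbE R X = 1 := by
  ext i j
  simp only [lbE, mul_apply, transpose_apply, submatrix_apply, id, one_apply, ite_mul, one_mul, zero_mul,
    Finset.sum_ite_eq', Finset.mem_univ, if_true, Subtype.coe_inj]

theorem lbE_mul_tr {R : Type} [CommRing R] (X : Finset L) : lbE R X * (lbE R X)ᵀ = eS R X := by
  ext i j
  simp only [lbE, mul_apply, transpose_apply, submatrix_apply, id, one_apply, eS, diagonal_apply]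
  rw [Finset.sum_coe_sort X fun k => (if i = k then (1 : R) else 0) * if j = k then 1 else 0]
  by_cases hij : i = j
  · subst hij
    simp
  · simp only [hij, if_false]
    refine Finset.sum_eq_zero fun k _ => ?_
    by_cases h : i = k
    · subst h
      simp [Ne.symm hij]
    · simp [h]

theorem PI.lift (hG : Good π) {X X1 : Finset L} {M M' : Matrix L L ℂ} (h : PI X X1 M M') :
    ∃ N N' : Matrix L L B, N.map π = M ∧ N'.map π = M' ∧ PI X X1 N N' := by
  have e1 : ∀ {Y Y1 : Finset L} {P P' : Matrix L L ℂ}, Sup Y Y1 P' → P * P' = eS ℂ Y1 →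
      ((lbE ℂ Y1)ᵀ * P * lbE ℂ Y) * ((lbE ℂ Y)ᵀ * P' * lbE ℂ Y1) = 1 := by
    intro Y Y1 P P' hs hr
    calc _ = (lbE ℂ Y1)ᵀ * (P * ((lbE ℂ Y * (lbE ℂ Y)ᵀ) * P')) * lbE ℂ Y1 := by simp only [Matrix.mul_assoc]
      _ = 1 := by
        rw [lbE_mul_tr, hs.eS_mul subset_rfl, hr, ← lbE_mul_tr, ← Matrix.mul_assoc, lbE_tr_mul, Matrix.one_mul,
          lbE_tr_mul]
  obtain ⟨ψ, ψ', h1, h2, h3, h4⟩ := iso_lift hG (e1 h.s2 h.r) (e1 h.s1 h.l)
  have e2 : ∀ {Y Y1 : Finset L} {P : Matrix L L ℂ} {θ : Matrix Y1 Y B}, Sup Y1 Y P →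
      θ.map π = (lbE ℂ Y1)ᵀ * P * lbE ℂ Y → (lbE B Y1 * θ * (lbE B Y)ᵀ).map π = P := by
    intro Y Y1 P θ hs hθ
    rw [Matrix.map_mul, Matrix.map_mul, transpose_map, lbE_map, lbE_map, hθ]
    calc _ = (lbE ℂ Y1 * (lbE ℂ Y1)ᵀ) * P * (lbE ℂ Y * (lbE ℂ Y)ᵀ) := by simp only [Matrix.mul_assoc]
      _ = P := by rw [lbE_mul_tr, lbE_mul_tr, sup_iff.1 hs]
  have e3 : ∀ {Y Y1 : Finset L} (θ : Matrix Y1 Y B), Sup Y1 Y (lbE B Y1 * θ * (lbE B Y)ᵀ) := by
    intro Y Y1 θ
    rw [sup_iff, ← lbE_mul_tr, ← lbE_mul_tr]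
    calc _ = lbE B Y1 * (((lbE B Y1)ᵀ * lbE B Y1) * θ * ((lbE B Y)ᵀ * lbE B Y)) * (lbE B Y)ᵀ := by
          simp only [Matrix.mul_assoc]
      _ = _ := by rw [lbE_tr_mul, lbE_tr_mul, Matrix.one_mul, Matrix.mul_one]
  have e4 : ∀ {Y Y1 : Finset L} {θ : Matrix Y1 Y B} {θ' : Matrix Y Y1 B}, θ * θ' = 1 →
      (lbE B Y1 * θ * (lbE B Y)ᵀ) * (lbE B Y * θ' * (lbE B Y1)ᵀ) = eS B Y1 := by
    intro Y Y1 θ θ' hθ
    calc _ = lbE B Y1 * (θ * ((lbE B Y)ᵀ * lbE B Y) * θ') * (lbE B Y1)ᵀ := by simp only [Matrix.mul_assoc]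
      _ = _ := by rw [lbE_tr_mul, Matrix.mul_one, hθ, Matrix.mul_one, lbE_mul_tr]
  exact ⟨_, _, e2 h.s1 h1, e2 h.s2 h2, e3 ψ, e3 ψ', e4 h4, e4 h3⟩

@[simp] theorem mapU_val {R R' : Type} [CommRing R] [CommRing R'] (φ : R →+* R') (a : GLm L R) :
    ((mapU φ a : GLm L R') : Matrix L L R') = (a : Matrix L L R).map φ := rfl

theorem rel_map {G H : Type} [Group G] [Group H] (φ : G →* H) {g : ℕ} (T : Fin g → G × G) :
    rel (fun i => (φ (T i).1, φ (T i).2)) = φ (rel T) := by
  simp only [rel, map_list_prod, List.map_ofFn]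
  congr 2
  funext i
  simp [comm]

theorem rel_mapRep {R R' : Type} [CommRing R] [CommRing R'] (φ : R →+* R') {g : ℕ} (T : Rep g L R) :
    rel (mapRep φ T) = mapU φ (rel T) := by
  exact rel_map (mapU φ) T

theorem scalU_val {R : Type} [CommRing R] [Algebra O R] (η : Oˣ) :
    ((scalU L R η : GLm L R) : Matrix L L R) = algebraMap O R (η : O) • (1 : Matrix L L R) := by
  show algebraMap O (Matrix L L R) (η : O) = _
  rw [Algebra.algebraMap_eq_smul_one, algebraMap_smul]

theorem mapU_scalU {R R' : Type} [CommRing R] [CommRing R'] [Algebra O R] [Algebra O R']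
    (φ : R →ₐ[O] R') (η : Oˣ) : mapU (φ : R →+* R') (scalU L R η) = scalU L R' η := by
  refine Units.ext ?_
  rw [mapU_val, scalU_val, scalU_val]
  ext i j
  simp [one_apply, apply_ite φ, Algebra.algebraMap_eq_smul_one]

theorem scalU_comm {R : Type} [CommRing R] [Algebra O R] (η : Oˣ) (a : GLm L R) :
    scalU L R η * a = a * scalU L R η := by
  refine Units.ext ?_
  simp [scalU_val]

theorem rel_zero {G : Type} [Group G] (T : Fin 0 → G × G) : rel T = 1 := by
  simp [rel]

theorem rel_succ {G : Type} [Group G] {g : ℕ} (T : Fin (g + 1) → G × G) :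
    rel T = comm (T 0) * rel (Fin.tail T) := by
  simp only [rel, List.ofFn_succ, List.map_cons, List.prod_cons]
  rfl

theorem rel_snoc {G : Type} [Group G] {g : ℕ} (T : Fin g → G × G) (p : G × G) :
    rel (Fin.snoc (α := fun _ => G × G) T p) = rel T * comm p := by
  simp only [rel]
  rw [List.ofFn_succ_last]
  simp

theorem lb_rotR {G : Type} {g : ℕ} (T : Fin (g + 1) → G) :
    rotR T = Fin.snoc (α := fun _ => G) (Fin.tail T) (T 0) := by
  funext i
  refine Fin.lastCases ?_ (fun j => ?_) i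
  · rw [Fin.snoc_last, rotR, finRotate_last]
  · rw [Fin.snoc_castSucc, rotR, finRotate_apply, Fin.coeSucc_eq_succ]
    rfl

/-- cyclic rotation of the handles preserves a central value of the relator -/
theorem rel_rotR {G : Type} [Group G] {g : ℕ} (T : Fin g → G × G) {z : G} (hz : ∀ a, z * a = a * z) :
    rel (rotR T) = z ↔ rel T = z := by
  cases g with
  | zero => rw [rel_zero, rel_zero]
  | succ g =>
    rw [lb_rotR, rel_snoc, rel_succ]
    constructor
    · intro h
      rw [eq_mul_inv_of_mul_eq h, hz, mul_inv_cancel_left]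
    · intro h
      rw [eq_inv_mul_of_mul_eq h, ← hz, inv_mul_cancel_right]

/-- conjugation (possibly changing the index type) -/
theorem rel_conj {R κ : Type} [CommRing R] [Fintype κ] [DecidableEq κ] {g : ℕ} {T : Rep g L R}
    {T' : Rep g κ R} {φ : Matrix κ L R} (h : Intw (gens T) (gens T') φ) :
    φ * ((rel T : GLm L R) : Matrix L L R) = ((rel T' : GLm κ R) : Matrix κ κ R) * φ := by
  have hm : ∀ {a b : GLm L R} {a' b' : GLm κ R}, φ * (a : Matrix L L R) = (a' : Matrix κ κ R) * φ →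
      φ * (b : Matrix L L R) = (b' : Matrix κ κ R) * φ →
      φ * ((a * b : GLm L R) : Matrix L L R) = ((a' * b' : GLm κ R) : Matrix κ κ R) * φ := by
    intro a b a' b' h1 h2
    rw [Units.val_mul, Units.val_mul, ← Matrix.mul_assoc, h1, Matrix.mul_assoc, h2, Matrix.mul_assoc]
  have hi : ∀ {a : GLm L R} {a' : GLm κ R}, φ * (a : Matrix L L R) = (a' : Matrix κ κ R) * φ →
      φ * ((a⁻¹ : GLm L R) : Matrix L L R) = ((a'⁻¹ : GLm κ R) : Matrix κ κ R) * φ := by
    intro a a' h1
    calc _ = ((a'⁻¹ : GLm κ R) : Matrix κ κ R) * ((a' : Matrix κ κ R) * φ) * ((a⁻¹ : GLm L R) : Matrix L L R) := by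
          rw [← Matrix.mul_assoc, Units.inv_mul, Matrix.one_mul]
      _ = _ := by rw [← h1, Matrix.mul_assoc, Matrix.mul_assoc, Units.mul_inv, Matrix.mul_one]
  induction g with
  | zero => simp [rel_zero]
  | succ g ih =>
    rw [rel_succ, rel_succ]
    have h1 : φ * ((T 0).1 : Matrix L L R) = ((T' 0).1 : Matrix κ κ R) * φ := h (0, false)
    have h2 : φ * ((T 0).2 : Matrix L L R) = ((T' 0).2 : Matrix κ κ R) * φ := h (0, true)
    exact hm (hm (hm (hm h1 h2) (hi h1)) (hi h2)) (ih fun k => h (k.1.succ, k.2))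

/-- transport of a representation along an isomorphism -/
theorem rep_transport {R κ : Type} [CommRing R] [Fintype κ] [DecidableEq κ] {g : ℕ} (T : Rep g L R)
    {φ : Matrix κ L R} {φ' : Matrix L κ R} (h : φ * φ' = 1) (h' : φ' * φ = 1) :
    ∃ T' : Rep g κ R, ∀ k, gens T' k = φ * gens T k * φ' := by
  have key : ∀ a b : Matrix L L R, a * b = 1 → φ * a * φ' * (φ * b * φ') = 1 := by
    intro a b hab
    calc _ = φ * (a * (φ' * φ) * b) * φ' := by simp only [Matrix.mul_assoc]
      _ = 1 := by rw [h', Matrix.mul_one, hab, Matrix.mul_one, h]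
  let c : GLm L R → GLm κ R := fun a =>
    ⟨φ * (a : Matrix L L R) * φ', φ * ((a⁻¹ : GLm L R) : Matrix L L R) * φ', key _ _ a.mul_inv, key _ _ a.inv_mul⟩
  refine ⟨fun i => (c (T i).1, c (T i).2), fun k => ?_⟩
  obtain ⟨i, b⟩ := k
  cases b <;> rfl

theorem rep_ext {R : Type} [CommRing R] {g : ℕ} {T T' : Rep g L R} (h : ∀ k, gens T k = gens T' k) :
    T = T' := by
  funext i
  exact Prod.ext (Units.ext (h (i, false))) (Units.ext (h (i, true)))

theorem gens_mapRep {R R' : Type} [CommRing R] [CommRing R'] (φ : R →+* R') {g : ℕ} (T : Rep g L R)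
    (k : Fin g × Bool) : gens (mapRep φ T) k = (gens T k).map φ := by
  obtain ⟨i, b⟩ := k
  cases b <;> rfl

theorem lb_rel_scal {R κ : Type} [CommRing R] [Algebra O R] [Fintype κ] [DecidableEq κ] {g : ℕ} {T : Rep g L R}
    {T' : Rep g κ R} {φ : Matrix κ L R} {φ' : Matrix L κ R} {η : Oˣ} (hI : Intw (gens T) (gens T') φ)
    (h : φ * φ' = 1) (hr : rel T = scalU L R η) : rel T' = scalU κ R η := by
  refine Units.ext ?_
  have h1 := congrArg (· * φ') (rel_conj hI)
  simp only [hr, scalU_val, Matrix.mul_assoc, h, Matrix.mul_one, Matrix.mul_smul, Matrix.smul_mul] at h1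
  rw [scalU_val, h1]

/-- `CL` is invariant under isomorphism: lift `φ, φ'` by `iso_lift` and transport the lift -/
theorem CL.iso (hG : Good π) {κ : Type} [Fintype κ] [DecidableEq κ] {η : Oˣ} {g : ℕ} {T : Rep g L ℂ}
    {T' : Rep g κ ℂ} {φ : Matrix κ L ℂ} {φ' : Matrix L κ ℂ} (h : φ * φ' = 1) (h' : φ' * φ = 1)
    (hI : Intw (gens T) (gens T') φ) (hT : CL π η T) : CL π η T' := by
  obtain ⟨S, hS, hr⟩ := hT
  obtain ⟨ψ, ψ', h1, h2, h3, h4⟩ := iso_lift hG h h'
  obtain ⟨S', hS'⟩ := rep_transport S h3 h4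
  refine ⟨S', rep_ext fun k => ?_, lb_rel_scal (fun k => ?_) h3 hr⟩
  · have e : (gens S k).map π = gens T k := by rw [← hS, gens_mapRep]; rfl
    have e' : (ψ * gens S k * ψ').map π = gens T' k := by
      rw [Matrix.map_mul, Matrix.map_mul, h1, h2, e, hI k, Matrix.mul_assoc, h, Matrix.mul_one]
    rw [gens_mapRep, hS']
    exact e'
  · rw [hS', Matrix.mul_assoc, h4, Matrix.mul_one]

theorem QL.of_card (hG : Good π) {κ : Type} [Fintype κ] [DecidableEq κ]
    (hc : Fintype.card L = Fintype.card κ) (h : QL π L) : QL π κ := by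
  intro g η T' hT'
  let e : L ≃ κ := Fintype.equivOfCardEq hc
  have h1 : (1 : Matrix κ κ ℂ).submatrix id e * (1 : Matrix κ κ ℂ).submatrix e id = 1 := by
    rw [submatrix_mul_equiv, Matrix.one_mul]; rfl
  have h2 : (1 : Matrix κ κ ℂ).submatrix e id * (1 : Matrix κ κ ℂ).submatrix id e = 1 := by
    rw [show (id : κ → κ) = Equiv.refl κ from rfl, submatrix_mul_equiv, Matrix.one_mul, submatrix_one_equiv]
  obtain ⟨T, hT⟩ := rep_transport T' h2 h1
  refine CL.iso hG h1 h2 (fun k => ?_) (h g η T (lb_rel_scal (fun k => ?_) h2 hT'))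
  · rw [hT, ← Matrix.mul_assoc, ← Matrix.mul_assoc, h1, Matrix.one_mul]
  · rw [hT, Matrix.mul_assoc, h1, Matrix.mul_one]

theorem cl_of_rotR {η : Oˣ} {g : ℕ} {T : Rep g L ℂ} (h : CL π η (rotR T)) : CL π η T := by
  obtain ⟨S, hS, hr⟩ := h
  refine ⟨fun i => S ((finRotate g).symm i), funext fun i => ?_, ?_⟩
  · have := congrFun hS ((finRotate g).symm i)
    rw [rotR, Equiv.apply_symm_apply] at this
    exact this
  · refine (rel_rotR _ (scalU_comm η)).1 ?_
    rw [← hr]
    congr 1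
    funext i
    simp only [rotR, Equiv.symm_apply_apply]

end Crest.Agent.R3
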