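import Crest.Agent.R3.Burn
import Crest.Agent.R3.LiftB

/-!
# R3 / G01 : genus zero, rank at most one, genus one

* `cl_g0`, `cl_dim1`: if `ι` is empty all matrices are equal.  Otherwise `rel T = 1` forces `η = 1` (`Good.inj`); lift the
  generators by `GL_lift`; in rank one matrices commute.
* `cl_g1`: `a b = η b a`.  Let `v` be an eigenvector of `a` (eigenvalue `α`), `d = orderOf η` (finite: `det` gives
  `η ^ card ι = 1`).  `b ^ d` commutes with `a` and `b`, so it is a scalar `β` (`Irr.schur`).  The vectors `b ^ i v`, `i < d`,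
  are eigenvectors of `a` for the distinct eigenvalues `η ^ i α`, and span an invariant subspace, so they form a
  basis.  In this basis (index `Fin d` or `ZMod d`) `a = α diag(η ^ i)`, `b` is the cyclic shift with corner `β`.  Lift `α, β` to
  units of `B`; the same formulas give a point over `B` (`η ^ d = 1` in `O`); conclude with `CL.iso`.
-/

set_option autoImplicit false

noncomputable section

open Matrix

namespace Crest.Agent.R3

variable {O B : Type} [CommRing O] [CommRing B] [Algebra O B] [Algebra O ℂ] {π : B →ₐ[O] ℂ}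
variable {ι : Type} [Fintype ι] [DecidableEq ι] {η : Oˣ}

theorem g01_scal_one (hG : Good π) (h : 1 = scalU ι ℂ η) : 1 = scalU ι B η := by
  rcases isEmpty_or_nonempty ι with hι | ⟨⟨i⟩⟩
  · exact Units.ext (Subsingleton.elim _ _)
  · have h0 := congrArg Units.val h
    rw [scalU_val, Units.val_one] at h0
    have h1 := congrFun (congrFun h0 i) i
    rw [Matrix.smul_apply, one_apply_eq, smul_eq_mul, mul_one] at h1
    have h2 : η = 1 := Units.ext (hG.inj (by rw [← h1, Units.val_one, map_one]))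
    rw [h2, scalU, map_one]

theorem g01_rel_one {R : Type} [CommRing R] [Subsingleton ι] {g : ℕ} (T : Rep g ι R) : rel T = 1 := by
  refine List.prod_eq_one fun x hx => ?_
  obtain ⟨⟨a, b⟩, -, rfl⟩ := List.mem_map.1 hx
  have h : a * b = b * a := by
    ext i j
    obtain rfl := Subsingleton.elim i j
    simp only [Units.val_mul, mul_apply, Fintype.sum_subsingleton _ i, mul_comm]
  rw [comm, h, mul_inv_cancel_right, mul_inv_cancel]

theorem cl_g0 (hG : Good π) (T : Rep 0 ι ℂ) (hT : rel T = scalU ι ℂ η) : CL π η T := by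
  rw [rel_zero] at hT
  exact ⟨Fin.elim0, Subsingleton.elim _ _, (rel_zero _).trans (g01_scal_one hG hT)⟩

theorem cl_dim1 (hG : Good π) (hι : Fintype.card ι ≤ 1) {g : ℕ} (T : Rep g ι ℂ)
    (hT : rel T = scalU ι ℂ η) : CL π η T := by
  have := Fintype.card_le_one_iff_subsingleton.1 hι
  choose s hs using GL_lift (L := ι) hG
  rw [g01_rel_one] at hT
  exact ⟨fun i => (s (T i).1, s (T i).2), funext fun i => Prod.ext (hs _) (hs _),
    (g01_rel_one _).trans (g01_scal_one hG hT)⟩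

theorem g01_pow {M : Type} [Monoid M] {x : M} {d : ℕ} [NeZero d] (h : x ^ d = 1) (i : Fin d) :
    x ^ ((i + 1 : Fin d) : ℕ) = x * x ^ (i : ℕ) := by
  rw [Fin.val_add, Fin.val_one', Nat.add_mod_mod, ← pow_eq_pow_mod _ h, pow_succ']

theorem g01_rel {G : Type} [Group G] (T : Fin 1 → G × G) (z : G) :
    rel T = z ↔ (T 0).1 * (T 0).2 = z * ((T 0).2 * (T 0).1) := by
  rw [rel_succ, rel_zero, mul_one, comm, mul_inv_eq_iff_eq_mul, mul_inv_eq_iff_eq_mul, mul_assoc]

/-- clock and shift -/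
theorem g01_model {R : Type} [CommRing R] [Algebra O R] {d : ℕ} [NeZero d] (hη : η ^ d = 1) (α γ : Rˣ) :
    ∃ S : Rep 1 (Fin d) R, rel S = scalU (Fin d) R η ∧
      gens S (0, false) = diagonal (fun i : Fin d => algebraMap O R (η : O) ^ (i : ℕ) * α) ∧
      gens S (0, true) = Matrix.of fun j i : Fin d => if j = i + 1 then (γ : R) else 0 := by
  have h1 : algebraMap O R (η : O) ^ d = 1 := by rw [← map_pow, ← Units.val_pow_eq_pow_val, hη, Units.val_one, map_one]
  have ha : IsUnit (diagonal (fun i : Fin d => algebraMap O R (η : O) ^ (i : ℕ) * α)) :=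
    isUnit_diagonal.2 (Pi.isUnit_iff.2 fun i => ((η.isUnit.map _).pow _).mul α.isUnit)
  have hb : IsUnit (Matrix.of fun j i : Fin d => if j = i + 1 then (γ : R) else 0) := by
    refine IsUnit.of_mul_eq_one_right (Matrix.of fun i j : Fin d => if j = i + 1 then ((γ⁻¹ : Rˣ) : R) else 0) ?_
    ext i j
    simp [mul_apply, one_apply, eq_comm]
  refine ⟨fun _ => (ha.unit, hb.unit), (g01_rel _ _).2 (Units.ext ?_), rfl, rfl⟩
  simp only [Units.val_mul, IsUnit.unit_spec, scalU_val, Matrix.smul_mul, Matrix.one_mul]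
  ext j i
  rw [diagonal_mul, Matrix.smul_apply, mul_diagonal, of_apply]
  split_ifs with h
  · rw [h, g01_pow h1, smul_eq_mul]
    ring
  · simp

theorem cl_g1 (hG : Good π) (T : Rep 1 ι ℂ) (hI : Irr (gens T)) (hT : rel T = scalU ι ℂ η) :
    CL π η T := by
  have := hI.1
  obtain ⟨ζ, hζ⟩ : ∃ ζ, ζ = algebraMap O ℂ (η : O) := ⟨_, rfl⟩
  obtain ⟨a, ha⟩ : ∃ a, a = gens T (0, false) := ⟨_, rfl⟩
  obtain ⟨b, hb⟩ : ∃ b, b = gens T (0, true) := ⟨_, rfl⟩
  have hau : IsUnit a := ha ▸ (T 0).1.isUnit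
  have hbu : IsUnit b := hb ▸ (T 0).2.isUnit
  have hk : ∀ {p : Fin 1 × Bool → Prop}, p (0, false) → p (0, true) → ∀ k, p k := by
    rintro p h1 h2 ⟨i, c⟩
    obtain rfl := Subsingleton.elim i 0
    cases c <;> assumption
  have hab : a * b = ζ • (b * a) := by
    have h := congrArg Units.val ((g01_rel T _).1 hT)
    rw [Units.val_mul, Units.val_mul, Units.val_mul, scalU_val, Matrix.smul_mul, Matrix.one_mul] at h
    rw [ha, hb, hζ]
    exact h
  have hfin : IsOfFinOrder ζ := by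
    have h := congrArg det hab
    rw [det_smul, det_mul, det_mul, mul_comm b.det] at h
    refine isOfFinOrder_iff_pow_eq_one.2 ⟨_, Fintype.card_pos (α := ι), ?_⟩
    exact mul_right_cancel₀ (((isUnit_iff_isUnit_det _).1 hau).mul ((isUnit_iff_isUnit_det _).1 hbu)).ne_zero
      (h.symm.trans (one_mul _).symm)
  obtain ⟨d, hd⟩ : ∃ d, d = orderOf ζ := ⟨_, rfl⟩
  have hd0 : 0 < d := hd ▸ hfin.orderOf_pos
  have : NeZero d := ⟨hd0.ne'⟩
  have hζd : ζ ^ d = 1 := hd ▸ pow_orderOf_eq_one ζ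
  have hη : η ^ d = 1 := Units.ext (hG.inj (by
    rw [Units.val_pow_eq_pow_val, map_pow, ← hζ, hζd, Units.val_one, map_one]))
  have hpow : ∀ i : ℕ, a * b ^ i = ζ ^ i • (b ^ i * a) := by
    intro i
    induction i with
    | zero => simp
    | succ i ih =>
      rw [pow_succ, ← Matrix.mul_assoc, ih, Matrix.smul_mul, Matrix.mul_assoc, hab, Matrix.mul_smul, smul_smul,
        ← pow_succ, Matrix.mul_assoc]
  obtain ⟨β, hβ⟩ := hI.schur (b ^ d) (hk (by rw [← ha, hpow, hζd, one_smul]) (by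
    rw [← hb, ← pow_succ, pow_succ']))
  have hβ0 : β ≠ 0 := by
    rintro rfl
    rw [zero_smul] at hβ
    exact (hbu.pow d).ne_zero hβ
  obtain ⟨γ, hγ⟩ := IsAlgClosed.exists_pow_nat_eq β hd0
  have hγ0 : γ ≠ 0 := by
    rintro rfl
    exact hβ0 (hγ.symm.trans (zero_pow hd0.ne'))
  have hc : (γ⁻¹ • b) ^ d = 1 := by
    rw [smul_pow, hβ, smul_smul, inv_pow, hγ, inv_mul_cancel₀ hβ0, one_smul]
  obtain ⟨α, hα⟩ := Module.End.exists_eigenvalue (toLin' a)
  obtain ⟨v, hv⟩ := hα.exists_hasEigenvector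
  have hv1 : a *ᵥ v = α • v := hv.apply_eq_smul
  have hα0 : α ≠ 0 := by
    rintro rfl
    exact hv.2 (mulVec_injective_iff_isUnit.2 hau (by rw [hv1, zero_smul, mulVec_zero]))
  let w : Fin d → ι → ℂ := fun i => (γ⁻¹ • b) ^ (i : ℕ) *ᵥ v
  have hw0 : ∀ i, w i ≠ 0 := fun i h => hv.2 (mulVec_injective_iff_isUnit.2
    ((IsUnit.of_pow_eq_one hc hd0.ne').pow i) (h.trans (mulVec_zero _).symm))
  have hwa : ∀ i, a *ᵥ w i = (ζ ^ (i : ℕ) * α) • w i := by
    intro i
    simp only [w, smul_pow, smul_mulVec, mulVec_smul]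
    rw [mulVec_mulVec, hpow, smul_mulVec, ← mulVec_mulVec, hv1, mulVec_smul, smul_smul, smul_smul, smul_smul]
    congr 1
    ring
  have hwb : ∀ i, b *ᵥ w i = γ • w (i + 1) := by
    intro i
    simp only [w]
    rw [g01_pow hc, ← mulVec_mulVec, smul_mulVec, smul_smul, mul_inv_cancel₀ hγ0, one_smul]
  obtain ⟨α', hα'⟩ := hG.usurj α hα0
  obtain ⟨γ', hγ'⟩ := hG.usurj γ hγ0
  obtain ⟨S, hS, hSa, hSb⟩ := g01_model (R := B) hη α' γ'
  have hφ : Intw (gens (mapRep (π : B →+* ℂ) S)) (gens T) (Matrix.of w)ᵀ := by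
    refine hk ?_ ?_
    · rw [gens_mapRep, hSa, ← ha, diagonal_map (map_zero _)]
      ext j i
      rw [mul_diagonal, map_mul, map_pow, RingHom.coe_coe, AlgHom.commutes, hα', ← hζ, mul_comm]
      exact (congrFun (hwa i) j).symm
    · rw [gens_mapRep, hSb, ← hb]
      ext j i
      refine Eq.trans ?_ (congrFun (hwb i) j).symm
      simp [mul_apply, apply_ite π, hγ', mul_comm]
  have h1 : LinearMap.ker (toLin' (Matrix.of w)ᵀ) = ⊥ := by
    refine LinearMap.ker_eq_bot.2 (mulVec_injective_iff.2 ?_)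
    refine Module.End.eigenvectors_linearIndependent' (toLin' a) (fun i : Fin d => ζ ^ (i : ℕ) * α)
      (fun i j h => Fin.ext ?_) w fun i => ⟨Module.End.mem_eigenspace_iff.2 (hwa i), hw0 i⟩
    exact pow_injOn_Iio_orderOf (hd ▸ i.2) (hd ▸ j.2) (mul_right_cancel₀ hα0 h)
  have h2 : LinearMap.range (toLin' (Matrix.of w)ᵀ) = ⊤ := by
    refine (hI.2 _ ?_).resolve_left fun h2 => hw0 0 ?_
    · rintro k _ ⟨u, rfl⟩
      exact ⟨gens (mapRep (π : B →+* ℂ) S) k *ᵥ u, by
        rw [toLin'_apply, toLin'_apply, mulVec_mulVec, mulVec_mulVec, hφ k]⟩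
    · funext j
      exact congrFun (congrFun (toLin'.map_eq_zero_iff.1 (LinearMap.range_eq_bot.1 h2)) j) 0
  obtain ⟨f, hf⟩ := LinearMap.exists_leftInverse_of_injective _ h1
  obtain ⟨f', hf'⟩ := LinearMap.exists_rightInverse_of_surjective _ h2
  have h3 : LinearMap.toMatrix' f * (Matrix.of w)ᵀ = 1 := toLin'.injective (by simp [toLin'_mul, hf])
  have h4 : (Matrix.of w)ᵀ * LinearMap.toMatrix' f' = 1 := toLin'.injective (by simp [toLin'_mul, hf'])
  have h5 : LinearMap.toMatrix' f = LinearMap.toMatrix' f' := by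
    rw [← Matrix.mul_one (LinearMap.toMatrix' f), ← h4, ← Matrix.mul_assoc, h3, Matrix.one_mul]
  rw [h5] at h3
  exact CL.iso hG h4 h3 hφ ⟨S, rfl, hS⟩

end Crest.Agent.R3
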