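import Crest.Agent.R3.LiftB

/-!
# R3 / PureG : orientable quadratic equations in groups reduce to surface relations

Prove by strong induction on the length of `w`, for all `g` and `T`: if `rel T * wordVal x w = φ η` then `T` and
`x` lift to `T'`, `y` with `rel T' * wordVal y w = η`.  For `w = []` use `hQ` and surjectivity.  Otherwise take
`w = A ++ z :: M ++ z̄ :: S` with `M.length` minimal.  If `M = []` cancel.  Otherwise the partner of a letter of `M`
is not in `M` (minimality), so `w = A x B y C x̄ D ȳ E` for two letters `x, y` whose variables do not occur in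
`A, …, E`.  With `W = A D C B`, `y1 = y C B`, `x2 = (D C B)⁻¹ x B` one has
`A x B y C x⁻¹ D y⁻¹ E = [W x2 W⁻¹, W y1 W⁻¹] * (A D C B E)`.  Apply the induction hypothesis to
`Fin.snoc T (W x2 W⁻¹, W y1 W⁻¹)` (`rel_snoc`) and the word `A ++ D ++ C ++ B ++ E`, and solve for the lifts of
`x` and `y`.
-/

set_option autoImplicit false

noncomputable section

namespace Crest.Agent.R3

section aux

variable {G H V : Type} [Group G] [Group H]

/-- the inverse letter -/
def pgBar (p : V × Bool) : V × Bool := (p.1, !p.2)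

/-- value of a letter -/
def pgVal (x : V → G) (p : V × Bool) : G := if p.2 then (x p.1)⁻¹ else x p.1

/-- orientable quadratic words -/
def PgQ (w : List (V × Bool)) : Prop := w.Nodup ∧ ∀ p ∈ w, pgBar p ∈ w

theorem pg_bar_bar (p : V × Bool) : pgBar (pgBar p) = p := by simp [pgBar]

theorem pg_bar_ne (p : V × Bool) : pgBar p ≠ p := by
  obtain ⟨v, b⟩ := p
  simp [pgBar]

theorem pg_val_bar (x : V → G) (p : V × Bool) : pgVal x (pgBar p) = (pgVal x p)⁻¹ := by
  obtain ⟨v, _ | _⟩ := p <;> simp [pgVal, pgBar]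

theorem pg_cons (x : V → G) (p : V × Bool) (w : List (V × Bool)) :
    wordVal x (p :: w) = pgVal x p * wordVal x w := by
  simp [wordVal, pgVal]

theorem pg_append (x : V → G) (w w' : List (V × Bool)) :
    wordVal x (w ++ w') = wordVal x w * wordVal x w' := by
  simp [wordVal]

theorem pg_congr {x y : V → G} {w : List (V × Bool)} (h : ∀ r ∈ w, x r.1 = y r.1) :
    wordVal x w = wordVal y w := by
  unfold wordVal
  rw [List.map_congr_left fun r hr => by rw [h r hr]]

theorem pg_map (φ : G →* H) {y : V → G} {x : V → H} (h : ∀ v, φ (y v) = x v) (w : List (V × Bool)) :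
    φ (wordVal y w) = wordVal x w := by
  induction w with
  | nil => simp [wordVal]
  | cons p w ih =>
    rw [pg_cons, pg_cons, map_mul, ih]
    obtain ⟨v, _ | _⟩ := p <;> simp [pgVal, h]

theorem pg_upd (φ : G →* H) {y : V → G} {x : V → H} (h : ∀ v, φ (y v) = x v) (p : V × Bool) {X : G}
    (hX : φ X = pgVal x p) :
    ∃ y' : V → G, (∀ v, φ (y' v) = x v) ∧ pgVal y' p = X ∧ ∀ v, v ≠ p.1 → y' v = y v := by
  classical
  refine ⟨Function.update y p.1 (if p.2 then X⁻¹ else X), fun v => ?_, ?_,
    fun v hv => Function.update_of_ne hv _ _⟩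
  · rcases eq_or_ne v p.1 with rfl | hv
    · obtain ⟨v, _ | _⟩ := p <;> simp [hX, pgVal]
    · rw [Function.update_of_ne hv, h]
  · obtain ⟨v, _ | _⟩ := p <;> simp [pgVal]

theorem pg_remove {w w' : List (V × Bool)} {p : V × Bool} (h : PgQ w)
    (e : w.Perm (p :: pgBar p :: w')) : PgQ w' ∧ ∀ r ∈ w', r.1 ≠ p.1 := by
  have h1 := e.nodup_iff.1 h.1
  rw [List.nodup_cons, List.nodup_cons, List.mem_cons, not_or] at h1
  obtain ⟨⟨-, a1⟩, a2, a3⟩ := h1
  refine ⟨⟨a3, fun r hr => ?_⟩, fun r hr hrp => ?_⟩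
  · have := e.mem_iff.1 (h.2 r (e.mem_iff.2 (by simp [hr])))
    rw [List.mem_cons, List.mem_cons] at this
    rcases this with h2 | h2 | h2
    · exact absurd (by rw [← h2, pg_bar_bar]; exact hr) a2
    · exact absurd (by rw [← pg_bar_bar p, ← h2, pg_bar_bar]; exact hr) a1
    · exact h2
  · obtain ⟨v, b⟩ := r
    obtain ⟨v', b'⟩ := p
    cases hrp
    cases b <;> cases b' <;> first | exact a1 hr | exact a2 hr

theorem pg_shape {w : List (V × Bool)} (h : PgQ w) (n : ℕ) : ∀ A p M S, List.length M = n →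
    w = A ++ p :: (M ++ pgBar p :: S) → (∃ A p S, w = A ++ p :: pgBar p :: S) ∨
      ∃ A B C D E p q, w = A ++ p :: (B ++ q :: (C ++ pgBar p :: (D ++ pgBar q :: E))) := by
  induction n using Nat.strong_induction_on with
  | _ n ih =>
    rintro A p (_ | ⟨q, M⟩) S hn e
    · exact Or.inl ⟨A, p, S, e⟩
    have h1 := h.2 q (by simp [e])
    have h2 := h.1
    rw [e] at h1 h2
    simp only [List.mem_append, List.mem_cons] at h1
    rcases h1 with h1 | h1 | (h1 | h1) | h1 | h1
    · obtain ⟨A1, A2, rfl⟩ := List.append_of_mem h1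
      exact Or.inr ⟨A1, A2, [], M, S, pgBar q, p, by simp [e, pg_bar_bar]⟩
    · subst h1
      simp [pg_bar_bar, List.nodup_append] at h2
    · exact absurd h1 (pg_bar_ne q)
    · obtain ⟨M1, M2, rfl⟩ := List.append_of_mem h1
      exact ih M1.length (by simp at hn; omega) (A ++ [p]) q M1 (M2 ++ pgBar p :: S) rfl (by simp [e])
    · have : q = p := by rw [← pg_bar_bar q, h1, pg_bar_bar]
      subst this
      simp [List.nodup_append] at h2
    · obtain ⟨S1, S2, rfl⟩ := List.append_of_mem h1
      exact Or.inr ⟨A, [], M, S1, S2, p, q, by simp [e]⟩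

theorem pg_id (a b c d e X Y : G) :
    comm (a * X * b * (a * d * c * b)⁻¹, a * d * c * b * Y * c * b * (a * d * c * b)⁻¹) *
      (a * (d * (c * (b * e)))) = a * (X * (b * (Y * (c * (X⁻¹ * (d * (Y⁻¹ * e))))))) := by
  simp only [comm]
  group

theorem pg_main (φ : G →* H) (hφ : Function.Surjective φ) (η : G)
    (hQ : ∀ (g : ℕ) (T : Fin g → H × H), rel T = φ η →
      ∃ T' : Fin g → G × G, (fun i => (φ (T' i).1, φ (T' i).2)) = T ∧ rel T' = η) (x : V → H)
    (n : ℕ) : ∀ w : List (V × Bool), w.length = n → PgQ w → ∀ (g : ℕ) (T : Fin g → H × H),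
      rel T * wordVal x w = φ η → ∃ (T' : Fin g → G × G) (y : V → G),
        (fun i => (φ (T' i).1, φ (T' i).2)) = T ∧ (∀ v, φ (y v) = x v) ∧
          rel T' * wordVal y w = η := by
  classical
  induction n using Nat.strong_induction_on with
  | _ n ih =>
    rintro (_ | ⟨p0, w0⟩) hn hw g T hT
    · obtain ⟨T', h1, h2⟩ := hQ g T (by simpa [wordVal] using hT)
      choose y hy using fun v => hφ (x v)
      exact ⟨T', y, h1, hy, by simpa [wordVal] using h2⟩
    obtain ⟨M0, S0, e0⟩ := List.append_of_mem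
      ((List.mem_cons.1 (hw.2 p0 List.mem_cons_self)).resolve_left (pg_bar_ne p0))
    rcases pg_shape hw _ [] p0 M0 S0 rfl (by rw [e0]; rfl) with
      ⟨A, p, S, e⟩ | ⟨A, B, C, D, E, p, q, e⟩ <;> rw [e] at hn hw hT ⊢
    · obtain ⟨h1, -⟩ := pg_remove (w' := A ++ S) (p := p) hw
        (List.perm_iff_count.2 fun r => by simp only [List.count_append, List.count_cons]; omega)
      obtain ⟨T', y, a1, a2, a3⟩ := ih _ (by simp at hn ⊢; omega) _ rfl h1 g T (by
        simpa [pg_append, pg_cons, pg_val_bar] using hT)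
      exact ⟨T', y, a1, a2, by simpa [pg_append, pg_cons, pg_val_bar] using a3⟩
    · obtain ⟨h1, h2⟩ := pg_remove (w' := q :: pgBar q :: (A ++ (D ++ (C ++ (B ++ E))))) (p := p) hw
        (List.perm_iff_count.2 fun r => by simp only [List.count_append, List.count_cons]; omega)
      obtain ⟨h3, h4⟩ := pg_remove h1 (List.Perm.refl _)
      simp only [pg_append, pg_cons, pg_val_bar] at hT ⊢
      rw [← pg_id, ← mul_assoc, ← rel_snoc] at hT
      obtain ⟨T', y, a1, a2, a3⟩ := ih _ (by simp at hn ⊢; omega) _ rfl h3 (g + 1) _ (by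
        simpa only [pg_append] using hT)
      have b1 := congrFun a1 (Fin.last g)
      rw [Fin.snoc_last, Prod.mk.injEq] at b1
      obtain ⟨y1, c1, c2, c3⟩ := pg_upd φ a2 p (X := (wordVal y A)⁻¹ * (T' (Fin.last g)).1 *
        (wordVal y A * wordVal y D * wordVal y C * wordVal y B) * (wordVal y B)⁻¹) (by
          simp only [map_mul, map_inv, pg_map φ a2, b1.1]
          group)
      obtain ⟨y2, d1, d2, d3⟩ := pg_upd φ c1 q
        (X := (wordVal y A * wordVal y D * wordVal y C * wordVal y B)⁻¹ * (T' (Fin.last g)).2 *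
        (wordVal y A * wordVal y D * wordVal y C * wordVal y B) * (wordVal y C * wordVal y B)⁻¹) (by
          simp only [map_mul, map_inv, pg_map φ a2, b1.2]
          group)
      have e1 : pgVal y2 p = pgVal y1 p := by
        unfold pgVal
        rw [d3 _ (h2 q (by simp)).symm]
      have e2 : ∀ u : List (V × Bool), (∀ r ∈ u, r ∈ A ++ (D ++ (C ++ (B ++ E)))) →
          wordVal y2 u = wordVal y u := fun u hu => pg_congr fun r hr => by
        rw [d3 _ (h4 r (hu r hr)), c3 _ (h2 r (by simp [hu r hr]))]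
      refine ⟨Fin.init T', y2, funext fun i => ?_, d1, ?_⟩
      · have := congrFun a1 i.castSucc
        rwa [Fin.snoc_castSucc] at this
      · rw [← Fin.snoc_init_self T', rel_snoc] at a3
        rw [← a3, e1, c2, d2, e2 A (by simp +contextual), e2 B (by simp +contextual),
          e2 C (by simp +contextual), e2 D (by simp +contextual), e2 E (by simp +contextual)]
        simp only [pg_append, comm]
        group

end aux

theorem quad_lift {G H V : Type} [Group G] [Group H] (φ : G →* H) (hφ : Function.Surjective φ) (η : G)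
    (hQ : ∀ (g : ℕ) (T : Fin g → H × H), rel T = φ η →
      ∃ T' : Fin g → G × G, (fun i => (φ (T' i).1, φ (T' i).2)) = T ∧ rel T' = η)
    (w : List (V × Bool)) (hnd : w.Nodup) (hfl : ∀ p ∈ w, (p.1, !p.2) ∈ w) (x : V → H)
    (hx : wordVal x w = φ η) :
    ∃ y : V → G, (∀ v, φ (y v) = x v) ∧ wordVal y w = η := by
  obtain ⟨T', y, -, h1, h2⟩ := pg_main φ hφ η hQ x _ w rfl ⟨hnd, hfl⟩ 0 Fin.elim0 (by
    rw [rel_zero, one_mul, hx])
  rw [rel_zero, one_mul] at h2
  exact ⟨y, h1, h2⟩

end Crest.Agent.R3
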