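import Crest.Agent.R3.Occ
import Crest.Agent.R3.PureG

/-!
# R3 / Pure : a face consisting of full variables is a closed surface

Let `m = f.size > 0`.  For every finset `Ω` of cardinality `m` choose a bijection with `Fin m`, i.e. matrices
`p Ω : Matrix (Fin m) L R`, `q Ω : Matrix L (Fin m) R` (entries `0, 1`) with `p Ω * q Ω = 1`, `q Ω * p Ω = eS Ω`.
All steps of `f` are full, `f.occ` is closed under `flip` (`partner_full`), so its variables do not occur in `D0`
(`OccOK.remove_closed`).  For the occurrence `⟨v, false, Ω, Ω'⟩` let `X v ∈ GL (Fin m) ℂ` be `p Ω' * x v false * q Ω`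
(`X v = 1` if `v` does not occur).  The word is `w = (f.l.map name).reverse`; by induction along `Seg`,
`p Q'.set * prodL x l * q Q.set = wordVal X (names l).reverse`; so `wordVal X w = scalU u⁻¹`.  Apply `quad_lift` with
`φ = mapU π` (`GL_lift`, `mapU_scalU`), and put `y v false = q Ω' * Y v * p Ω`, `y v true = q Ω * (Y v)⁻¹ * p Ω'`.
-/

set_option autoImplicit false

noncomputable section

open Matrix

namespace Crest.Agent.R3

variable {O L V : Type} [CommRing O] [Fintype L] [DecidableEq L]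
variable {B : Type} [CommRing B] [Algebra O B] [Algebra O ℂ] {π : B →ₐ[O] ℂ}

/-- the `0, 1` matrix of an enumeration of labels -/
def pureP (R : Type) [CommRing R] {m : ℕ} (e : Fin m → L) : Matrix (Fin m) L R :=
  Matrix.of fun i l => if e i = l then 1 else 0

omit [Fintype L] in
theorem pureP_map {R R' F : Type} [CommRing R] [CommRing R'] [FunLike F R R'] [RingHomClass F R R']
    (φ : F) {m : ℕ} (e : Fin m → L) : (pureP R e).map φ = pureP R' e := by
  ext i l
  simp only [pureP, Matrix.map_apply, Matrix.of_apply]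
  split_ifs <;> simp

theorem pureP_mul_t (R : Type) [CommRing R] {m : ℕ} {e : Fin m → L} (he : Function.Injective e) :
    pureP R e * (pureP R e)ᵀ = 1 := by
  ext i j
  simp only [pureP, Matrix.mul_apply, Matrix.transpose_apply, Matrix.of_apply, Matrix.one_apply]
  rw [Finset.sum_eq_single (e i)]
  · simp [he.eq_iff, eq_comm]
  · intro l _ hl
    simp [hl.symm]
  · simp

omit [Fintype L] in
theorem pureP_t_mul [Fintype L] (R : Type) [CommRing R] {m : ℕ} {e : Fin m → L}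
    (he : Function.Injective e) {Ω : Finset L} (hΩ : ∀ l, l ∈ Ω ↔ ∃ i, e i = l) :
    (pureP R e)ᵀ * pureP R e = eS R Ω := by
  ext l l'
  simp only [pureP, eS, Matrix.mul_apply, Matrix.transpose_apply, Matrix.of_apply,
    Matrix.diagonal_apply]
  by_cases hl : l ∈ Ω
  · obtain ⟨i, rfl⟩ := (hΩ l).1 hl
    rw [Finset.sum_eq_single i]
    · simp [hl]
    · intro j _ hj
      simp [he.eq_iff, hj]
    · simp
  · rw [Finset.sum_eq_zero]
    · simp [hl]
    · intro i _
      rw [if_neg (fun h => hl ((hΩ l).2 ⟨i, h⟩)), zero_mul]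

omit [Fintype L] [DecidableEq L] in
theorem pure_enum {m : ℕ} {Ω0 : Finset L} (h0 : Ω0.card = m) :
    ∃ e : Finset L → Fin m → L, ∀ Ω : Finset L, Ω.card = m →
      Function.Injective (e Ω) ∧ ∀ l, l ∈ Ω ↔ ∃ i, e Ω i = l := by
  have key : ∀ Ω : Finset L, ∃ e : Fin m → L, Ω.card = m →
      Function.Injective e ∧ ∀ l, l ∈ Ω ↔ ∃ i, e i = l := by
    intro Ω
    by_cases h : Ω.card = m
    · let ε : Ω ≃ Fin m := Finset.equivFinOfCardEq h
      refine ⟨fun i => (ε.symm i : L), fun _ => ⟨Subtype.val_injective.comp ε.symm.injective,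
        fun l => ⟨fun hl => ⟨ε ⟨l, hl⟩, by simp⟩, ?_⟩⟩⟩
      rintro ⟨i, rfl⟩
      exact (ε.symm i).2
    · let ε : Ω0 ≃ Fin m := Finset.equivFinOfCardEq h0
      exact ⟨fun i => (ε.symm i : L), fun h' => absurd h' h⟩
  choose e he using key
  exact ⟨e, he⟩

/-- value of a word all of whose gaps vanish -/
def pureW {R : Type} [CommRing R] [Algebra O R] (y : Asg V L R) : List (Step O L V) → Matrix L L R
  | [] => 1
  | s :: l => pureW y l * s.valG y 0

theorem pureW_prodL (x : Asg V L ℂ) {l : List (Step O L V)} (h : ∀ s ∈ l, s.IsFull) :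
    prodL x l = pureW x l := by
  induction l with
  | nil => rfl
  | cons s l ih =>
    obtain ⟨v, b, Ω, Ω', rfl⟩ := h s List.mem_cons_self
    simp only [prodL, pureW]
    rw [ih fun t ht => h t (List.mem_cons_of_mem _ ht)]
    rfl

theorem pureW_PL (π : B →ₐ[O] ℂ) (y : Asg V L B) {l : List (Step O L V)} (h : ∀ s ∈ l, s.IsFull) :
    PL π y l (pureW y l) := by
  induction l with
  | nil => rfl
  | cons s l ih =>
    obtain ⟨v, b, Ω, Ω', rfl⟩ := h s List.mem_cons_self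
    exact ⟨_, _, (SL_triv (Or.inr rfl) rfl).2 rfl, ih fun t ht => h t (List.mem_cons_of_mem _ ht), rfl⟩

omit [Algebra O ℂ] in
theorem pure_names {l : List (Step O L V)} (h : ∀ s ∈ l, s.IsFull ∧ s.X.Nonempty) :
    (occL l).map Occ.name = (l.filterMap Step.o1 : List (V × Bool)) := by
  induction l with
  | nil => rfl
  | cons s l ih =>
    obtain ⟨⟨v, b, Ω, Ω', rfl⟩, hne⟩ := h s List.mem_cons_self
    rw [occL_cons, Multiset.map_add, ih fun t ht => h t (List.mem_cons_of_mem _ ht),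
      occ_full_of_nonempty v b (Ω := Ω) Ω' hne]
    rfl

omit [Algebra O ℂ] in
theorem pure_word {R : Type} [CommRing R] [Algebra O R] {m : ℕ} (hm : 0 < m)
    (p : Finset L → Matrix (Fin m) L R) (q : Finset L → Matrix L (Fin m) R)
    (hpq : ∀ Ω : Finset L, Ω.card = m → p Ω * q Ω = 1 ∧ q Ω * p Ω = eS R Ω)
    (y : Asg V L R) (Y : V → GLm (Fin m) R) {l : List (Step O L V)} (hF : ∀ s ∈ l, s.IsFull)
    (hy : ∀ c ∈ occL l, Sup c.X1 c.X (y c.v c.b) ∧ p c.X1 * y c.v c.b * q c.X =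
      ((if c.b then (Y c.v)⁻¹ else Y c.v : GLm (Fin m) R) : Matrix (Fin m) (Fin m) R)) :
    ∀ {Q Q' : St L}, Seg Q l Q' → Q.set.card = m → p Q'.set * pureW y l * q Q.set =
      ((wordVal Y (l.filterMap Step.o1).reverse : GLm (Fin m) R) : Matrix (Fin m) (Fin m) R) := by
  induction l with
  | nil =>
    intro Q Q' h hQ
    have e : Q.set = Q'.set := h.1
    simp only [pureW, Matrix.mul_one, ← e, (hpq _ hQ).1]
    rfl
  | cons s l ih =>
    intro Q Q' h hQ
    obtain ⟨v, b, Ω, Ω', rfl⟩ := hF s List.mem_cons_self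
    obtain ⟨h1, h2, h3⟩ := (seg_full (l1 := [])).1 h
    have e : Q.set = Ω := by
      have : Q.set = Ω ∪ ∅ := h1.1
      rwa [Finset.union_empty] at this
    have hΩ : Ω.card = m := e ▸ hQ
    have hΩ' : Ω'.card = m := h2 ▸ hΩ
    have hne : Ω.Nonempty := Finset.card_pos.1 (hΩ ▸ hm)
    have e' : (⟨Ω', ∅⟩ : St L).set = Ω' := Finset.union_empty _
    have hc := hy ⟨v, b, Ω, Ω'⟩ (by
      rw [occL_cons, occ_full_of_nonempty v b Ω' hne]
      simp)
    have ih' := ih (fun t ht => hF t (List.mem_cons_of_mem _ ht))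
      (fun c hc => hy c (by rw [occL_cons]; exact Multiset.mem_add.2 (Or.inr hc))) h3
      (by rw [e', hΩ'])
    rw [e'] at ih'
    have hw : wordVal Y ((Step.full v b Ω Ω' :: l).filterMap Step.o1).reverse =
        wordVal Y (l.filterMap Step.o1).reverse * (if b then (Y v)⁻¹ else Y v) := by
      have : (Step.full v b Ω Ω' :: l).filterMap Step.o1 = (v, b) :: l.filterMap Step.o1 := rfl
      rw [this, List.reverse_cons]
      simp [wordVal]
    rw [hw, Units.val_mul, ← ih', ← hc.2, e]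
    simp only [pureW]
    rw [valG_full hc.1]
    calc p Q'.set * (pureW y l * y v b) * q Ω
        = p Q'.set * (pureW y l * (q Ω' * p Ω' * y v b)) * q Ω := by
          rw [(hpq _ hΩ').2, hc.1.eS_mul subset_rfl]
      _ = _ := by simp only [Matrix.mul_assoc]

theorem mv_pure (hG : Good π) {x : Asg V L ℂ} {f : Face O L V} {D0 : Diag O L V}
    (hW : WF (f ::ₘ D0)) (hS : Sol x (f ::ₘ D0)) (hB : BigCl f.size D0) (h0 : 0 < f.size)
    (hF : ∀ s ∈ f.l, s.IsFull) (hQ : QL π (Fin f.size)) :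
    Red π x (f ::ₘ D0) x D0 := by
  classical
  have hseg : Seg f.Q f.l f.Q := hW.seg f (Multiset.mem_cons_self _ _)
  have hfull : ∀ s ∈ f.l, s.IsFull ∧ s.X.Nonempty ∧ s.X.card = f.size := by
    intro s hs
    obtain ⟨v, b, Ω, Ω', rfl⟩ := hF s hs
    have h1 : (Ω ∪ ∅).card = f.size := (hseg.step hs).2.2
    rw [Finset.union_empty] at h1
    exact ⟨⟨v, b, Ω, Ω', rfl⟩, Finset.card_pos.1 (h1 ▸ h0), h1⟩
  have hocc : ∀ c ∈ f.occ, Step.full c.v c.b c.X c.X1 ∈ f.l := by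
    intro c hc
    obtain ⟨s, hs, hcs⟩ := mem_occL.1 hc
    obtain ⟨⟨v, b, Ω, Ω', rfl⟩, hne, -⟩ := hfull s hs
    rw [occ_full_of_nonempty v b (Ω := Ω) Ω' hne, Multiset.mem_singleton] at hcs
    subst hcs
    exact hs
  have hflip : ∀ c ∈ f.occ, c.flip ∈ f.occ := by
    intro c hc
    have h1 := partner_full hW hB (fun s hs => Or.inr (hF s hs)) h0 (hocc c hc)
    refine mem_occL.2 ⟨_, h1, ?_⟩
    rw [occ_full_of_nonempty _ _ (Ω := c.X1) _ (hfull _ h1).2.1]
    exact Multiset.mem_singleton_self _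
  have hcard : ∀ c ∈ f.occ, c.X.card = f.size ∧ c.X1.card = f.size := fun c hc =>
    ⟨(hfull _ (hocc c hc)).2.2, (hfull _ (hocc _ (hflip c hc))).2.2⟩
  have hO := hW.occ
  rw [occD_cons] at hO
  obtain ⟨hO0, hOf, hne⟩ := hO.remove_closed hflip
  obtain ⟨⟨hvar, -, heqn⟩, hS0⟩ := sol_cons.1 hS
  obtain ⟨e, he⟩ := pure_enum (Ω0 := f.Q.set) (m := f.size) rfl
  have hpq : ∀ (R : Type) [CommRing R] (Ω : Finset L), Ω.card = f.size →
      pureP R (e Ω) * (pureP R (e Ω))ᵀ = 1 ∧ (pureP R (e Ω))ᵀ * pureP R (e Ω) = eS R Ω :=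
    fun R _ Ω hΩ => ⟨pureP_mul_t R (he Ω hΩ).1, pureP_t_mul R (he Ω hΩ).1 (he Ω hΩ).2⟩
  have hqe : ∀ (R : Type) [CommRing R] (Ω : Finset L), Ω.card = f.size →
      eS R Ω * (pureP R (e Ω))ᵀ = (pureP R (e Ω))ᵀ ∧ pureP R (e Ω) * eS R Ω = pureP R (e Ω) := by
    intro R _ Ω hΩ
    obtain ⟨h1, h2⟩ := hpq R Ω hΩ
    exact ⟨by rw [← h2, Matrix.mul_assoc, h1, Matrix.mul_one],
      by rw [← h2, ← Matrix.mul_assoc, h1, Matrix.one_mul]⟩
  -- the complex values of the variables as elements of `GL`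
  have hX : ∀ v, ∃ a : GLm (Fin f.size) ℂ, ∀ c ∈ f.occ, c.v = v →
      pureP ℂ (e c.X1) * x c.v c.b * (pureP ℂ (e c.X))ᵀ =
        ((if c.b then a⁻¹ else a : GLm (Fin f.size) ℂ) : Matrix (Fin f.size) (Fin f.size) ℂ) := by
    intro v
    by_cases hv : ∃ c ∈ f.occ, c.v = v
    · obtain ⟨c0, hc0, hb0, rfl⟩ : ∃ c ∈ f.occ, c.b = false ∧ c.v = v := by
        obtain ⟨c, hc, rfl⟩ := hv
        cases hb : c.b
        · exact ⟨c, hc, hb, rfl⟩
        · exact ⟨c.flip, hflip c hc, by simp [Occ.flip, hb], rfl⟩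
      have hPI := hvar c0 hc0
      obtain ⟨k0, k1⟩ := hcard c0 hc0
      refine ⟨⟨pureP ℂ (e c0.X1) * x c0.v c0.b * (pureP ℂ (e c0.X))ᵀ,
        pureP ℂ (e c0.X) * x c0.v (!c0.b) * (pureP ℂ (e c0.X1))ᵀ, ?_, ?_⟩, fun c hc hcv => ?_⟩
      · calc _ = pureP ℂ (e c0.X1) * (x c0.v c0.b * ((pureP ℂ (e c0.X))ᵀ * pureP ℂ (e c0.X)) *
              x c0.v (!c0.b)) * (pureP ℂ (e c0.X1))ᵀ := by simp only [Matrix.mul_assoc]
          _ = 1 := by
            rw [(hpq ℂ _ k0).2, hPI.s1.mul_eS subset_rfl, hPI.r, (hqe ℂ _ k1).2, (hpq ℂ _ k1).1]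
      · calc _ = pureP ℂ (e c0.X) * (x c0.v (!c0.b) * ((pureP ℂ (e c0.X1))ᵀ * pureP ℂ (e c0.X1)) *
              x c0.v c0.b) * (pureP ℂ (e c0.X))ᵀ := by simp only [Matrix.mul_assoc]
          _ = 1 := by
            rw [(hpq ℂ _ k1).2, hPI.s2.mul_eS subset_rfl, hPI.l, (hqe ℂ _ k0).2, (hpq ℂ _ k0).1]
      · rcases hOf.eq_or_flip hc0 hc hcv with rfl | rfl
        · rw [if_neg (by simp [hb0])]
        · rw [if_pos (by simp [Occ.flip, hb0])]
          rfl
    · exact ⟨1, fun c hc hcv => absurd ⟨c, hc, hcv⟩ hv⟩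
  choose X hX using hX
  have hword := pure_word h0 (fun Ω => pureP ℂ (e Ω)) (fun Ω => (pureP ℂ (e Ω))ᵀ) (hpq ℂ) x X hF
    (fun c hc => ⟨(hvar c hc).s1, hX c.v c hc rfl⟩) hseg rfl
  have hnames := pure_names (l := f.l) fun s hs => ⟨(hfull s hs).1, (hfull s hs).2.1⟩
  have hx : wordVal X (f.l.filterMap Step.o1).reverse =
      mapU (π : B →+* ℂ) (scalU (Fin f.size) B f.u⁻¹) := by
    rw [mapU_scalU]
    apply Units.ext
    rw [← hword, scalU_val, ← pureW_prodL x hF]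
    have h1 : algebraMap O ℂ (f.u : O) • (prodL x f.l * eS ℂ f.Q.set) = eS ℂ f.Q.set := heqn
    have h2 : algebraMap O ℂ (f.u : O) •
        (pureP ℂ (e f.Q.set) * prodL x f.l * (pureP ℂ (e f.Q.set))ᵀ) = 1 := by
      calc _ = pureP ℂ (e f.Q.set) * (algebraMap O ℂ (f.u : O) • (prodL x f.l * eS ℂ f.Q.set)) *
            (pureP ℂ (e f.Q.set))ᵀ := by
            simp only [Matrix.mul_smul, Matrix.smul_mul, Matrix.mul_assoc, (hqe ℂ f.Q.set rfl).1]
        _ = 1 := by rw [h1, (hqe ℂ f.Q.set rfl).2, (hpq ℂ f.Q.set rfl).1]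
    rw [← h2, smul_smul, ← map_mul, Units.inv_mul, map_one, one_smul]
  obtain ⟨Y, hY, hYw⟩ := quad_lift (mapU (π : B →+* ℂ)) (GL_lift hG) (scalU (Fin f.size) B f.u⁻¹)
    (fun g T hT => hQ g f.u⁻¹ T (by rw [hT, mapU_scalU]))
    (f.l.filterMap Step.o1).reverse
    (by
      rw [List.nodup_reverse, ← Multiset.coe_nodup, ← hnames]
      exact hOf.nodup)
    (by
      intro a ha
      rw [List.mem_reverse, ← Multiset.mem_coe, ← hnames] at ha ⊢
      obtain ⟨c, hc, rfl⟩ := Multiset.mem_map.1 ha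
      exact Multiset.mem_map.2 ⟨c.flip, hflip c hc, rfl⟩) X hx
  refine ⟨⟨fun g hg => hW.seg g (Multiset.mem_cons_of_mem hg), hO0⟩, hS0, ?_⟩
  rintro ⟨y', hy1, hy2, hy3⟩
  have hy : ∀ v, ∃ w : Bool → Matrix L L B, (∀ c ∈ f.occ, c.v = v →
      w c.b = (pureP B (e c.X1))ᵀ *
        ((if c.b then (Y v)⁻¹ else Y v : GLm (Fin f.size) B) : Matrix (Fin f.size) (Fin f.size) B) * pureP B (e c.X)) ∧
      ((∀ c ∈ f.occ, v ≠ c.v) → w = y' v) := by
    intro v
    by_cases hv : ∃ c ∈ f.occ, c.v = v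
    · obtain ⟨c0, hc0, rfl⟩ := hv
      refine ⟨fun b => if b = c0.b then (pureP B (e c0.X1))ᵀ *
        ((if b then (Y c0.v)⁻¹ else Y c0.v : GLm (Fin f.size) B) : Matrix (Fin f.size) (Fin f.size) B) * pureP B (e c0.X)
        else (pureP B (e c0.X))ᵀ *
        ((if b then (Y c0.v)⁻¹ else Y c0.v : GLm (Fin f.size) B) : Matrix (Fin f.size) (Fin f.size) B) * pureP B (e c0.X1),
        fun c hc hcv => ?_, fun h => absurd rfl (h c0 hc0)⟩
      rcases hOf.eq_or_flip hc0 hc hcv with rfl | rfl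
      · exact if_pos rfl
      · exact if_neg (by simp [Occ.flip])
    · exact ⟨y' v, fun c hc hcv => absurd ⟨c, hc, hcv⟩ hv, fun _ => rfl⟩
  choose y hya hyb using hy
  have hag : Agree y' y (occD D0) := fun c hc b => by
    rw [hyb c.v fun c' hc' => hne c' hc' c hc]
  have hmap : ∀ c ∈ f.occ, (y c.v c.b).map π = x c.v c.b := by
    intro c hc
    obtain ⟨k0, k1⟩ := hcard c hc
    have h1 : (((if c.b then (Y c.v)⁻¹ else Y c.v : GLm (Fin f.size) B) : Matrix (Fin f.size) (Fin f.size) B).map π) =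
        ((if c.b then (X c.v)⁻¹ else X c.v : GLm (Fin f.size) ℂ) : Matrix (Fin f.size) (Fin f.size) ℂ) := by
      rw [← hY c.v, ← map_inv, ← apply_ite (mapU (π : B →+* ℂ))]
      rfl
    rw [hya c.v c hc rfl, Matrix.map_mul, Matrix.map_mul, h1, Matrix.transpose_map, pureP_map,
      pureP_map, ← hX c.v c hc rfl]
    calc _ = ((pureP ℂ (e c.X1))ᵀ * pureP ℂ (e c.X1)) * x c.v c.b *
          ((pureP ℂ (e c.X))ᵀ * pureP ℂ (e c.X)) := by simp only [Matrix.mul_assoc]
      _ = _ := by rw [(hpq ℂ _ k0).2, (hpq ℂ _ k1).2, sup_iff.1 (hvar c hc).s1]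
  have hsup : ∀ c ∈ f.occ, Sup c.X1 c.X (y c.v c.b) := by
    intro c hc
    obtain ⟨k0, k1⟩ := hcard c hc
    rw [sup_iff, hya c.v c hc rfl]
    simp only [← Matrix.mul_assoc]
    rw [(hqe B _ k1).1, Matrix.mul_assoc, (hqe B _ k0).2]
  have hl : ∀ c ∈ f.occ, y c.v (!c.b) * y c.v c.b = eS B c.X := by
    intro c hc
    obtain ⟨k0, k1⟩ := hcard c hc
    have h1 : y c.v (!c.b) = (pureP B (e c.X))ᵀ *
        ((if (!c.b) then (Y c.v)⁻¹ else Y c.v : GLm (Fin f.size) B) : Matrix (Fin f.size) (Fin f.size) B) *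
        pureP B (e c.X1) := hya c.v c.flip (hflip c hc) rfl
    have h2 : (if (!c.b) then (Y c.v)⁻¹ else Y c.v : GLm (Fin f.size) B) *
        (if c.b then (Y c.v)⁻¹ else Y c.v : GLm (Fin f.size) B) = 1 := by
      cases c.b <;> simp
    rw [h1, hya c.v c hc rfl]
    calc _ = (pureP B (e c.X))ᵀ *
        (((if (!c.b) then (Y c.v)⁻¹ else Y c.v : GLm (Fin f.size) B) : Matrix (Fin f.size) (Fin f.size) B) *
        (pureP B (e c.X1) * (pureP B (e c.X1))ᵀ) *
        ((if c.b then (Y c.v)⁻¹ else Y c.v : GLm (Fin f.size) B) : Matrix (Fin f.size) (Fin f.size) B)) *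
        pureP B (e c.X) := by simp only [Matrix.mul_assoc]
      _ = _ := by
        rw [(hpq B _ k1).1, Matrix.mul_one, ← Units.val_mul, h2, Units.val_one, Matrix.mul_one,
          (hpq B _ k0).2]
  have hvarB : VarOK y f.occ := fun c hc =>
    ⟨hsup c hc, hsup c.flip (hflip c hc), hl c hc, by
      have := hl c.flip (hflip c hc)
      simpa [Occ.flip] using this⟩
  refine ⟨y, fun c hc b => ?_, ?_, fun g hg => ?_⟩
  · rw [occD_cons] at hc
    rcases Multiset.mem_add.1 hc with hc | hc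
    · by_cases hb : b = c.b
      · rw [hb]
        exact hmap c hc
      · rw [Bool.eq_not.2 hb]
        exact hmap c.flip (hflip c hc)
    · rw [← hag c hc b]
      exact hy1 c hc b
  · rw [occD_cons]
    exact varOK_add.2 ⟨hvarB, hy2.congr hag⟩
  · rcases Multiset.mem_cons.1 hg with rfl | hg
    · have hPL := pureW_PL π y hF
      refine ⟨_, hPL, ?_⟩
      have hwB := pure_word h0 (fun Ω => pureP B (e Ω)) (fun Ω => (pureP B (e Ω))ᵀ) (hpq B) y Y hF
        (fun c hc => ⟨hsup c hc, by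
          obtain ⟨k0, k1⟩ := hcard c hc
          rw [hya c.v c hc rfl]
          simp only [← Matrix.mul_assoc]
          rw [(hpq B _ k1).1, Matrix.one_mul, Matrix.mul_assoc, (hpq B _ k0).1, Matrix.mul_one]⟩)
        hseg rfl
      rw [hYw, scalU_val] at hwB
      obtain ⟨p', hp'⟩ := hPL.pi hseg hvarB
      have h1 : pureW y g.l * eS B g.Q.set = algebraMap O B ((g.u⁻¹ : Oˣ) : O) • eS B g.Q.set := by
        calc _ = eS B g.Q.set * (pureW y g.l * eS B g.Q.set) := (hp'.s1.eS_mul subset_rfl).symm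
          _ = (pureP B (e g.Q.set))ᵀ * (pureP B (e g.Q.set) * pureW y g.l *
              (pureP B (e g.Q.set))ᵀ) * pureP B (e g.Q.set) := by
              rw [← (hpq B g.Q.set rfl).2]
              simp only [Matrix.mul_assoc]
          _ = _ := by
              rw [hwB, Matrix.mul_smul, Matrix.mul_one, Matrix.smul_mul, (hpq B g.Q.set rfl).2]
      change algebraMap O B (g.u : O) • (pureW y g.l * eS B g.Q.set) = eS B g.Q.set
      rw [h1, smul_smul, ← map_mul, Units.mul_inv, map_one, one_smul]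
    · obtain ⟨p, hp, hp'⟩ := hy3 g hg
      exact ⟨p, hp.congr fun c hc => hag c (mem_occD.2 ⟨g, hg, hc⟩), hp'⟩

end Crest.Agent.R3
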