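import Mathlib

/-!
# R3 / Gour : normal form of three subspaces (representations of the quiver `D₄`)

Let `I = U1 ⊓ U2 ⊓ U3`, `W1 = U1 ⊓ (U2 ⊔ U3)`, `W2 = U2 ⊓ (U1 ⊔ U3)`, `W3 = U3 ⊓ (U1 ⊔ U2)`.
`V111 = I`; `V110, V101, V011` complements of `I` in `U1 ⊓ U2`, `U1 ⊓ U3`, `U2 ⊓ U3`; `D1` a complement of
`U1 ⊓ U2 ⊔ U1 ⊓ U3` in `W1`; for a basis `d k` of `D1` choose `d' k ∈ U2` with `d k + d' k ∈ U3`;
`V100, V010, V001` complements of `W1, W2, W3` in `U1, U2, U3`; `V000` a complement of `U1 ⊔ U2 ⊔ U3`.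
Independence: if the sum of the components is `0` then successively `v000 = 0`; `v001 ∈ W3`, `v100 ∈ W1`,
`v010 ∈ W2` vanish; `v111 + v110 + v101 + d ∈ U1 ⊓ U2` gives `d = 0`; if `d' = ∑ c k • d' k`, `d0 = ∑ c k • d k`,
then `d0 - v110 = (d0 + d') + v111 + v101 + v011 ∈ U1 ⊓ U3` gives `c = 0`; finally `v110 ∈ U3` etc.
Spanning: if `u2 = u1 + u3 ∈ W2` then `u1 ∈ W1`, `u1 = a + b + d` with `a ∈ U1 ⊓ U2`, `b ∈ U1 ⊓ U3`, and
`u2 - a + d' = b + (d + d') + u3 ∈ U2 ⊓ U3`; similarly for `W3`.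
-/

set_option autoImplicit false

noncomputable section

namespace Crest.Agent.R3

/-- index set of the adapted basis -/
abbrev GIdx (n : Bool × Bool × Bool → ℕ) (k : ℕ) : Type :=
  (Σ c : Bool × Bool × Bool, Fin (n c)) ⊕ (Fin k ⊕ Fin k)

section aux
variable {E : Type} [AddCommGroup E] [Module ℂ E]

theorem gour_le {ι : Type} {W : Submodule ℂ E} (b : Module.Basis ι ℂ W) (ψ : W →ₗ[ℂ] E)
    (S : Submodule ℂ E) (h : ∀ i, ψ (b i) ∈ S) (w : W) : ψ w ∈ S := by
  have : (⊤ : Submodule ℂ W) ≤ S.comap ψ := by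
    rw [← b.span_eq, Submodule.span_le]
    rintro _ ⟨i, rfl⟩
    exact h i
  exact this Submodule.mem_top

theorem gour_phi [FiniteDimensional ℂ E] {D U2 U3 : Submodule ℂ E} (h : D ≤ U2 ⊔ U3) :
    ∃ φ : D →ₗ[ℂ] E, (∀ x, φ x ∈ U2) ∧ ∀ x : D, (x : E) + φ x ∈ U3 := by
  let b := Module.finBasis ℂ D
  have : ∀ i, ∃ y ∈ U2, (b i : E) + y ∈ U3 := by
    intro i
    obtain ⟨u, hu, w, hw, e⟩ := Submodule.mem_sup.1 (h (b i).2)
    refine ⟨-u, U2.neg_mem hu, ?_⟩
    rw [← e]
    simpa using hw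
  choose y hy hy' using this
  refine ⟨b.constr ℂ y, gour_le b _ _ fun i => by simpa using hy i,
    gour_le b (D.subtype + b.constr ℂ y) _ fun i => by simpa using hy' i⟩

theorem gour_zero {A B : Submodule ℂ E} (h : Disjoint A B) {v : E} (ha : v ∈ A) (hb : v ∈ B) :
    v = 0 := Submodule.disjoint_def.1 h v ha hb

theorem gour_main [FiniteDimensional ℂ E] (U1 U2 U3 : Submodule ℂ E) :
    ∃ (V : Bool × Bool × Bool → Submodule ℂ E) (D : Submodule ℂ E) (φ : D →ₗ[ℂ] E),
      (∀ (v : Bool × Bool × Bool → E) (x y : D), (∀ c, v c ∈ V c) →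
        ∑ c, v c + ((x : E) + φ y) = 0 → (∀ c, v c = 0) ∧ x = 0 ∧ y = 0) ∧
      (∀ c, c.1 = true → V c ≤ U1) ∧ D ≤ U1 ∧ (∀ c, c.2.1 = true → V c ≤ U2) ∧ (∀ x, φ x ∈ U2) ∧
      (∀ c, c.2.2 = true → V c ≤ U3) ∧ (∀ x : D, (x : E) + φ x ∈ U3) ∧
      (∀ S, (∀ c, c.1 = true → V c ≤ S) → D ≤ S → U1 ≤ S) ∧
      (∀ S, (∀ c, c.2.1 = true → V c ≤ S) → (∀ x, φ x ∈ S) → U2 ≤ S) ∧
      (∀ S, (∀ c, c.2.2 = true → V c ≤ S) → (∀ x : D, (x : E) + φ x ∈ S) → U3 ≤ S) ∧
      U1 ⊔ U2 ⊔ U3 ⊔ V (false, false, false) = ⊤ := by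
  obtain ⟨A, dA, sA⟩ := IsModularLattice.exists_disjoint_and_sup_eq
    (show U1 ⊓ U2 ⊓ U3 ≤ U1 ⊓ U2 from inf_le_left)
  obtain ⟨B, dB, sB⟩ := IsModularLattice.exists_disjoint_and_sup_eq
    (show U1 ⊓ U2 ⊓ U3 ≤ U1 ⊓ U3 from le_inf (inf_le_left.trans inf_le_left) inf_le_right)
  obtain ⟨C, dC, sC⟩ := IsModularLattice.exists_disjoint_and_sup_eq
    (show U1 ⊓ U2 ⊓ U3 ≤ U2 ⊓ U3 from le_inf (inf_le_left.trans inf_le_right) inf_le_right)
  obtain ⟨D, dD, sD⟩ := IsModularLattice.exists_disjoint_and_sup_eq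
    (show U1 ⊓ U2 ⊔ U1 ⊓ U3 ≤ U1 ⊓ (U2 ⊔ U3) from le_inf_sup)
  obtain ⟨P, dP, sP⟩ := IsModularLattice.exists_disjoint_and_sup_eq
    (show U1 ⊓ (U2 ⊔ U3) ≤ U1 from inf_le_left)
  obtain ⟨Q, dQ, sQ⟩ := IsModularLattice.exists_disjoint_and_sup_eq
    (show U2 ⊓ (U1 ⊔ U3) ≤ U2 from inf_le_left)
  obtain ⟨R, dR, sR⟩ := IsModularLattice.exists_disjoint_and_sup_eq
    (show U3 ⊓ (U1 ⊔ U2) ≤ U3 from inf_le_left)
  obtain ⟨Z, dZ, sZ⟩ := IsModularLattice.exists_disjoint_and_sup_eq
    (show U1 ⊔ U2 ⊔ U3 ≤ ⊤ from le_top)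
  have A12 : A ≤ U1 ⊓ U2 := sA ▸ le_sup_right
  have B13 : B ≤ U1 ⊓ U3 := sB ▸ le_sup_right
  have C23 : C ≤ U2 ⊓ U3 := sC ▸ le_sup_right
  have DW : D ≤ U1 ⊓ (U2 ⊔ U3) := sD ▸ le_sup_right
  have P1 : P ≤ U1 := sP ▸ le_sup_right
  have Q2 : Q ≤ U2 := sQ ▸ le_sup_right
  have R3 : R ≤ U3 := sR ▸ le_sup_right
  obtain ⟨φ, hφ2, hφ3⟩ := gour_phi (DW.trans inf_le_right)
  -- decomposition of the elements of `W1`
  have dec : ∀ u ∈ U1, u ∈ U2 ⊔ U3 →
      ∃ a ∈ U1 ⊓ U2, ∃ b ∈ U1 ⊓ U3, ∃ d : D, u = a + b + d := by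
    intro u h1 h2
    have h3 : u ∈ U1 ⊓ U2 ⊔ U1 ⊓ U3 ⊔ D := sD ▸ ⟨h1, h2⟩
    obtain ⟨w, hw, d, hd, e⟩ := Submodule.mem_sup.1 h3
    obtain ⟨a, ha, b, hb, e'⟩ := Submodule.mem_sup.1 hw
    exact ⟨a, ha, b, hb, ⟨d, hd⟩, by rw [e', e]⟩
  let V : Bool × Bool × Bool → Submodule ℂ E := fun c =>
    match c with
    | (true, true, true) => U1 ⊓ U2 ⊓ U3
    | (true, true, false) => A
    | (true, false, true) => B
    | (true, false, false) => P
    | (false, true, true) => C
    | (false, true, false) => Q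
    | (false, false, true) => R
    | (false, false, false) => Z
  refine ⟨V, D, φ, ?_, ?_, DW.trans inf_le_left, ?_, hφ2, ?_, hφ3, ?_, ?_, ?_, sZ⟩
  · intro v x y hv e
    simp only [Fintype.sum_prod_type, Fintype.sum_bool] at e
    have hi : v (true, true, true) ∈ U1 ⊓ U2 ⊓ U3 := hv (true, true, true)
    have ha : v (true, true, false) ∈ A := hv (true, true, false)
    have hb : v (true, false, true) ∈ B := hv (true, false, true)
    have hp : v (true, false, false) ∈ P := hv (true, false, false)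
    have hc : v (false, true, true) ∈ C := hv (false, true, true)
    have hq : v (false, true, false) ∈ Q := hv (false, true, false)
    have hr : v (false, false, true) ∈ R := hv (false, false, true)
    have hz : v (false, false, false) ∈ Z := hv (false, false, false)
    suffices h : v (true, true, true) = 0 ∧ v (true, true, false) = 0 ∧ v (true, false, true) = 0 ∧
        v (true, false, false) = 0 ∧ v (false, true, true) = 0 ∧ v (false, true, false) = 0 ∧
        v (false, false, true) = 0 ∧ v (false, false, false) = 0 ∧ x = 0 ∧ y = 0 by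
      refine ⟨?_, h.2.2.2.2.2.2.2.2⟩
      rintro ⟨_ | _, _ | _, _ | _⟩ <;> simp only [h]
    generalize v (true, true, true) = i at *
    generalize v (true, true, false) = a at *
    generalize v (true, false, true) = b at *
    generalize v (true, false, false) = p at *
    generalize v (false, true, true) = c at *
    generalize v (false, true, false) = q at *
    generalize v (false, false, true) = r at *
    generalize v (false, false, false) = z at *
    obtain ⟨⟨i1, i2⟩, i3⟩ := hi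
    obtain ⟨a1, a2⟩ := A12 ha
    obtain ⟨b1, b3⟩ := B13 hb
    obtain ⟨c2, c3⟩ := C23 hc
    obtain ⟨x1, x23⟩ := DW x.2
    obtain ⟨y1, -⟩ := DW y.2
    have p1 := P1 hp
    have q2 := Q2 hq
    have r3 := R3 hr
    have f2 := hφ2 y
    have f3 := hφ3 y
    have z0 : z = 0 := by
      refine gour_zero dZ ?_ hz
      have : z = -(i + a + b + p + x) + -(c + q + φ y) + -r := by
        linear_combination (norm := abel1) e
      rw [this]
      exact Submodule.add_mem_sup (Submodule.add_mem_sup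
        (neg_mem (add_mem (add_mem (add_mem (add_mem i1 a1) b1) p1) x1))
        (neg_mem (add_mem (add_mem c2 q2) f2))) (neg_mem r3)
    subst z0
    have r0 : r = 0 := by
      refine gour_zero dR ⟨r3, ?_⟩ hr
      have : r = -(i + a + b + p + x) + -(c + q + φ y) := by
        linear_combination (norm := abel1) e
      rw [this]
      exact Submodule.add_mem_sup
        (neg_mem (add_mem (add_mem (add_mem (add_mem i1 a1) b1) p1) x1))
        (neg_mem (add_mem (add_mem c2 q2) f2))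
    subst r0
    have p0 : p = 0 := by
      refine gour_zero dP ⟨p1, ?_⟩ hp
      have : p = (-(i + a + c + q + φ y) + -b) + -x := by
        linear_combination (norm := abel1) e
      rw [this]
      exact add_mem (Submodule.add_mem_sup
        (neg_mem (add_mem (add_mem (add_mem (add_mem i2 a2) c2) q2) f2)) (neg_mem b3))
        (neg_mem x23)
    subst p0
    have q0 : q = 0 := by
      refine gour_zero dQ ⟨q2, ?_⟩ hq
      have : q = -(i + a + b + x - y) + -(c + (y + φ y)) := by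
        linear_combination (norm := abel1) e
      rw [this]
      exact Submodule.add_mem_sup
        (neg_mem (sub_mem (add_mem (add_mem (add_mem i1 a1) b1) x1) y1))
        (neg_mem (add_mem c3 f3))
    subst q0
    have xy : x = y := by
      have h1 : (x : E) - y = 0 := by
        refine gour_zero dD ?_ (sub_mem x.2 y.2)
        have e1 : (x : E) - y = -(i + a) + -(b + (c + (y + φ y))) := by
          linear_combination (norm := abel1) e
        have e2 : c + (y + φ y) = -(i + a + b + x - y) := by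
          linear_combination (norm := abel1) e
        rw [e1]
        refine Submodule.add_mem_sup (neg_mem (add_mem ⟨i1, i2⟩ ⟨a1, a2⟩))
          (neg_mem (add_mem ⟨b1, b3⟩ ⟨?_, add_mem c3 f3⟩))
        rw [e2]
        exact neg_mem (sub_mem (add_mem (add_mem (add_mem i1 a1) b1) x1) y1)
      exact Subtype.ext (sub_eq_zero.1 h1)
    subst xy
    have x0 : x = 0 := by
      have h1 : (x : E) = 0 := by
        refine gour_zero dD ?_ x.2
        have e1 : (x : E) = -(i + a + (c + φ x)) + -b := by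
          linear_combination (norm := abel1) e
        have e2 : c + φ x = -(i + a + b + x) := by
          linear_combination (norm := abel1) e
        rw [e1]
        refine Submodule.add_mem_sup (neg_mem (add_mem (add_mem ⟨i1, i2⟩ ⟨a1, a2⟩)
          ⟨?_, add_mem c2 f2⟩)) (neg_mem ⟨b1, b3⟩)
        rw [e2]
        exact neg_mem (add_mem (add_mem (add_mem i1 a1) b1) x1)
      exact Subtype.ext h1
    subst x0
    rw [map_zero, Submodule.coe_zero] at e
    have a0 : a = 0 := by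
      refine gour_zero dA ⟨⟨a1, a2⟩, ?_⟩ ha
      have : a = -(i + b + c) := by linear_combination (norm := abel1) e
      rw [this]
      exact neg_mem (add_mem (add_mem i3 b3) c3)
    subst a0
    have b0 : b = 0 := by
      refine gour_zero dB ⟨⟨b1, ?_⟩, b3⟩ hb
      have : b = -(i + c) := by linear_combination (norm := abel1) e
      rw [this]
      exact neg_mem (add_mem i2 c2)
    subst b0
    have c0 : c = 0 := by
      refine gour_zero dC ⟨⟨?_, c2⟩, c3⟩ hc
      have : c = -i := by linear_combination (norm := abel1) e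
      rw [this]
      exact neg_mem i1
    subst c0
    exact ⟨by simpa using e, rfl, rfl, rfl, rfl, rfl, rfl, rfl, rfl, rfl⟩
  · rintro ⟨_ | _, _ | _, _ | _⟩ h
    all_goals first
      | exact absurd h Bool.false_ne_true
      | exact P1
      | exact B13.trans inf_le_left
      | exact A12.trans inf_le_left
      | exact inf_le_left.trans inf_le_left
  · rintro ⟨_ | _, _ | _, _ | _⟩ h
    all_goals first
      | exact absurd h Bool.false_ne_true
      | exact Q2
      | exact C23.trans inf_le_left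
      | exact A12.trans inf_le_right
      | exact inf_le_left.trans inf_le_right
  · rintro ⟨_ | _, _ | _, _ | _⟩ h
    all_goals first
      | exact absurd h Bool.false_ne_true
      | exact R3
      | exact C23.trans inf_le_right
      | exact B13.trans inf_le_right
      | exact inf_le_right
  · intro S h hD
    rw [← sP, ← sD, ← sA, ← sB]
    exact sup_le (sup_le (sup_le (sup_le (h (true, true, true) rfl) (h (true, true, false) rfl))
      (sup_le (h (true, true, true) rfl) (h (true, false, true) rfl))) hD)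
      (h (true, false, false) rfl)
  · intro S h hD
    have h12 : U1 ⊓ U2 ≤ S := sA ▸ sup_le (h (true, true, true) rfl) (h (true, true, false) rfl)
    have h23 : U2 ⊓ U3 ≤ S := sC ▸ sup_le (h (true, true, true) rfl) (h (false, true, true) rfl)
    rw [← sQ]
    refine sup_le ?_ (h (false, true, false) rfl)
    rintro u ⟨hu2, hu⟩
    obtain ⟨u1, h1, u3, h3, e⟩ := Submodule.mem_sup.1 hu
    obtain ⟨a, ha, b, hb, d, e'⟩ := dec u1 h1 (by
      have : u1 = u + -u3 := by rw [← e]; abel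
      rw [this]
      exact Submodule.add_mem_sup hu2 (neg_mem h3))
    have h4 : u - a + φ d ∈ U2 ⊓ U3 := by
      refine ⟨add_mem (sub_mem hu2 ha.2) (hφ2 d), ?_⟩
      have : u - a + φ d = b + (d + φ d) + u3 := by rw [← e, e']; abel
      rw [this]
      exact add_mem (add_mem hb.2 (hφ3 d)) h3
    have : u = (u - a + φ d) + a - φ d := by abel
    rw [this]
    exact sub_mem (add_mem (h23 h4) (h12 ha)) (hD d)
  · intro S h hD
    have h13 : U1 ⊓ U3 ≤ S := sB ▸ sup_le (h (true, true, true) rfl) (h (true, false, true) rfl)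
    have h23 : U2 ⊓ U3 ≤ S := sC ▸ sup_le (h (true, true, true) rfl) (h (false, true, true) rfl)
    rw [← sR]
    refine sup_le ?_ (h (false, false, true) rfl)
    rintro u ⟨hu3, hu⟩
    obtain ⟨u1, h1, u2, h2, e⟩ := Submodule.mem_sup.1 hu
    obtain ⟨a, ha, b, hb, d, e'⟩ := dec u1 h1 (by
      have : u1 = -u2 + u := by rw [← e]; abel
      rw [this]
      exact Submodule.add_mem_sup (neg_mem h2) hu3)
    have h4 : u - b - (d + φ d) ∈ U2 ⊓ U3 := by
      refine ⟨?_, sub_mem (sub_mem hu3 hb.2) (hφ3 d)⟩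
      have : u - b - (d + φ d) = a + u2 - φ d := by rw [← e, e']; abel
      rw [this]
      exact sub_mem (add_mem ha.2 h2) (hφ2 d)
    have : u = (u - b - (d + φ d)) + b + (d + φ d) := by abel
    rw [this]
    exact add_mem (add_mem (h23 h4) (h13 hb)) (hD d)

end aux

theorem three_subspaces {E : Type} [AddCommGroup E] [Module ℂ E] [FiniteDimensional ℂ E]
    (U1 U2 U3 : Submodule ℂ E) :
    ∃ (n : Bool × Bool × Bool → ℕ) (k : ℕ) (b : Module.Basis (GIdx n k) ℂ E),
      U1 = Submodule.span ℂ ({v | ∃ c i, c.1 = true ∧ v = b (Sum.inl ⟨c, i⟩)} ∪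
        {v | ∃ j, v = b (Sum.inr (Sum.inl j))}) ∧
      U2 = Submodule.span ℂ ({v | ∃ c i, c.2.1 = true ∧ v = b (Sum.inl ⟨c, i⟩)} ∪
        {v | ∃ j, v = b (Sum.inr (Sum.inr j))}) ∧
      U3 = Submodule.span ℂ ({v | ∃ c i, c.2.2 = true ∧ v = b (Sum.inl ⟨c, i⟩)} ∪
        {v | ∃ j, v = b (Sum.inr (Sum.inl j)) + b (Sum.inr (Sum.inr j))}) := by
  obtain ⟨V, D, φ, ind, v1, d1, v2, d2, v3, d3, s1, s2, s3, st⟩ := gour_main U1 U2 U3
  let n : Bool × Bool × Bool → ℕ := fun c => Module.finrank ℂ (V c)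
  let k : ℕ := Module.finrank ℂ D
  let bv : ∀ c, Module.Basis (Fin (n c)) ℂ (V c) := fun c => Module.finBasis ℂ (V c)
  let bd : Module.Basis (Fin k) ℂ D := Module.finBasis ℂ D
  let f : GIdx n k → E := Sum.elim (fun p => (bv p.1 p.2 : E))
    (Sum.elim (fun j => (bd j : E)) fun j => φ (bd j))
  have hV : ∀ (S : Submodule ℂ E) c, (∀ i, f (Sum.inl ⟨c, i⟩) ∈ S) → V c ≤ S := fun S c h w hw =>
    gour_le (bv c) (V c).subtype S h ⟨w, hw⟩
  have hD : ∀ S : Submodule ℂ E, (∀ j, f (Sum.inr (Sum.inl j)) ∈ S) → D ≤ S := fun S h w hw =>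
    gour_le bd D.subtype S h ⟨w, hw⟩
  have hli : LinearIndependent ℂ f := by
    rw [Fintype.linearIndependent_iff]
    intro g e
    rw [Fintype.sum_sum_type, Fintype.sum_sum_type, Fintype.sum_sigma] at e
    obtain ⟨h1, h2, h3⟩ := ind (fun c => ((∑ i, g (Sum.inl ⟨c, i⟩) • bv c i : V c) : E))
      (∑ j, g (Sum.inr (Sum.inl j)) • bd j) (∑ j, g (Sum.inr (Sum.inr j)) • bd j)
      (fun c => Subtype.property _) (by simpa [f] using e)
    rintro (⟨c, i⟩ | j | j)
    · exact Fintype.linearIndependent_iff.1 (bv c).linearIndependent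
        (fun i => g (Sum.inl ⟨c, i⟩)) (Subtype.ext (h1 c)) i
    · exact Fintype.linearIndependent_iff.1 bd.linearIndependent
        (fun j => g (Sum.inr (Sum.inl j))) h2 j
    · exact Fintype.linearIndependent_iff.1 bd.linearIndependent
        (fun j => g (Sum.inr (Sum.inr j))) h3 j
  have hsp : ⊤ ≤ Submodule.span ℂ (Set.range f) := by
    have m : ∀ i, f i ∈ Submodule.span ℂ (Set.range f) := fun i =>
      Submodule.subset_span ⟨i, rfl⟩
    rw [← st]
    refine sup_le (sup_le (sup_le (s1 _ (fun c _ => hV _ c fun i => m _) (hD _ fun j => m _))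
      (s2 _ (fun c _ => hV _ c fun i => m _) (gour_le bd φ _ fun j => m (Sum.inr (Sum.inr j)))))
      (s3 _ (fun c _ => hV _ c fun i => m _) (gour_le bd (D.subtype + φ) _ fun j =>
        add_mem (m (Sum.inr (Sum.inl j))) (m (Sum.inr (Sum.inr j)))))) (hV _ _ fun i => m _)
  refine ⟨n, k, Module.Basis.mk hli hsp, ?_, ?_, ?_⟩
  · simp only [Module.Basis.mk_apply]
    refine le_antisymm (s1 _ (fun c hc => hV _ c fun i =>
      Submodule.subset_span (Or.inl ⟨c, i, hc, rfl⟩))
      (hD _ fun j => Submodule.subset_span (Or.inr ⟨j, rfl⟩))) (Submodule.span_le.2 ?_)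
    rintro _ (⟨c, i, hc, rfl⟩ | ⟨j, rfl⟩)
    · exact v1 c hc (bv c i).2
    · exact d1 (bd j).2
  · simp only [Module.Basis.mk_apply]
    refine le_antisymm (s2 _ (fun c hc => hV _ c fun i =>
      Submodule.subset_span (Or.inl ⟨c, i, hc, rfl⟩))
      (gour_le bd φ _ fun j => Submodule.subset_span (Or.inr ⟨j, rfl⟩))) (Submodule.span_le.2 ?_)
    rintro _ (⟨c, i, hc, rfl⟩ | ⟨j, rfl⟩)
    · exact v2 c hc (bv c i).2
    · exact d2 (bd j)
  · simp only [Module.Basis.mk_apply]
    refine le_antisymm (s3 _ (fun c hc => hV _ c fun i =>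
      Submodule.subset_span (Or.inl ⟨c, i, hc, rfl⟩))
      (gour_le bd (D.subtype + φ) _ fun j => Submodule.subset_span (Or.inr ⟨j, rfl⟩)))
      (Submodule.span_le.2 ?_)
    rintro _ (⟨c, i, hc, rfl⟩ | ⟨j, rfl⟩)
    · exact v3 c hc (bv c i).2
    · exact d3 (bd j)

end Crest.Agent.R3
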