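import Crest.Agent.R3.TriA
import Crest.Agent.R3.Gour
import Crest.Agent.R3.LiftB

/-!
# R3 / GourM : matrix form of the normal form of three subspaces

Apply `three_subspaces` in the space `E = span Ω` (for instance `Ω → ℂ`, or the submodule of `L → ℂ`) to
`U1 = span Xp`, `U2 = span X`, `U3 = G (span X2)`.  The index type of the basis has `card Ω` elements; choose a
bijection `β : GIdx n k ≃ Ω`, let `C c`, `K`, `K'` be the images of the summands, `τ` the product of the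
transpositions `(β (inr (inl j)), β (inr (inr j)))`.  `Φ'` has the column `b i` at the label `β i`, `Φ` is its inverse.
For the third flag: `cM` maps `e i` (`i ∈ C * * true`) to `± e i` and `e k + e (τ k)` to `- e (τ k)`, so
`cM Φ G` maps `span X2` onto `span rot.Fc`, `rot.Fc = C * * true ∪ K'`.
-/

set_option autoImplicit false

noncomputable section

open Matrix

namespace Crest.Agent.R3

variable {L : Type} [Fintype L] [DecidableEq L]

/-- the coordinate subspace of a set of labels -/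
def gourm_cs (A : Finset L) : Submodule ℂ (L → ℂ) where
  carrier := {v | ∀ i, i ∉ A → v i = 0}
  add_mem' := fun ha hb i hi => by simp [ha i hi, hb i hi]
  zero_mem' := fun i _ => rfl
  smul_mem' := fun c v hv i hi => by simp [hv i hi]

omit [Fintype L] in
theorem gourm_single_mem {A : Finset L} {j : L} (h : j ∈ A) :
    (Pi.single j 1 : L → ℂ) ∈ gourm_cs A := fun i hi =>
  Pi.single_eq_of_ne (fun e : i = j => hi (e ▸ h)) _

omit [Fintype L] [DecidableEq L] in
theorem gourm_cs_mono {A C : Finset L} (h : A ⊆ C) : gourm_cs A ≤ gourm_cs C :=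
  fun _ hv i hi => hv i fun h' => hi (h h')

theorem gourm_eS_mulVec (A : Finset L) (v : L → ℂ) (i : L) :
    (eS ℂ A *ᵥ v) i = if i ∈ A then v i else 0 := by
  simp [eS, mulVec_diagonal]

theorem gourm_eS_of_mem {A : Finset L} {v : L → ℂ} (h : v ∈ gourm_cs A) : eS ℂ A *ᵥ v = v := by
  funext i
  rw [gourm_eS_mulVec]
  split_ifs with hi
  · rfl
  · exact (h i hi).symm

theorem gourm_eS_single (A : Finset L) (j : L) :
    eS ℂ A *ᵥ (Pi.single j 1 : L → ℂ) = if j ∈ A then Pi.single j 1 else 0 := by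
  split_ifs with h
  · exact gourm_eS_of_mem (gourm_single_mem h)
  · funext i
    rw [gourm_eS_mulVec]
    split_ifs with hi
    · exact Pi.single_eq_of_ne (fun e : i = j => h (e ▸ hi)) _
    · rfl

omit [DecidableEq L] in
theorem gourm_sup_mulVec {A C : Finset L} {M : Matrix L L ℂ} (h : Sup A C M) (v : L → ℂ) :
    M *ᵥ v ∈ gourm_cs A := fun i hi =>
  Finset.sum_eq_zero fun j _ => mul_eq_zero_of_left (h i j fun h' => hi h'.1) _

theorem gourm_sup {A C : Finset L} {M : Matrix L L ℂ}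
    (h : ∀ j ∈ C, M *ᵥ (Pi.single j 1 : L → ℂ) ∈ gourm_cs A) : Sup A C (M * eS ℂ C) := by
  intro i j hij
  rw [eS, mul_diagonal]
  split_ifs with hj
  · have := h j hj i fun hi => hij ⟨hi, hj⟩
    simpa using this
  · rw [mul_zero]

theorem gourm_ext {M N : Matrix L L ℂ}
    (h : ∀ j, M *ᵥ (Pi.single j 1 : L → ℂ) = N *ᵥ (Pi.single j 1 : L → ℂ)) : M = N := by
  ext i j
  simpa using congrFun (h j) i

omit [Fintype L] in
theorem gourm_finrank (A : Finset L) : Module.finrank ℂ (gourm_cs A) = A.card := by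
  let e : gourm_cs A ≃ₗ[ℂ] (A → ℂ) :=
    { toFun := fun v i => v.1 i
      map_add' := fun _ _ => rfl
      map_smul' := fun _ _ => rfl
      invFun := fun w => ⟨fun l => if h : l ∈ A then w ⟨l, h⟩ else 0, fun i hi => dif_neg hi⟩
      left_inv := fun v => Subtype.ext (funext fun l => by
        by_cases h : l ∈ A
        · simp [h]
        · simp [h, v.2 l h])
      right_inv := fun w => funext fun l => by simp }
  rw [e.finrank_eq]
  simp

/-- the partial isomorphism attached to a basis of a coordinate subspace -/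
theorem gourm_basis {κ : Type} {Ω : Finset L} (b : Module.Basis κ ℂ (gourm_cs Ω)) (β : κ ≃ Ω) :
    ∃ Φ Φ' : Matrix L L ℂ, PI Ω Ω Φ Φ' ∧ (∀ g, Φ *ᵥ (b g : L → ℂ) = Pi.single (β g : L) 1) ∧
      ∀ g, Φ' *ᵥ (Pi.single (β g : L) 1 : L → ℂ) = b g := by
  let pr : (L → ℂ) →ₗ[ℂ] gourm_cs Ω :=
    (eS ℂ Ω).mulVecLin.codRestrict _ fun v => gourm_sup_mulVec (sup_eS Ω) v
  let ψ : gourm_cs Ω →ₗ[ℂ] (L → ℂ) := b.constr ℂ fun g => Pi.single (β g : L) 1
  let Φ : Matrix L L ℂ := LinearMap.toMatrix' (ψ ∘ₗ pr)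
  let Φ' : Matrix L L ℂ := Matrix.of fun i l =>
    if h : l ∈ Ω then (b (β.symm ⟨l, h⟩) : L → ℂ) i else 0
  have hΦ : ∀ v, Φ *ᵥ v = ψ (pr v) := fun v => by simp [Φ, LinearMap.toMatrix'_mulVec]
  have hpr : ∀ v : gourm_cs Ω, pr v = v := fun v => Subtype.ext (gourm_eS_of_mem v.2)
  have hpr0 : ∀ j, j ∉ Ω → pr (Pi.single j 1) = 0 := fun j hj =>
    Subtype.ext ((gourm_eS_single Ω j).trans (if_neg hj))
  have h1 : ∀ g, Φ *ᵥ (b g : L → ℂ) = Pi.single (β g : L) 1 := fun g => by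
    rw [hΦ, hpr]; simp [ψ]
  have h2 : ∀ g, Φ' *ᵥ (Pi.single (β g : L) 1 : L → ℂ) = b g := fun g => by
    funext i
    simp [Φ']
  have h2' : ∀ j, j ∉ Ω → Φ' *ᵥ (Pi.single j 1 : L → ℂ) = 0 := fun j hj => by
    funext i
    simp [Φ', hj]
  have h3 : ∀ v : gourm_cs Ω, ψ v ∈ gourm_cs Ω := fun v => by
    have : (⊤ : Submodule ℂ (gourm_cs Ω)) ≤ (gourm_cs Ω).comap ψ := by
      rw [← b.span_eq, Submodule.span_le]
      rintro _ ⟨g, rfl⟩
      simpa [ψ] using gourm_single_mem (β g).2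
    exact this Submodule.mem_top
  have h4 : Φ'.mulVecLin ∘ₗ ψ = (gourm_cs Ω).subtype := b.ext fun g => by
    simpa [ψ, -mulVec_single] using h2 g
  refine ⟨Φ, Φ', ⟨?_, ?_, ?_, ?_⟩, h1, h2⟩
  · intro i j hij
    have e : Φ i j = ψ (pr (Pi.single j 1)) i := by rw [← hΦ]; simp
    rw [e]
    by_cases hj : j ∈ Ω
    · exact h3 _ i fun hi => hij ⟨hi, hj⟩
    · rw [hpr0 j hj, map_zero, Pi.zero_apply]
  · intro i j hij
    by_cases hj : j ∈ Ω
    · simp only [Φ', of_apply, dif_pos hj]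
      exact (b _).2 i fun hi => hij ⟨hi, hj⟩
    · simp only [Φ', of_apply, dif_neg hj]
  · refine gourm_ext fun j => ?_
    rw [← mulVec_mulVec, hΦ]
    exact LinearMap.congr_fun h4 (pr (Pi.single j 1))
  · refine gourm_ext fun j => ?_
    rw [← mulVec_mulVec, gourm_eS_single]
    split_ifs with hj
    · have := h2 (β.symm ⟨j, hj⟩)
      rw [Equiv.apply_symm_apply] at this
      rw [this, h1, Equiv.apply_symm_apply]
    · rw [h2' j hj, mulVec_zero]

omit [DecidableEq L] in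
theorem gourm_span {Ω A : Finset L} {S : Set (gourm_cs Ω)} (M : Matrix L L ℂ)
    (h : ∀ v ∈ S, M *ᵥ (v : L → ℂ) ∈ gourm_cs A) {v : gourm_cs Ω} (hv : v ∈ Submodule.span ℂ S) :
    M *ᵥ (v : L → ℂ) ∈ gourm_cs A := by
  have : Submodule.span ℂ S ≤ (gourm_cs A).comap (M.mulVecLin ∘ₗ (gourm_cs Ω).subtype) :=
    Submodule.span_le.2 h
  exact this hv

theorem gourm_w_single (T : TD L) (j : L) :
    T.w ℂ *ᵥ (Pi.single j 1 : L → ℂ) = Pi.single (T.τ j) 1 := by
  funext i
  simp [TD.w, Pi.single_apply]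

theorem gourm_cM_C {T : TD L} (h : T.ok) {p c : Bool} {l : L} (hl : l ∈ T.C p c true) :
    ∃ ε : ℂ, ε * ε = 1 ∧ T.cM ℂ *ᵥ (Pi.single l 1 : L → ℂ) = ε • Pi.single l 1 := by
  have hK : l ∉ T.K := Finset.disjoint_left.1 (h.dK _ _ _) hl
  have hK' : l ∉ T.K' := Finset.disjoint_left.1 (h.dK' _ _ _) hl
  have hC : ∀ p' c' n', (p, c, true) ≠ (p', c', n') → l ∉ T.C p' c' n' := fun p' c' n' hne =>
    Finset.disjoint_left.1 (h.dC _ _ _ _ _ _ hne) hl
  simp only [TD.cM, add_mulVec, sub_mulVec, ← mulVec_mulVec, gourm_eS_single,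
    if_neg hK', mulVec_zero, add_zero, Finset.mem_union, hK, or_false]
  cases p <;> cases c
  · refine ⟨1, by norm_num, ?_⟩
    simp [hl, hC false true true (by simp), hC true false true (by simp)]
  · refine ⟨-1, by norm_num, ?_⟩
    simp [hl, hC true true true (by simp), hC true true false (by simp),
      hC true false false (by simp), hC false true false (by simp), hC false false true (by simp),
      hC false false false (by simp)]
  · refine ⟨-1, by norm_num, ?_⟩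
    simp [hl, hC true true true (by simp), hC true true false (by simp),
      hC true false false (by simp), hC false true false (by simp), hC false false true (by simp),
      hC false false false (by simp)]
  · refine ⟨1, by norm_num, ?_⟩
    simp [hl, hC false true true (by simp), hC true false true (by simp)]

theorem gourm_cM_K {T : TD L} (h : T.ok) {l : L} (hl : l ∈ T.K) :
    T.cM ℂ *ᵥ ((Pi.single l 1 : L → ℂ) + Pi.single (T.τ l) 1) = -Pi.single (T.τ l) 1 := by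
  have hl' : T.τ l ∈ T.K' := Finset.mem_image_of_mem _ hl
  have h1 : l ∉ T.K' := Finset.disjoint_left.1 h.dKK hl
  have h2 : T.τ l ∉ T.K := Finset.disjoint_right.1 h.dKK hl'
  have h3 : ∀ p c n, l ∉ T.C p c n := fun p c n => Finset.disjoint_right.1 (h.dK p c n) hl
  have h4 : ∀ p c n, T.τ l ∉ T.C p c n := fun p c n => Finset.disjoint_right.1 (h.dK' p c n) hl'
  simp only [TD.cM, mulVec_add, add_mulVec, sub_mulVec, ← mulVec_mulVec, gourm_eS_single,
    Finset.mem_union, hl, hl', h1, h2, h3, h4, or_true, or_false, if_true, if_false, mulVec_zero,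
    gourm_w_single, h.inv]
  abel

/-- class of an index -/
def gourm_cls {n : Bool × Bool × Bool → ℕ} {k : ℕ} : GIdx n k → (Bool × Bool × Bool) ⊕ Bool :=
  Sum.map Sigma.fst Sum.isRight

theorem goursat {Ω Ω2 Xp X X2 : Finset L} {G G' : Matrix L L ℂ} (hG : PI Ω2 Ω G G') (hp : Xp ⊆ Ω)
    (hc : X ⊆ Ω) (hn : X2 ⊆ Ω2) :
    ∃ (T : TD L) (Φ Φ' : Matrix L L ℂ), T.ok ∧ PI Ω T.all Φ Φ' ∧ Flag Xp T.Fp Φ Φ' ∧
      Flag X T.Fc Φ Φ' ∧
      Flag X2 T.rot.Fc (T.cM ℂ * Φ * G) (G' * Φ' * (T.rot.rot.cM ℂ * T.rot.cM ℂ)) := by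
  obtain ⟨n, k, b, e1, e2, e3⟩ := three_subspaces
    ((gourm_cs Xp).comap (gourm_cs Ω).subtype) ((gourm_cs X).comap (gourm_cs Ω).subtype)
    (((gourm_cs X2).map G.mulVecLin).comap (gourm_cs Ω).subtype)
  have hcard : Fintype.card (GIdx n k) = Fintype.card Ω := by
    rw [← Module.finrank_eq_card_basis b, gourm_finrank, Fintype.card_coe]
  obtain ⟨β⟩ : Nonempty (GIdx n k ≃ Ω) := ⟨Fintype.equivOfCardEq hcard⟩
  obtain ⟨Φ, Φ', hPI, hΦ, hΦ'⟩ := gourm_basis b β
  obtain ⟨S, hS⟩ : ∃ S : (Bool × Bool × Bool) ⊕ Bool → Finset L,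
      ∀ q l, l ∈ S q ↔ ∃ g, gourm_cls g = q ∧ (β g : L) = l :=
    ⟨fun q => (Finset.univ.filter fun g => gourm_cls g = q).image fun g => (β g : L),
      fun q l => by simp⟩
  have hS' : ∀ g, (β g : L) ∈ S (gourm_cls g) := fun g => (hS _ _).2 ⟨g, rfl, rfl⟩
  have hSC : ∀ c l, l ∈ S (Sum.inl c) → ∃ i, l = β (Sum.inl ⟨c, i⟩) := by
    intro c l hl
    obtain ⟨g, h1, rfl⟩ := (hS _ _).1 hl
    rcases g with ⟨c', i⟩ | j
    · obtain rfl : c' = c := Sum.inl.inj h1
      exact ⟨i, rfl⟩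
    · cases h1
  have hSK : ∀ l, l ∈ S (Sum.inr false) → ∃ j, l = β (Sum.inr (Sum.inl j)) := by
    intro l hl
    obtain ⟨g, h1, rfl⟩ := (hS _ _).1 hl
    rcases g with g | j | j
    · cases h1
    · exact ⟨j, rfl⟩
    · cases h1
  have hSK' : ∀ l, l ∈ S (Sum.inr true) → ∃ j, l = β (Sum.inr (Sum.inr j)) := by
    intro l hl
    obtain ⟨g, h1, rfl⟩ := (hS _ _).1 hl
    rcases g with g | j | j
    · cases h1
    · cases h1
    · exact ⟨j, rfl⟩
  have hdis : ∀ q q', q ≠ q' → Disjoint (S q) (S q') := by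
    intro q q' hne
    rw [Finset.disjoint_left]
    intro l h1 h2
    obtain ⟨g, a1, rfl⟩ := (hS _ _).1 h1
    obtain ⟨g', a2, a3⟩ := (hS _ _).1 h2
    obtain rfl : g' = g := β.injective (Subtype.ext a3)
    exact hne (a1.symm.trans a2)
  let σ : Equiv.Perm (GIdx n k) := Equiv.sumCongr (Equiv.refl _) (Equiv.sumComm _ _)
  obtain ⟨τ, hτ0, hτ1⟩ : ∃ τ : Equiv.Perm L, (∀ g, τ (β g) = β (σ g)) ∧ ∀ l, l ∉ Ω → τ l = l :=
    ⟨σ.extendDomain β, fun g => Equiv.Perm.extendDomain_apply_image σ β g,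
      fun l hl => Equiv.Perm.extendDomain_apply_not_subtype σ β hl⟩
  let T : TD L := ⟨fun p c m => S (Sum.inl (p, c, m)), S (Sum.inr false), τ⟩
  have hτ : ∀ g, T.τ (β g) = β (σ g) := hτ0
  have hK' : T.K' = S (Sum.inr true) := by
    ext l
    simp only [TD.K', Finset.mem_image]
    constructor
    · rintro ⟨l', h1, rfl⟩
      obtain ⟨j, rfl⟩ := hSK l' h1
      rw [hτ]
      exact hS' _
    · intro h1
      obtain ⟨j, rfl⟩ := hSK' l h1
      exact ⟨β (Sum.inr (Sum.inl j)), hS' _, hτ _⟩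
  have hT : T.ok := by
    refine ⟨fun p c m p' c' m' hne => hdis _ _ fun h => hne (Sum.inl.inj h),
      fun p c m => hdis _ _ (by simp), fun p c m => by rw [hK']; exact hdis _ _ (by simp),
      by rw [hK']; exact hdis _ _ (by simp), fun p c m l hl => ?_, fun l => ?_⟩
    · obtain ⟨i, rfl⟩ := hSC _ l hl
      exact hτ _
    · by_cases hl : l ∈ Ω
      · obtain ⟨g, rfl⟩ : ∃ g, (β g : L) = l := ⟨β.symm ⟨l, hl⟩, by simp⟩
        rw [hτ, hτ]
        rcases g with g | j | j <;> rfl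
      · have : T.τ l = l := hτ1 l hl
        rw [this, this]
  have hC : ∀ p c m i, (β (Sum.inl ⟨(p, c, m), i⟩) : L) ∈ T.C p c m := fun p c m i => hS' _
  have hKm : ∀ j, (β (Sum.inr (Sum.inl j)) : L) ∈ T.K := fun j => hS' _
  have hKm' : ∀ j, (β (Sum.inr (Sum.inr j)) : L) ∈ T.K' := fun j => by
    rw [hK']; exact hS' _
  have hall : T.all = Ω := by
    ext l
    constructor
    · intro hl
      have : ∃ q, l ∈ S q := by
        simp only [TD.all, TD.nP, TD.nS, TD.nT', TD.nZ, Finset.mem_union, hK'] at hl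
        rcases hl with (((h | h) | ((h | h) | h)) | ((h | h) | h)) | (h | h) <;> exact ⟨_, h⟩
      obtain ⟨q, hq⟩ := this
      obtain ⟨g, -, rfl⟩ := (hS _ _).1 hq
      exact (β g).2
    · intro hl
      obtain ⟨g, rfl⟩ : ∃ g, (β g : L) = l := ⟨β.symm ⟨l, hl⟩, by simp⟩
      simp only [TD.all, TD.nP, TD.nS, TD.nT', TD.nZ, Finset.mem_union]
      rcases g with ⟨⟨_ | _, _ | _, _ | _⟩, i⟩ | j | j <;> simp only [hC, hKm, hKm', true_or, or_true]
  refine ⟨T, Φ, Φ', hT, hall ▸ hPI, ⟨gourm_sup fun j hj => ?_, gourm_sup fun l hl => ?_⟩,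
    ⟨gourm_sup fun j hj => ?_, gourm_sup fun l hl => ?_⟩,
    ⟨gourm_sup fun j hj => ?_, gourm_sup fun l hl => ?_⟩⟩
  · refine gourm_span Φ ?_ (v := ⟨_, gourm_single_mem (hp hj)⟩) (e1.le (gourm_single_mem hj))
    rintro _ (⟨⟨p, c, m⟩, i, h1, rfl⟩ | ⟨j, rfl⟩) <;> rw [hΦ] <;> refine gourm_single_mem ?_
    · obtain rfl : p = true := h1
      simp only [TD.Fp, TD.nP, TD.nS, Finset.mem_union]
      cases c <;> cases m <;> simp only [hC, true_or, or_true]
    · simp only [TD.Fp, TD.nP, TD.nS, Finset.mem_union, hKm, or_true]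
  · have : ∃ g, l = β g ∧ b g ∈ (gourm_cs Xp).comap (gourm_cs Ω).subtype := by
      rw [e1]
      simp only [TD.Fp, TD.nP, TD.nS, Finset.mem_union] at hl
      rcases hl with (h | h) | ((h | h) | h)
      iterate 4
        obtain ⟨i, rfl⟩ := hSC _ _ h
        exact ⟨_, rfl, Submodule.subset_span (Or.inl ⟨_, i, rfl, rfl⟩)⟩
      obtain ⟨j, rfl⟩ := hSK _ h
      exact ⟨_, rfl, Submodule.subset_span (Or.inr ⟨j, rfl⟩)⟩
    obtain ⟨g, rfl, h⟩ := this
    rw [hΦ']
    exact h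
  · refine gourm_span Φ ?_ (v := ⟨_, gourm_single_mem (hc hj)⟩) (e2.le (gourm_single_mem hj))
    rintro _ (⟨⟨p, c, m⟩, i, h1, rfl⟩ | ⟨j, rfl⟩) <;> rw [hΦ] <;> refine gourm_single_mem ?_
    · obtain rfl : c = true := h1
      simp only [TD.Fc, TD.nP, TD.nT', Finset.mem_union]
      cases p <;> cases m <;> simp only [hC, true_or, or_true]
    · simp only [TD.Fc, TD.nP, TD.nT', Finset.mem_union, hKm', or_true]
  · have : ∃ g, l = β g ∧ b g ∈ (gourm_cs X).comap (gourm_cs Ω).subtype := by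
      rw [e2]
      simp only [TD.Fc, TD.nP, TD.nT', Finset.mem_union, hK'] at hl
      rcases hl with (h | h) | ((h | h) | h)
      iterate 4
        obtain ⟨i, rfl⟩ := hSC _ _ h
        exact ⟨_, rfl, Submodule.subset_span (Or.inl ⟨_, i, rfl, rfl⟩)⟩
      obtain ⟨j, rfl⟩ := hSK' _ h
      exact ⟨_, rfl, Submodule.subset_span (Or.inr ⟨j, rfl⟩)⟩
    obtain ⟨g, rfl, h⟩ := this
    rw [hΦ']
    exact h
  · rw [← mulVec_mulVec]
    refine gourm_span (T.cM ℂ * Φ) ?_ (v := ⟨_, gourm_sup_mulVec hG.s1 _⟩)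
      (e3.le ⟨_, gourm_single_mem hj, rfl⟩)
    rintro _ (⟨⟨p, c, m⟩, i, h1, rfl⟩ | ⟨j, rfl⟩) <;> rw [← mulVec_mulVec]
    · obtain rfl : m = true := h1
      obtain ⟨ε, -, h2⟩ := gourm_cM_C hT (hC p c true i)
      rw [hΦ, h2]
      refine Submodule.smul_mem _ _ (gourm_single_mem ?_)
      simp only [TD.Fc, TD.nP, TD.nT', TD.rot, Finset.mem_union]
      cases p <;> cases c <;> simp only [hC, true_or, or_true]
    · have h2 := gourm_cM_K hT (hKm j)
      rw [hτ] at h2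
      rw [Submodule.coe_add, mulVec_add, hΦ, hΦ]
      refine h2 ▸ neg_mem (gourm_single_mem ?_)
      exact Finset.mem_union_right _ (Finset.mem_union_right _ (hKm' j))
  · have : ∃ u ∈ ((gourm_cs X2).map G.mulVecLin).comap (gourm_cs Ω).subtype,
        T.cM ℂ *ᵥ (Φ *ᵥ (u : L → ℂ)) = Pi.single l 1 := by
      rw [e3]
      have hl' : (∃ p c, l ∈ T.C p c true) ∨ l ∈ T.K' := by
        simp only [TD.Fc, TD.nP, TD.nT', Finset.mem_union] at hl
        rcases hl with (h | h) | ((h | h) | h)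
        iterate 4 exact Or.inl ⟨_, _, h⟩
        exact Or.inr h
      rcases hl' with ⟨p, c, h⟩ | h
      · obtain ⟨ε, h1, h2⟩ := gourm_cM_C hT h
        obtain ⟨i, rfl⟩ := hSC _ _ h
        refine ⟨ε • b (Sum.inl ⟨(p, c, true), i⟩), Submodule.smul_mem _ _
          (Submodule.subset_span (Or.inl ⟨_, i, rfl, rfl⟩)), ?_⟩
        rw [Submodule.coe_smul, mulVec_smul, mulVec_smul, hΦ, h2, smul_smul, h1, one_smul]
      · obtain ⟨j, rfl⟩ := hSK' _ (hK' ▸ h)
        have h2 := gourm_cM_K hT (hKm j)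
        rw [hτ] at h2
        refine ⟨-(b (Sum.inr (Sum.inl j)) + b (Sum.inr (Sum.inr j))), neg_mem
          (Submodule.subset_span (Or.inr ⟨j, rfl⟩)), ?_⟩
        rw [Submodule.coe_neg, mulVec_neg, mulVec_neg, Submodule.coe_add, mulVec_add, hΦ, hΦ]
        exact neg_eq_iff_eq_neg.2 h2
    obtain ⟨u, ⟨w, hw, e⟩, h⟩ := this
    have e' : G *ᵥ w = u := e
    rw [← h, mulVec_mulVec, mulVec_mulVec, Matrix.mul_assoc (G' * Φ'), TD.cM_cube hT, hall,
      Matrix.mul_assoc, Matrix.mul_assoc, hPI.s1.eS_mul subset_rfl, hPI.l, ← mulVec_mulVec,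
      gourm_eS_of_mem u.2, ← e', mulVec_mulVec, hG.l, gourm_eS_of_mem (gourm_cs_mono hn hw)]
    exact hw

end Crest.Agent.R3
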