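import Crest.Agent.R3.LiftB
import Crest.Agent.R3.GourM

/-!
# R3 / Bruhat : two subspaces can be made coordinate subspaces simultaneously

`G : span Ω → span Ω'` is an isomorphism, `W = G (span X)`, `U = span X'` are subspaces of `span Ω'`.
Choose a basis of `span Ω'` (as a subspace of `L → ℂ`) adapted to `U` and `W`: bases of `U ⊓ W`, of a complement
of it in `U`, of a complement of it in `W`, of a complement of `U ⊔ W`.  Index it by `Ω'` such that the basis
vectors of `U` are indexed by `X'` (counting).  `H'` is the matrix whose columns are the basis vectors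
(zero columns outside `Ω'`), `H` its partial inverse, `A` the set of indices of basis vectors in `W`.
One can also deduce the adapted basis from `three_subspaces` of `R3/Gour` (with two equal subspaces),
or argue by induction / Gaussian elimination.
-/

set_option autoImplicit false

noncomputable section

open Matrix

namespace Crest.Agent.R3

variable {L : Type} [Fintype L] [DecidableEq L]

theorem bruhat_mat {B B' : Finset L} (g : B ≃ B') :
    ∃ P : Matrix L L ℂ, Sup B' B P ∧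
      (∀ j : B, P *ᵥ (Pi.single (j : L) 1 : L → ℂ) = Pi.single (g j : L) 1) ∧
      ∀ j, j ∉ B → P *ᵥ (Pi.single j 1 : L → ℂ) = 0 := by
  refine ⟨Matrix.of fun i j => if h : j ∈ B then (if i = g ⟨j, h⟩ then 1 else 0) else 0,
    ?_, ?_, ?_⟩
  · intro i j hij
    simp only [of_apply]
    split_ifs with h1 h2
    · exact absurd ⟨h2 ▸ (g ⟨j, h1⟩).2, h1⟩ hij
    · rfl
    · rfl
  · intro j
    funext i
    simp [Pi.single_apply]
  · intro j hj
    funext i
    simp [hj]

theorem bruhat_perm {A A' B B' : Finset L} (hA : A ⊆ B) (hA' : A' ⊆ B') (h1 : A.card = A'.card)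
    (h2 : B.card = B'.card) :
    ∃ P P' : Matrix L L ℂ, PI B B' P P' ∧ Flag A A' P P' ∧
      ∀ C ⊆ B, ∃ C' ⊆ B', Flag C C' P P' := by
  obtain ⟨e⟩ : Nonempty (A ≃ A') := ⟨Finset.equivOfCardEq h1⟩
  obtain ⟨g, hg⟩ := Finset.exists_equiv_extend_of_card_eq (α := B) (t := B')
    (by rw [Fintype.card_coe, h2]) (s := Finset.univ.filter fun l : B => (l : L) ∈ A)
    (f := fun l => if h : (l : L) ∈ A then (e ⟨l, h⟩ : L) else l)
    (by
      intro x hx
      obtain ⟨l, hl, rfl⟩ := Finset.mem_image.1 hx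
      rw [dif_pos (Finset.mem_filter.1 hl).2]
      exact hA' (e _).2)
    (by
      intro l hl l' hl' h
      have a := (Finset.mem_filter.1 (Finset.mem_coe.1 hl)).2
      have a' := (Finset.mem_filter.1 (Finset.mem_coe.1 hl')).2
      simp only [dif_pos a, dif_pos a'] at h
      exact Subtype.ext (congrArg Subtype.val (e.injective (Subtype.ext h)) :))
  have hg' : ∀ (l : B) (h : (l : L) ∈ A), (g l : L) = e ⟨l, h⟩ := fun l h => by
    rw [hg l (Finset.mem_filter.2 ⟨Finset.mem_univ _, h⟩), dif_pos h]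
  obtain ⟨P, s1, p1, p2⟩ := bruhat_mat g
  obtain ⟨P', s1', p1', p2'⟩ := bruhat_mat g.symm
  have key : ∀ C C' : Finset L, C ⊆ B → C' ⊆ B' → (∀ l : B, (l : L) ∈ C → (g l : L) ∈ C') →
      (∀ l : B', (l : L) ∈ C' → (g.symm l : L) ∈ C) → Flag C C' P P' := by
    intro C C' hC hC' a b
    refine ⟨gourm_sup fun j hj => ?_, gourm_sup fun j hj => ?_⟩
    · rw [p1 ⟨j, hC hj⟩]
      exact gourm_single_mem (a _ hj)
    · rw [p1' ⟨j, hC' hj⟩]
      exact gourm_single_mem (b _ hj)
  refine ⟨P, P', ⟨s1, s1', gourm_ext fun j => ?_, gourm_ext fun j => ?_⟩,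
    key _ _ hA hA' (fun l h => ?_) (fun l h => ?_), fun C hC => ?_⟩
  · rw [← mulVec_mulVec, gourm_eS_single]
    split_ifs with hj
    · rw [p1 ⟨j, hj⟩, p1', Equiv.symm_apply_apply]
    · rw [p2 j hj, mulVec_zero]
  · rw [← mulVec_mulVec, gourm_eS_single]
    split_ifs with hj
    · rw [p1' ⟨j, hj⟩, p1, Equiv.apply_symm_apply]
    · rw [p2' j hj, mulVec_zero]
  · rw [hg' l h]
    exact (e _).2
  · have : g ⟨e.symm ⟨l, h⟩, hA (e.symm ⟨l, h⟩).2⟩ = l := by
      refine Subtype.ext ?_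
      rw [hg' _ (e.symm ⟨l, h⟩).2]
      simp
    rw [← this, Equiv.symm_apply_apply]
    exact (e.symm ⟨l, h⟩).2
  · refine ⟨(Finset.univ.filter fun l : B => (l : L) ∈ C).image fun l => (g l : L), ?_,
      key _ _ hC ?_ (fun l h => ?_) (fun l h => ?_)⟩
    iterate 2
      intro x hx
      obtain ⟨l, -, rfl⟩ := Finset.mem_image.1 hx
      exact (g l).2
    · exact Finset.mem_image.2 ⟨l, Finset.mem_filter.2 ⟨Finset.mem_univ _, h⟩, rfl⟩
    · obtain ⟨l', h1, h2⟩ := Finset.mem_image.1 h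
      rw [← Subtype.ext h2, Equiv.symm_apply_apply]
      exact (Finset.mem_filter.1 h1).2

theorem bruhat {Ω Ω' X X' : Finset L} {G G' : Matrix L L ℂ} (hG : PI Ω Ω' G G') (hX : X ⊆ Ω)
    (hX' : X' ⊆ Ω') :
    ∃ (H H' : Matrix L L ℂ) (A : Finset L), A ⊆ Ω' ∧ PI Ω' Ω' H H' ∧ Flag X' X' H H' ∧
      Flag X A (H * G) (G' * H') := by
  obtain ⟨T, Φ, Φ', hT, h1, -, h2, h3⟩ := goursat hG hX' hX' hX
  have h4 := h1.trans (TD.cM_PI hT)
  have h5 := h2.trans (TD.cM_flag hT)
  have hp : T.rot.Fp ⊆ T.all := T.rot_all ▸ T.rot.Fp_subset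
  have hc : T.rot.Fc ⊆ T.all := T.rot_all ▸ T.rot.Fc_subset
  obtain ⟨P, P', p1, p2, p3⟩ := bruhat_perm hp hX' (h5.pi h4 hX' hp).card_eq.symm h4.card_eq.symm
  obtain ⟨A, hA, p4⟩ := p3 _ hc
  refine ⟨_, _, A, hA, h4.trans p1, h5.trans p2, ?_⟩
  have h6 := h3.trans p4
  simpa only [Matrix.mul_assoc] using h6

end Crest.Agent.R3
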