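import Crest.Agent.R3.Occ
import Crest.Agent.R3.Bruhat

/-!
# R3 / Split : cutting a triangle off a face

`h : (A|Q) → (A1|Q1)`, `s : (X|Y) → (X1|Y1)`, `t : (X'|Y') → (X1'|Y1')`, values
`Vh = dh (μ1 + μ2) (e + nh)`, `Vs`, `Vt = dt (κ1 + κ2) (e + nt)`; `Ω2 = X' ∪ Y'`.
`bruhat` for `G = Vs Vh`: `H` stabilising `X'`, `A2 ⊆ Ω2`, `Q2 = Ω2 \ A2`.  `Flag.lin2`:
`H = (δ1 + δ2) (e + v)`, `H Vs Vh = (μ1' + μ2') (e + n')`.  Put `θ1 = μ1 μ1'⁻¹ : A2 → A1`, `θ2 = μ2 μ2'⁻¹`,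
`κ1' = κ1 δ1⁻¹`, `κ2' = κ2 δ2⁻¹` (eight fresh names).
* `h' = ⟨A, Q, A2, Q2, μ1', μ2', 1, n'⟩`, `t' = ⟨X', Y', X1', Y1', κ1', κ2', dt, δ1 (nt - v) δ2⁻¹⟩`, so that
  `Vt' Vh' = Vt Vs Vh`.
* triangle `⟨s.inS, 1, [s, r, a]⟩` with `r = ⟨X', Y', X', Y', δ1, δ2, 1, v⟩`,
  `a = ⟨A2, Q2, A1, Q1, θ1, θ2, dh, μ1' (nh - n') μ2'⁻¹⟩`; indeed `Va (μ1' + μ2') (e + n') = Vh`, so `Va Vr Vs = e`
  (multiply `Va Vr Vs Vh = Vh` by the inverse of `Vh`).
* small faces (unit `1`, all `d = 1`):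
  `⟨⟨A,∅⟩, 1, [⟨A,∅,A1,∅,h.o1,none,1,0⟩, full θ1 true A1 A2, full μ1' true A2 A]⟩` (`μ1'⁻¹ θ1⁻¹ μ1 = e`), the same for
  `Q` with `h.o2`, `⟨⟨X',∅⟩, 1, [⟨X',∅,X1',∅,t.o1,none,1,0⟩, full κ1' true X1' X', full δ1 true X' X']⟩`
  (`δ1⁻¹ κ1'⁻¹ κ1 = e`), the same for `Y'` with `t.o2`.
Lifting: `y = y'`.  The small faces give `μ̃1 = θ̃1 μ̃1'`, `κ̃1 = κ̃1' δ̃1`, ….  Let `ñs, ṽ, g̃` be the gaps of the
triangle and `ñ', ñt'` those of `h', t'`.  Put `ñh = ñ' + μ̃1'⁻¹ g̃ μ̃2'`, `ñt = ṽ + δ̃1⁻¹ ñt' δ̃2`.  Then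
`Vh(ñh) = Va(g̃) Vh'(ñ')`, `Vt(ñt) = Vt'(ñt') Vr(ṽ)`, and `Vr Vs Va = e` (cyclic form of the triangle), so
`Vt Vs Vh = Vt' Vh'`.
-/

set_option autoImplicit false
set_option linter.unusedSectionVars false
set_option linter.unusedVariables false

noncomputable section

open Matrix

namespace Crest.Agent.R3

variable {O L V : Type} [CommRing O] [Fintype L] [DecidableEq L]
variable {B : Type} [CommRing B] [Algebra O B] [Algebra O ℂ] {π : B →ₐ[O] ℂ}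

theorem split_link {s : Step O L V} {Q : St L} (hd : s.d = 1) (h : Q.set = s.X1 ∪ s.Y1)
    (h' : Disjoint Q.X Q.Y) : s.link Q :=
  ⟨h, h', fun _ _ _ _ _ _ => by rw [hd]; rfl⟩

/-- the small face `β⁻¹ α⁻¹ o = e` -/
def splitF (O : Type) [CommRing O] (o : Option (V × Bool)) (X X1 Z : Finset L) (α β : V) : Face O L V :=
  ⟨⟨X, ∅⟩, 1, [⟨X, ∅, X1, ∅, o, none, 1, 0⟩, Step.full α true X1 Z, Step.full β true Z X]⟩

section Small
variable {o : Option (V × Bool)} {X X1 Z : Finset L} {α β : V}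

theorem splitF_seg (ho : slotOK o X X1) (hZ : X.card = Z.card) :
    Seg (splitF O o X X1 Z α β).Q (splitF O o X X1 Z α β).l (splitF O o X X1 Z α β).Q := by
  have e : ∀ W : Finset L, Disjoint W ∅ := fun W => Finset.disjoint_empty_right W
  exact ⟨St.le_refl (e _), ⟨e _, ho, rfl, fun _ => rfl⟩, ⟨X1, ∅⟩, split_link rfl rfl (e _),
    St.le_refl (e _), ⟨e _, ⟨ho.1.symm.trans hZ, nofun⟩, rfl, fun _ => rfl⟩, ⟨Z, ∅⟩,
    split_link rfl rfl (e _), St.le_refl (e _), ⟨e _, ⟨hZ.symm, nofun⟩, rfl, fun _ => rfl⟩, ⟨X, ∅⟩,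
    split_link rfl rfl (e _), St.le_refl (e _)⟩

theorem splitF_occ : (splitF O o X X1 Z α β).occ =
    slot o X X1 + slot (some (α, true)) X1 Z + slot (some (β, true)) Z X := by
  simp [splitF, Face.occ, occL, Step.occ, Step.full, add_assoc]

theorem splitF_size : (splitF O o X X1 Z α β).size = X.card := by
  simp [splitF, Face.size, St.set]

theorem splitF_eqn {R : Type} [CommRing R] [Algebra O R] {y : Asg V L R} (ho : slotOK o X X1)
    (hy : VarOK y (slot o X X1)) (pa : PI Z X1 (y α false) (y α true))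
    (pb : PI X Z (y β false) (y β true)) :
    (splitF O o X X1 Z α β).Eqn (1 * (Step.full β true Z X : Step O L V).valG y 0 *
      (Step.full α true X1 Z : Step O L V).valG y 0 *
      (⟨X, ∅, X1, ∅, o, none, 1, 0⟩ : Step O L V).valG y 0) ↔ blk y o X X1 = y α false * y β false := by
  have hm := (blk_PI ho hy).s1
  rw [valG_full pb.s2, valG_full pa.s2]
  simp only [Face.Eqn, splitF, Step.valG, St.set, Units.val_one, map_one, one_smul, dg_one, blk_empty,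
    add_zero, Finset.union_empty, Matrix.one_mul, hm.mul_eS subset_rfl, Matrix.mul_assoc _ _ (eS R X)]
  exact ⟨(pb.trans pa).symm.eq_of_mul_right hm, fun h => h ▸ (pb.trans pa).l⟩

theorem splitF_lift {y : Asg V L B} (ho : slotOK o X X1) (hy : VarOK y (slot o X X1))
    (pa : PI Z X1 (y α false) (y α true)) (pb : PI X Z (y β false) (y β true))
    (h : ∃ p, PL π y (splitF O o X X1 Z α β).l p ∧ (splitF O o X X1 Z α β).Eqn p) :
    blk y o X X1 = y α false * y β false := by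
  obtain ⟨p, ⟨p1, _, h1, ⟨p2, _, h2, ⟨p3, _, h3, rfl, rfl⟩, rfl⟩, rfl⟩, he⟩ := h
  rw [(SL_triv (Or.inr rfl) rfl).1 h1, (SL_triv (Or.inr rfl) rfl).1 h2,
    (SL_triv (Or.inr rfl) rfl).1 h3] at he
  exact (splitF_eqn ho hy pa pb).1 he

theorem splitF_sol {x : Asg V L ℂ} (ho : slotOK o X X1) (hx : VarOK x (slot o X X1))
    (pa : PI Z X1 (x α false) (x α true)) (pb : PI X Z (x β false) (x β true))
    (h : blk x o X X1 = x α false * x β false) :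
    (∀ s ∈ (splitF O o X X1 Z α β).l, Sup s.X s.Y s.n) ∧
      (splitF O o X X1 Z α β).Eqn (prodL x (splitF O o X X1 Z α β).l) := by
  refine ⟨fun s hs => ?_, (splitF_eqn ho hx pa pb).2 h⟩
  simp only [splitF, List.mem_cons, List.not_mem_nil, or_false] at hs
  rcases hs with rfl | rfl | rfl <;> exact sup_zero _ _

end Small

theorem split_val {R : Type} [CommRing R] [Algebra O R] {y : Asg V L R} {w : Step O L V}
    {Z1 Z2 : Finset L} {α1 α2 β1 β2 : V} (m1 m2 : Matrix L L ℂ) {n1 n2 : Matrix L L R}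
    (hd : Disjoint w.X w.Y) (hZ : Disjoint Z1 Z2)
    (pb1 : PI w.X Z1 (y β1 false) (y β1 true)) (pb2 : PI w.Y Z2 (y β2 false) (y β2 true))
    (pa1 : PI Z1 w.X1 (y α1 false) (y α1 true)) (pa2 : PI Z2 w.Y1 (y α2 false) (y α2 true))
    (e1 : blk y w.o1 w.X w.X1 = y α1 false * y β1 false)
    (e2 : blk y w.o2 w.Y w.Y1 = y α2 false * y β2 false) (hn1 : Sup w.X w.Y n1) (hn2 : Sup Z1 Z2 n2) :
    (⟨Z1, Z2, w.X1, w.Y1, some (α1, false), some (α2, false), w.d, m2⟩ : Step O L V).valG y n2 *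
      (⟨w.X, w.Y, Z1, Z2, some (β1, false), some (β2, false), 1, m1⟩ : Step O L V).valG y n1 =
      w.valG y (n1 + y β1 true * n2 * y β2 false) := by
  have hv : Sup w.X w.Y (y β1 true * n2 * y β2 false) := (pb1.s2.mul hn2).mul pb2.s1
  have h1 := gap_conj pb1 pb2 hv hd hZ
  have h2 : y β1 false * (y β1 true * n2 * y β2 false) * y β2 true = n2 := by
    rw [← Matrix.mul_assoc, ← Matrix.mul_assoc, pb1.r, Matrix.mul_assoc, pb2.r, sup_iff.1 hn2]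
  rw [h2] at h1
  simp only [Step.valG, blk_some pb1.s1, blk_some pb2.s1, blk_some pa1.s1, blk_some pa2.s1, e1, e2,
    dg_one, Matrix.one_mul]
  rw [add_comm n1, ← unip_mul hd hv hn1, Matrix.mul_assoc, ← Matrix.mul_assoc (eS R (Z1 ∪ Z2) + n2),
    ← h1, Matrix.mul_assoc, Matrix.mul_assoc, Matrix.mul_assoc, ← Matrix.mul_assoc (_ + _) (_ + _),
    Matrix.add_mul (y α1 false), Matrix.mul_add (y α1 false), Matrix.mul_add (y α2 false),
    pa1.s1.mul_eq_zero pb2.s1 hZ, pa2.s1.mul_eq_zero pb1.s1 hZ.symm, add_zero, zero_add,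
    ← Matrix.mul_assoc]

/-- a step is written as a product of two steps -/
theorem split_factor [Infinite V] {x : Asg V L ℂ} {D0 : Diag O L V} {Q : St L} {u : Oˣ}
    {P R : List (Step O L V)} {w : Step O L V} (hw : w.nontriv)
    (hW : WF (⟨Q, u, P ++ w :: R⟩ ::ₘ D0)) (hS : Sol x (⟨Q, u, P ++ w :: R⟩ ::ₘ D0))
    {Z1 Z2 : Finset L} (hZ : Disjoint Z1 Z2) {b1 b1' b2 b2' n1 : Matrix L L ℂ}
    (h1 : PI w.X Z1 b1 b1') (h2 : PI w.Y Z2 b2 b2') (hn : Sup w.X w.Y n1) :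
    ∃ (x' : Asg V L ℂ) (w1 w2 : Step O L V) (S : Diag O L V), (w1.inS = w.inS ∧ w1.X1 = Z1 ∧ w1.Y1 = Z2 ∧
      w1.d = 1 ∧ w2.inS = ⟨Z1, Z2⟩) ∧ w1.nontriv ∧ w2.nontriv ∧ (∀ g ∈ S, g.size < Q.set.card) ∧
      w1.valG x' w1.n = (b1 + b2) * (eS ℂ (w.X ∪ w.Y) + n1) ∧
      w2.valG x' w2.n * w1.valG x' w1.n = w.valG x w.n ∧
      (∀ s ∈ P ++ w :: R, s.valG x' s.n = s.valG x s.n) ∧
      Red π x (⟨Q, u, P ++ w :: R⟩ ::ₘ D0) x' (⟨Q, u, P ++ w1 :: w2 :: R⟩ ::ₘ (S + D0)) := by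
  have hseg : Seg Q (P ++ w :: R) Q := hW.seg _ (Multiset.mem_cons_self _ _)
  have hmem : w ∈ P ++ w :: R := by simp
  obtain ⟨⟨hd1, ho1, ho2⟩, hd, hc⟩ := hseg.step hmem
  obtain ⟨⟨hvar, hgap, heqn⟩, -⟩ := sol_cons.1 hS
  have hsub : ∀ c ∈ w.occ, c ∈ occL (P ++ w :: R) := fun c hc => mem_occL.2 ⟨w, hmem, hc⟩
  have hs1 : ∀ c ∈ slot w.o1 w.X w.X1, c ∈ occL (P ++ w :: R) := fun c hc =>
    hsub c (Multiset.mem_add.2 (Or.inl hc))
  have hs2 : ∀ c ∈ slot w.o2 w.Y w.Y1, c ∈ occL (P ++ w :: R) := fun c hc =>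
    hsub c (Multiset.mem_add.2 (Or.inr hc))
  have m1 := blk_PI ho1 (hvar.mono hs1)
  have m2 := blk_PI ho2 (hvar.mono hs2)
  have hnw : Sup w.X w.Y w.n := hgap w hmem
  obtain ⟨ν, hν, hf⟩ := exists_fresh (occD (⟨Q, u, P ++ w :: R⟩ ::ₘ D0)) (Fin 4)
  obtain ⟨x', hx1, hx2⟩ := exists_asg x hν fun i b =>
    if b then ![b1', b2', b1 * blk' x w.o1 w.X w.X1, b2 * blk' x w.o2 w.Y w.Y1] i
    else ![b1, b2, blk x w.o1 w.X w.X1 * b1', blk x w.o2 w.Y w.Y1 * b2'] i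
  have hag : Agree x x' (occD (⟨Q, u, P ++ w :: R⟩ ::ₘ D0)) := fun c hc b => by
    rw [hx2 c.v fun i => hf i c hc]
  have hocc := hW.occ.add_slots hν hf ![w.X, w.Y, Z1, Z2] ![Z1, Z2, w.X1, w.Y1] fun i => by
    fin_cases i
    exacts [h1.card_eq, h2.card_eq, (h1.symm.trans m1).card_eq, (h2.symm.trans m2).card_eq]
  rw [occD_cons] at hag hocc
  have hag1 : Agree x x' (occL (P ++ w :: R)) := fun c hc => hag c (Multiset.mem_add.2 (Or.inl hc))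
  have hpi : ∀ i, PI (![w.X, w.Y, Z1, Z2] i) (![Z1, Z2, w.X1, w.Y1] i) (x' (ν i) false)
      (x' (ν i) true) := fun i => by
    rw [hx1, hx1]
    fin_cases i
    exacts [h1, h2, h1.symm.trans m1, h2.symm.trans m2]
  have hne : ∀ i, (![w.X, w.Y, Z1, Z2] i).Nonempty := fun i => by
    fin_cases i
    exacts [hw.1, hw.2, Finset.card_pos.1 (h1.card_eq ▸ hw.1.card_pos),
      Finset.card_pos.1 (h2.card_eq ▸ hw.2.card_pos)]
  have hvar' := hvar.congr hag1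
  have e1 : blk x' w.o1 w.X w.X1 = x' (ν 2) false * x' (ν 0) false := by
    rw [← blk_congr fun c hc => hag1 c (hs1 c hc), hx1, hx1]
    show _ = blk x w.o1 w.X w.X1 * b1' * b1
    rw [Matrix.mul_assoc, h1.l, m1.s1.mul_eS subset_rfl]
  have e2 : blk x' w.o2 w.Y w.Y1 = x' (ν 3) false * x' (ν 1) false := by
    rw [← blk_congr fun c hc => hag1 c (hs2 c hc), hx1, hx1]
    show _ = blk x w.o2 w.Y w.Y1 * b2' * b2
    rw [Matrix.mul_assoc, h2.l, m2.s1.mul_eS subset_rfl]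
  have hn2 : Sup Z1 Z2 (b1 * (w.n - n1) * b2') := (h1.s1.mul (hnw.sub hn)).mul h2.s2
  have en : n1 + x' (ν 0) true * (b1 * (w.n - n1) * b2') * x' (ν 1) false = w.n := by
    rw [hx1, hx1]
    show n1 + b1' * (b1 * (w.n - n1) * b2') * b2 = w.n
    rw [Matrix.mul_assoc, Matrix.mul_assoc _ b2', h2.l, ← Matrix.mul_assoc, ← Matrix.mul_assoc, h1.l,
      sup_iff.1 (hnw.sub hn), add_sub_cancel]
  set w1 : Step O L V := ⟨w.X, w.Y, Z1, Z2, some (ν 0, false), some (ν 1, false), 1, n1⟩ with hw1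
  set w2 : Step O L V :=
    ⟨Z1, Z2, w.X1, w.Y1, some (ν 2, false), some (ν 3, false), w.d, b1 * (w.n - n1) * b2'⟩ with hw2
  have hval : ∀ s ∈ P ++ w :: R, s.valG x' s.n = s.valG x s.n := fun s hs =>
    (valG_congr (fun c hc => hag1 c (mem_occL.2 ⟨s, hs, hc⟩)) _).symm
  have ev : w2.valG x' w2.n * w1.valG x' w1.n = w.valG x' w.n := by
    rw [← en]
    exact split_val _ _ hd hZ (hpi 0) (hpi 1) (hpi 2) (hpi 3) e1 e2 hn hn2
  set S : Diag O L V := splitF O w.o1 w.X w.X1 Z1 (ν 2) (ν 0) ::ₘ {splitF O w.o2 w.Y w.Y1 Z2 (ν 3) (ν 1)}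
    with hSd
  have key : occD (⟨Q, u, P ++ w1 :: w2 :: R⟩ ::ₘ S) =
      (∑ i, slot (some (ν i, false)) (![w.X, w.Y, Z1, Z2] i) (![Z1, Z2, w.X1, w.Y1] i)) +
      (∑ i, slot (some (ν i, true)) (![Z1, Z2, w.X1, w.Y1] i) (![w.X, w.Y, Z1, Z2] i)) +
      occL (P ++ w :: R) := by
    rw [occD_cons, occD_cons, occD_singleton, splitF_occ, splitF_occ, Fin.sum_univ_four,
      Fin.sum_univ_four, Face.occ]
    simp only [occL_append, occL_cons, Step.occ, hw1, hw2, Matrix.cons_val]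
    abel
  refine ⟨x', w1, w2, S, ⟨rfl, rfl, rfl, rfl, rfl⟩, hw, ⟨hne 2, hne 3⟩, fun g hg => ?_, ?_,
    ev.trans (hval w hmem), hval, ?_⟩
  · rw [← hc, Finset.card_union_of_disjoint hd]
    have := hw.1.card_pos
    have := hw.2.card_pos
    rcases Multiset.mem_cons.1 hg with rfl | hg
    · rw [splitF_size]; omega
    · rw [Multiset.mem_singleton.1 hg, splitF_size]; omega
  · have a1 : PI w.X Z1 (x' (ν 0) false) (x' (ν 0) true) := hpi 0
    have a2 : PI w.Y Z2 (x' (ν 1) false) (x' (ν 1) true) := hpi 1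
    simp only [hw1, Step.valG, blk_some a1.s1, blk_some a2.s1, dg_one, Matrix.one_mul, hx1]
    rfl
  rw [← Multiset.singleton_add] at hW hS
  rw [← Multiset.singleton_add, ← Multiset.cons_add]
  refine Red.local hW hS (fun f hf => ?_) (by rw [key, add_assoc]; exact hocc)
    (fun c hc => hag c (Multiset.mem_add.2 (Or.inr hc))) ⟨?_, fun f hf => ?_, fun f hf => ?_⟩
    fun y g1 g2 g3 => ?_
  · rcases Multiset.mem_cons.1 hf with rfl | hf
    · obtain ⟨Q1, a1, a2, a3, Q2, a4, a5⟩ := seg_append.1 hseg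
      exact seg_append.2 ⟨Q1, a1, a2, ⟨hZ, ⟨h1.card_eq, nofun⟩, h2.card_eq, nofun⟩, ⟨Z1, Z2⟩,
        split_link rfl rfl hZ, St.le_refl hZ,
        ⟨hd1, ⟨(hpi 2).card_eq, nofun⟩, (hpi 3).card_eq, nofun⟩, Q2, a4, a5⟩
    · rcases Multiset.mem_cons.1 hf with rfl | hf
      · exact splitF_seg ho1 h1.card_eq
      · rw [Multiset.mem_singleton.1 hf]
        exact splitF_seg ho2 h2.card_eq
  · rw [key, varOK_add, varOK_add]
    refine ⟨⟨fun c hc => ?_, fun c hc => ?_⟩, hvar'⟩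
    · obtain ⟨i, -, hi⟩ := Multiset.mem_sum.1 hc
      exact varOK_slot (b := false) (hpi i) c hi
    · obtain ⟨i, -, hi⟩ := Multiset.mem_sum.1 hc
      exact varOK_slot (b := true) (hpi i).symm c hi
  · rcases Multiset.mem_cons.1 hf with rfl | hf
    · intro s hs
      simp only [List.mem_append, List.mem_cons] at hs
      rcases hs with hs | rfl | rfl | hs
      exacts [hgap s (by simp [hs]), hn, hn2, hgap s (by simp [hs])]
    · rcases Multiset.mem_cons.1 hf with rfl | hf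
      · exact (splitF_sol ho1 (hvar'.mono hs1) (hpi 2) (hpi 0) e1).1
      · rw [Multiset.mem_singleton.1 hf]
        exact (splitF_sol ho2 (hvar'.mono hs2) (hpi 3) (hpi 1) e2).1
  · rcases Multiset.mem_cons.1 hf with rfl | hf
    · have : prodL x' (P ++ w1 :: w2 :: R) = prodL x (P ++ w :: R) := by
        rw [prodL_congr hag1, prodL_append, prodL_append, prodL, prodL, prodL,
          Matrix.mul_assoc (prodL x' R), ev]
      exact this ▸ heqn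
    · rcases Multiset.mem_cons.1 hf with rfl | hf
      · exact (splitF_sol ho1 (hvar'.mono hs1) (hpi 2) (hpi 0) e1).2
      · rw [Multiset.mem_singleton.1 hf]
        exact (splitF_sol ho2 (hvar'.mono hs2) (hpi 3) (hpi 1) e2).2
  · rw [key] at g1 g2
    rw [occD_singleton]
    have hm : ∀ i, (⟨ν i, false, ![w.X, w.Y, Z1, Z2] i, ![Z1, Z2, w.X1, w.Y1] i⟩ : Occ L V) ∈
        (∑ i, slot (some (ν i, false)) (![w.X, w.Y, Z1, Z2] i) (![Z1, Z2, w.X1, w.Y1] i)) +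
        (∑ i, slot (some (ν i, true)) (![Z1, Z2, w.X1, w.Y1] i) (![w.X, w.Y, Z1, Z2] i)) +
        occL (P ++ w :: R) := fun i => Multiset.mem_add.2 (Or.inl
      (Multiset.mem_add.2 (Or.inl (Multiset.mem_sum.2
        ⟨i, Finset.mem_univ i, mem_slot.2 ⟨rfl, hne i, rfl, rfl⟩⟩))))
    have q := fun i => g2 _ (hm i)
    have gv := (varOK_add.1 g2).2
    have f1 := splitF_lift ho1 (gv.mono hs1) (q 2) (q 0) (g3 _ (by simp [hSd]))
    have f2 := splitF_lift ho2 (gv.mono hs2) (q 3) (q 1) (g3 _ (by simp [hSd]))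
    obtain ⟨p, hp, he⟩ := g3 _ (Multiset.mem_cons_self _ _)
    obtain ⟨pP, _, c1, ⟨_, _, ⟨k1, d1, d2, rfl⟩, ⟨_, pR, ⟨k2, d3, d4, rfl⟩, c2, rfl⟩, rfl⟩, rfl⟩ :=
      PL_append.1 hp
    refine ⟨y, fun _ _ _ => rfl, fun c hc b => ?_, gv, fun f hf => ?_⟩
    · rw [g1 c (Multiset.mem_add.2 (Or.inr hc)), hag1 c hc]
    rw [Multiset.mem_singleton.1 hf]
    refine ⟨_, PL_append.2 ⟨pP, _, c1, ⟨_, pR, ⟨k1 + y (ν 0) true * k2 * y (ν 1) false, ?_,
      Sup.add d2 (((q 0).s2.mul d4).mul (q 1).s1),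
      split_val _ _ hd hZ (q 0) (q 1) (q 2) (q 3) f1 f2 d2 d4⟩, c2,
      Matrix.mul_assoc _ _ _⟩, rfl⟩, he⟩
    rw [Matrix.map_add _ (map_add π), Matrix.map_mul, Matrix.map_mul, d1, d3, g1 _ (hm 0),
      g1 _ (hm 1)]
    exact en

/-- cutting off a triangle -/
theorem split_cut {x : Asg V L ℂ} {D0 : Diag O L V} {Q : St L} {u : Oˣ} {h a s r t : Step O L V}
    {l : List (Step O L V)} (hW : WF (⟨Q, u, h :: a :: s :: r :: t :: l⟩ ::ₘ D0))
    (hS : Sol x (⟨Q, u, h :: a :: s :: r :: t :: l⟩ ::ₘ D0)) (hd : h.d = 1) (rd : r.d = 1)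
    (hset : a.X ∪ a.Y = r.X1 ∪ r.Y1)
    (he : r.valG x r.n * s.valG x s.n * (a.valG x a.n * h.valG x h.n) = h.valG x h.n) :
    Red π x (⟨Q, u, h :: a :: s :: r :: t :: l⟩ ::ₘ D0) x
      (⟨s.inS, 1, [s, r, a]⟩ ::ₘ ⟨Q, u, h :: t :: l⟩ ::ₘ D0) := by
  have hseg : Seg Q (h :: a :: s :: r :: t :: l) Q := hW.seg _ (Multiset.mem_cons_self _ _)
  obtain ⟨⟨hvar, hgap, heqn⟩, -⟩ := sol_cons.1 hS
  have st := fun w hw => hseg.step (s := w) hw
  obtain ⟨a1, ho, l1, g1⟩ := seg_cons_cons.1 hseg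
  obtain ⟨-, ao, l2, g2⟩ := seg_cons_cons.1 g1
  obtain ⟨a2, so, l3, g3⟩ := seg_cons_cons.1 g2
  obtain ⟨-, ro, l4, g4⟩ := seg_cons_cons.1 g3
  have s1 : a.X ∪ a.Y = h.X1 ∪ h.Y1 := l1.1
  have s2 : s.X ∪ s.Y = a.X1 ∪ a.Y1 := l2.1
  have s4 : t.X ∪ t.Y = r.X1 ∪ r.Y1 := l4.1
  have key : occD ((⟨s.inS, 1, [s, r, a]⟩ : Face O L V) ::ₘ {⟨Q, u, h :: t :: l⟩}) =
      occL (h :: a :: s :: r :: t :: l) := by
    simp only [occD_cons, occD_singleton, Face.occ, occL_cons, occL_nil]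
    abel
  -- the cyclic form of the triangle
  have cyc : ∀ {R : Type} [CommRing R] [Algebra O R] (y : Asg V L R) (na nr ns : Matrix L L R),
      VarOK y (occL (h :: a :: s :: r :: t :: l)) → Sup a.X a.Y na → Sup r.X r.Y nr → Sup s.X s.Y ns →
      (Face.Eqn (⟨s.inS, 1, [s, r, a]⟩ : Face O L V) (1 * a.valG y na * r.valG y nr * s.valG y ns) ↔
        r.valG y nr * s.valG y ns * a.valG y na = eS R (a.X ∪ a.Y)) := by
    intro R _ _ y na nr ns hy ha hr hs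
    have pv : ∀ w ∈ h :: a :: s :: r :: t :: l, ∀ n, Sup w.X w.Y n → _ := fun w hw n hn =>
      (valG_PI (st w hw).1 (st w hw).2.1 (hy.mono fun c hc => mem_occL.2 ⟨w, hw, hc⟩) hn).1
    have pa := pv a (by simp) na ha
    have sp := (pv r (by simp) nr hr).s1.mul (pv s (by simp) ns hs).s1
    rw [← hset, s2] at sp
    simp only [Face.Eqn, Step.inS, St.set, Units.val_one, map_one, one_smul, Matrix.one_mul]
    rw [Matrix.mul_assoc, valG_mul_eS hs, Matrix.mul_assoc, s2]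
    exact ⟨fun e => by rw [pa.eq_of_mul_right sp e, pa.l], fun e => by rw [pa.eq_of_mul_left sp e, pa.r]⟩
  have hocc := hW.occ
  rw [occD_cons] at hocc
  rw [← Multiset.singleton_add] at hW hS
  rw [← Multiset.singleton_add, ← Multiset.singleton_add (⟨Q, u, h :: t :: l⟩ : Face O L V),
    ← Multiset.cons_add]
  refine Red.local hW hS (fun f hf => ?_) (by rw [key]; exact hocc) (fun _ _ _ => rfl)
    ⟨by rw [key]; exact hvar, fun f hf => ?_, fun f hf => ?_⟩ fun y k1 k2 k3 => ?_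
  · rcases Multiset.mem_cons.1 hf with rfl | hf
    · exact seg_cons_cons.2 ⟨a2, so, l3, seg_cons_cons.2 ⟨St.le_refl l3.2.1, ro,
        split_link rd hset l1.2.1, seg_single.2 ⟨St.le_refl l1.2.1, ao, l2⟩⟩⟩
    · rw [Multiset.mem_singleton.1 hf]
      exact seg_cons_cons.2 ⟨a1, ho, split_link hd (s4.trans (hset.symm.trans s1)) l4.2.1, g4⟩
  · rcases Multiset.mem_cons.1 hf with rfl | hf
    · intro w hw
      simp only [List.mem_cons, List.not_mem_nil, or_false] at hw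
      rcases hw with rfl | rfl | rfl <;> exact hgap _ (by simp)
    · rw [Multiset.mem_singleton.1 hf]
      intro w hw
      simp only [List.mem_cons] at hw
      rcases hw with rfl | rfl | hw
      exacts [hgap _ (by simp), hgap _ (by simp), hgap _ (by simp [hw])]
  · rcases Multiset.mem_cons.1 hf with rfl | hf
    · refine (cyc x _ _ _ hvar (hgap a (by simp)) (hgap r (by simp)) (hgap s (by simp))).2 ?_
      have ph := (valG_PI ho a1.2.1 (hvar.mono fun c hc => mem_occL.2 ⟨h, by simp, hc⟩)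
        (hgap h (by simp))).1
      have := congrArg (· * h.valI x h.n) he
      simp only [Matrix.mul_assoc, ph.r] at this
      rwa [← s1, valG_mul_eS (hgap a (by simp)), ← Matrix.mul_assoc] at this
    · rw [Multiset.mem_singleton.1 hf]
      have : prodL x (h :: t :: l) = prodL x (h :: a :: s :: r :: t :: l) := by
        simp only [prodL, Matrix.mul_assoc] at he ⊢
        rw [he]
      exact this ▸ heqn
  · rw [key] at k1 k2
    rw [occD_singleton]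
    refine ⟨y, fun _ _ _ => rfl, k1, k2, fun f hf => ?_⟩
    obtain ⟨_, ⟨_, _, ⟨ns, b1, b2, rfl⟩, ⟨_, _, ⟨nr, b3, b4, rfl⟩, ⟨_, _, ⟨na, b5, b6, rfl⟩, rfl, rfl⟩,
      rfl⟩, rfl⟩, e1⟩ := k3 _ (Multiset.mem_cons_self _ _)
    obtain ⟨_, ⟨ph, _, c1, ⟨_, pl, ⟨nt, c2, c3, rfl⟩, c4, rfl⟩, rfl⟩, e2⟩ :=
      k3 _ (Multiset.mem_cons_of_mem (Multiset.mem_singleton_self _))
    have e3 := (cyc y _ _ _ k2 b6 b4 b2).1 e1
    rw [Multiset.mem_singleton.1 hf]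
    refine ⟨_, ⟨ph, _, c1, ⟨_, _, ⟨na, b5, b6, rfl⟩, ⟨_, _, ⟨ns, b1, b2, rfl⟩, ⟨_, _, ⟨nr, b3, b4, rfl⟩,
      ⟨_, pl, ⟨nt, c2, c3, rfl⟩, c4, rfl⟩, rfl⟩, rfl⟩, ?_⟩, rfl⟩, e2⟩
    rw [Matrix.mul_assoc _ (r.valG y nr), Matrix.mul_assoc _ (_ * _), e3, hset, ← s4,
      Matrix.mul_assoc, valG_mul_eS c3]

theorem mv_split [Infinite V] {x : Asg V L ℂ} {D0 : Diag O L V} {Q : St L} {u : Oˣ}
    {h s t : Step O L V} {l : List (Step O L V)} (hh : h.nontriv) (hs : s.nontriv) (ht : t.nontriv)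
    (hW : WF (⟨Q, u, h :: s :: t :: l⟩ ::ₘ D0)) (hS : Sol x (⟨Q, u, h :: s :: t :: l⟩ ::ₘ D0)) :
    ∃ (x' : Asg V L ℂ) (h' t' r a : Step O L V) (S : Diag O L V), h'.nontriv ∧ t'.nontriv ∧
      r.nontriv ∧ a.nontriv ∧ (∀ g ∈ S, g.size < Q.set.card) ∧
      Red π x (⟨Q, u, h :: s :: t :: l⟩ ::ₘ D0) x'
        (⟨s.inS, 1, [s, r, a]⟩ ::ₘ ⟨Q, u, h' :: t' :: l⟩ ::ₘ (D0 + S)) := by
  have hseg : Seg Q (h :: s :: t :: l) Q := hW.seg _ (Multiset.mem_cons_self _ _)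
  obtain ⟨⟨hvar, hgap, -⟩, -⟩ := sol_cons.1 hS
  have pv : ∀ w ∈ h :: s :: t :: l, _ := fun w hw => (valG_PI (hseg.step hw).1 (hseg.step hw).2.1
    (hvar.mono fun c hc => mem_occL.2 ⟨w, hw, hc⟩) (hgap w hw)).1
  obtain ⟨a1, -, l1, g1⟩ := seg_cons_cons.1 hseg
  obtain ⟨-, -, l2, -⟩ := seg_cons_cons.1 g1
  have s1 : s.X ∪ s.Y = h.X1 ∪ h.Y1 := l1.1
  have s2 : t.X ∪ t.Y = s.X1 ∪ s.Y1 := l2.1
  have ph := pv h (by simp)
  have ps := pv s (by simp)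
  rw [← s1] at ph
  rw [← s2] at ps
  obtain ⟨H, H', A2, hA, pH, fH, fG⟩ := bruhat (ph.trans ps) Finset.subset_union_left
    Finset.subset_union_left
  have pG := (ph.trans ps).trans pH
  rw [← Finset.union_sdiff_of_subset hA] at pG
  obtain ⟨δ1, δ1', δ2, δ2', v, p1, p2, hv, eH⟩ := fH.lin2 pH l2.2.1 l2.2.1
  obtain ⟨μ1, μ1', μ2, μ2', n', q1, q2, hn, eG⟩ := fG.lin2 pG a1.2.1 Finset.disjoint_sdiff
  obtain ⟨x1, r, t', S1, ⟨-, r1, r2, r3, -⟩, nr, nt, c1, vr, -, e1, R1⟩ :=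
    split_factor (π := π) (P := [h, s]) ht hW hS l2.2.1 p1 p2 hv
  obtain ⟨x2, h', a, S2, ⟨-, -, -, h3, ha⟩, nh, na, c2, vh, va, e2, R2⟩ :=
    split_factor (π := π) (P := []) hh R1.wf R1.sol Finset.disjoint_sdiff q1 q2 hn
  have R3 := split_cut (π := π) R2.wf R2.sol h3 r3
    ((congrArg St.set ha).trans (by rw [r1, r2]; exact Finset.union_sdiff_of_subset hA))
    (by rw [va, vh, e2 r (by simp), e2 s (by simp), vr, e1 h (by simp), e1 s (by simp), ← eH, ← eG,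
      Matrix.mul_assoc])
  refine ⟨x2, h', t', r, a, S1 + S2, nh, nt, nr, na,
    fun g hg => (Multiset.mem_add.1 hg).elim (c1 g) (c2 g), ?_⟩
  rw [show D0 + (S1 + S2) = S2 + (S1 + D0) by abel]
  exact (R1.trans R2).trans R3

end Crest.Agent.R3
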