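import Crest.Agent.R3.TriA

/-!
# R3 / TriB : the equations of the small faces say that two block triangular matrices have the same
diagonal blocks

`J` is the junction before the step, `J'` the junction after it, `l1 : J.X → J'.Xp`, `l2 : J.Y → J'.Yp`.
`M = u • (Ψ' d (l1 + l2))`, `N = cM Ψ` with `Ψ = F.psi T`, `Ψ' = F'.psi T.rot`.  Both are block triangular from
`(J.X | J.Y)` to `(Xo | Yo)`, `Xo = T.rot.Fp`, `Yo = T.rot.nT' ∪ T.rot.nZ`.
* `Ψ' e_Xp' = (φ0' + φ1') (e + a')` [frame `F'`], `Ψ e_X = φ0 + w φ2 - c φ2`, `cM Ψ e_X = εX (e - c) (φ0 + φ2)`;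
  hence `EqX ↔ M e_X = N e_X` (the inverse of `(e - c) (φ0 + φ2)` is `(φ'0 + φ'2) (e + c)`, `εX² = 1`).
* `e_Yo Ψ' = w (φ2' + φ3') (e + b')`, `e_Yo cM Ψ = w εY (e - e) (φ1 + φ3)`; hence `EqY ↔ e_Yo M = e_Yo N`.
* `tri_fwd`: `M (e + n) = N` gives both, because `(e + n) e_X = e_X` and `e_Yo M n = e_Yo M e_X n = 0`.
* `tri_bwd`: `M e_X` is a partial isomorphism `X → Xo` with inverse `W`; take `n = W (N - M) e_Y`.
  If `M (e + n0) = N` for some `n0` with `Sup X Y n0` then `n0 = n` (`tri_uniq`).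
-/

set_option autoImplicit false

noncomputable section

open Matrix

namespace Crest.Agent.R3

variable {O L : Type} [CommRing O] [Fintype L] [DecidableEq L] {R : Type} [CommRing R] [Algebra O R]
variable {T : TD L} {J J' : Jn L} {F F' : Fr L R} {u : Oˣ} {d : L → Oˣ} {l1 l1' l2 l2' : Matrix L L R}

section aux
omit [Fintype L]

private theorem tb_cls (hT : T.ok) (j : L) :
    (∃ p c n, T.τ j = j ∧ j ∉ T.K ∧ j ∉ T.K' ∧ ∀ p' c' n', j ∈ T.C p' c' n' ↔ p' = p ∧ c' = c ∧ n' = n) ∨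
      ((∀ p c n, j ∉ T.C p c n) ∧ (∀ p c n, T.τ j ∉ T.C p c n) ∧
        ((j ∈ T.K ∧ j ∉ T.K' ∧ T.τ j ∉ T.K ∧ T.τ j ∈ T.K' ∧ j ≠ T.τ j) ∨
         (j ∉ T.K ∧ j ∈ T.K' ∧ T.τ j ∈ T.K ∧ T.τ j ∉ T.K' ∧ j ≠ T.τ j) ∨
         (j ∉ T.K ∧ j ∉ T.K' ∧ T.τ j ∉ T.K ∧ T.τ j ∉ T.K'))) := by
  have h1 : ∀ i, T.τ i ∈ T.K' ↔ i ∈ T.K := fun i => by simp [TD.K']
  have h2 : T.τ j ∈ T.K ↔ j ∈ T.K' := by rw [← h1, hT.inv]
  have h3 : ∀ i, i ∈ T.K → i ∉ T.K' := fun i hi => Finset.disjoint_left.1 hT.dKK hi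
  by_cases h : ∃ p c n, j ∈ T.C p c n
  · obtain ⟨p, c, n, h⟩ := h
    refine Or.inl ⟨p, c, n, hT.fix p c n j h, Finset.disjoint_left.1 (hT.dK p c n) h,
      Finset.disjoint_left.1 (hT.dK' p c n) h, fun p' c' n' => ⟨fun h' => ?_, ?_⟩⟩
    · by_contra hne
      exact Finset.disjoint_left.1 (hT.dC p' c' n' p c n (by simpa using hne)) h' h
    · rintro ⟨rfl, rfl, rfl⟩
      exact h
  · push Not at h
    refine Or.inr ⟨h, fun p c n h' => ?_, ?_⟩
    · have := hT.fix p c n _ h'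
      rw [hT.inv] at this
      exact h p c n (this ▸ h')
    · by_cases k : j ∈ T.K
      · exact Or.inl ⟨k, h3 j k, fun e => h3 j k (h2.1 e), (h1 j).2 k, fun e => h3 j k (e.symm ▸ (h1 j).2 k)⟩
      · by_cases k' : j ∈ T.K'
        · exact Or.inr (Or.inl ⟨k, k', h2.2 k', fun e => k ((h1 j).1 e), fun e => k (e.symm ▸ h2.2 k')⟩)
        · exact Or.inr (Or.inr ⟨k, k', fun e => k' (h2.1 e), fun e => k ((h1 j).1 e)⟩)

private theorem tb_disj (hT : T.ok) : Disjoint T.nP T.nT ∧ Disjoint T.nS T.nZ ∧ Disjoint T.nP T.nS ∧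
    Disjoint T.nT T.nZ ∧ Disjoint (T.nT' ∪ T.nZ) (T.nP ∪ T.nS) ∧ Disjoint (T.nS ∪ T.nZ) T.nP ∧
    Disjoint (T.nS ∪ T.nZ) T.nT' := by
  have h1 : ∀ p c n, Disjoint T.K (T.C p c n) := fun p c n => (hT.dK p c n).symm
  have h2 : ∀ p c n, Disjoint T.K' (T.C p c n) := fun p c n => (hT.dK' p c n).symm
  simp [TD.nP, TD.nT, TD.nS, TD.nZ, TD.nT', hT.dC, hT.dK, hT.dK', hT.dKK, hT.dKK.symm, h1, h2]

private theorem tb_rot1 (T : TD L) : T.rot.nP ∪ T.rot.nS = T.nP ∪ T.nT := by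
  ext i
  simp only [TD.nP, TD.nT, TD.nS, TD.rot, Finset.mem_union]
  tauto

private theorem tb_rot2 (T : TD L) : T.rot.nT ∪ T.rot.nZ = T.nS ∪ T.nZ := by
  ext i
  simp only [TD.nZ, TD.nT, TD.nS, TD.rot, Finset.mem_union]
  tauto

private theorem tb_J (hJ : J.ok) : J.P ∪ J.S = J.Xp ∧ J.T ∪ J.Z = J.Yp ∧ J.P ∪ J.T = J.X ∧ J.S ∪ J.Z = J.Y := by
  obtain ⟨-, -, h⟩ := hJ
  simp only [Jn.P, Jn.S, Jn.T, Jn.Z, ← Finset.inter_union_distrib_left, ← Finset.union_inter_distrib_right]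
  refine ⟨?_, ?_, ?_, ?_⟩
  · rw [← h, Finset.inter_eq_left.2 Finset.subset_union_left]
  · rw [← h, Finset.inter_eq_left.2 Finset.subset_union_right]
  · rw [h, Finset.inter_eq_right.2 Finset.subset_union_left]
  · rw [h, Finset.inter_eq_right.2 Finset.subset_union_right]

end aux

private theorem tb_mul_w (M : Matrix L L R) (i j : L) : (M * T.w R) i j = M i (T.τ j) := by
  simp [TD.w, Matrix.mul_apply]

private theorem tb_w_eS (A : Finset L) (i j : L) :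
    (T.w R * eS R A) i j = if i = T.τ j ∧ j ∈ A then 1 else 0 := by
  simp only [eS, TD.w, mul_diagonal, of_apply]
  split_ifs <;> simp_all

private theorem tb_eS (A : Finset L) (i j : L) : eS R A i j = if i = j ∧ j ∈ A then 1 else 0 := by
  simp only [eS, diagonal_apply]
  split_ifs <;> simp_all

private theorem tb_mul_eS (M : Matrix L L R) (A : Finset L) (i j : L) :
    (M * eS R A) i j = if j ∈ A then M i j else 0 := by
  simp [eS]

private theorem tb_eS_mul (M : Matrix L L R) (A : Finset L) (i j : L) :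
    (eS R A * M) i j = if i ∈ A then M i j else 0 := by
  simp [eS]

private theorem tb_cM (i j : L) : T.cM R i j =
    (if i = j ∧ j ∈ T.C true true true ∪ T.C true true false ∪ T.C true false false ∪ T.C false true false ∪
      T.C false false true ∪ T.C false false false then 1 else 0) -
    (if i = j ∧ j ∈ T.C false true true ∪ T.C true false true ∪ T.K then 1 else 0) -
    (if i = T.τ j ∧ j ∈ T.K then 1 else 0) + (if i = T.τ j ∧ j ∈ T.K' then 1 else 0) := by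
  simp only [TD.cM, Matrix.add_apply, Matrix.sub_apply, tb_w_eS, tb_eS]

private theorem tb_c1 (hT : T.ok) : T.cM R * eS R T.nP = eS R T.nP := by
  ext i j
  simp only [tb_mul_eS, tb_cM, tb_eS, TD.nP, Finset.mem_union]
  rcases tb_cls hT j with ⟨p, c, n, h1, h2, h3, h4⟩ | ⟨h1, -⟩
  · cases p <;> cases c <;> cases n <;> simp [h2, h3, h4]
  · simp [h1]

private theorem tb_c2 (hT : T.ok) : T.cM R * T.w R * eS R T.nT = dg R (T.εX O) * eS R T.nT := by
  ext i j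
  simp only [tb_mul_eS, tb_mul_w, tb_cM, TD.nT, Finset.mem_union, dg, diagonal_apply, TD.εX, hT.inv]
  rcases tb_cls hT j with ⟨p, c, n, h1, h2, h3, h4⟩ | ⟨h1, h2, h | h | h⟩
  · by_cases e : i = j
    · subst e
      cases p <;> cases c <;> cases n <;> simp [h1, h2, h3, h4]
    · simp [h1, e]
  all_goals
    by_cases e : i = j
    · subst e
      simp [h1, h2, h]
    · simp [h1, h2, h, e]

private theorem tb_e1 (hT : T.ok) :
    eS R (T.rot.nT' ∪ T.rot.nZ) * T.cM R = T.w R * dg R (T.εY O) * eS R (T.nS ∪ T.nZ) := by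
  ext i j
  have e0 : T.rot.K' = T.K' := rfl
  simp only [tb_mul_eS, tb_eS_mul, tb_cM, TD.nT', TD.nZ, TD.nS, e0, Finset.mem_union, dg, mul_diagonal, TD.εY]
  simp only [TD.rot, TD.w, of_apply]
  rcases tb_cls hT j with ⟨p, c, n, h1, h2, h3, h4⟩ | ⟨h1, h2, h | h | h⟩
  · by_cases e : i = j
    · subst e
      cases p <;> cases c <;> cases n <;> simp [h1, h2, h3, h4]
    · simp [h1, e]
  · by_cases e : i = j
    · subst e
      simp [h1, h, eq_false h.2.2.2.2]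
    · by_cases e' : i = T.τ j
      · subst e'
        simp [h1, h2, h, e]
      · simp [e, e']
  · by_cases e : i = j
    · subst e
      simp [h1, h, eq_false h.2.2.2.2]
    · by_cases e' : i = T.τ j
      · subst e'
        simp [h1, h2, h]
      · simp [e, e']
  · simp [h1, h]

private theorem tb_w1 : Sup T.nT' T.nT (T.w R * eS R T.nT) ∨ ¬ T.ok := by
  refine or_not_of_imp fun hT i j hij => ?_
  rw [tb_w_eS, if_neg]
  rintro ⟨rfl, hj⟩
  refine hij ⟨?_, hj⟩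
  simp only [TD.nT, TD.nT', Finset.mem_union] at hj ⊢
  rcases hj with (hj | hj) | hj
  · exact Or.inl (Or.inl ((hT.fix _ _ _ _ hj).symm ▸ hj))
  · exact Or.inl (Or.inr ((hT.fix _ _ _ _ hj).symm ▸ hj))
  · exact Or.inr (Finset.mem_image_of_mem _ hj)

private theorem tb_w2 (hT : T.ok) : T.w R * eS R T.nZ = eS R T.nZ := by
  ext i j
  rw [tb_w_eS, tb_eS]
  by_cases hj : j ∈ T.nZ
  · have : T.τ j = j := by
      rcases Finset.mem_union.1 hj with h | h <;> exact hT.fix _ _ _ _ h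
    rw [this]
  · simp [hj]

private theorem tb_w3 (hT : T.ok) (hF : F.ok T J) : Sup T.nT' J.T (T.w R * F.φ 2) := by
  have h := ((tb_w1 (R := R)).resolve_right (not_not.2 hT)).mul hF.p2.s1
  rwa [Matrix.mul_assoc, hF.p2.s1.eS_mul subset_rfl] at h

private theorem tb_A (hJ : J.ok) (hF : F.ok T J) :
    F.psi T * eS R J.Xp = (F.φ 0 + F.φ 1) * (eS R (J.P ∪ J.S) + F.a) := by
  have d1 : Disjoint J.T J.Xp := hJ.1.symm.mono_left Finset.inter_subset_left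
  have d2 : Disjoint J.Z J.Xp := hJ.1.symm.mono_left Finset.inter_subset_left
  have d3 : Disjoint J.S J.P := hJ.2.1.symm.mono Finset.inter_subset_right Finset.inter_subset_right
  simp only [Fr.psi, Matrix.add_mul, Matrix.sub_mul, Matrix.mul_add, Matrix.mul_assoc,
    hF.p0.s1.mul_eS Finset.inter_subset_left, hF.p1.s1.mul_eS Finset.inter_subset_left,
    hF.sa.mul_eS Finset.inter_subset_left, hF.p2.s1.mul_eS_zero d1, hF.p3.s1.mul_eS_zero d2,
    hF.sb.mul_eS_zero d2, hF.sz.mul_eS_zero d2, hF.p0.s1.mul_eS Finset.subset_union_left,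
    hF.p1.s1.mul_eS Finset.subset_union_right, hF.p1.s1.mul_eq_zero hF.sa d3, Matrix.mul_zero]
  abel

private theorem tb_B (hT : T.ok) (hJ : J.ok) (hF : F.ok T J) :
    T.cM R * F.psi T * eS R J.X = dg R (T.εX O) * ((eS R (T.nP ∪ T.nT) - F.c) * (F.φ 0 + F.φ 2)) := by
  have d1 : Disjoint J.S J.X := hJ.2.1.symm.mono_left Finset.inter_subset_right
  have d2 : Disjoint J.Z J.X := hJ.2.1.symm.mono_left Finset.inter_subset_right
  have c1 : ∀ {C : Finset L} {M : Matrix L L R}, Sup T.nP C M → T.cM R * M = M := fun h => by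
    rw [← h.eS_mul subset_rfl, ← Matrix.mul_assoc, tb_c1 hT]
  have c2 : T.cM R * (T.w R * F.φ 2) = dg R (T.εX O) * F.φ 2 := by
    rw [← hF.p2.s1.eS_mul subset_rfl, ← Matrix.mul_assoc, ← Matrix.mul_assoc, tb_c2 (O := O) hT,
      Matrix.mul_assoc]
  have c3 : ∀ {C : Finset L} {M : Matrix L L R}, Sup T.nP C M → dg R (T.εX O) * M = M := fun h => by
    rw [h.dg_mul_const (d := T.εX O) (c := 1) fun i hi => if_neg fun hi' =>
      Finset.disjoint_left.1 (tb_disj hT).1 hi (by simp [TD.nT, hi'])]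
    simp
  rw [Matrix.mul_assoc]
  simp only [Fr.psi, Matrix.add_mul, Matrix.sub_mul, Matrix.mul_add, Matrix.mul_sub, Matrix.mul_assoc,
    hF.p0.s1.mul_eS Finset.inter_subset_right, hF.p2.s1.mul_eS Finset.inter_subset_right,
    hF.p1.s1.mul_eS_zero d1, hF.p3.s1.mul_eS_zero d2, hF.sa.mul_eS_zero d1,
    hF.sb.mul_eS_zero d2, hF.sz.mul_eS_zero d2, hF.p0.s1.eS_mul Finset.subset_union_left,
    hF.p2.s1.eS_mul Finset.subset_union_right, hF.sc.mul_eq_zero hF.p0.s1 (tb_disj hT).1.symm, Matrix.mul_zero,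
    c1 hF.p0.s1, c2, c1 (hF.sc.mul hF.p2.s1), c3 hF.p0.s1, c3 (hF.sc.mul hF.p2.s1)]
  abel

private theorem tb_D (hT : T.ok) (hJ : J.ok) (hF : F.ok T J) :
    eS R (T.nT' ∪ T.nZ) * F.psi T = T.w R * ((F.φ 2 + F.φ 3) * (eS R (J.T ∪ J.Z) + F.b)) := by
  have d1 : Disjoint (T.nT' ∪ T.nZ) T.nP := (tb_disj hT).2.2.2.2.1.mono_right Finset.subset_union_left
  have d2 : Disjoint (T.nT' ∪ T.nZ) T.nS := (tb_disj hT).2.2.2.2.1.mono_right Finset.subset_union_right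
  have d3 : Disjoint J.Z J.T := hJ.2.1.symm.mono Finset.inter_subset_right Finset.inter_subset_right
  have c1 : T.w R * F.φ 3 = F.φ 3 := by
    rw [← hF.p3.s1.eS_mul subset_rfl, ← Matrix.mul_assoc, tb_w2 hT]
  simp only [Fr.psi, Matrix.add_mul, Matrix.mul_add, Matrix.mul_sub, ← Matrix.mul_assoc,
    hF.p0.s1.eS_mul_zero d1, hF.p1.s1.eS_mul_zero d2, hF.sc.eS_mul_zero d1, hF.se.eS_mul_zero d2,
    hF.sz.eS_mul_zero d1, hF.p3.s1.eS_mul Finset.subset_union_right, Matrix.zero_mul, c1,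
    Matrix.mul_zero, (tb_w3 hT hF).eS_mul Finset.subset_union_left,
    (tb_w3 hT hF).mul_eS Finset.subset_union_left, hF.p3.s1.mul_eS Finset.subset_union_right,
    hF.p3.s1.mul_eq_zero hF.sb d3]
  abel

private theorem tb_E (hT : T.ok) (hF : F.ok T J) :
    eS R (T.rot.nT' ∪ T.rot.nZ) * (T.cM R * F.psi T) =
      T.w R * (dg R (T.εY O) * ((eS R (T.nS ∪ T.nZ) - F.e) * (F.φ 1 + F.φ 3))) := by
  have d1 := (tb_disj hT).2.2.2.2.2.1
  have d2 := (tb_disj hT).2.2.2.2.2.2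
  rw [← Matrix.mul_assoc, tb_e1 (O := O) hT, Matrix.mul_assoc, Matrix.mul_assoc]
  congr 2
  simp only [Fr.psi, Matrix.sub_mul, Matrix.mul_add, Matrix.mul_sub, ← Matrix.mul_assoc,
    hF.p0.s1.eS_mul_zero d1, hF.sc.eS_mul_zero d1, hF.sz.eS_mul_zero d1,
    hF.p1.s1.eS_mul Finset.subset_union_left, hF.p3.s1.eS_mul Finset.subset_union_right,
    hF.se.eS_mul Finset.subset_union_left, Matrix.zero_mul,
    (tb_w3 hT hF).eS_mul_zero d2,
    hF.se.mul_eq_zero hF.p1.s1 (tb_disj hT).2.1.symm]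
  abel

private theorem tb_MX (hJ : J.ok) (hJ' : J'.ok) (hF' : F'.ok T.rot J') (h1 : PI J.X J'.Xp l1 l1')
    (h2 : PI J.Y J'.Yp l2 l2') :
    F'.psi T.rot * (dg R d * (l1 + l2)) * eS R J.X =
      (F'.φ 0 + F'.φ 1) * (eS R (J'.P ∪ J'.S) + F'.a) * dg R d * l1 := by
  rw [← tb_A hJ' hF', Matrix.mul_assoc, Matrix.mul_assoc, Matrix.add_mul, h1.s1.mul_eS subset_rfl,
    h2.s1.mul_eS_zero hJ.2.1.symm, add_zero, Matrix.mul_assoc, Matrix.mul_assoc,
    (h1.s1.dg_mul d).eS_mul subset_rfl]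

private theorem tb_supY (hJ' : J'.ok) (hF' : F'.ok T.rot J') :
    Sup (T.nS ∪ T.nZ) J'.Yp ((F'.φ 2 + F'.φ 3) * (eS R (J'.T ∪ J'.Z) + F'.b)) := by
  rw [← tb_rot2, ← (tb_J hJ').2.1]
  exact ((hF'.p2.s1.mono Finset.subset_union_left Finset.subset_union_left).add
    (hF'.p3.s1.mono Finset.subset_union_right Finset.subset_union_right)).mul
      ((sup_eS _).add (hF'.sb.mono Finset.subset_union_left Finset.subset_union_right))

private theorem tb_MY (hT : T.ok) (hJ' : J'.ok) (hF' : F'.ok T.rot J') (h1 : PI J.X J'.Xp l1 l1') :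
    eS R (T.rot.nT' ∪ T.rot.nZ) * (F'.psi T.rot * (dg R d * (l1 + l2))) =
      T.w R * ((F'.φ 2 + F'.φ 3) * (eS R (J'.T ∪ J'.Z) + F'.b) * dg R d * l2) := by
  rw [← Matrix.mul_assoc, tb_D hT.rot hJ' hF', Matrix.mul_assoc, Matrix.mul_add (dg R d), Matrix.mul_add,
    (tb_supY hJ' hF').mul_eq_zero (h1.s1.dg_mul d) hJ'.1.symm, zero_add, ← Matrix.mul_assoc _ (dg R d)]
  rfl

private theorem tb_eps (A : Finset L) : (fun i => if i ∈ A then (-1 : Oˣ) else 1)⁻¹ =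
    fun i => if i ∈ A then (-1 : Oˣ) else 1 := by
  funext i
  simp only [Pi.inv_apply]
  split_ifs <;> simp

private theorem tb_PX (hT : T.ok) (hJ : J.ok) (hF : F.ok T J) :
    PI J.X (T.nP ∪ T.nT) (dg R (T.εX O) * ((eS R (T.nP ∪ T.nT) - F.c) * (F.φ 0 + F.φ 2)))
      ((F.φ' 0 + F.φ' 2) * (eS R (T.nP ∪ T.nT) + F.c) * dg R (T.εX O)) := by
  have h := ((hF.p0.add hF.p2 (hJ.1.mono Finset.inter_subset_left Finset.inter_subset_left)
    (tb_disj hT).1).trans (PI.unip (tb_disj hT).1 hF.sc).symm).dg_mul (T.εX O)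
  rwa [(tb_J hJ).2.2.1, show (T.εX O)⁻¹ = T.εX O from tb_eps _] at h

private theorem tb_PY (hT : T.ok) (hJ : J.ok) (hF : F.ok T J) :
    PI J.Y (T.nS ∪ T.nZ) (dg R (T.εY O) * ((eS R (T.nS ∪ T.nZ) - F.e) * (F.φ 1 + F.φ 3)))
      ((F.φ' 1 + F.φ' 3) * (eS R (T.nS ∪ T.nZ) + F.e) * dg R (T.εY O)) := by
  have h := ((hF.p1.add hF.p3 (hJ.1.mono Finset.inter_subset_left Finset.inter_subset_left)
    (tb_disj hT).2.1).trans (PI.unip (tb_disj hT).2.1 hF.se).symm).dg_mul (T.εY O)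
  rwa [(tb_J hJ).2.2.2, show (T.εY O)⁻¹ = T.εY O from tb_eps _] at h

private theorem tb_X (hT : T.ok) (hJ : J.ok) (hJ' : J'.ok) (hF : F.ok T J) (hF' : F'.ok T.rot J')
    (h1 : PI J.X J'.Xp l1 l1') (h2 : PI J.Y J'.Yp l2 l2') :
    EqX u d l1 T J J' F F' ↔ algebraMap O R (u : O) • (F'.psi T.rot * (dg R d * (l1 + l2))) * eS R J.X =
      T.cM R * F.psi T * eS R J.X := by
  rw [Matrix.smul_mul, tb_MX hJ hJ' hF' h1 h2, tb_B (O := O) hT hJ hF]
  have p := tb_PX (O := O) hT hJ hF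
  have e : EqX u d l1 T J J' F F' ↔ (F.φ' 0 + F.φ' 2) * (eS R (T.nP ∪ T.nT) + F.c) * dg R (T.εX O) *
      (algebraMap O R (u : O) • ((F'.φ 0 + F'.φ 1) * (eS R (J'.P ∪ J'.S) + F'.a) * dg R d * l1)) = eS R J.X := by
    simp only [EqX, Matrix.mul_smul, Matrix.mul_assoc]
  rw [e]
  refine ⟨p.symm.eq_of_mul_right (Sup.smul (Sup.mul (C := Finset.univ) ?_ h1.s1) _), fun h => h ▸ p.l⟩
  rw [← tb_rot1, Matrix.mul_assoc]
  exact ((hF'.p0.s1.mono Finset.subset_union_left (Finset.subset_univ _)).add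
    (hF'.p1.s1.mono Finset.subset_union_right (Finset.subset_univ _))).mul (sup_univ _)

private theorem tb_Y (hT : T.ok) (hJ : J.ok) (hJ' : J'.ok) (hF : F.ok T J) (hF' : F'.ok T.rot J')
    (h1 : PI J.X J'.Xp l1 l1') (h2 : PI J.Y J'.Yp l2 l2') :
    EqY u d l2 T J J' F F' ↔ eS R (T.rot.nT' ∪ T.rot.nZ) *
      (algebraMap O R (u : O) • (F'.psi T.rot * (dg R d * (l1 + l2)))) =
        eS R (T.rot.nT' ∪ T.rot.nZ) * (T.cM R * F.psi T) := by
  rw [Matrix.mul_smul, tb_MY hT hJ' hF' h1, tb_E (O := O) hT hF, ← Matrix.mul_smul]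
  have p := tb_PY (O := O) hT hJ hF
  have e : EqY u d l2 T J J' F F' ↔ (F.φ' 1 + F.φ' 3) * (eS R (T.nS ∪ T.nZ) + F.e) * dg R (T.εY O) *
      (algebraMap O R (u : O) • ((F'.φ 2 + F'.φ 3) * (eS R (J'.T ∪ J'.Z) + F'.b) * dg R d * l2)) = eS R J.Y := by
    simp only [EqY, Matrix.mul_smul, Matrix.mul_assoc]
  rw [e]
  refine ⟨fun h => congrArg _ (p.symm.eq_of_mul_right ((((tb_supY hJ' hF').mul_dg d).mul h2.s1).smul _) h),
    fun h => ?_⟩
  have h3 := congrArg (T.w R * ·) h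
  simp only [← Matrix.mul_assoc (T.w R) (T.w R), TD.w_mul_w hT, Matrix.one_mul] at h3
  exact h3 ▸ p.l

private theorem tb_PM (hT : T.ok) (hJ : J.ok) (hJ' : J'.ok) (hF' : F'.ok T.rot J')
    (h1 : PI J.X J'.Xp l1 l1') (h2 : PI J.Y J'.Yp l2 l2') :
    ∃ M', PI (J.X ∪ J.Y) T.rot.all (algebraMap O R (u : O) • (F'.psi T.rot * (dg R d * (l1 + l2)))) M' := by
  obtain ⟨Ψ, h⟩ := Fr.psi_PI hT.rot hJ' hF'
  rw [← hJ'.2.2] at h
  exact ⟨_, (((h1.add h2 hJ.2.1 hJ'.1).dg_mul d).trans h).smul u⟩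

theorem tri_fwd (hT : T.ok) (hJ : J.ok) (hJ' : J'.ok) (hF : F.ok T J) (hF' : F'.ok T.rot J')
    (h1 : PI J.X J'.Xp l1 l1') (h2 : PI J.Y J'.Yp l2 l2') {n : Matrix L L R} (hn : Sup J.X J.Y n)
    (h : algebraMap O R (u : O) • (F'.psi T.rot * (dg R d * (l1 + l2) * (eS R (J.X ∪ J.Y) + n))) =
      T.cM R * F.psi T) :
    EqX u d l1 T J J' F F' ∧ EqY u d l2 T J J' F F' := by
  rw [← Matrix.mul_assoc, ← Matrix.smul_mul] at h
  rw [tb_X hT hJ hJ' hF hF' h1 h2, tb_Y hT hJ hJ' hF hF' h1 h2, ← h]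
  constructor
  · rw [Matrix.mul_assoc _ (_ + n), Matrix.add_mul, eS_mul_of_superset Finset.subset_union_left,
      hn.mul_eS_zero hJ.2.1.symm, add_zero]
  · have s := (((tb_supY hJ' hF').mul_dg d).mul h2.s1)
    rw [← Matrix.mul_assoc _ _ (_ + n), Matrix.mul_smul, tb_MY hT hJ' hF' h1, Matrix.smul_mul,
      Matrix.mul_assoc _ _ (_ + n), Matrix.mul_add _ _ n, s.mul_eS Finset.subset_union_right,
      s.mul_eq_zero hn hJ.2.1.symm, add_zero]

theorem tri_bwd (hT : T.ok) (hJ : J.ok) (hJ' : J'.ok) (hF : F.ok T J) (hF' : F'.ok T.rot J')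
    (h1 : PI J.X J'.Xp l1 l1') (h2 : PI J.Y J'.Yp l2 l2') (hX : EqX u d l1 T J J' F F')
    (hY : EqY u d l2 T J J' F F') :
    ∃ n : Matrix L L R, Sup J.X J.Y n ∧
      algebraMap O R (u : O) • (F'.psi T.rot * (dg R d * (l1 + l2) * (eS R (J.X ∪ J.Y) + n))) =
        T.cM R * F.psi T := by
  rw [tb_X hT hJ hJ' hF hF' h1 h2] at hX
  rw [tb_Y hT hJ hJ' hF hF' h1 h2] at hY
  obtain ⟨M', hM⟩ := tb_PM (u := u) (d := d) hT hJ hJ' hF' h1 h2
  obtain ⟨Ψ, hΨ⟩ := Fr.psi_PI hT hJ hF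
  have hN := (TD.sup_cM (R := R) hT).mul hΨ.s1
  have p := tb_PX (O := O) hT hJ hF
  rw [← tb_B hT hJ hF, ← hX] at p
  simp only [← Matrix.mul_assoc (F'.psi T.rot) (dg R d * (l1 + l2)), ← Matrix.smul_mul _ _ (_ + _)]
  rw [← T.rot_all] at hN
  have hM1 := hM.s1
  generalize algebraMap O R (u : O) • (F'.psi T.rot * (dg R d * (l1 + l2))) = M at *
  generalize T.cM R * F.psi T = N at *
  generalize (F.φ' 0 + F.φ' 2) * (eS R (T.nP ∪ T.nT) + F.c) * dg R (T.εX O) = W at *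
  have s := hN.sub hM1
  have e1 : (N - M) * eS R J.Y = N - M := by
    have := s.mul_eS subset_rfl
    rwa [eS_union hJ.2.1, Matrix.mul_add, Matrix.sub_mul N M (eS R J.X), hX, sub_self, zero_add] at this
  have e2 : eS R (T.nP ∪ T.nT) * (N - M) = N - M := by
    have := s.eS_mul subset_rfl
    rwa [TD.all, Finset.union_assoc, eS_union (tb_disj hT.rot).2.2.2.2.1.symm, Matrix.add_mul,
      Matrix.mul_sub (eS R (T.rot.nT' ∪ T.rot.nZ)), hY, sub_self, add_zero, tb_rot1] at this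
  refine ⟨W * ((N - M) * eS R J.Y), p.s2.mul (s.mul (sup_eS _)), ?_⟩
  rw [Matrix.mul_add, hM1.mul_eS subset_rfl, e1, ← p.s2.eS_mul subset_rfl, ← Matrix.mul_assoc,
    ← Matrix.mul_assoc, p.r, e2, add_sub_cancel]

theorem tri_uniq (hT : T.ok) (hJ : J.ok) (hJ' : J'.ok) (hF' : F'.ok T.rot J')
    (h1 : PI J.X J'.Xp l1 l1') (h2 : PI J.Y J'.Yp l2 l2') {n n' : Matrix L L R} (hn : Sup J.X J.Y n)
    (hn' : Sup J.X J.Y n')
    (h : algebraMap O R (u : O) • (F'.psi T.rot * (dg R d * (l1 + l2) * (eS R (J.X ∪ J.Y) + n))) =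
      algebraMap O R (u : O) • (F'.psi T.rot * (dg R d * (l1 + l2) * (eS R (J.X ∪ J.Y) + n')))) :
    n = n' := by
  obtain ⟨M', hM⟩ := tb_PM (u := u) (d := d) hT hJ hJ' hF' h1 h2
  rw [← Matrix.mul_assoc _ _ (_ + n), ← Matrix.mul_assoc _ _ (_ + n'), ← Matrix.smul_mul,
    ← Matrix.smul_mul _ _ (_ + n')] at h
  generalize algebraMap O R (u : O) • (F'.psi T.rot * (dg R d * (l1 + l2))) = M at h hM
  have h3 := congrArg (M' * ·) h
  simp only [← Matrix.mul_assoc M', hM.l, Matrix.mul_add, hn.eS_mul Finset.subset_union_left,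
    hn'.eS_mul Finset.subset_union_left] at h3
  exact add_left_cancel h3

end Crest.Agent.R3
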