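import Crest.Agent.R3.TriF
import Crest.Agent.R3.TriB
import Crest.Agent.R3.GourM

/-!
# R3 / Tri : a face with three non-trivial steps is replaced by six smaller faces

Steps `s0, s1, s2` with complex values `V0, V1, V2`, `u • V2 V1 V0 = e`; `Q = s0.inS` or `Q` is trivial, in any case
`s2.link s0.inS`.  Junctions `J0 = s2.jn s0`, `J1 = s0.jn s1`, `J2 = s1.jn s2` (`jn_ok`).
`goursat` with `Ω = s0.X ∪ s0.Y`, `Xp = s2.X1`, `X = s0.X`, `X2 = s1.X`, `G = V0⁻¹` (`valG_PI`) gives `T`, `Ψ0`.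
Put `Ψ1 = cM T * Ψ0 * V0⁻¹`, `Ψ2 = cM T.rot * Ψ1 * V1⁻¹`.  Flags: `Ψ1` maps `s0.X1` onto `T.rot.Fp` (`cM_flag`,
`Flag.trans`) and `s1.X` onto `T.rot.Fc` (`goursat`); `Ψ2` maps `s1.X1` onto `T.rot.rot.Fp` (`cM_flag` for `T.rot`) and
`s2.X` onto `T.rot.rot.Fc` (`Ψ2 = rot.cM * cM * Ψ0 * (u • V2)`, `cM_flag2`).  `psi_decomp` gives frames `F0, F1, F2`;
`Ψ1 V0 = cM Ψ0`, `Ψ2 V1 = rot.cM Ψ1`, `u • Ψ0 V2 = rot.rot.cM Ψ2` (`cM_cube`, `T.rot.rot.rot = T` by `rfl`).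
Twelve fresh names `ν : Fin 3 × Fin 4 → V`.  The new faces are `faceX`, `faceY` of
`(s0, 1, T, J0, J1)`, `(s1, 1, T.rot, J1, J2)`, `(s2, u, T.rot.rot, J2, J0)`; use `Red.local` with `E = {f}`,
`face_seg`, `face_occ` + `OccOK.add_fresh`, `face_gap`, `tri_fwd` + `face_eqn`.
Lifting: `y = y'`; `faceX_lift`, `faceY_lift` give the gaps `a, b, c, e` of the three frames, `Sup.lift` the slacks;
`liftFr_ok`, `tri_bwd` give gaps `ñ_j`, which lift `s_j.n` by `tri_uniq` (apply `π`, `Fr.psi_map`, `TD.cM_map`).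
Then `Ψ̃0 (u • Ṽ2 Ṽ1 Ṽ0) = rot.rot.cM rot.cM cM Ψ̃0 = Ψ̃0`, and `Ψ̃0` is invertible (`Fr.psi_PI`).
-/

set_option autoImplicit false

noncomputable section

open Matrix

namespace Crest.Agent.R3

variable {O L V : Type} [CommRing O] [Fintype L] [DecidableEq L]
variable {B : Type} [CommRing B] [Algebra O B] [Algebra O ℂ] {π : B →ₐ[O] ℂ}

theorem tri_frames {Ω0 Ω1 Ω2 X0 X1 X2 Z0 Z1 Z2 : Finset L} {V0 V1 V2 W0 W1 W2 : Matrix L L ℂ} {u : Oˣ}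
    (p0 : PI Ω0 Ω1 V0 W0) (p1 : PI Ω1 Ω2 V1 W1) (p2 : PI Ω2 Ω0 V2 W2)
    (f0 : Flag X0 Z0 V0 W0) (f1 : Flag X1 Z1 V1 W1) (f2 : Flag X2 Z2 V2 W2)
    (hZ : Z2 ⊆ Ω0) (hX0 : X0 ⊆ Ω0) (hX1 : X1 ⊆ Ω1)
    (he : algebraMap O ℂ (u : O) • (V2 * V1 * V0) = eS ℂ Ω0) :
    ∃ (T : TD L) (Ψ0 Ψ0' Ψ1 Ψ1' Ψ2 Ψ2' : Matrix L L ℂ), T.ok ∧
      (PI Ω0 T.all Ψ0 Ψ0' ∧ Flag Z2 T.Fp Ψ0 Ψ0' ∧ Flag X0 T.Fc Ψ0 Ψ0') ∧
      (PI Ω1 T.rot.all Ψ1 Ψ1' ∧ Flag Z0 T.rot.Fp Ψ1 Ψ1' ∧ Flag X1 T.rot.Fc Ψ1 Ψ1') ∧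
      (PI Ω2 T.rot.rot.all Ψ2 Ψ2' ∧ Flag Z1 T.rot.rot.Fp Ψ2 Ψ2' ∧ Flag X2 T.rot.rot.Fc Ψ2 Ψ2') ∧
      Ψ1 * V0 = T.cM ℂ * Ψ0 ∧ Ψ2 * V1 = T.rot.cM ℂ * Ψ1 ∧
      algebraMap O ℂ (u : O) • (Ψ0 * V2) = T.rot.rot.cM ℂ * Ψ2 := by
  obtain ⟨T, Φ, Φ', hT, hΦ, fp, fc, fn⟩ := goursat p0.symm hZ hX0 hX1
  have q1 := (p0.symm.trans hΦ).trans (TD.cM_PI hT)
  have g1 := (f0.symm.trans fc).trans (TD.cM_flag hT)
  rw [Matrix.mul_assoc] at fn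
  have q1' : PI Ω1 T.rot.all (T.cM ℂ * (Φ * W0)) (V0 * Φ' * (T.rot.rot.cM ℂ * T.rot.cM ℂ)) := by
    rwa [TD.rot_all]
  have q2 := (p1.symm.trans q1').trans (TD.cM_PI hT.rot)
  have g2 := (f1.symm.trans fn).trans (TD.cM_flag hT.rot)
  have hW : algebraMap O ℂ (u : O) • V2 = W0 * W1 :=
    (p0.trans p1).eq_of_mul_left (p2.s1.smul _) (by rw [smul_mul_assoc, ← Matrix.mul_assoc, he])
  have f2' : Flag X2 Z2 (algebraMap O ℂ (u : O) • V2) (algebraMap O ℂ ((u⁻¹ : Oˣ) : O) • W2) :=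
    ⟨by rw [smul_mul_assoc]; exact f2.1.smul _, by rw [smul_mul_assoc]; exact f2.2.smul _⟩
  have g3 := (f2'.trans fp).trans (TD.cM_flag2 hT)
  have q3 : PI T.all T.rot.all (T.rot.cM ℂ * T.cM ℂ) (T.rot.rot.cM ℂ) := by
    have := (TD.cM_PI (R := ℂ) hT.rot.rot).symm
    rw [TD.rot_all, TD.rot_all] at this
    rw [TD.rot_all]
    exact this
  have q4 := ((p2.smul u).trans hΦ).trans q3
  have e : T.rot.cM ℂ * T.cM ℂ * (Φ * algebraMap O ℂ (u : O) • V2) =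
      T.rot.cM ℂ * (T.cM ℂ * (Φ * W0) * W1) := by
    rw [hW]; simp only [Matrix.mul_assoc]
  rw [e] at g3 q4
  rw [q4.uniq q2] at g3
  refine ⟨T, Φ, Φ', _, _, _, _, hT, ⟨hΦ, fp, fc⟩, ⟨q1', g1, fn⟩, ⟨?_, g2, g3⟩, ?_, ?_, ?_⟩
  · rwa [TD.rot_all]
  · rw [Matrix.mul_assoc, Matrix.mul_assoc, p0.l, hΦ.s1.mul_eS subset_rfl]
  · rw [Matrix.mul_assoc, Matrix.mul_assoc _ W1, p1.l, q1.s1.mul_eS subset_rfl]
  · rw [← e, ← Matrix.mul_assoc, ← Matrix.mul_assoc (T.rot.rot.cM ℂ), TD.cM_cube hT,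
      ← Matrix.mul_assoc, hΦ.s1.eS_mul subset_rfl, Matrix.mul_smul]

theorem tri_jocc_mem {T : TD L} {J : Jn L} {ν : Fin 4 → V} {c : Occ L V} (h : c ∈ jocc T J ν) :
    ∃ i, c.v = ν i := by
  simp only [jocc, Multiset.mem_add, mem_slot, Option.some.injEq, Prod.mk.injEq] at h
  rcases h with ((h | h) | h) | h <;> exact ⟨_, h.1.1.symm⟩

theorem tri_jocc_mem' {T : TD L} {J : Jn L} {ν : Fin 4 → V} {M : Multiset (Occ L V)} {c : Occ L V}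
    (h : c ∈ jocc T J ν + (jocc T J ν).map Occ.flip + M) : (∃ i, c.v = ν i) ∨ c ∈ M := by
  rcases Multiset.mem_add.1 h with h | h
  · rcases Multiset.mem_add.1 h with h | h
    · exact Or.inl (tri_jocc_mem h)
    · obtain ⟨c', hc', rfl⟩ := Multiset.mem_map.1 h
      exact Or.inl (tri_jocc_mem (c := c') hc')
  · exact Or.inr h

theorem tri_add_jocc {M : Multiset (Occ L V)} (h : OccOK M) (T : TD L) (J : Jn L) {ν : Fin 4 → V}
    (hν : Function.Injective ν) (hf : ∀ i, ∀ c ∈ M, c.v ≠ ν i) :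
    OccOK (jocc T J ν + (jocc T J ν).map Occ.flip + M) := by
  refine h.add_fresh ?_ fun c hc c' hc' => ?_
  · have h1 : (jocc T J ν).map Occ.v ≤ {ν 0} + {ν 1} + {ν 2} + {ν 3} := by
      simp only [jocc, Multiset.map_add]
      exact add_le_add (add_le_add (add_le_add (occ_slot_le ..) (occ_slot_le ..)) (occ_slot_le ..))
        (occ_slot_le ..)
    have h2 : ({ν 0} + {ν 1} + {ν 2} + {ν 3} : Multiset V) = (Finset.univ : Finset (Fin 4)).val.map ν :=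
      rfl
    exact Multiset.nodup_of_le h1 (h2 ▸ Finset.univ.nodup.map hν)
  · obtain ⟨i, hi⟩ := tri_jocc_mem hc
    rw [hi]
    exact hf i c' hc'

/-- the two small faces of a step -/
def tri_pair (s : Step O L V) (u : Oˣ) (T : TD L) (J J' : Jn L) (ν ν' : Fin 4 → V) (F F' : Fr L ℂ) :
    Diag O L V := faceX s u T J J' ν ν' F F' ::ₘ {faceY s u T J J' ν ν' F F'}

section step
variable {p s t : Step O L V} {u : Oˣ} {T : TD L} {ν ν' : Fin 4 → V} {F F' : Fr L ℂ}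

omit [Algebra O ℂ] [Fintype L] in
theorem tri_pair_mem {J J' : Jn L} {g : Face O L V} : g ∈ tri_pair s u T J J' ν ν' F F' ↔
    g = faceX s u T J J' ν ν' F F' ∨ g = faceY s u T J J' ν ν' F F' := by
  simp [tri_pair]

theorem tri_pair_occ (hF : F.ok T (p.jn s)) : occD (tri_pair s u T (p.jn s) (s.jn t) ν ν' F F') =
    s.occ + jocc T.rot (s.jn t) ν' + (jocc T (p.jn s) ν).map Occ.flip := by
  rw [tri_pair, occD_cons, occD_singleton, face_occ hF]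

omit [Algebra O ℂ] [Fintype L] in
theorem tri_pair_size {J J' : Jn L} (hs : s.nontriv) (hd : Disjoint s.X s.Y) {g : Face O L V}
    (hg : g ∈ tri_pair s u T J J' ν ν' F F') : g.size < (s.X ∪ s.Y).card := by
  have h1 := hs.1.card_pos
  have h2 := hs.2.card_pos
  rw [Finset.card_union_of_disjoint hd]
  rcases tri_pair_mem.1 hg with rfl | rfl
  · show (s.X ∪ ∅).card < _
    rw [Finset.union_empty]; omega
  · show (s.Y ∪ ∅).card < _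
    rw [Finset.union_empty]; omega

theorem tri_step_fwd {x : Asg V L ℂ} (hT : T.ok) (hJ : (p.jn s).ok) (hs : s.ok) (hl : s.link t.inS)
    (hF : F.ok T (p.jn s)) (hF' : F'.ok T.rot (s.jn t)) (hv : VarOK x s.occ) (hn : Sup s.X s.Y s.n)
    (hx : F.asg x ν) (hx' : F'.asg x ν')
    (he : algebraMap O ℂ (u : O) • (F'.psi T.rot * s.valG x s.n) = T.cM ℂ * F.psi T) :
    (∀ g ∈ tri_pair s u T (p.jn s) (s.jn t) ν ν' F F', Seg g.Q g.l g.Q) ∧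
      Sol x (tri_pair s u T (p.jn s) (s.jn t) ν ν' F F') := by
  obtain ⟨v1, v2⟩ := varOK_add.1 hv
  obtain ⟨eX, eY⟩ := tri_fwd hT hJ (jn_ok hs hl) hF hF' (blk_PI hs.2.1 v1) (blk_PI hs.2.2 v2) hn he
  obtain ⟨a1, a2⟩ := face_seg (u := u) (ν := ν) (ν' := ν') hT hJ hs hl hF hF'
  obtain ⟨b1, b2⟩ := face_gap (u := u) (ν := ν) (ν' := ν') hF hF'
  obtain ⟨c1, c2⟩ := face_eqn hJ hs hv hF hF' hx hx' eX eY
  refine ⟨fun g hg => ?_, ?_, fun g hg => ?_, fun g hg => ?_⟩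
  · rcases tri_pair_mem.1 hg with rfl | rfl
    exacts [a1, a2]
  · rw [tri_pair_occ hF]
    exact varOK_add.2 ⟨varOK_add.2 ⟨hv, (varOK_add.1 (jocc_varOK hF' hx')).1⟩,
      (varOK_add.1 (jocc_varOK hF hx)).2⟩
  · rcases tri_pair_mem.1 hg with rfl | rfl
    exacts [b1, b2]
  · rcases tri_pair_mem.1 hg with rfl | rfl
    exacts [c1, c2]

theorem tri_step_bwd {x : Asg V L ℂ} {y : Asg V L B} {G G' : Fr L B} (hT : T.ok) (hJ : (p.jn s).ok)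
    (hs : s.ok) (hl : s.link t.inS) (hF' : F'.ok T.rot (s.jn t)) (hv : VarOK x s.occ)
    (hn : Sup s.X s.Y s.n)
    (he : algebraMap O ℂ (u : O) • (F'.psi T.rot * s.valG x s.n) = T.cM ℂ * F.psi T)
    (hG : G.ok T (p.jn s) ∧ G.map (π : B →+* ℂ) = F)
    (hG' : G'.ok T.rot (s.jn t) ∧ G'.map (π : B →+* ℂ) = F') (hy : VarOK y s.occ)
    (hm : ∀ c ∈ s.occ, ∀ b, (y c.v b).map π = x c.v b)
    (hX : EqX u s.d (blk y s.o1 s.X s.X1) T (p.jn s) (s.jn t) G G')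
    (hY : EqY u s.d (blk y s.o2 s.Y s.Y1) T (p.jn s) (s.jn t) G G') :
    ∃ q, SL π y s q ∧ Sup (s.X1 ∪ s.Y1) (s.X ∪ s.Y) q ∧
      algebraMap O B (u : O) • (G'.psi T.rot * q) = T.cM B * G.psi T := by
  obtain ⟨v1, v2⟩ := varOK_add.1 hv
  obtain ⟨w1, w2⟩ := varOK_add.1 hy
  obtain ⟨n, hn', h⟩ := tri_bwd hT hJ (jn_ok hs hl) hG.1 hG'.1 (blk_PI hs.2.1 w1) (blk_PI hs.2.2 w2)
    hX hY
  change algebraMap O B (u : O) • (G'.psi T.rot * s.valG y n) = _ at h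
  refine ⟨_, ⟨n, ?_, hn', rfl⟩, (valG_PI hs hJ.2.1 hy hn').1.s1, h⟩
  have m1 : (G.psi T).map π = F.psi T := by
    rw [← hG.2]; exact Fr.psi_map G (π : B →+* ℂ)
  have m2 : (G'.psi T.rot).map π = F'.psi T.rot := by
    rw [← hG'.2]; exact Fr.psi_map G' (π : B →+* ℂ)
  have h1 := congrArg (fun M : Matrix L L B => M.map π) h
  rw [Matrix.map_smul' _ _ _ (map_mul π), Matrix.map_mul, Matrix.map_mul, valG_map hm, m1, m2,
    TD.cM_map, AlgHom.commutes, ← he] at h1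
  exact tri_uniq hT hJ (jn_ok hs hl) hF' (blk_PI hs.2.1 v1) (blk_PI hs.2.2 v2) (hn'.map π) hn h1

end step

theorem mv_tri [Infinite V] (hG : Good π) {x : Asg V L ℂ} {D0 : Diag O L V} {Q : St L} {u : Oˣ}
    {s0 s1 s2 : Step O L V} (h0 : s0.nontriv) (h1 : s1.nontriv) (h2 : s2.nontriv)
    (hW : WF (⟨Q, u, [s0, s1, s2]⟩ ::ₘ D0)) (hS : Sol x (⟨Q, u, [s0, s1, s2]⟩ ::ₘ D0)) :
    Elim π x ⟨Q, u, [s0, s1, s2]⟩ D0 := by
  have hseg : Seg Q [s0, s1, s2] Q := hW.seg _ (Multiset.mem_cons_self _ _)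
  obtain ⟨hQ, k0, l0, hseg1⟩ := seg_cons_cons.1 hseg
  obtain ⟨-, k1, l1, hseg2⟩ := seg_cons_cons.1 hseg1
  obtain ⟨-, k2, l2'⟩ := seg_single.1 hseg2
  have l2 : s2.link s0.inS := l2'.mono hQ
  have j0 := jn_ok k2 l2
  have j1 := jn_ok k0 l0
  have j2 := jn_ok k1 l1
  have d0 : Disjoint s0.X s0.Y := j0.2.1
  have d1 : Disjoint s1.X s1.Y := j1.2.1
  have d2 : Disjoint s2.X s2.Y := j2.2.1
  have o0 : s2.X1 ∪ s2.Y1 = s0.X ∪ s0.Y := j0.2.2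
  have o1 : s0.X1 ∪ s0.Y1 = s1.X ∪ s1.Y := j1.2.2
  have o2 : s1.X1 ∪ s1.Y1 = s2.X ∪ s2.Y := j2.2.2
  have hQs : Q.set = s0.X ∪ s0.Y := hQ.1
  obtain ⟨⟨hv, hn, he⟩, -⟩ := sol_cons.1 hS
  have hocc : (⟨Q, u, [s0, s1, s2]⟩ : Face O L V).occ = s0.occ + s1.occ + s2.occ := by
    simp only [Face.occ, occL_cons, occL_nil, add_zero, add_assoc]
  have n0 : Sup s0.X s0.Y s0.n := hn s0 (by simp)
  have n1 : Sup s1.X s1.Y s1.n := hn s1 (by simp)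
  have n2 : Sup s2.X s2.Y s2.n := hn s2 (by simp)
  have hO := hW.occ
  rw [occD_cons, hocc] at hO
  rw [hocc] at hv
  obtain ⟨hv01, v2⟩ := varOK_add.1 hv
  obtain ⟨v0, v1⟩ := varOK_add.1 hv01
  obtain ⟨p0, f0⟩ := valG_PI k0 d0 v0 n0
  obtain ⟨p1, f1⟩ := valG_PI k1 d1 v1 n1
  obtain ⟨p2, f2⟩ := valG_PI k2 d2 v2 n2
  rw [o1] at p0
  rw [o2] at p1
  rw [o0] at p2
  have he' : algebraMap O ℂ (u : O) • (s2.valG x s2.n * s1.valG x s1.n * s0.valG x s0.n) =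
      eS ℂ (s0.X ∪ s0.Y) := by
    simp only [Face.Eqn, prodL, Matrix.one_mul, hQs] at he
    rwa [Matrix.mul_assoc, valG_mul_eS n0] at he
  obtain ⟨T, Ψ0, Ψ0', Ψ1, Ψ1', Ψ2, Ψ2', hT, ⟨a1, a2, a3⟩, ⟨b1, b2, b3⟩, ⟨c1, c2, c3⟩, e0, e1, e2⟩ :=
    tri_frames p0 p1 p2 f0 f1 f2 (o0 ▸ Finset.subset_union_left) Finset.subset_union_left
      Finset.subset_union_left he'
  obtain ⟨F0, hF0, rfl⟩ := psi_decomp hT j0 a1 a2 a3
  obtain ⟨F1, hF1, rfl⟩ := psi_decomp hT.rot j1 b1 b2 b3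
  obtain ⟨F2, hF2, rfl⟩ := psi_decomp hT.rot.rot j2 c1 c2 c3
  obtain ⟨ν, hν, hfr⟩ := exists_fresh (s0.occ + s1.occ + s2.occ + occD D0) (Fin 3 × Fin 4)
  obtain ⟨x', hx1, hx2⟩ := exists_asg x hν fun q b =>
    if b then (![F0, F1, F2] q.1).φ' q.2 else (![F0, F1, F2] q.1).φ q.2
  have hag : Agree x x' (s0.occ + s1.occ + s2.occ + occD D0) := fun c hc b =>
    congrFun (hx2 c.v fun i => hfr i c hc).symm b
  have g0 : Agree x x' s0.occ := fun c hc => hag c (by simp [hc])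
  have g1 : Agree x x' s1.occ := fun c hc => hag c (by simp [hc])
  have g2 : Agree x x' s2.occ := fun c hc => hag c (by simp [hc])
  have t0 : F0.asg x' fun i => ν (0, i) := fun i => ⟨hx1 (0, i) false, hx1 (0, i) true⟩
  have t1 : F1.asg x' fun i => ν (1, i) := fun i => ⟨hx1 (1, i) false, hx1 (1, i) true⟩
  have t2 : F2.asg x' fun i => ν (2, i) := fun i => ⟨hx1 (2, i) false, hx1 (2, i) true⟩
  have e0' : algebraMap O ℂ ((1 : Oˣ) : O) • (F1.psi T.rot * s0.valG x' s0.n) = T.cM ℂ * F0.psi T := by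
    rw [← valG_congr g0, e0]; simp
  have e1' : algebraMap O ℂ ((1 : Oˣ) : O) • (F2.psi T.rot.rot * s1.valG x' s1.n) =
      T.rot.cM ℂ * F1.psi T.rot := by
    rw [← valG_congr g1, e1]; simp
  have e2' : algebraMap O ℂ (u : O) • (F0.psi T.rot.rot.rot * s2.valG x' s2.n) =
      T.rot.rot.cM ℂ * F2.psi T.rot.rot := by
    rw [← valG_congr g2]; exact e2
  have hF0' : F0.ok T.rot.rot.rot (s2.jn s0) := hF0
  obtain ⟨A1, A2⟩ := tri_step_fwd hT j0 k0 l0 hF0 hF1 (v0.congr g0) n0 t0 t1 e0'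
  obtain ⟨B1, B2⟩ := tri_step_fwd hT.rot j1 k1 l1 hF1 hF2 (v1.congr g1) n1 t1 t2 e1'
  obtain ⟨C1, C2⟩ := tri_step_fwd hT.rot.rot j2 k2 l2 hF2 hF0' (v2.congr g2) n2 t2 t0 e2'
  set P0 := tri_pair s0 1 T (s2.jn s0) (s0.jn s1) (fun i => ν (0, i)) (fun i => ν (1, i)) F0 F1
    with hP0
  set P1 := tri_pair s1 1 T.rot (s0.jn s1) (s1.jn s2) (fun i => ν (1, i)) (fun i => ν (2, i)) F1 F2
    with hP1
  set P2 := tri_pair s2 u T.rot.rot (s1.jn s2) (s2.jn s0) (fun i => ν (2, i)) (fun i => ν (0, i)) F2 F0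
    with hP2
  set J0 := jocc T (s2.jn s0) fun i => ν (0, i) with hJ0
  set J1 := jocc T.rot (s0.jn s1) fun i => ν (1, i) with hJ1
  set J2 := jocc T.rot.rot (s1.jn s2) fun i => ν (2, i) with hJ2
  have hE : occD (P0 + P1 + P2) = (s0.occ + J1 + J0.map Occ.flip) + (s1.occ + J2 + J1.map Occ.flip) +
      (s2.occ + J0 + J2.map Occ.flip) := by
    rw [occD_add, occD_add, hP0, hP1, hP2, tri_pair_occ hF0, tri_pair_occ hF1, tri_pair_occ hF2]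
    rfl
  refine ⟨x', P0 + P1 + P2, fun g hg => ?_, ?_⟩
  · have z1 := (hseg.step (s := s1) (by simp)).2.2
    have z2 := (hseg.step (s := s2) (by simp)).2.2
    show g.size < Q.set.card
    rcases Multiset.mem_add.1 hg with hg | hg
    · rcases Multiset.mem_add.1 hg with hg | hg
      · exact hQs ▸ tri_pair_size h0 d0 hg
      · exact z1 ▸ tri_pair_size h1 d1 hg
    · exact z2 ▸ tri_pair_size h2 d2 hg
  rw [← Multiset.singleton_add] at hW hS ⊢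
  rw [add_comm D0]
  refine Red.local hW hS (fun g hg => ?_) ?_ (fun c hc => hag c (by simp [hc]))
    (sol_add.2 ⟨sol_add.2 ⟨A2, B2⟩, C2⟩) fun y hm hy hf => ?_
  · rcases Multiset.mem_add.1 hg with hg | hg
    · rcases Multiset.mem_add.1 hg with hg | hg
      · exact A1 g hg
      · exact B1 g hg
    · exact C1 g hg
  · have inj : ∀ j : Fin 3, Function.Injective fun i => ν (j, i) := fun j a b h =>
      (Prod.mk.inj (hν h)).2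
    have ne : ∀ {j j' : Fin 3} {i i' : Fin 4}, j ≠ j' → ν (j, i) ≠ ν (j', i') := fun h e =>
      h (Prod.mk.inj (hν e)).1
    have r0 := tri_add_jocc hO T (s2.jn s0) (inj 0) fun i => hfr (0, i)
    have r1 := tri_add_jocc r0 T.rot (s0.jn s1) (inj 1) fun i c hc => by
      rcases tri_jocc_mem' hc with ⟨i', h⟩ | h
      · rw [h]; exact ne (by decide)
      · exact hfr _ c h
    have r2 := tri_add_jocc r1 T.rot.rot (s1.jn s2) (inj 2) fun i c hc => by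
      rcases tri_jocc_mem' hc with ⟨i', h⟩ | h
      · rw [h]; exact ne (by decide)
      · rcases tri_jocc_mem' h with ⟨i', h⟩ | h
        · rw [h]; exact ne (by decide)
        · exact hfr _ c h
    rw [hE]
    convert r2 using 1
    rw [← hJ0, ← hJ1, ← hJ2]
    abel
  rw [hE] at hm hy
  have y0 : VarOK y s0.occ := hy.mono fun c hc => by simp [hc]
  have y1 : VarOK y s1.occ := hy.mono fun c hc => by simp [hc]
  have y2 : VarOK y s2.occ := hy.mono fun c hc => by simp [hc]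
  have m0 : ∀ c ∈ s0.occ, ∀ b, (y c.v b).map π = x' c.v b := fun c hc => hm c (by simp [hc])
  have m1 : ∀ c ∈ s1.occ, ∀ b, (y c.v b).map π = x' c.v b := fun c hc => hm c (by simp [hc])
  have m2 : ∀ c ∈ s2.occ, ∀ b, (y c.v b).map π = x' c.v b := fun c hc => hm c (by simp [hc])
  obtain ⟨q, hq, hq'⟩ := hf _ (Multiset.mem_add.2 (Or.inl (Multiset.mem_add.2 (Or.inl
    (tri_pair_mem.2 (Or.inl rfl))))))
  obtain ⟨α1, γ0, hα1, hγ0, X0⟩ := faceX_lift j0 hq hq' k0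
  obtain ⟨q, hq, hq'⟩ := hf _ (Multiset.mem_add.2 (Or.inl (Multiset.mem_add.2 (Or.inl
    (tri_pair_mem.2 (Or.inr rfl))))))
  obtain ⟨β1, ε0, hβ1, hε0, Y0⟩ := faceY_lift j0 hq hq' k0
  obtain ⟨q, hq, hq'⟩ := hf _ (Multiset.mem_add.2 (Or.inl (Multiset.mem_add.2 (Or.inr
    (tri_pair_mem.2 (Or.inl rfl))))))
  obtain ⟨α2, γ1, hα2, hγ1, X1⟩ := faceX_lift j1 hq hq' k1
  obtain ⟨q, hq, hq'⟩ := hf _ (Multiset.mem_add.2 (Or.inl (Multiset.mem_add.2 (Or.inr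
    (tri_pair_mem.2 (Or.inr rfl))))))
  obtain ⟨β2, ε1, hβ2, hε1, Y1⟩ := faceY_lift j1 hq hq' k1
  obtain ⟨q, hq, hq'⟩ := hf _ (Multiset.mem_add.2 (Or.inr (tri_pair_mem.2 (Or.inl rfl))))
  obtain ⟨α0, γ2, hα0, hγ2, X2⟩ := faceX_lift j2 hq hq' k2
  obtain ⟨q, hq, hq'⟩ := hf _ (Multiset.mem_add.2 (Or.inr (tri_pair_mem.2 (Or.inr rfl))))
  obtain ⟨β0, ε2, hβ0, hε2, Y2⟩ := faceY_lift j2 hq hq' k2
  obtain ⟨z0, hz0, hz0'⟩ := hF0.sz.lift hG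
  obtain ⟨z1, hz1, hz1'⟩ := hF1.sz.lift hG
  obtain ⟨z2, hz2, hz2'⟩ := hF2.sz.lift hG
  have G0 := liftFr_ok hF0 t0 (hy.mono fun c hc => by simp [hJ0, hc])
    (fun c hc => hm c (by simp [hJ0, hc])) hα0 hβ0 hγ0 hε0 ⟨hz0', hz0⟩
  have G1 := liftFr_ok hF1 t1 (hy.mono fun c hc => by simp [hJ1, hc])
    (fun c hc => hm c (by simp [hJ1, hc])) hα1 hβ1 hγ1 hε1 ⟨hz1', hz1⟩
  have G2 := liftFr_ok hF2 t2 (hy.mono fun c hc => by simp [hJ2, hc])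
    (fun c hc => hm c (by simp [hJ2, hc])) hα2 hβ2 hγ2 hε2 ⟨hz2', hz2⟩
  obtain ⟨q0, S0, -, E0⟩ := tri_step_bwd hT j0 k0 l0 hF1 (v0.congr g0) n0 e0' G0 G1 y0 m0
    (X0 ..) (Y0 ..)
  obtain ⟨q1, S1, -, E1⟩ := tri_step_bwd hT.rot j1 k1 l1 hF2 (v1.congr g1) n1 e1' G1 G2 y1 m1
    (X1 ..) (Y1 ..)
  obtain ⟨q2, S2, U2, E2⟩ := tri_step_bwd hT.rot.rot j2 k2 l2 hF0' (v2.congr g2) n2 e2' G2 G0 y2 m2
    (X2 ..) (Y2 ..)
  rw [occD_singleton, hocc]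
  refine ⟨y, fun _ _ _ => rfl, fun c hc b => ?_, varOK_add.2 ⟨varOK_add.2 ⟨y0, y1⟩, y2⟩,
    fun g hg => ?_⟩
  · rw [hag c (Multiset.mem_add.2 (Or.inl hc))]
    rcases Multiset.mem_add.1 hc with hc | hc
    · rcases Multiset.mem_add.1 hc with hc | hc
      exacts [m0 c hc b, m1 c hc b]
    · exact m2 c hc b
  obtain rfl := Multiset.mem_singleton.1 hg
  refine ⟨1 * q2 * q1 * q0, ⟨q0, _, S0, ⟨q1, _, S1, ⟨q2, 1, S2, rfl, rfl⟩, rfl⟩, rfl⟩, ?_⟩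
  obtain ⟨Ψ', hΨ⟩ := Fr.psi_PI hT j0 G0.1
  rw [Units.val_one, map_one, one_smul] at E0 E1
  rw [TD.rot3] at E2
  rw [o0] at U2
  generalize (liftFr y T (s2.jn s0) (fun i => ν (0, i)) α0 β0 γ0 ε0 z0).psi T = Φ0 at hΨ E0 E2
  have E3 : Φ0 * (algebraMap O B (u : O) • (q2 * q1 * q0)) = Φ0 := by
    rw [Matrix.mul_smul, ← Matrix.mul_assoc, ← Matrix.mul_assoc, ← smul_mul_assoc, ← smul_mul_assoc,
      E2, Matrix.mul_assoc _ _ q1, E1, Matrix.mul_assoc, Matrix.mul_assoc, E0, ← Matrix.mul_assoc,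
      ← Matrix.mul_assoc, TD.cM_cube hT, hΨ.s1.eS_mul subset_rfl]
  have E4 : algebraMap O B (u : O) • (q2 * q1 * q0) = eS B (s0.X ∪ s0.Y) := by
    have hl : Ψ' * Φ0 = eS B (s0.X ∪ s0.Y) := hΨ.l
    have := congrArg (Ψ' * ·) E3
    rwa [← Matrix.mul_assoc, hl, Matrix.mul_smul, ← Matrix.mul_assoc, ← Matrix.mul_assoc,
      U2.eS_mul subset_rfl] at this
  show algebraMap O B (u : O) • (1 * q2 * q1 * q0 * eS B Q.set) = eS B Q.set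
  rw [Matrix.one_mul, ← smul_mul_assoc, E4, hQs, eS_mul_self]

end Crest.Agent.R3
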