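import Crest.Agent.R3.Comb
import Crest.Agent.R3.Pure
import Crest.Agent.R3.Split
import Crest.Agent.R3.Tri

/-!
# R3 / Ind : the induction for diagrams

* `walk`: induction on the length.  Length `1`, `2`: `mv_dup` (twice, once) gives length `3`; length `3`: `mv_tri`;
  length `≥ 4`: `mv_split`, then `mv_tri` for the triangle, then the induction hypothesis.
* `one`: strong induction on `f.wt`.  If some step is neither non-trivial nor full: `mv_rot`, then `mv_n2`
  (`occ = 0`) or `mv_n1`.  Otherwise `f` is normal: no non-trivial step: `mv_pure`; no full step (and a non-trivial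
  one): `walk`; both: `comb_main`.
* `RR_of_PP`: `red_ren`, `bigCl_of_small`, `one`.
* `PP_succ`: `red_ren`, then induction on the number of faces of size `m + 1`.  Take such a face `f`, `D = f ::ₘ D0`.
  If `BigCl (m+1) D0`: `one`.  Otherwise there is `c ∈ occD D0` of size `m + 1` with `c.flip ∈ f.occ`; `c` lies in a
  face `f2` of `D0` of size `m + 1` (`Seg.occ_card`); `mv_mkFull` twice (`Multiset.cons_swap`) and `mv_merge`.
-/

set_option autoImplicit false

noncomputable section

open Matrix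

namespace Crest.Agent.R3

variable {O L V : Type} [CommRing O] [Fintype L] [DecidableEq L]
variable {B : Type} [CommRing B] [Algebra O B] [Algebra O ℂ] {π : B →ₐ[O] ℂ}

theorem ind_elim_of_red {x x' : Asg V L ℂ} {f f' : Face O L V} {D0 : Diag O L V}
    (h : Red π x (f ::ₘ D0) x' (f' ::ₘ D0)) (hs : f'.size = f.size) (h' : Elim π x' f' D0) :
    Elim π x f D0 := by
  obtain ⟨x'', S, h1, h2⟩ := h'
  exact ⟨x'', S, fun g hg => hs ▸ h1 g hg, h.trans h2⟩

theorem ind_walk3 [Infinite V] (hG : Good π) (n : ℕ) : ∀ {x : Asg V L ℂ} {Q : St L} {u : Oˣ}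
    {l : List (Step O L V)} {D0 : Diag O L V}, l.length = n + 3 → (∀ s ∈ l, s.nontriv) →
    WF (⟨Q, u, l⟩ ::ₘ D0) → Sol x (⟨Q, u, l⟩ ::ₘ D0) → Elim π x ⟨Q, u, l⟩ D0 := by
  induction n with
  | zero =>
    intro x Q u l D0 hl hN hW hS
    obtain ⟨s0, s1, s2, rfl⟩ := List.length_eq_three.1 hl
    exact mv_tri hG (hN s0 (by simp)) (hN s1 (by simp)) (hN s2 (by simp)) hW hS
  | succ n ih =>
    intro x Q u l D0 hl hN hW hS
    rcases l with _ | ⟨h, _ | ⟨s, _ | ⟨t, l⟩⟩⟩
    iterate 3 simp at hl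
    have hs := hN s (by simp)
    obtain ⟨x1, h', t', r, a, S, n1, n2, n3, n4, hS1, r1⟩ :=
      mv_split (π := π) (hN h (by simp)) hs (hN t (by simp)) hW hS
    obtain ⟨x2, S', hS2, r2⟩ := mv_tri hG hs n3 n4 r1.wf r1.sol
    rw [Multiset.cons_add] at r2
    obtain ⟨x3, S'', hS3, r3⟩ := ih (l := h' :: t' :: l) (by simpa using hl) (by
      intro w hw
      simp only [List.mem_cons] at hw
      rcases hw with rfl | rfl | hw
      · exact n1
      · exact n2
      · exact hN w (by simp [hw])) r2.wf r2.sol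
    have hc : (s.X ∪ s.Y).card = Q.set.card :=
      ((hW.seg _ (Multiset.mem_cons_self _ _)).step (s := s) (by simp)).2.2
    refine ⟨x3, S + S' + S'', fun g hg => ?_, ?_⟩
    · rcases Multiset.mem_add.1 hg with hg | hg
      · rcases Multiset.mem_add.1 hg with hg | hg
        · exact hS1 g hg
        · exact (hS2 g hg).trans_eq hc
      · exact hS3 g hg
    · rw [← add_assoc, ← add_assoc]
      exact (r1.trans r2).trans r3

theorem walk [Infinite V] (hG : Good π) {x : Asg V L ℂ} {f : Face O L V} {D0 : Diag O L V}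
    (hW : WF (f ::ₘ D0)) (hS : Sol x (f ::ₘ D0)) (hl : f.l ≠ []) (hN : ∀ s ∈ f.l, s.nontriv) :
    Elim π x f D0 := by
  obtain ⟨Q, u, l⟩ := f
  rcases l with _ | ⟨s0, _ | ⟨s1, _ | ⟨s2, l⟩⟩⟩
  · exact absurd rfl hl
  · have h0 : s0.nontriv := hN s0 (by simp)
    have r1 := mv_dup (π := π) hW hS
    have r2 := mv_dup (π := π) r1.wf r1.sol
    exact ind_elim_of_red (r1.trans r2) rfl (mv_tri hG h0 h0 h0 r2.wf r2.sol)
  · have h0 : s0.nontriv := hN s0 (by simp)
    have r1 := mv_dup (π := π) hW hS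
    exact ind_elim_of_red r1 rfl (mv_tri hG h0 h0 (hN s1 (by simp)) r1.wf r1.sol)
  · exact ind_walk3 hG l.length (by simp) hN hW hS

theorem one [Infinite V] (hG : Good π) {x : Asg V L ℂ} {f : Face O L V} {D0 : Diag O L V}
    (hW : WF (f ::ₘ D0)) (hS : Sol x (f ::ₘ D0)) (hB : BigCl f.size D0) (h0 : 0 < f.size)
    (hQ : f.HasNT ∨ QL π (Fin f.size)) : Elim π x f D0 := by
  induction hn : f.wt using Nat.strong_induction_on generalizing x f with
  | _ n ih =>
    have step : ∀ {x' : Asg V L ℂ} {f' : Face O L V}, Red π x (f ::ₘ D0) x' (f' ::ₘ D0) →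
        f'.size = f.size → f'.wt < f.wt → (f.HasNT → f'.HasNT) → Elim π x f D0 := by
      intro x' f' r hs hw hNT
      refine ind_elim_of_red r hs (ih f'.wt (hn ▸ hw) r.wf r.sol (hs ▸ hB) (hs ▸ h0) ?_ rfl)
      exact hQ.imp hNT fun h => hs ▸ h
    by_cases hN : f.Normal
    · by_cases hNT : f.HasNT
      · by_cases hF : ∃ s ∈ f.l, s.IsFull
        · obtain ⟨x', f', h1, h2, h3, r⟩ := comb_main hG hW hS hB hN hNT hF
          exact step r h1 h3 fun _ => h2
        · obtain ⟨s, hs, -⟩ := hNT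
          exact walk hG hW hS (List.ne_nil_of_mem hs) fun t ht =>
            (hN t ht).resolve_right fun h => hF ⟨t, ht, h⟩
      · refine ⟨x, 0, by simp, ?_⟩
        rw [add_zero]
        exact mv_pure hG hW hS hB h0 (fun t ht => (hN t ht).resolve_left fun h => hNT ⟨t, ht, h⟩)
          (hQ.resolve_left hNT)
    · obtain ⟨s, hs, h1, h2⟩ : ∃ s ∈ f.l, ¬ s.nontriv ∧ ¬ s.IsFull := by
        by_contra hc
        refine hN fun s hs => ?_
        by_contra h
        exact hc ⟨s, hs, not_or.1 h⟩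
      obtain ⟨Q, u, l⟩ := f
      obtain ⟨A, C, rfl⟩ := List.append_of_mem hs
      obtain ⟨Q', hQ', r1⟩ := mv_rot (π := π) hW hS
      have hNT : (⟨Q, u, A ++ s :: C⟩ : Face O L V).HasNT → ∃ t ∈ C ++ A, t.nontriv := by
        rintro ⟨t, ht, h3⟩
        refine ⟨t, ?_, h3⟩
        simp only [List.mem_append, List.mem_cons] at ht ⊢
        rcases ht with ht | rfl | ht
        · exact Or.inr ht
        · exact absurd h3 h1
        · exact Or.inl ht
      by_cases ho : s.occ = 0
      · obtain ⟨u', l', e, h3, r2⟩ := mv_n2 (π := π) (l := C ++ A) r1.wf r1.sol h1 ho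
        refine step (r1.trans r2) hQ' ?_ fun h => h3 (hNT h)
        simp only [Face.wt, e, List.map_append, List.map_cons, List.sum_append, List.sum_cons,
          wt_of_occ_zero h1 ho]
        omega
      · obtain ⟨c, hc⟩ := Multiset.exists_mem_of_ne_zero ho
        have r2 := mv_n1 (π := π) (l := C ++ A) r1.wf r1.sol h1 hc
        refine step (r1.trans r2) hQ' ?_ fun h => ?_
        · simp only [Face.wt, List.map_append, List.map_cons, List.sum_append, List.sum_cons,
            wt_of_bad h1 h2 ho, wt_full, wt_dgOnly]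
          omega
        · obtain ⟨t, ht, h3⟩ := hNT h
          exact ⟨t, List.mem_cons_of_mem _ (List.mem_cons_of_mem _ ht), h3⟩

theorem RR_of_PP (hG : Good π) {m : ℕ} (h : PP π L m) : RR π L (m + 1) := by
  rintro V D x hW hsz ⟨f, D0, rfl, hNT, hsm⟩ hS
  by_cases hf : f.size ≤ m
  · refine h V _ x hW (fun g hg => ?_) hS
    rcases Multiset.mem_cons.1 hg with rfl | hg
    · exact hf
    · exact Nat.lt_succ_iff.1 (hsm g hg)
  have hf' : f.size = m + 1 := le_antisymm (hsz f (Multiset.mem_cons_self _ _)) (by omega)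
  have r := red_ren (π := π) x _ hW hS
  rw [Multiset.map_cons] at r
  have hsm' : ∀ g ∈ D0.map (Face.ren (Sum.inl : V → V ⊕ ℕ)), g.size < m + 1 := by
    intro g hg
    obtain ⟨g', h1, rfl⟩ := Multiset.mem_map.1 hg
    exact hsm g' h1
  obtain ⟨x', S, h1, r'⟩ := one hG r.wf r.sol
    (bigCl_of_small fun g hg => ⟨r.wf.seg g (Multiset.mem_cons_of_mem hg),
      (hsm' g hg).trans_eq hf'.symm⟩)
    (by rw [Face.size_ren]; omega) (Or.inl ((Face.hasNT_ren _ f).2 hNT))
  refine (r.trans r').lift (h _ _ x' r'.wf (fun g hg => Nat.lt_succ_iff.1 ?_) r'.sol)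
  rcases Multiset.mem_add.1 hg with hg | hg
  · exact hsm' g hg
  · exact (h1 g hg).trans_eq hf'

theorem ind_succ [Infinite V] (hG : Good π) {m : ℕ} (h : PP π L m) (hQ : QL π (Fin (m + 1)))
    (n : ℕ) : ∀ (D : Diag O L V) (x : Asg V L ℂ), D.countP (fun f => f.size = m + 1) = n → WF D →
      (∀ f ∈ D, f.size ≤ m + 1) → Sol x D → Lift π x D := by
  induction n using Nat.strong_induction_on with
  | _ n ih =>
    intro D x hn hW hsz hS
    by_cases hex : ∃ f ∈ D, f.size = m + 1
    swap
    · refine h V D x hW (fun f hf => ?_) hS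
      have h1 := hsz f hf
      have h2 : f.size ≠ m + 1 := fun e => hex ⟨f, hf, e⟩
      omega
    obtain ⟨f, hf, hfs⟩ := hex
    obtain ⟨D0, rfl⟩ := Multiset.exists_cons_of_mem hf
    rw [Multiset.countP_cons, if_pos hfs] at hn
    by_cases hB : BigCl (m + 1) D0
    · obtain ⟨x', S, h1, r⟩ := one hG hW hS (hfs ▸ hB) (by omega) (Or.inr (hfs ▸ hQ))
      refine r.lift (ih _ ?_ _ x' rfl r.wf (fun g hg => ?_) r.sol)
      · rw [Multiset.countP_add, Multiset.countP_eq_zero.2 fun g hg e =>
          absurd ((h1 g hg).trans_eq hfs) (by omega)]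
        omega
      · rcases Multiset.mem_add.1 hg with hg | hg
        · exact hsz g (Multiset.mem_cons_of_mem hg)
        · exact ((h1 g hg).trans_eq hfs).le
    · obtain ⟨c, hc, hcm, hcf⟩ : ∃ c ∈ occD D0, c.X.card = m + 1 ∧ c.flip ∉ occD D0 := by
        by_contra hcon
        refine hB fun c hc hm => ?_
        by_contra h1
        exact hcon ⟨c, hc, hm, h1⟩
      have hcf' : c.flip ∈ f.occ := by
        have := hW.occ.flip c (by rw [occD_cons]; exact Multiset.mem_add.2 (Or.inr hc))
        rw [occD_cons] at this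
        exact (Multiset.mem_add.1 this).resolve_right hcf
      obtain ⟨f2, hf2, hc2⟩ := mem_occD.1 hc
      obtain ⟨D1, rfl⟩ := Multiset.exists_cons_of_mem hf2
      obtain ⟨a1, a2, a3⟩ := (hW.seg f2 (Multiset.mem_cons_of_mem hf2)).occ_card hc2
      have hf2s : f2.size = m + 1 :=
        le_antisymm (hsz f2 (Multiset.mem_cons_of_mem hf2)) (hcm ▸ a3)
      rw [Multiset.countP_cons, if_pos hf2s] at hn
      rw [Multiset.cons_swap] at hW hS ⊢
      obtain ⟨Q2, A2, e2, r1⟩ := mv_mkFull (π := π) hW hS hc2 (hcm.trans hf2s.symm)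
      rw [Multiset.cons_swap (⟨Q2, _, _⟩ : Face O L V) f] at r1
      obtain ⟨Q1, A1, -, r2⟩ := mv_mkFull (π := π) r1.wf r1.sol hcf'
        ((a2.symm.trans hcm).trans hfs.symm)
      have r12 := r1.trans r2
      rw [Multiset.cons_swap _ (⟨Q2, _, _⟩ : Face O L V)] at r12
      have r3 := mv_merge (π := π) a1 r12.wf r12.sol
      refine (r12.trans r3).lift (ih _ ?_ _ x rfl r3.wf (fun g hg => ?_) r3.sol)
      · rw [Multiset.countP_cons]
        split_ifs <;> omega
      · rcases Multiset.mem_cons.1 hg with rfl | hg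
        · exact (e2.trans hf2s).le
        · exact hsz g (Multiset.mem_cons_of_mem (Multiset.mem_cons_of_mem hg))

theorem PP_succ (hG : Good π) {m : ℕ} (h : PP π L m) (hQ : QL π (Fin (m + 1))) : PP π L (m + 1) := by
  intro V D x hW hsz hS
  have r := red_ren (π := π) x D hW hS
  refine r.lift (ind_succ hG h hQ _ _ _ rfl r.wf (fun g hg => ?_) r.sol)
  obtain ⟨g', h1, rfl⟩ := Multiset.mem_map.1 hg
  exact hsz g' h1

end Crest.Agent.R3
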