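import Crest.Agent.R3.Fox

/-!
# R3 / KerL : kernels lift when cokernels lift; cocycles lift when homomorphisms lift

`ker_lift`: let `F0 = F.map π` have rank `ρ`.  Choose (for instance by `Matrix.exists_rank_normal_form`-like
reasoning, or by choosing a basis of the row space among the rows, then of the column space) sets of rows `I` and
columns `Jc` with `F0_{I,Jc}` invertible and such that every other row `i` satisfies `ψ_i F0 = 0` with
`ψ_i = e_i + (supported on I)`.  Lift the `ψ_i`; the matrix `Ψ` of their coordinates outside `I` has `π (det Ψ) = 1`.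
Let `Γ = det F_{I,Jc}`, `π Γ ≠ 0`.  Lift `v / π Γ` to `u`, put `w = Γ u` outside `Jc` and
`w_Jc = - adj(F_{I,Jc}) F_{I,Jcᶜ} u`.  Then `(F w)_I = 0`, `Ψ (F w)_{Iᶜ} = 0`, so `F (det Ψ • w) = 0`, and `π w = v`.
A slicker way: choose complex matrices `P : ρ × p`, `Q : q × ρ` with `P F0 Q = 1`, `F0 Q P F0 = F0`, lift them, let
`Γ = det (P F Q)`, `w = Γ u - Q adj(P F Q) P F u` (so `P F w = 0`); the rows of `1 - F0 Q P` are left kernel vectors,
lift them to `Ψ` with `Ψ F = 0`; then `(Ψ + F Q P) (F w) = 0` and `π (Ψ + F Q P) = 1`; multiply by the adjugate.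

`cocycle_lift`: apply `ker_lift` to the matrix of `foxL` (standard bases); left kernel vectors are the `ψ` of
`fox_ann`, and `rel = η` is a unit scalar.
-/

set_option autoImplicit false

noncomputable section

open Matrix

namespace Crest.Agent.R3

variable {O B : Type} [CommRing O] [CommRing B] [Algebra O B] [Algebra O ℂ] {π : B →ₐ[O] ℂ}

private theorem kl_PQ {p q : Type} [Fintype p] [Fintype q] (F : Matrix p q ℂ) :
    ∃ (n : ℕ) (P : Matrix (Fin n) p ℂ) (Q : Matrix q (Fin n) ℂ), P * F * Q = 1 ∧ F * Q * P * F = F := by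
  classical
  set f := Matrix.toLin' F with hf
  obtain ⟨s, hs⟩ := f.rangeRestrict.exists_rightInverse_of_surjective f.range_rangeRestrict
  obtain ⟨r, hr⟩ := (LinearMap.range f).subtype.exists_leftInverse_of_injective
    (Submodule.ker_subtype _)
  let b := (Module.finBasis ℂ (LinearMap.range f)).equivFun
  have hF : F = LinearMap.toMatrix' f := by rw [hf, LinearMap.toMatrix'_toLin']
  have h1 : ∀ y : LinearMap.range f, f (s y) = y := fun y =>
    congrArg Subtype.val (LinearMap.congr_fun hs y)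
  have h2 : ∀ y : LinearMap.range f, r y = y := fun y => LinearMap.congr_fun hr y
  refine ⟨_, LinearMap.toMatrix' (b.toLinearMap ∘ₗ r), LinearMap.toMatrix' (s ∘ₗ b.symm.toLinearMap), ?_, ?_⟩
  · rw [hF, ← LinearMap.toMatrix'_comp, ← LinearMap.toMatrix'_comp, ← LinearMap.toMatrix'_id]
    congr 1
    refine LinearMap.ext fun x => ?_
    simp [h1, h2]
  · rw [hF, ← LinearMap.toMatrix'_comp, ← LinearMap.toMatrix'_comp, ← LinearMap.toMatrix'_comp]
    congr 1
    refine LinearMap.ext fun x => ?_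
    have := h2 ⟨f x, x, rfl⟩
    simp only [LinearMap.comp_apply, LinearEquiv.coe_coe, LinearEquiv.symm_apply_apply, h1]
    exact congrArg Subtype.val this

private theorem kl_mul {p q r : Type} [Fintype q] (M : Matrix p q B) (N : Matrix q r B) :
    (M * N).map π = M.map π * N.map π := Matrix.map_mul (f := (π : B →+* ℂ))

private theorem kl_det {p : Type} [Fintype p] [DecidableEq p] (M : Matrix p p B) (h : M.map π = 1) :
    π M.det = 1 := by
  have := (π : B →+* ℂ).map_det M
  rw [RingHom.mapMatrix_apply] at this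
  have h' : M.map (π : B →+* ℂ) = 1 := h
  rw [h', det_one] at this
  exact this

theorem ker_lift (hG : Good π) {p q : Type} [Fintype p] [Fintype q] (F : Matrix p q B)
    (h : ∀ ψ : p → ℂ, ψ ᵥ* F.map π = 0 → ∃ ψ' : p → B, (∀ i, π (ψ' i) = ψ i) ∧ ψ' ᵥ* F = 0)
    (v : q → ℂ) (hv : F.map π *ᵥ v = 0) : ∃ v' : q → B, (∀ j, π (v' j) = v j) ∧ F *ᵥ v' = 0 := by
  classical
  obtain ⟨n, P0, Q0, h1, h2⟩ := kl_PQ (F.map π)
  obtain ⟨P, hP⟩ := mat_lift hG P0
  obtain ⟨Q, hQ⟩ := mat_lift hG Q0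
  choose u hu using fun j => hG.surj (v j)
  have h3 : ∀ i, ∃ ψ' : p → B, (∀ j, π (ψ' j) = (1 - F.map π * Q0 * P0 : Matrix p p ℂ) i j) ∧
      ψ' ᵥ* F = 0 := fun i => by
    refine h _ ?_
    have : (1 - F.map π * Q0 * P0) * F.map π = 0 := by rw [Matrix.sub_mul, h2, Matrix.one_mul, sub_self]
    exact congrFun this i
  choose Ψ hΨ1 hΨ2 using h3
  have hΨ : Matrix.of Ψ * F = 0 := by
    ext i j
    exact congrFun (hΨ2 i) j
  have hΨ' : (Matrix.of Ψ).map π = 1 - F.map π * Q0 * P0 := by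
    ext i j
    exact hΨ1 i j
  set G := P * F * Q with hGd
  have hG1 : G.map π = 1 := by rw [hGd, kl_mul, kl_mul, hP, hQ, h1]
  set N := Matrix.of Ψ + F * Q * P with hN
  have hN1 : N.map π = 1 := by
    rw [hN, Matrix.map_add _ (map_add π), kl_mul, kl_mul, hP, hQ, hΨ', sub_add_cancel]
  set w : q → B := G.det • u - (Q * G.adjugate * P * F) *ᵥ u with hw
  have hw1 : (P * F) *ᵥ w = 0 := by
    rw [hw, mulVec_sub, mulVec_mulVec, mulVec_smul, ← smul_mulVec]
    have : P * F * (Q * G.adjugate * P * F) = G * G.adjugate * (P * F) := by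
      simp only [hGd, Matrix.mul_assoc]
    rw [this, mul_adjugate, Matrix.smul_mul, Matrix.one_mul, sub_self]
  have hw2 : (N * F) *ᵥ w = 0 := by
    rw [hN, Matrix.add_mul, hΨ, zero_add, Matrix.mul_assoc, ← mulVec_mulVec, hw1, mulVec_zero]
  refine ⟨N.det • w, fun j => ?_, ?_⟩
  · have h4 : π (((Q * G.adjugate * P * F) *ᵥ u) j) = 0 := by
      have := RingHom.map_mulVec (π : B →+* ℂ) (Q * G.adjugate * P * F) u j
      have e : ((π : B →+* ℂ) ∘ u) = v := funext hu
      have e2 : (Q * G.adjugate * P * F).map (π : B →+* ℂ) = (Q * G.adjugate * P).map π * F.map π :=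
        kl_mul _ _
      rw [e, e2, ← mulVec_mulVec v, hv, mulVec_zero] at this
      exact this
    simp only [hw, Pi.smul_apply, Pi.sub_apply, smul_eq_mul, map_mul, map_sub, kl_det _ hN1,
      kl_det _ hG1, h4, hu, one_mul, sub_zero]
  · rw [mulVec_smul, ← smul_mulVec, ← Matrix.one_mul F, ← Matrix.smul_mul, ← adjugate_mul,
      Matrix.mul_assoc, ← mulVec_mulVec, hw2, mulVec_zero]

section
variable {R : Type} [CommRing R] {ι' ι'' : Type} [Fintype ι'] [DecidableEq ι'] [Fintype ι'']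
  [DecidableEq ι''] {g : ℕ}

/-- the matrix of `fox` -/
private def klM (T'' : Rep g ι'' R) (T' : Rep g ι' R) :
    Matrix (ι'' × ι') ((Fin g × Bool) × ι'' × ι') R :=
  Matrix.of fun y x => fox T'' T' (Pi.single x.1 (single x.2.1 x.2.2 1)) y.1 y.2

private theorem kl_mulVec (T'' : Rep g ι'' R) (T' : Rep g ι' R) (α : Fin g × Bool → Matrix ι'' ι' R) :
    (klM T'' T' *ᵥ fun x => α x.1 x.2.1 x.2.2) = fun y => fox T'' T' α y.1 y.2 := by
  have h : α = ∑ x : (Fin g × Bool) × ι'' × ι',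
      α x.1 x.2.1 x.2.2 • (Pi.single x.1 (single x.2.1 x.2.2 1) : Fin g × Bool → Matrix ι'' ι' R) := by
    funext k
    rw [Finset.sum_apply, Fintype.sum_prod_type, Finset.sum_eq_single k]
    · rw [Fintype.sum_prod_type]
      simp only [Pi.smul_apply, Pi.single_eq_same, smul_single, smul_eq_mul, mul_one]
      exact matrix_eq_sum_single _
    · intro k' _ hk
      simp [Pi.single_eq_of_ne hk.symm]
    · simp
  funext y
  have h2 : fox T'' T' α = foxL T'' T' α := rfl
  rw [h2]
  conv_rhs => rw [h, map_sum]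
  simp only [map_smul, Matrix.sum_apply, Matrix.smul_apply, smul_eq_mul, mulVec, dotProduct, klM, of_apply]
  exact Finset.sum_congr rfl fun x _ => mul_comm _ _

private theorem kl_left (T'' : Rep g ι'' R) (T' : Rep g ι' R) (ψ : Matrix ι' ι'' R) :
    (fun y : ι'' × ι' => ψ y.2 y.1) ᵥ* klM T'' T' = 0 ↔ ∀ α, trace (ψ * fox T'' T' α) = 0 := by
  have h : ∀ α, trace (ψ * fox T'' T' α) =
      ((fun y : ι'' × ι' => ψ y.2 y.1) ᵥ* klM T'' T') ⬝ᵥ fun x => α x.1 x.2.1 x.2.2 := fun α => by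
    rw [← dotProduct_mulVec, kl_mulVec]
    simp only [trace, diag_apply, mul_apply, dotProduct, Fintype.sum_prod_type]
    exact Finset.sum_comm
  constructor
  · intro h0 α
    rw [h, h0, zero_dotProduct]
  · intro h0
    funext x
    have := h0 fun k => Matrix.of fun a b =>
      (Pi.single x 1 : (Fin g × Bool) × ι'' × ι' → R) (k, a, b)
    rw [h] at this
    simpa using this

private theorem kl_map {R' : Type} [CommRing R'] (φ : R →+* R') (T'' : Rep g ι'' R) (T' : Rep g ι' R) :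
    (klM T'' T').map φ = klM (mapRep φ T'') (mapRep φ T') := by
  ext y x
  have := congrFun (congrFun (fox_map φ T'' T' (Pi.single x.1 (single x.2.1 x.2.2 1))) y.1) y.2
  simp only [klM, map_apply, of_apply] at this ⊢
  rw [this]
  congr 1
  funext k
  by_cases hk : k = x.1
  · subst hk
    simp only [Pi.single_eq_same]
    ext a b
    simp only [map_apply, single, of_apply]
    split_ifs <;> simp
  · simp [Pi.single_eq_of_ne hk]

omit [DecidableEq ι'] in
private theorem kl_intw [Algebra O R] {κ : Type} (A'' : κ → Matrix ι'' ι'' R) (A' : κ → Matrix ι' ι' R)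
    (ψ : Matrix ι' ι'' R) (η : Oˣ) :
    Intw A'' A' (ψ * ((scalU ι'' R η : GLm ι'' R) : Matrix ι'' ι'' R)) ↔ Intw A'' A' ψ := by
  rw [scalU_val, Matrix.mul_smul, Matrix.mul_one]
  refine forall_congr' fun k => ?_
  rw [Matrix.smul_mul, Matrix.mul_smul]
  exact ((η.isUnit.map (algebraMap O R)).smul_left_cancel)

end

theorem cocycle_lift (hG : Good π) {ι' ι'' : Type} [Fintype ι'] [DecidableEq ι'] [Fintype ι'']
    [DecidableEq ι''] {g : ℕ} {η : Oˣ} (S'' : Rep g ι'' B) (S' : Rep g ι' B)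
    (h'' : rel S'' = scalU ι'' B η)
    (hI : ∀ ψ : Matrix ι' ι'' ℂ,
      Intw (gens (mapRep (π : B →+* ℂ) S'')) (gens (mapRep (π : B →+* ℂ) S')) ψ →
        ∃ ψ' : Matrix ι' ι'' B, ψ'.map π = ψ ∧ Intw (gens S'') (gens S') ψ')
    (α : Fin g × Bool → Matrix ι'' ι' ℂ)
    (hα : fox (mapRep (π : B →+* ℂ) S'') (mapRep (π : B →+* ℂ) S') α = 0) :
    ∃ α' : Fin g × Bool → Matrix ι'' ι' B, (∀ k, (α' k).map π = α k) ∧ fox S'' S' α' = 0 := by
  have hm : (klM S'' S').map π = klM (mapRep (π : B →+* ℂ) S'') (mapRep (π : B →+* ℂ) S') :=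
    kl_map (π : B →+* ℂ) S'' S'
  obtain ⟨v', h1, h2⟩ := ker_lift hG (klM S'' S') (fun ψ hψ => by
    rw [hm] at hψ
    have h3 := (kl_left _ _ (Matrix.of fun j i => ψ (i, j))).1 hψ
    rw [fox_ann, rel_mapRep, h'', mapU_scalU, kl_intw] at h3
    obtain ⟨ψ', h4, h5⟩ := hI _ h3
    refine ⟨fun y => ψ' y.2 y.1, fun y => congrFun (congrFun h4 y.2) y.1, ?_⟩
    rw [kl_left, fox_ann, h'', kl_intw]
    exact h5) (fun x => α x.1 x.2.1 x.2.2) (by rw [hm, kl_mulVec, hα]; rfl)
  refine ⟨fun k => Matrix.of fun a b => v' (k, a, b), fun k => ?_, ?_⟩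
  · ext a b
    exact h1 (k, a, b)
  · have := kl_mulVec S'' S' fun k => Matrix.of fun a b => v' (k, a, b)
    ext a b
    exact (congrFun this (a, b)).symm.trans (congrFun h2 (a, b))

end Crest.Agent.R3
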