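import Crest.Agent.R3.RadA
import Crest.Agent.R3.KerL

/-!
# R3 / RadB : reducible points of closed surfaces lift

`compat_lifts`: on the type of irreducible points `(n, S)` with `n < m`, `rel S = η` take the equivalence relation
"isomorphic"; choose a representative `r S` of each class (`Quotient.out`), a lift of it (`hQ`), an isomorphism
`φ_S : r S → S` and lifts of `φ_S, φ_S⁻¹` (`iso_lift`); `lf S` is the transport (`rep_transport`).  A non-zero
intertwiner `ψ : S → S'` is an isomorphism (`Irr.hom`), so `r S = r S'` and `ψ = c • φ_S' φ_S⁻¹` (`Irr.schur`).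
(To avoid dependent type problems: choose for each class a representative in `Σ n, Rep g (Fin n) ℂ`.)

`lift_homs`: strong induction on `card ι`, using `rad_split`: `rel T'' = η`, `rel (S k) = η`, `fox α = 0` (`rel_conj`,
`rel_extR`, `exists_blockRep`).  Lift `T''` by induction, `T'` by the direct sum of the `lf (S k)`.  An intertwiner
`T'' → T'` is a column of intertwiners `T'' → S k`, so it lifts; `cocycle_lift` gives `α'`.  An intertwiner from
`extR T'' T' α` to `S0` is `fromCols 0 ψ'` with `ψ'` a row of intertwiners `S k → S0`, which lift.  Transport along the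
lifts of `φ, φ'`.
-/

set_option autoImplicit false

noncomputable section

open Matrix

namespace Crest.Agent.R3

variable {O B : Type} [CommRing O] [CommRing B] [Algebra O B] [Algebra O ℂ] {π : B →ₐ[O] ℂ}

section aux
set_option linter.unusedSectionVars false
variable {R : Type} [CommRing R] {κ ι ι' ι'' : Type} [Fintype ι] [DecidableEq ι] [Fintype ι']
  [DecidableEq ι'] [Fintype ι''] [DecidableEq ι''] {g : ℕ}

private theorem rb_comp {A : κ → Matrix ι ι R} {A' : κ → Matrix ι' ι' R} {A'' : κ → Matrix ι'' ι'' R}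
    {φ : Matrix ι' ι R} {ψ : Matrix ι'' ι' R} (h : Intw A A' φ) (h' : Intw A' A'' ψ) :
    Intw A A'' (ψ * φ) := fun k => by
  rw [Matrix.mul_assoc, h k, ← Matrix.mul_assoc, h' k, Matrix.mul_assoc]

private theorem rb_inv {A : κ → Matrix ι ι R} {A' : κ → Matrix ι' ι' R} {φ : Matrix ι' ι R}
    {φ' : Matrix ι ι' R} (h1 : φ * φ' = 1) (h2 : φ' * φ = 1) (h : Intw A A' φ) : Intw A' A φ' := fun k => by
  calc φ' * A' k = φ' * (A' k * φ) * φ' := by
        rw [Matrix.mul_assoc, Matrix.mul_assoc, h1, Matrix.mul_one]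
    _ = A k * φ' := by rw [← h k, ← Matrix.mul_assoc, h2, Matrix.one_mul]

private theorem rb_rel [Algebra O R] {η : Oˣ} {T : Rep g ι R} {T' : Rep g ι' R} {φ : Matrix ι' ι R}
    {φ' : Matrix ι ι' R} (h1 : φ * φ' = 1) (h : Intw (gens T) (gens T') φ) (hT : rel T = scalU ι R η) :
    rel T' = scalU ι' R η := by
  have h2 := congrArg (· * φ') (rel_conj h)
  simp only [hT, scalU_val, Matrix.mul_smul, Matrix.smul_mul, Matrix.mul_one, Matrix.mul_assoc, h1] at h2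
  exact Units.ext (by rw [scalU_val, h2])

private theorem rb_mul {p q r : Type} [Fintype q] (M : Matrix p q B) (N : Matrix q r B) :
    (M * N).map π = M.map π * N.map π := Matrix.map_mul (f := (π : B →+* ℂ))

private theorem rb_one : (1 : Matrix ι ι B).map π = 1 := Matrix.map_one _ (map_zero _) (map_one _)

private theorem rb_map {T : Rep g ι B} {T' : Rep g ι' B} {Φ : Matrix ι' ι B}
    (h : Intw (gens T) (gens T') Φ) :
    Intw (gens (mapRep (π : B →+* ℂ) T)) (gens (mapRep (π : B →+* ℂ) T')) (Φ.map π) := fun k => by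
  rw [gens_mapRep, gens_mapRep]
  exact (rb_mul _ _).symm.trans ((congrArg (·.map π) (h k)).trans (rb_mul _ _))

private theorem rb_transport (hG : Good π) {η : Oˣ} (T0 : Rep g ι' B) (h0 : rel T0 = scalU ι' B η)
    (T : Rep g ι ℂ) {φ : Matrix ι ι' ℂ} {φ' : Matrix ι' ι ℂ} (h1 : φ * φ' = 1) (h2 : φ' * φ = 1)
    (hI : Intw (gens (mapRep (π : B →+* ℂ) T0)) (gens T) φ) :
    ∃ (T' : Rep g ι B) (Φ : Matrix ι ι' B) (Φ' : Matrix ι' ι B), Φ'.map π = φ' ∧ Φ * Φ' = 1 ∧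
      Φ' * Φ = 1 ∧ mapRep (π : B →+* ℂ) T' = T ∧ rel T' = scalU ι B η ∧
      Intw (gens T0) (gens T') Φ ∧ Intw (gens T') (gens T0) Φ' := by
  obtain ⟨Φ, Φ', k1, k2, k3, k4⟩ := iso_lift hG h1 h2
  obtain ⟨T', hT'⟩ := rep_transport T0 k3 k4
  have k5 : Intw (gens T0) (gens T') Φ := fun k => by
    rw [hT', Matrix.mul_assoc, k4, Matrix.mul_one]
  refine ⟨T', Φ, Φ', k2, k3, k4, rep_ext fun k => ?_, rb_rel k3 k5 h0, k5, rb_inv k3 k4 k5⟩
  have k6 := congrArg (· * φ') (rb_map (π := π) k5 k)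
  have k7 := congrArg (· * φ') (hI k)
  simp only [k1, Matrix.mul_assoc, h1, Matrix.mul_one] at k6 k7
  rw [← k6, k7]

private theorem rb_ext_iff [Algebra O R] {η : Oˣ} (T'' : Rep g ι'' R) (T' : Rep g ι' R)
    (α : Fin g × Bool → Matrix ι'' ι' R) :
    rel (extR T'' T' α) = scalU (ι'' ⊕ ι') R η ↔
      rel T'' = scalU ι'' R η ∧ fox T'' T' α = 0 ∧ rel T' = scalU ι' R η := by
  rw [rel_extR, Units.ext_iff, Units.ext_iff, Units.ext_iff, extU_val, scalU_val, scalU_val, scalU_val,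
    ← fromBlocks_one, fromBlocks_smul, fromBlocks_inj]
  simp

private theorem rb_col {t : ℕ} {n : Fin t → ℕ} (A : κ → Matrix ι ι R)
    (D : ∀ k : Fin t, κ → Matrix (Fin (n k)) (Fin (n k)) R) (M : ∀ k : Fin t, Matrix (Fin (n k)) ι R) :
    Intw A (fun p => blockDiagonal' fun k => D k p)
      (Matrix.of fun (s : Σ k : Fin t, Fin (n k)) j => M s.1 s.2 j) ↔ ∀ k, Intw A (D k) (M k) := by
  have h : ∀ p k i j, ((blockDiagonal' fun k => D k p) *
      (Matrix.of fun (s : Σ k : Fin t, Fin (n k)) j => M s.1 s.2 j)) ⟨k, i⟩ j = (D k p * M k) i j := by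
    intro p k i j
    rw [mul_apply, mul_apply, Fintype.sum_sigma, Finset.sum_eq_single k]
    · simp
    · intro k' _ hk
      simp [blockDiagonal'_apply_ne _ _ _ hk.symm]
    · simp
  constructor
  · intro h1 k p
    ext i j
    rw [← h, ← h1 p]
    rfl
  · intro h1 p
    ext ⟨k, i⟩ j
    rw [h, ← h1 k p]
    rfl

private theorem rb_row {t : ℕ} {n : Fin t → ℕ} (A : κ → Matrix ι ι R)
    (D : ∀ k : Fin t, κ → Matrix (Fin (n k)) (Fin (n k)) R) (M : ∀ k : Fin t, Matrix ι (Fin (n k)) R) :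
    Intw (fun p => blockDiagonal' fun k => D k p) A
      (Matrix.of fun i (s : Σ k : Fin t, Fin (n k)) => M s.1 i s.2) ↔ ∀ k, Intw (D k) A (M k) := by
  have h : ∀ p k i j, ((Matrix.of fun i (s : Σ k : Fin t, Fin (n k)) => M s.1 i s.2) *
      (blockDiagonal' fun k => D k p)) i ⟨k, j⟩ = (M k * D k p) i j := by
    intro p k i j
    rw [mul_apply, mul_apply, Fintype.sum_sigma, Finset.sum_eq_single k]
    · simp
    · intro k' _ hk
      simp [blockDiagonal'_apply_ne _ _ _ hk]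
    · simp
  constructor
  · intro h1 k p
    ext i j
    rw [← h, h1 p]
    rfl
  · intro h1 p
    ext i ⟨k, j⟩
    rw [h, h1 k p]
    rfl

private theorem rb_cols (T'' : Rep g ι'' R) (T' : Rep g ι' R) (α : Fin g × Bool → Matrix ι'' ι' R)
    (A : Fin g × Bool → Matrix ι ι R) (ψ : Matrix ι ι' R) :
    Intw (gens (extR T'' T' α)) A (fromCols 0 ψ) ↔ Intw (gens T') A ψ := by
  refine forall_congr' fun k => ?_
  rw [gens_extR, fromCols_mul_fromBlocks, mul_fromCols, fromCols_ext_iff]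
  simp

end aux

/-- a compatible system of lifts of the irreducible points of rank `< m` -/
structure Compat (π : B →ₐ[O] ℂ) (η : Oˣ) (g m : ℕ)
    (lf : ∀ n : ℕ, Rep g (Fin n) ℂ → Rep g (Fin n) B) : Prop where
  lift : ∀ n < m, ∀ S : Rep g (Fin n) ℂ, Irr (gens S) → rel S = scalU (Fin n) ℂ η →
    mapRep (π : B →+* ℂ) (lf n S) = S ∧ rel (lf n S) = scalU (Fin n) B η
  hom : ∀ n < m, ∀ n' < m, ∀ (S : Rep g (Fin n) ℂ) (S' : Rep g (Fin n') ℂ), Irr (gens S) →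
    Irr (gens S') → rel S = scalU (Fin n) ℂ η → rel S' = scalU (Fin n') ℂ η →
    ∀ ψ : Matrix (Fin n') (Fin n) ℂ, Intw (gens S) (gens S') ψ →
      ∃ ψ' : Matrix (Fin n') (Fin n) B, ψ'.map π = ψ ∧ Intw (gens (lf n S)) (gens (lf n' S')) ψ'

theorem compat_lifts (hG : Good π) (η : Oˣ) (g m : ℕ) (hQ : ∀ n < m, QL π (Fin n)) :
    ∃ lf, Compat π η g m lf := by
  let X : Type := Σ n : ℕ, Rep g (Fin n) ℂ
  let s : Setoid X :=
    { r := fun p q => ∃ (φ : Matrix (Fin q.1) (Fin p.1) ℂ) (φ' : Matrix (Fin p.1) (Fin q.1) ℂ),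
        φ * φ' = 1 ∧ φ' * φ = 1 ∧ Intw (gens p.2) (gens q.2) φ
      iseqv :=
        { refl := fun p => ⟨1, 1, Matrix.one_mul _, Matrix.one_mul _, fun k => by simp⟩
          symm := fun ⟨φ, φ', h1, h2, h3⟩ => ⟨φ', φ, h2, h1, rb_inv h1 h2 h3⟩
          trans := fun ⟨φ, φ', h1, h2, h3⟩ ⟨ψ, ψ', k1, k2, k3⟩ => ⟨ψ * φ, φ' * ψ',
            by rw [Matrix.mul_assoc, ← Matrix.mul_assoc φ, h1, Matrix.one_mul, k1],
            by rw [Matrix.mul_assoc, ← Matrix.mul_assoc ψ', k2, Matrix.one_mul, h2],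
            rb_comp h3 k3⟩ } }
  let r : X → X := fun p => (Quotient.mk s p).out
  have hr : ∀ p, s.r (r p) p := fun p => Quotient.mk_out (s := s) p
  have hL : ∀ q : X, ∃ L : Rep g (Fin q.1) B, q.1 < m → rel q.2 = scalU (Fin q.1) ℂ η →
      mapRep (π : B →+* ℂ) L = q.2 ∧ rel L = scalU (Fin q.1) B η := fun q => by
    by_cases h : q.1 < m ∧ rel q.2 = scalU (Fin q.1) ℂ η
    · obtain ⟨L, hL⟩ := hQ q.1 h.1 g η q.2 h.2
      exact ⟨L, fun _ _ => hL⟩
    · exact ⟨fun _ => (1, 1), fun h1 h2 => (h ⟨h1, h2⟩).elim⟩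
  choose L hL using hL
  have hlf : ∀ p : X, ∃ T' : Rep g (Fin p.1) B, p.1 < m → rel p.2 = scalU (Fin p.1) ℂ η →
      mapRep (π : B →+* ℂ) T' = p.2 ∧ rel T' = scalU (Fin p.1) B η ∧
      ∃ (Φ : Matrix (Fin p.1) (Fin (r p).1) B) (Φ' : Matrix (Fin (r p).1) (Fin p.1) B),
        Φ * Φ' = 1 ∧ Φ' * Φ = 1 ∧ Intw (gens (L (r p))) (gens T') Φ ∧
          Intw (gens T') (gens (L (r p))) Φ' := fun p => by
    by_cases h : p.1 < m ∧ rel p.2 = scalU (Fin p.1) ℂ η
    · obtain ⟨φ, φ', h1, h2, h3⟩ := hr p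
      have hc : p.1 = (r p).1 := by simpa using iso_card h1 h2
      obtain ⟨k1, k2⟩ := hL (r p) (hc ▸ h.1) (rb_rel h2 (rb_inv h1 h2 h3) h.2)
      obtain ⟨T', Φ, Φ', -, l1, l2, l3, l4, l5, l6⟩ :=
        rb_transport hG (L (r p)) k2 p.2 h1 h2 (by rw [k1]; exact h3)
      exact ⟨T', fun _ _ => ⟨l3, l4, Φ, Φ', l1, l2, l5, l6⟩⟩
    · exact ⟨fun _ => (1, 1), fun h1 h2 => (h ⟨h1, h2⟩).elim⟩
  choose lf hlf using hlf
  refine ⟨fun n S => lf ⟨n, S⟩, fun n hn S _ hS => ⟨(hlf ⟨n, S⟩ hn hS).1, (hlf ⟨n, S⟩ hn hS).2.1⟩, ?_⟩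
  intro n hn n' hn' S S' hI hI' hS hS' ψ hψ
  by_cases h0 : ψ = 0
  · exact ⟨0, by rw [h0, Matrix.map_zero _ (map_zero π)], fun k => by simp⟩
  obtain ⟨ψ', h1, h2, -⟩ := hI.hom hI' hψ h0
  have e : r ⟨n', S'⟩ = r ⟨n, S⟩ := by
    have : Quotient.mk s ⟨n, S⟩ = Quotient.mk s ⟨n', S'⟩ := Quotient.sound ⟨ψ, ψ', h1, h2, hψ⟩
    simp only [r, this]
  obtain ⟨a1, -, Φ, Φ', a2, a3, -, a4⟩ := hlf ⟨n, S⟩ hn hS
  obtain ⟨b1, -, b⟩ := hlf ⟨n', S'⟩ hn' hS'
  rw [e] at b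
  obtain ⟨Ψ, Ψ', b2, b3, b4, -⟩ := b
  have c1 := rb_comp a4 b4
  have c2 : (Ψ * Φ') * (Φ * Ψ') = 1 := by
    rw [Matrix.mul_assoc, ← Matrix.mul_assoc Φ', a3, Matrix.one_mul, b2]
  have c3 : (Φ * Ψ') * (Ψ * Φ') = 1 := by
    rw [Matrix.mul_assoc, ← Matrix.mul_assoc Ψ', b3, Matrix.one_mul, a2]
  have c4 := rb_map (π := π) (rb_inv c2 c3 c1)
  rw [a1, b1] at c4
  obtain ⟨c, hc⟩ := hI.schur _ (rb_comp hψ c4)
  obtain ⟨c', rfl⟩ := hG.surj c
  refine ⟨c' • (Ψ * Φ'), ?_, fun k => ?_⟩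
  · have c5 := congrArg ((Ψ * Φ').map π * ·) hc
    simp only [← Matrix.mul_assoc, ← rb_mul, c2, rb_one, Matrix.one_mul, Matrix.mul_smul,
      Matrix.mul_one] at c5
    rw [c5]
    ext i j
    simp only [map_apply, Matrix.smul_apply, smul_eq_mul, map_mul]
  · rw [Matrix.smul_mul, Matrix.mul_smul, c1 k]

theorem lift_homs (hG : Good π) {η : Oˣ} {g m : ℕ} {lf : ∀ n : ℕ, Rep g (Fin n) ℂ → Rep g (Fin n) B}
    (hC : Compat π η g m lf) (ι : Type) [Fintype ι] [DecidableEq ι] (T : Rep g ι ℂ)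
    (hT : rel T = scalU ι ℂ η)
    (hm : Fintype.card ι < m ∨ (Fintype.card ι = m ∧ ¬ Irr (gens T))) :
    ∃ T' : Rep g ι B, mapRep (π : B →+* ℂ) T' = T ∧ rel T' = scalU ι B η ∧
      ∀ n < m, ∀ S : Rep g (Fin n) ℂ, Irr (gens S) → rel S = scalU (Fin n) ℂ η →
        ∀ ψ : Matrix (Fin n) ι ℂ, Intw (gens T) (gens S) ψ →
          ∃ ψ' : Matrix (Fin n) ι B, ψ'.map π = ψ ∧ Intw (gens T') (gens (lf n S)) ψ' := by
  induction hN : Fintype.card ι using Nat.strong_induction_on generalizing ι with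
  | _ N ih =>
  subst hN
  rcases isEmpty_or_nonempty ι with hι | hι
  · refine ⟨fun _ => (1, 1), rep_ext fun k => Matrix.ext fun i => isEmptyElim i,
      Units.ext (Matrix.ext fun i => isEmptyElim i), fun n _ S _ _ ψ _ =>
        ⟨0, Matrix.ext fun _ j => isEmptyElim j, fun k => by simp⟩⟩
  obtain ⟨t, n, S, n'', T'', T', α, φ, φ', h1, h2, h3, h4, h5, h6, h7, h8⟩ := rad_split T
  have hn : ∀ k, n k < m := fun k => by
    rcases hm with hm | ⟨hm, hm'⟩ <;> rcases h3 k with h | ⟨h, h'⟩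
    · omega
    · omega
    · omega
    · exact (hm' h').elim
  have hn'' : Fintype.card (Fin n'') < m := by
    rw [Fintype.card_fin]
    rcases hm with hm | ⟨hm, -⟩ <;> omega
  obtain ⟨r1, r2, r3⟩ := (rb_ext_iff T'' T' α).1 (rb_rel h5 h7 hT)
  have hS : ∀ k, rel (S k) = scalU (Fin (n k)) ℂ η := fun k =>
    rb_rel (raPr_mul_transpose n k) (fun p => by rw [h4, raPr_intw]) r3
  obtain ⟨U'', u1, u2, u3⟩ := ih n'' h1 (Fin n'') T'' r1 (Or.inl hn'') (Fintype.card_fin _)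
  obtain ⟨U', v1, v2⟩ := exists_blockRep fun k => lf (n k) (S k)
  have hl := fun k => hC.lift (n k) (hn k) (S k) (h2 k) (hS k)
  have v3 : mapRep (π : B →+* ℂ) U' = T' := rep_ext fun p => by
    rw [gens_mapRep, v1, h4, blockDiagonal'_map _ _ (map_zero _)]
    congr 1
    funext k
    rw [← gens_mapRep, (hl k).1]
  have v4 : rel U' = scalU _ B η := Units.ext (by
    rw [v2, scalU_val, ← blockDiagonal'_one, ← blockDiagonal'_smul]
    congr 1
    funext k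
    rw [(hl k).2, scalU_val]
    rfl)
  have g1 : gens T' = fun p => blockDiagonal' fun k => gens (S k) p := funext h4
  have g2 : gens U' = fun p => blockDiagonal' fun k => gens (lf (n k) (S k)) p := funext v1
  obtain ⟨α', w1, w2⟩ := cocycle_lift hG U'' U' u2 (fun ψ hψ => by
    rw [u1, v3, g1] at hψ
    have k1 := (rb_col (gens T'') (fun k => gens (S k)) fun k => Matrix.of fun i j => ψ ⟨k, i⟩ j).1 hψ
    choose ψ' k2 k3 using fun k => u3 (n k) (hn k) (S k) (h2 k) (hS k) _ (k1 k)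
    refine ⟨Matrix.of fun s j => ψ' s.1 s.2 j, ?_, ?_⟩
    · ext s j
      exact congrFun (congrFun (k2 s.1) s.2) j
    · rw [g2]
      exact (rb_col _ _ _).2 k3) α (by rw [u1, v3]; exact r2)
  have x1 : mapRep (π : B →+* ℂ) (extR U'' U' α') = extR T'' T' α := by
    rw [mapRep_extR, u1, v3]
    congr 1
    exact funext w1
  obtain ⟨T0, Φ', Φ, y1, -, -, y2, y3, -, y4⟩ := rb_transport hG (extR U'' U' α')
    ((rb_ext_iff _ _ _).2 ⟨u2, w2, v4⟩) T h6 h5 (by rw [x1]; exact rb_inv h5 h6 h7)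
  refine ⟨T0, y2, y3, fun n0 hn0 S0 hI0 hS0 ψ hψ => ?_⟩
  have z1 := rb_comp (rb_inv h5 h6 h7) hψ
  have z2 : ψ * φ' = fromCols 0 (ψ * φ').toCols₂ := by
    rw [← h8 n0 _ hI0 _ z1, fromCols_toCols]
  rw [z2, rb_cols, g1] at z1
  have k1 := (rb_row (gens S0) (fun k => gens (S k))
    fun k => Matrix.of fun i j => (ψ * φ').toCols₂ i ⟨k, j⟩).1 z1
  choose ψ' k2 k3 using fun k => hC.hom (n k) (hn k) n0 hn0 (S k) S0 (h2 k) hI0 (hS k) hS0 _ (k1 k)
  refine ⟨fromCols 0 (Matrix.of fun i s => ψ' s.1 i s.2) * Φ, ?_, rb_comp y4 ?_⟩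
  · have : (Matrix.of fun i (s : Σ k : Fin t, Fin (n k)) => ψ' s.1 i s.2).map π = (ψ * φ').toCols₂ := by
      ext i s
      exact congrFun (congrFun (k2 s.1) i) s.2
    rw [rb_mul, y1, fromCols_map, this, Matrix.map_zero _ (map_zero π), ← z2, Matrix.mul_assoc, h6,
      Matrix.mul_one]
  · rw [rb_cols, g2]
    exact (rb_row _ _ _).2 k3

theorem cl_red (hG : Good π) {ι : Type} [Fintype ι] [DecidableEq ι]
    (hQ : ∀ n < Fintype.card ι, QL π (Fin n)) {η : Oˣ} {g : ℕ} (T : Rep g ι ℂ)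
    (hT : rel T = scalU ι ℂ η) (hI : ¬ Irr (gens T)) : CL π η T := by
  obtain ⟨lf, hC⟩ := compat_lifts hG η g _ hQ
  obtain ⟨T', h1, h2, -⟩ := lift_homs hG hC ι T hT (Or.inr ⟨rfl, hI⟩)
  exact ⟨T', h1, h2⟩

end Crest.Agent.R3
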