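import Crest.Agent.R3.Defs

/-!
# R3 / Burn : Schur's lemma, Burnside's theorem, irreducibility is Zariski open

* `Irr.schur`: an eigenspace of `ψ` is invariant.
* `Irr.hom`: kernel and image of an intertwiner are invariant.
* `Irr.span_words`: the span of the words is the subalgebra `A` generated by the matrices; `ι → ℂ` is a simple
  `A`-module; `Module.Finite.toModuleEnd_moduleEnd_surjective` (Jacobson density) and Schur's lemma
  (`IsSimpleModule.algebraMap_end_bijective_of_isAlgClosed` or `Irr.schur`).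
* `Irr.poly`: choose words `w (i, j)` whose values are a basis of the matrix space (`exists_linearIndependent`,
  cardinality), `Θ = det` of their entries, computed with the generic matrices `X (k, i, j)`.  If `Θ ≠ 0` at `A'` the
  words of `A'` span all matrices, so an invariant subspace is invariant under all matrices.
-/

set_option autoImplicit false

noncomputable section

open Matrix

namespace Crest.Agent.R3

variable {κ ι ι' : Type} [Fintype ι] [DecidableEq ι] [Fintype ι'] [DecidableEq ι']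

theorem burn_ker {A : κ → Matrix ι ι ℂ} {A' : κ → Matrix ι' ι' ℂ} (h : Irr A) {ψ : Matrix ι' ι ℂ}
    (hψ : Intw A A' ψ) (h0 : ψ ≠ 0) : LinearMap.ker (toLin' ψ) = ⊥ := by
  refine (h.2 _ fun k v hv => ?_).resolve_right fun h1 => h0 ?_
  · rw [LinearMap.mem_ker, toLin'_apply] at hv ⊢
    rw [mulVec_mulVec, hψ k, ← mulVec_mulVec, hv, mulVec_zero]
  · exact toLin'.map_eq_zero_iff.1 (LinearMap.ker_eq_top.1 h1)

theorem burn_det (u : ι × ι → Matrix ι ι ℂ) :
    (Matrix.of fun p q : ι × ι => u p q.1 q.2).det ≠ 0 ↔ Submodule.span ℂ (Set.range u) = ⊤ := by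
  rw [← isUnit_iff_ne_zero, ← isUnit_iff_isUnit_det, ← vecMul_surjective_iff_isUnit,
    Submodule.eq_top_iff']
  refine ⟨fun h M => ?_, fun h y => ?_⟩
  · obtain ⟨c, hc⟩ := h fun q => M q.1 q.2
    refine (Submodule.mem_span_range_iff_exists_fun ℂ).2 ⟨c, ?_⟩
    ext i j
    simpa [vecMul, dotProduct, Matrix.sum_apply] using congrFun hc (i, j)
  · obtain ⟨c, hc⟩ := (Submodule.mem_span_range_iff_exists_fun ℂ).1 (h (Matrix.of fun i j => y (i, j)))
    refine ⟨c, funext fun q => ?_⟩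
    simpa [vecMul, dotProduct, Matrix.sum_apply] using congrFun (congrFun hc q.1) q.2

theorem burn_irr [Nonempty ι] {A : κ → Matrix ι ι ℂ}
    (h : Submodule.span ℂ (Set.range fun w : List κ => (w.map A).prod) = ⊤) : Irr A := by
  refine ⟨inferInstance, fun W hW => or_iff_not_imp_left.2 fun h0 => ?_⟩
  have h1 : ∀ M : Matrix ι ι ℂ, ∀ v ∈ W, M *ᵥ v ∈ W := fun M => by
    induction (h.ge Submodule.mem_top : M ∈ _) using Submodule.span_induction with
    | mem _ hM =>
      obtain ⟨w, rfl⟩ := hM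
      induction w with
      | nil => simp
      | cons k w ih =>
        intro v hv
        simp only [List.map_cons, List.prod_cons, ← mulVec_mulVec]
        exact hW k _ (ih v hv)
    | zero => simp
    | add _ _ _ _ h1 h2 => exact fun v hv => add_mulVec _ _ v ▸ W.add_mem (h1 v hv) (h2 v hv)
    | smul c _ _ h1 => exact fun v hv => smul_mulVec c _ v ▸ W.smul_mem c (h1 v hv)
  obtain ⟨v, hv, hv0⟩ := W.ne_bot_iff.1 h0
  obtain ⟨i, hi⟩ := Function.ne_iff.1 hv0
  refine Submodule.eq_top_iff'.2 fun y => ?_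
  have h2 := h1 (vecMulVec y (Pi.single i (v i)⁻¹)) v hv
  rwa [vecMulVec_mulVec, single_dotProduct, inv_mul_cancel₀ hi, MulOpposite.op_one, one_smul] at h2

theorem Irr.schur {A : κ → Matrix ι ι ℂ} (h : Irr A) : Schur A := by
  intro ψ hψ
  have := h.1
  obtain ⟨c, hc⟩ := Module.End.exists_eigenvalue (toLin' ψ)
  refine ⟨c, sub_eq_zero.1 ?_⟩
  by_contra h0
  have h1 := burn_ker h (A' := A) (fun k => by
    rw [Matrix.sub_mul, Matrix.mul_sub, hψ k, Matrix.smul_mul, Matrix.mul_smul, Matrix.one_mul,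
      Matrix.mul_one]) h0
  rw [Module.End.hasEigenvalue_iff, Module.End.eigenspace_def] at hc
  rw [map_sub, map_smul, toLin'_one] at h1
  exact hc h1

theorem Irr.hom {A : κ → Matrix ι ι ℂ} {A' : κ → Matrix ι' ι' ℂ} (h : Irr A) (h' : Irr A')
    {ψ : Matrix ι' ι ℂ} (hψ : Intw A A' ψ) (h0 : ψ ≠ 0) :
    ∃ ψ' : Matrix ι ι' ℂ, ψ * ψ' = 1 ∧ ψ' * ψ = 1 ∧ Intw A' A ψ' := by
  have h1 := burn_ker h hψ h0
  have h2 : LinearMap.range (toLin' ψ) = ⊤ := by
    refine (h'.2 _ ?_).resolve_left fun h2 => h0 ?_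
    · rintro k _ ⟨v, rfl⟩
      exact ⟨A k *ᵥ v, by rw [toLin'_apply, toLin'_apply, mulVec_mulVec, mulVec_mulVec, hψ k]⟩
    · exact toLin'.map_eq_zero_iff.1 (LinearMap.range_eq_bot.1 h2)
  obtain ⟨f, hf⟩ := LinearMap.exists_leftInverse_of_injective _ h1
  obtain ⟨f', hf'⟩ := LinearMap.exists_rightInverse_of_surjective _ h2
  have h3 : LinearMap.toMatrix' f * ψ = 1 := toLin'.injective (by simp [toLin'_mul, hf])
  have h4 : ψ * LinearMap.toMatrix' f' = 1 := toLin'.injective (by simp [toLin'_mul, hf'])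
  have h5 : LinearMap.toMatrix' f = LinearMap.toMatrix' f' := by
    rw [← Matrix.mul_one (LinearMap.toMatrix' f), ← h4, ← Matrix.mul_assoc, h3, Matrix.one_mul]
  rw [h5] at h3
  refine ⟨_, h4, h3, fun k => ?_⟩
  rw [← Matrix.mul_one (_ * A' k), ← h4, Matrix.mul_assoc, ← Matrix.mul_assoc (A' k), ← hψ k,
    ← Matrix.mul_assoc, ← Matrix.mul_assoc, h3, Matrix.one_mul]

theorem Irr.iso {A : κ → Matrix ι ι ℂ} {A' : κ → Matrix ι' ι' ℂ} (h : Irr A) {φ : Matrix ι' ι ℂ}
    {φ' : Matrix ι ι' ℂ} (h1 : φ * φ' = 1) (h2 : φ' * φ = 1) (hI : Intw A A' φ) : Irr A' := by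
  refine ⟨?_, fun W hW => ?_⟩
  · by_contra h0
    have := not_nonempty_iff.1 h0
    obtain ⟨i⟩ := h.1
    simpa [mul_apply] using congrFun (congrFun h2 i) i
  · have e : ∀ v, φ *ᵥ (φ' *ᵥ v) = v := fun v => by rw [mulVec_mulVec, h1, one_mulVec]
    refine (h.2 (W.comap (toLin' φ)) fun k v hv => ?_).imp (fun h3 => ?_) fun h3 => ?_
    · rw [Submodule.mem_comap, toLin'_apply] at hv ⊢
      rw [mulVec_mulVec, hI k, ← mulVec_mulVec]
      exact hW k _ hv
    · refine (Submodule.eq_bot_iff _).2 fun v hv => ?_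
      have h4 : φ' *ᵥ v ∈ W.comap (toLin' φ) := by rwa [Submodule.mem_comap, toLin'_apply, e]
      rw [← e v, (Submodule.eq_bot_iff _).1 h3 _ h4, mulVec_zero]
    · refine Submodule.eq_top_iff'.2 fun v => ?_
      have h4 := Submodule.eq_top_iff'.1 h3 (φ' *ᵥ v)
      rwa [Submodule.mem_comap, toLin'_apply, e] at h4

theorem Irr.comp {κ' : Type} {A : κ → Matrix ι ι ℂ} (e : κ' → κ) (h : Irr (A ∘ e)) : Irr A := by
  exact ⟨h.1, fun W hW => h.2 W fun k => hW (e k)⟩

theorem Irr.span_words {A : κ → Matrix ι ι ℂ} (h : Irr A) :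
    Submodule.span ℂ (Set.range fun w : List κ => (w.map A).prod) = ⊤ := by
  let R := Algebra.adjoin ℂ (Set.range A)
  have hs : ∀ (r : R) (v : ι → ℂ), r • v = (r : Matrix ι ι ℂ) *ᵥ v := fun _ _ => rfl
  have hc : ∀ (c : ℂ) (v : ι → ℂ), (algebraMap ℂ R c) • v = c • v := fun c v => by
    rw [hs, Subalgebra.coe_algebraMap, Algebra.algebraMap_eq_smul_one, smul_mulVec, one_mulVec]
  let a : κ → R := fun k => ⟨A k, Algebra.subset_adjoin ⟨k, rfl⟩⟩
  have := h.1
  have : IsSimpleModule R (ι → ℂ) := (isSimpleModule_iff _ _).2 ⟨fun m => by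
    refine (h.2 ⟨m.toAddSubmonoid, fun c v hv => hc c v ▸ m.smul_mem _ hv⟩
      fun k v hv => m.smul_mem (a k) hv).imp (fun h1 => ?_) fun h1 => ?_
    · exact (Submodule.eq_bot_iff _).2 fun v hv => (Submodule.eq_bot_iff _).1 h1 v hv
    · exact Submodule.eq_top_iff'.2 fun v => Submodule.eq_top_iff'.1 h1 v⟩
  refine Submodule.eq_top_iff'.2 fun M => ?_
  obtain ⟨r, hr⟩ := jacobson_density (R := R) (M := ι → ℂ)
    { toFun := fun v => M *ᵥ v
      map_add' := mulVec_add M
      map_smul' := fun ψ v => by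
        let ψ' : (ι → ℂ) →ₗ[ℂ] ι → ℂ := ⟨ψ.toAddHom, fun c v => by
          rw [RingHom.id_apply, ← hc, ← hc]
          exact ψ.map_smul _ v⟩
        obtain ⟨c, hc'⟩ := h.schur (LinearMap.toMatrix' ψ') fun k => toLin'.injective (by
          rw [toLin'_mul, toLin'_mul, toLin'_toMatrix']
          exact LinearMap.ext fun v => ψ.map_smul (a k) v)
        have e : ∀ v : ι → ℂ, ψ • v = c • v := fun v => by
          have h5 : LinearMap.toMatrix' ψ' *ᵥ v = (c • (1 : Matrix ι ι ℂ)) *ᵥ v := by rw [hc']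
          rw [LinearMap.toMatrix'_mulVec, smul_mulVec, one_mulVec] at h5
          exact h5
        rw [RingHom.id_apply, e, e, mulVec_smul] }
    (Finset.univ.image fun j => Pi.single j 1)
  have e : M = r := by
    ext i j
    simpa [hs] using congrFun (hr _ (Finset.mem_image_of_mem _ (Finset.mem_univ j))) i
  have h1 : (r : Matrix ι ι ℂ) ∈ Subalgebra.toSubmodule (Algebra.adjoin ℂ (Set.range A)) := r.2
  rw [Algebra.adjoin_eq_span] at h1
  refine e ▸ Submodule.span_mono (fun x hx => ?_) h1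
  induction hx using Submonoid.closure_induction with
  | mem _ hx =>
    obtain ⟨k, rfl⟩ := hx
    exact ⟨[k], by simp⟩
  | one => exact ⟨[], by simp⟩
  | mul _ _ _ _ h1 h2 =>
    obtain ⟨w, rfl⟩ := h1
    obtain ⟨w', rfl⟩ := h2
    exact ⟨w ++ w', by simp⟩

theorem Irr.poly {A : κ → Matrix ι ι ℂ} (h : Irr A) :
    ∃ Θ : MvPolynomial (κ × ι × ι) ℂ, MvPolynomial.eval (fun p => A p.1 p.2.1 p.2.2) Θ ≠ 0 ∧
      ∀ A' : κ → Matrix ι ι ℂ, MvPolynomial.eval (fun p => A' p.1 p.2.1 p.2.2) Θ ≠ 0 → Irr A' := by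
  obtain ⟨κ', a, -, h1, h2⟩ := exists_linearIndependent' ℂ fun w : List κ => (w.map A).prod
  rw [h.span_words] at h1
  let e := (stdBasis ℂ ι ι).indexEquiv (Module.Basis.mk h2 h1.ge)
  let Θ : MvPolynomial (κ × ι × ι) ℂ := (Matrix.of fun p q : ι × ι => (((a (e p)).map fun k =>
    (Matrix.of fun i j => MvPolynomial.X (k, i, j) : Matrix ι ι (MvPolynomial (κ × ι × ι) ℂ))).prod)
      q.1 q.2).det
  have hΘ : ∀ A' : κ → Matrix ι ι ℂ, MvPolynomial.eval (fun p => A' p.1 p.2.1 p.2.2) Θ ≠ 0 ↔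
      Submodule.span ℂ (Set.range fun p => ((a (e p)).map A').prod) = ⊤ := fun A' => by
    rw [← burn_det, RingHom.map_det]
    refine iff_of_eq (congrArg (fun M : Matrix _ _ ℂ => M.det ≠ 0) ?_)
    ext p q
    have h3 := map_list_prod (MvPolynomial.eval fun p : κ × ι × ι => A' p.1 p.2.1 p.2.2).mapMatrix
      ((a (e p)).map fun k => (Matrix.of fun i j => MvPolynomial.X (k, i, j) :
        Matrix ι ι (MvPolynomial (κ × ι × ι) ℂ)))
    rw [List.map_map, List.map_congr_left (g := A') fun k _ => by ext; simp] at h3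
    exact congrFun (congrFun h3 q.1) q.2
  have := h.1
  refine ⟨Θ, (hΘ A).2 ?_, fun A' h3 => burn_irr (top_unique (((hΘ A').1 h3).ge.trans
    (Submodule.span_mono ?_)))⟩
  · rw [← h1]
    exact congrArg _ (e.surjective.range_comp ((fun w : List κ => (w.map A).prod) ∘ a))
  · rintro _ ⟨p, rfl⟩
    exact ⟨_, rfl⟩

theorem isOpen_irr : IsOpen {A : κ → Matrix ι ι ℂ | Irr A} := by
  refine isOpen_iff_forall_mem_open.2 fun A hA => ?_
  obtain ⟨Θ, h1, h2⟩ := Irr.poly hA
  refine ⟨{A' | MvPolynomial.eval (fun p : κ × ι × ι => A' p.1 p.2.1 p.2.2) Θ ≠ 0}, h2, ?_, h1⟩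
  exact isOpen_ne_fun ((MvPolynomial.continuous_eval Θ).comp (by fun_prop)) continuous_const

end Crest.Agent.R3
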