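import Crest.Agent.R3.IftB
import Crest.Agent.R3.Neig
import Crest.Agent.R3.Burn

/-!
# R3 / RestS : the other handles can be made to have trivial centraliser

`d = card ι`.  `comMat A` is the matrix of `ψ ↦ (k ↦ ψ A_k - A_k ψ)`; its entries are linear in `A`.  Among the points of `U`
with `rel = η` take `T'` for which `rank (comMat (gens (tail T')))` is maximal.  `T' 0 = (a, b)`, `T' 1 = (c, e)`.  Suppose `ψ` is
not scalar and commutes with the tail.  `c = G diag γ G⁻¹` with `γ` injective (`diag_of_neig`), so `ψ = G diag p G⁻¹`, `p` not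
constant, and `e' = G⁻¹ e G` has `e' i j = 0` when `p i ≠ p j`.
`cross_dim`: the set of pairs `(i, j)` with `p i ≠ p j` has at least `2 (d - 1) ≥ d` elements (`d ≥ 2`).
`exists_tangent`: let `W` be the space of `w` supported on these pairs.  For `w ∈ W` let `v_w` be the cochain with
`v_w (1, true) = G w G⁻¹`, zero elsewhere.  The annihilator `Ann` of `(α, β) ↦ fox1 (T' 0) (T' 0) α β * rel (tail T')` embeds in the
centraliser of `a` (`fox1_ann`), which has dimension `d`; it contains `1` and `trace (fox v_w) = 0` (`fox_ann`).  So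
`w ↦ (χ ↦ trace (χ * fox v_w))`, `W → dual Ann`, has rank `≤ d - 1 < dim W`; a non-zero `w` in the kernel gives
(`mem_range_of_ann`) a `v ∈ ker fox` with `v (1,false) = 0`, `v (1,true) = G w G⁻¹`, `v = 0` on the handles `≥ 2`.
Take the curve of `ift_curve`; `lemma_R` for `comMat` gives `φ` with `[φ, c] = [ψ, 0] = 0`, `[φ, e] = [ψ, G w G⁻¹]`;
so `φ = G diag q G⁻¹` and `(p i - p j) w i j = (q i - q j) e' i j = 0` on the support of `w`.  Contradiction.
-/

set_option autoImplicit false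

noncomputable section

open Matrix

namespace Crest.Agent.R3

variable {O : Type} [CommRing O] [Algebra O ℂ] {η : Oˣ}
variable {ι : Type} [Fintype ι] [DecidableEq ι] {g : ℕ}

theorem cross_dim (p : ι → ℂ) (hp : ∃ i j, p i ≠ p j) :
    Fintype.card ι ≤ (Finset.univ.filter fun q : ι × ι => p q.1 ≠ p q.2).card := by
  obtain ⟨i0, j0, h⟩ := hp
  rw [← Finset.card_univ]
  refine Finset.card_le_card_of_injOn (fun k => (k, if p k = p i0 then j0 else i0)) ?_ ?_
  · intro k _
    simp only [Finset.coe_filter, Finset.mem_univ, true_and, Set.mem_setOf_eq]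
    split_ifs with hk
    · rw [hk]; exact h
    · exact hk
  · intro k _ l _ hkl
    exact congrArg Prod.fst hkl

theorem rs_offdiag {M : Matrix ι ι ℂ} {β : ι → ℂ} (hβ : Function.Injective β)
    (h : M * diagonal β = diagonal β * M) {i j : ι} (hij : i ≠ j) : M i j = 0 := by
  have := congrFun (congrFun h i) j
  rw [mul_diagonal, diagonal_mul] at this
  have h2 : M i j * (β j - β i) = 0 := by rw [mul_sub, this]; ring
  rcases mul_eq_zero.1 h2 with h3 | h3
  · exact h3
  · exact absurd (hβ (sub_eq_zero.1 h3)).symm hij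

theorem rs_conj_comm (G : GLm ι ℂ) {β : ι → ℂ} {ψ a : Matrix ι ι ℂ}
    (ha : a = G.val * diagonal β * (G⁻¹).val) (h : ψ * a = a * ψ) :
    ((G⁻¹).val * ψ * G.val) * diagonal β = diagonal β * ((G⁻¹).val * ψ * G.val) := by
  have h1 : diagonal β = (G⁻¹).val * a * G.val := by
    rw [ha]; simp [← Matrix.mul_assoc]
  rw [h1]
  calc (G⁻¹).val * ψ * G.val * ((G⁻¹).val * a * G.val)
      = (G⁻¹).val * (ψ * (G.val * (G⁻¹).val) * a) * G.val := by simp only [Matrix.mul_assoc]
    _ = (G⁻¹).val * (a * (G.val * (G⁻¹).val) * ψ) * G.val := by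
        rw [Units.mul_inv, Matrix.mul_one, Matrix.mul_one, h]
    _ = _ := by simp only [Matrix.mul_assoc]

theorem finrank_centralizer_le {a : Matrix ι ι ℂ} (h : neig a = Fintype.card ι)
    (Z : Submodule ℂ (Matrix ι ι ℂ)) (hZ : ∀ ψ ∈ Z, ψ * a = a * ψ) :
    Module.finrank ℂ Z ≤ Fintype.card ι := by
  obtain ⟨G, β, hβ, ha⟩ := diag_of_neig h
  let f : Z →ₗ[ℂ] (ι → ℂ) :=
    { toFun := fun ψ i => ((G⁻¹).val * ψ.1 * G.val) i i
      map_add' := fun x y => by ext i; simp [Matrix.mul_add, Matrix.add_mul]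
      map_smul' := fun c x => by ext i; simp }
  have hf : Function.Injective f := by
    rw [← LinearMap.ker_eq_bot, LinearMap.ker_eq_bot']
    intro ψ hψ
    have h0 : (G⁻¹).val * ψ.1 * G.val = 0 := by
      ext i j
      by_cases hij : i = j
      · subst hij; exact congrFun hψ i
      · exact rs_offdiag hβ (rs_conj_comm G ha (hZ _ ψ.2)) hij
    have : ψ.1 = G.val * ((G⁻¹).val * ψ.1 * G.val) * (G⁻¹).val := by
      simp [← Matrix.mul_assoc]
    rw [h0] at this
    exact Subtype.ext (by simpa using this)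
  simpa using LinearMap.finrank_le_finrank_of_injective hf

theorem rs_fox_zero {R : Type} [CommRing R] {g : ℕ} (T : Rep g ι R) : fox T T 0 = 0 :=
  (foxL T T).map_zero

theorem rs_trace_fox {g : ℕ} {T : Rep g ι ℂ} (hT : rel T = scalU ι ℂ η)
    (v : Fin g × Bool → Matrix ι ι ℂ) : trace (1 * fox T T v) = 0 := by
  refine (fox_ann T T 1).2 ?_ v
  intro k
  rw [hT, scalU_val]
  simp

theorem exists_tangent [Nonempty ι] {T : Rep (g + 2) ι ℂ} (hT : rel T = scalU ι ℂ η)
    (ha : neig ((T 0).1 : Matrix ι ι ℂ) = Fintype.card ι) (W : Submodule ℂ (Matrix ι ι ℂ))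
    (hW : Fintype.card ι ≤ Module.finrank ℂ W) :
    ∃ v : Fin (g + 2) × Bool → Matrix ι ι ℂ, fox T T v = 0 ∧ v (1, true) ∈ W ∧ v (1, true) ≠ 0 ∧
      ∀ k : Fin (g + 2) × Bool, k.1 ≠ 0 → k ≠ (1, true) → v k = 0 := by
  let sg : Fin (g + 2) × Bool → Matrix ι ι ℂ →ₗ[ℂ] (Fin (g + 2) × Bool → Matrix ι ι ℂ) :=
    fun k => LinearMap.single ℂ (fun _ => Matrix ι ι ℂ) k
  let e0 : (Matrix ι ι ℂ × Matrix ι ι ℂ) →ₗ[ℂ] (Fin (g + 2) × Bool → Matrix ι ι ℂ) :=
    (sg (0, false)).coprod (sg (0, true))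
  let F0 := (foxL T T).comp e0
  let F1 := (foxL T T).comp (sg (1, true))
  have he0 : ∀ e (k : Fin (g + 2) × Bool), k.1 ≠ 0 → e0 e k = 0 := by
    rintro e ⟨k, b⟩ hk
    have h1 : (k, b) ≠ (0, false) := fun h => hk (congrArg Prod.fst h)
    have h2 : (k, b) ≠ (0, true) := fun h => hk (congrArg Prod.fst h)
    simp [e0, sg, Pi.single_eq_of_ne h1, Pi.single_eq_of_ne h2]
  have hF0 : ∀ α β, F0 (α, β) =
      fox1 (T 0) (T 0) α β * (rel (Fin.tail T : Rep (g + 1) ι ℂ)).val := by
    intro α β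
    change fox T T (e0 (α, β)) = _
    rw [fox_succ]
    have h1 : (fun p : Fin (g + 1) × Bool => e0 (α, β) (p.1.succ, p.2)) = 0 := by
      funext p
      exact he0 _ _ (Fin.succ_ne_zero _)
    rw [h1, rs_fox_zero]
    simp [e0, sg]
  let Ann : Submodule ℂ (Matrix ι ι ℂ) :=
    { carrier := {χ | ∀ e, trace (χ * F0 e) = 0}
      add_mem' := fun {x y} hx hy e => by rw [Matrix.add_mul, trace_add, hx e, hy e, add_zero]
      zero_mem' := fun e => by simp
      smul_mem' := fun c x hx e => by rw [Matrix.smul_mul, trace_smul, hx e, smul_zero] }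
  have h1A : (1 : Matrix ι ι ℂ) ∈ Ann := fun e => rs_trace_fox hT _
  have hAnn : Module.finrank ℂ Ann ≤ Fintype.card ι := by
    let Rt := rel (Fin.tail T : Rep (g + 1) ι ℂ)
    let m : Matrix ι ι ℂ →ₗ[ℂ] Matrix ι ι ℂ :=
      (LinearMap.mulRight ℂ (comm (T 0)).val).comp (LinearMap.mulLeft ℂ Rt.val)
    have hm : Function.Injective m := by
      intro x y hxy
      simp only [m, LinearMap.comp_apply, LinearMap.mulRight_apply, LinearMap.mulLeft_apply] at hxy
      exact (Units.mul_right_inj Rt).1 ((Units.mul_left_inj _).1 hxy)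
    rw [← LinearEquiv.finrank_eq (Submodule.equivMapOfInjective m hm Ann).symm]
    refine finrank_centralizer_le ha _ ?_
    rintro _ ⟨χ, hχ, rfl⟩
    refine ((fox1_ann (T 0) (T 0) (Rt.val * χ)).1 fun α β => ?_).1
    have := hχ (α, β)
    rw [hF0, ← Matrix.mul_assoc, trace_mul_comm, ← Matrix.mul_assoc] at this
    exact this
  let Λ : W →ₗ[ℂ] Module.Dual ℂ Ann :=
    { toFun := fun w =>
        { toFun := fun χ => trace (χ.1 * F1 w.1)
          map_add' := fun x y => by simp [Matrix.add_mul]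
          map_smul' := fun c x => by simp }
      map_add' := fun x y => by ext χ; simp [Matrix.mul_add]
      map_smul' := fun c x => by ext χ; simp }
  have hΛ : LinearMap.range Λ ≠ ⊤ := by
    intro h
    have : ((traceLinearMap ι ℂ ℂ).comp Ann.subtype) ∈ LinearMap.range Λ := h ▸ Submodule.mem_top
    obtain ⟨w, hw⟩ := this
    have h2 := LinearMap.congr_fun hw ⟨1, h1A⟩
    have h3 : trace ((1 : Matrix ι ι ℂ) * F1 w.1) = 0 := rs_trace_fox hT _
    have h4 : trace (1 : Matrix ι ι ℂ) = 0 := by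
      rw [← h3]; exact h2.symm
    rw [trace_one] at h4
    exact Fintype.card_ne_zero (Nat.cast_eq_zero.1 h4)
  have hlt : Module.finrank ℂ (LinearMap.range Λ) < Module.finrank ℂ W := by
    have := Submodule.finrank_lt hΛ
    rw [Subspace.dual_finrank_eq] at this
    omega
  have hker : LinearMap.ker Λ ≠ ⊥ := by
    intro h
    have := LinearMap.finrank_range_add_finrank_ker Λ
    rw [h, finrank_bot] at this
    omega
  obtain ⟨w, hw, hw0⟩ := Submodule.exists_mem_ne_zero_of_ne_bot hker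
  obtain ⟨e, he⟩ := mem_range_of_ann F0 (F1 w.1) fun ψ hψ =>
    LinearMap.congr_fun (LinearMap.mem_ker.1 hw) ⟨ψ, hψ⟩
  have hv1 : (sg (1, true) w.1 - e0 e) (1, true) = w.1 := by
    rw [Pi.sub_apply, he0 e (1, true) (by simp)]
    simp [sg]
  refine ⟨sg (1, true) w.1 - e0 e, ?_, ?_, ?_, ?_⟩
  · change foxL T T _ = 0
    rw [map_sub]
    exact sub_eq_zero.2 he.symm
  · rw [hv1]; exact w.2
  · rw [hv1]; exact fun h => hw0 (Subtype.ext h)
  · intro k hk hk1
    rw [Pi.sub_apply, he0 e k hk]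
    simp [sg, Pi.single_eq_of_ne hk1]

/-- matrix of `ψ ↦ (k ↦ ψ A_k - A_k ψ)` -/
def comMat {κ : Type} (A : κ → Matrix ι ι ℂ) : Matrix (κ × ι × ι) (ι × ι) ℂ :=
  Matrix.of fun p q => (if p.2.1 = q.1 then A p.1 q.2 p.2.2 else 0) -
    (if p.2.2 = q.2 then A p.1 p.2.1 q.1 else 0)

theorem comMat_mulVec {κ : Type} (A : κ → Matrix ι ι ℂ) (u : ι × ι → ℂ) (k : κ) (i j : ι) :
    (comMat A *ᵥ u) (k, i, j) =
      ((Matrix.of fun a b => u (a, b)) * A k - A k * (Matrix.of fun a b => u (a, b))) i j := by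
  simp only [comMat, mulVec, dotProduct, of_apply, sub_mul, Finset.sum_sub_distrib,
    Fintype.sum_prod_type, Matrix.sub_apply, Matrix.mul_apply, ite_mul, zero_mul]
  congr 1
  · rw [Finset.sum_comm]
    simp [mul_comm]
  · simp

theorem rs_cross (G : GLm ι ℂ) (p : ι → ℂ) (hp : ∃ i j, p i ≠ p j) :
    ∃ W : Submodule ℂ (Matrix ι ι ℂ), Fintype.card ι ≤ Module.finrank ℂ W ∧
      ∀ w ∈ W, ∀ i j, p i = p j → ((G⁻¹).val * w * G.val) i j = 0 := by
  let Cr := Finset.univ.filter fun q : ι × ι => p q.1 ≠ p q.2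
  let emb : (Cr → ℂ) →ₗ[ℂ] Matrix ι ι ℂ :=
    { toFun := fun w => G.val *
        (Matrix.of fun i j => if h : (i, j) ∈ Cr then w ⟨(i, j), h⟩ else 0) * (G⁻¹).val
      map_add' := fun x y => by
        rw [← Matrix.add_mul, ← Matrix.mul_add]
        congr 2
        ext i j
        by_cases h : (i, j) ∈ Cr <;> simp [h]
      map_smul' := fun c x => by
        rw [RingHom.id_apply, ← Matrix.smul_mul, ← Matrix.mul_smul]
        congr 2
        ext i j
        by_cases h : (i, j) ∈ Cr <;> simp [h] }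
  have hemb : ∀ w i j, ((G⁻¹).val * emb w * G.val) i j =
      if h : (i, j) ∈ Cr then w ⟨(i, j), h⟩ else 0 := by
    intro w i j
    have : (G⁻¹).val * emb w * G.val =
        Matrix.of fun i j => if h : (i, j) ∈ Cr then w ⟨(i, j), h⟩ else 0 := by
      simp only [emb, LinearMap.coe_mk, AddHom.coe_mk, ← Matrix.mul_assoc, Units.inv_mul,
        Matrix.one_mul]
      rw [Matrix.mul_assoc, Units.inv_mul, Matrix.mul_one]
    rw [this]
    rfl
  have hinj : Function.Injective emb := by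
    intro x y hxy
    funext q
    have h3 := hemb x q.1.1 q.1.2
    rw [hxy, hemb, dif_pos q.2, dif_pos q.2] at h3
    exact h3.symm
  refine ⟨LinearMap.range emb, ?_, ?_⟩
  · rw [LinearMap.finrank_range_of_inj hinj, Module.finrank_fintype_fun_eq_card, Fintype.card_coe]
    exact cross_dim p hp
  · rintro _ ⟨w, rfl⟩ i j hij
    rw [hemb, dif_neg]
    simp [Cr, hij]

set_option maxHeartbeats 400000 in
theorem rest_schur {U : Set (Fin (g + 2) × Bool → Matrix ι ι ℂ)} (hU : IsOpen U) (hI : ∀ A ∈ U, Irr A)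
    (h0 : ∀ A ∈ U, neig (A (0, false)) = Fintype.card ι)
    (h1 : ∀ A ∈ U, neig (A (1, false)) = Fintype.card ι) {T : Rep (g + 2) ι ℂ} (hT0 : gens T ∈ U)
    (hT : rel T = scalU ι ℂ η) :
    ∃ T' : Rep (g + 2) ι ℂ, gens T' ∈ U ∧ rel T' = scalU ι ℂ η ∧
      Schur (gens (Fin.tail T' : Rep (g + 1) ι ℂ)) := by
  let tl : (Fin (g + 2) × Bool → Matrix ι ι ℂ) → Fin (g + 1) × Bool → Matrix ι ι ℂ :=
    fun A k => A (k.1.succ, k.2)
  have htl : ∀ T' : Rep (g + 2) ι ℂ, gens (Fin.tail T' : Rep (g + 1) ι ℂ) = tl (gens T') :=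
    fun T' => rfl
  let Sr : Set ℕ := {n | ∃ T' : Rep (g + 2) ι ℂ, gens T' ∈ U ∧ rel T' = scalU ι ℂ η ∧
    (comMat (tl (gens T'))).rank = n}
  have hbd : BddAbove Sr := ⟨Fintype.card (ι × ι), by
    rintro _ ⟨T', -, -, rfl⟩
    exact Matrix.rank_le_card_width _⟩
  obtain ⟨T', hU', hT', hr'⟩ := Nat.sSup_mem (s := Sr) ⟨_, T, hT0, hT, rfl⟩ hbd
  refine ⟨T', hU', hT', ?_⟩
  have : Nonempty ι := (hI _ hU').1
  intro ψ hψ
  by_contra hns
  obtain ⟨G, γ, hγ, hc⟩ := diag_of_neig (h1 _ hU')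
  have htl0 : ∀ (A : Fin (g + 2) × Bool → Matrix ι ι ℂ) (b : Bool), tl A (0, b) = A (1, b) := by
    intro A b
    simp only [tl, Fin.succ_zero_eq_one]
  have hψc : ψ * gens T' (1, false) = gens T' (1, false) * ψ := by
    have := hψ (0, false)
    rwa [htl, htl0] at this
  have hψe : ψ * gens T' (1, true) = gens T' (1, true) * ψ := by
    have := hψ (0, true)
    rwa [htl, htl0] at this
  set ψ' := (G⁻¹).val * ψ * G.val with hψ'
  let p : ι → ℂ := fun i => ψ' i i
  have hdiag : ψ' = diagonal p := by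
    ext i j
    by_cases hij : i = j
    · subst hij; simp [p]
    · rw [diagonal_apply_ne _ hij]
      exact rs_offdiag hγ (rs_conj_comm G hc hψc) hij
  have hp : ∃ i j, p i ≠ p j := by
    by_contra hcon
    push Not at hcon
    obtain ⟨i0⟩ := ‹Nonempty ι›
    refine hns ⟨p i0, ?_⟩
    have h2 : ψ' = p i0 • (1 : Matrix ι ι ℂ) := by
      rw [hdiag, ← diagonal_one, ← diagonal_smul]
      congr 1
      funext i
      simp [hcon i i0]
    have : ψ = G.val * ψ' * (G⁻¹).val := by
      rw [hψ']; simp [← Matrix.mul_assoc]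
    rw [this, h2]
    simp
  obtain ⟨W, hW, hWs⟩ := rs_cross G p hp
  have ha : neig ((T' 0).1 : Matrix ι ι ℂ) = Fintype.card ι := by
    have h2 : gens T' (0, false) = ((T' 0).1 : Matrix ι ι ℂ) := rfl
    rw [← h2]
    exact h0 _ hU'
  obtain ⟨v, hv, hw, hv0, hvz⟩ := exists_tangent hT' ha W hW
  obtain ⟨c, hcv, hc0, hcev⟩ := ift_curve (hI _ hU').schur hT' hv
  obtain ⟨u, hu⟩ := lemma_R (fun s => comMat (tl (c s))) (comMat (tl v))
    (by
      rintro ⟨k, i, j⟩ ⟨a, b⟩
      simp only [comMat, of_apply]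
      refine HasDerivAt.sub ?_ ?_ <;> split_ifs
      · exact hcv _ _ _
      · exact hasDerivAt_const _ _
      · exact hcv _ _ _
      · exact hasDerivAt_const _ _)
    (by
      filter_upwards [hcev, hcv.eventually_mem hU (hc0 ▸ hU')] with s hs hsU
      obtain ⟨T2, h21, h22⟩ := hs
      rw [hc0, hr']
      exact le_csSup hbd ⟨T2, h21 ▸ hsU, h22, by rw [h21]⟩)
    (fun q => ψ q.1 q.2)
    (by
      funext ⟨k, i, j⟩
      rw [comMat_mulVec, hc0]
      have := hψ k
      rw [htl] at this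
      exact congrFun (congrFun (sub_eq_zero.2 this) i) j)
  rw [hc0] at hu
  set φ : Matrix ι ι ℂ := Matrix.of fun a b => u (a, b) with hφ
  have hcomm : ∀ k, ψ * tl v k - tl v k * ψ = φ * tl (gens T') k - tl (gens T') k * φ := by
    intro k
    ext i j
    have := congrFun hu (k, i, j)
    rw [comMat_mulVec, comMat_mulVec] at this
    exact this
  have hφc : φ * gens T' (1, false) = gens T' (1, false) * φ := by
    have h3 := hcomm (0, false)
    have h4 : v (1, false) = 0 := hvz (1, false) (by simp) (by simp)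
    rw [htl0, htl0, h4, Matrix.mul_zero, Matrix.zero_mul, sub_zero] at h3
    exact sub_eq_zero.1 h3.symm
  have h5 : ψ * v (1, true) - v (1, true) * ψ =
      φ * gens T' (1, true) - gens T' (1, true) * φ := by
    have := hcomm (0, true)
    rwa [htl0, htl0] at this
  have conj : ∀ x y : Matrix ι ι ℂ, (G⁻¹).val * (x * y) * G.val =
      ((G⁻¹).val * x * G.val) * ((G⁻¹).val * y * G.val) := by
    intro x y
    simp [Matrix.mul_assoc]
  set φ' := (G⁻¹).val * φ * G.val with hφ'
  set e' := (G⁻¹).val * gens T' (1, true) * G.val with he'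
  set w' := (G⁻¹).val * v (1, true) * G.val with hw'
  have hφd : φ' = diagonal fun i => φ' i i := by
    ext i j
    by_cases hij : i = j
    · subst hij; simp
    · rw [diagonal_apply_ne _ hij]
      exact rs_offdiag hγ (rs_conj_comm G hc hφc) hij
  have h6 : ψ' * e' = e' * ψ' := by rw [hψ', he', ← conj, ← conj, hψe]
  have h7 : ψ' * w' - w' * ψ' = φ' * e' - e' * φ' := by
    rw [hψ', hw', hφ', he', ← conj, ← conj, ← conj, ← conj, ← Matrix.sub_mul, ← Matrix.mul_sub,
      h5, ← Matrix.sub_mul, ← Matrix.mul_sub]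
  apply hv0
  have hw0 : w' = 0 := by
    ext i j
    by_cases hpij : p i = p j
    · exact hWs _ hw i j hpij
    have h8 := congrFun (congrFun h6 i) j
    rw [hdiag, diagonal_mul, mul_diagonal] at h8
    have h9 : e' i j = 0 := by
      have : (p i - p j) * e' i j = 0 := by rw [sub_mul, h8]; ring
      exact (mul_eq_zero.1 this).resolve_left (sub_ne_zero.2 hpij)
    have h10 := congrFun (congrFun h7 i) j
    rw [hdiag, hφd] at h10
    simp only [Matrix.sub_apply, diagonal_mul, mul_diagonal, h9, mul_zero, zero_mul, sub_zero] at h10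
    have : (p i - p j) * w' i j = 0 := by rw [sub_mul, ← h10]; ring
    exact (mul_eq_zero.1 this).resolve_left (sub_ne_zero.2 hpij)
  have : v (1, true) = G.val * w' * (G⁻¹).val := by
    rw [hw']; simp [← Matrix.mul_assoc]
  rw [this, hw0]
  simp

end Crest.Agent.R3
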