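import Crest.Agent.R3.Zcl

/-!
# R3 / Univ : the universal ring

An *atom* is a triple `(n, S, x)` with `S : Set (Fin n → O)`, `x : Fin n → ℂ` in the Zariski closure of `S` (so `S` is
non-empty: take `p = 1`).  `J = Π atoms, S`; `A = Σ atoms, Fin n`; `Φ : MvPolynomial A O →ₐ[O] (J → O)` sends
`X ⟨α, k⟩` to `fun j => (j α) k`; `B = Φ.range` (or `MvPolynomial A O ⧸ ker Φ`), `ev j` is evaluation.
Key lemma (`zcl_pi`): a complex polynomial in the variables `A` which vanishes at all points of `J` vanishes at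
`x = fun ⟨α, k⟩ => x_α k`.  Proof: for a finset `s` of atoms, by induction on `s`: it vanishes at all points which
are `x_α` for `α ∈ s` and in `S_α` for `α ∉ s` (freeze all variables except those of one atom); finally take for `s`
the atoms of the variables of `p`.  Hence `ker Φ ≤ ker (aeval x)` and `π` is defined; `cl` is the key lemma for
`bind₁ q p`; `univ` by `Finite.equivFin`.

`Univ.good`: `z ∈ zcl O` since `O ⊇ ℤ` is infinite; `(z, z⁻¹) ∈ zcl {(u, u⁻¹)}` since `{u ^ n}` is infinite
(for `p(x, y)` the polynomial `x ^ N p(x, 1/x)` has infinitely many roots); `τ 0 * τ 1 = 1` by `sep`.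
-/

set_option autoImplicit false

noncomputable section

open MvPolynomial

namespace Crest.Agent.R3

theorem zcl_pi {I : Type} {κ : I → Type} (S : ∀ i, Set (κ i → ℂ)) (x : ∀ i, κ i → ℂ)
    (hx : ∀ i, x i ∈ zcl (S i)) :
    (fun a : Σ i, κ i => x a.1 a.2) ∈
      zcl {y | ∃ s : ∀ i, κ i → ℂ, (∀ i, s i ∈ S i) ∧ y = fun a : Σ i, κ i => s a.1 a.2} := by
  classical
  intro p hp
  have key : ∀ T : Finset I, ∀ s : ∀ i, κ i → ℂ, (∀ i ∉ T, s i ∈ S i) → (∀ i ∈ T, s i = x i) →
      eval (fun a : Σ i, κ i => s a.1 a.2) p = 0 := by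
    intro T
    induction T using Finset.induction_on with
    | empty => exact fun s h1 _ => hp _ ⟨s, fun i => h1 i (by simp), rfl⟩
    | insert j T hj ih =>
      intro s h1 h2
      have hg : ∀ a : Σ i, κ i, ∃ g : MvPolynomial (κ j) ℂ, ∀ t,
          eval t g = Function.update s j t a.1 a.2 := by
        rintro ⟨i, k⟩
        by_cases h : i = j
        · subst h
          exact ⟨X k, fun t => by simp⟩
        · exact ⟨C (s i k), fun t => by simp [Function.update_of_ne h]⟩
      choose g hg using hg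
      have e : ∀ t : κ j → ℂ, eval t (bind₁ g p) =
          eval (fun a : Σ i, κ i => Function.update s j t a.1 a.2) p := fun t => by
        have : eval t (bind₁ g p) = eval (fun a => eval t (g a)) p := eval₂Hom_bind₁ _ _ _ _
        rw [this]
        simp only [hg]
      have h3 := hx j (bind₁ g p) fun t ht => by
        rw [e]
        refine ih _ (fun i hi => ?_) (fun i hi => ?_)
        · by_cases h : i = j
          · subst h; simpa using ht
          · rw [Function.update_of_ne h]
            exact h1 i (by simp [h, hi])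
        · have h : i ≠ j := fun h => hj (h ▸ hi)
          rw [Function.update_of_ne h]
          exact h2 i (Finset.mem_insert_of_mem hi)
      rwa [e, ← h2 j (Finset.mem_insert_self _ _), Function.update_eq_self] at h3
  have hne : ∀ i, (S i).Nonempty := fun i => by
    by_contra h
    rw [Set.not_nonempty_iff_eq_empty] at h
    have := hx i 1 (by simp [h])
    simp at this
  choose s0 hs0 using hne
  have h := key (p.vars.image Sigma.fst) (fun i => if i ∈ p.vars.image Sigma.fst then x i else s0 i)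
    (fun i hi => by simp only [if_neg hi]; exact hs0 i) (fun i hi => by simp only [if_pos hi])
  rw [← h]
  refine eval₂Hom_congr' rfl (fun a ha _ => ?_) rfl
  simp only [if_pos (Finset.mem_image_of_mem Sigma.fst ha)]

theorem exists_univ (O : Subring ℂ) :
    ∃ (B J : Type) (_ : CommRing B) (_ : Algebra O B) (π : B →ₐ[O] ℂ) (ev : J → (B →ₐ[O] O)),
      Univ O π ev := by
  classical
  let Atom : Type := Σ n : ℕ, {q : Set (Fin n → O) × (Fin n → ℂ) //
    q.2 ∈ zcl ((fun s k => ((s k : O) : ℂ)) '' q.1)}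
  let J : Type := ∀ α : Atom, {s : Fin α.1 → O // s ∈ α.2.1.1}
  let A : Type := Σ α : Atom, Fin α.1
  let pt : J → A → O := fun j a => (j a.1).1 a.2
  let x0 : A → ℂ := fun a => a.1.2.1.2 a.2
  let I : Ideal (MvPolynomial A O) := ⨅ j : J, RingHom.ker (aeval (pt j) : MvPolynomial A O →ₐ[O] O)
  have hI : ∀ P, P ∈ I ↔ ∀ j, aeval (pt j) P = 0 := fun P => by
    simp only [I, Submodule.mem_iInf, RingHom.mem_ker]
  have hx0 : x0 ∈ zcl (Set.range fun j a => ((pt j a : O) : ℂ)) := by
    refine zcl_mono ?_ (zcl_pi (I := Atom) (κ := fun α => Fin α.1)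
      (fun α => (fun s k => ((s k : O) : ℂ)) '' α.2.1.1) (fun α => α.2.1.2) fun α => α.2.2)
    rintro _ ⟨s, hs, rfl⟩
    choose t ht1 ht2 using hs
    refine ⟨fun α => ⟨t α, ht1 α⟩, ?_⟩
    funext a
    exact congrFun (ht2 a.1) a.2
  have e1 : ∀ (y : A → ℂ) (P : MvPolynomial A O), eval y (map O.subtype P) = aeval y P := fun y P => by
    rw [eval_map, aeval_def]; rfl
  have e2 : ∀ (y : A → O) (P : MvPolynomial A O),
      eval (fun a => ((y a : O) : ℂ)) (map O.subtype P) = ((aeval y P : O) : ℂ) := fun y P => by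
    rw [eval_map]
    exact (eval₂_comp_left O.subtype (RingHom.id O) y P).symm
  have hπ : ∀ P ∈ I, aeval x0 P = 0 := fun P hP => by
    rw [← e1]
    refine hx0 _ ?_
    rintro _ ⟨j, rfl⟩
    rw [e2, (hI P).1 hP j]
    rfl
  refine ⟨MvPolynomial A O ⧸ I, J, inferInstance, inferInstance,
    Ideal.Quotient.liftₐ I (aeval x0) hπ,
    fun j => Ideal.Quotient.liftₐ I (aeval (pt j)) fun P hP => (hI P).1 hP j, ?_, ?_, ?_⟩
  · intro b hb
    obtain ⟨P, rfl⟩ := Ideal.Quotient.mk_surjective b
    exact Ideal.Quotient.eq_zero_iff_mem.2 ((hI P).2 hb)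
  · intro κ τ
    choose q hq using fun k => Ideal.Quotient.mk_surjective (τ k)
    have h1 := zcl_poly hx0 fun k => map O.subtype (q k)
    have e3 : (fun k => Ideal.Quotient.liftₐ I (aeval x0) hπ (τ k)) =
        fun k => eval x0 (map O.subtype (q k)) := by
      funext k
      rw [e1, ← hq k]
      rfl
    rw [e3]
    refine zcl_mono ?_ h1
    rintro _ ⟨_, ⟨j, rfl⟩, rfl⟩
    refine ⟨j, ?_⟩
    funext k
    dsimp only
    rw [e2, ← hq k]
    rfl
  · intro κ _ S x hx
    let e := Finite.equivFin κ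
    have h1 : (x ∘ e.symm) ∈ zcl ((fun s k => ((s k : O) : ℂ)) '' {s : Fin (Nat.card κ) → O | s ∘ e ∈ S}) := by
      refine zcl_mono ?_ (zcl_rename hx e.symm)
      rintro _ ⟨_, ⟨s, hs, rfl⟩, rfl⟩
      refine ⟨s ∘ e.symm, ?_, rfl⟩
      have : (s ∘ e.symm) ∘ e = s := by funext k; simp
      show (s ∘ e.symm) ∘ e ∈ S
      rwa [this]
    let α : Atom := ⟨Nat.card κ, ⟨({s | s ∘ e ∈ S}, x ∘ e.symm), h1⟩⟩
    refine ⟨fun k => Ideal.Quotient.mk I (X ⟨α, e k⟩), fun k => ?_, fun j => ?_⟩
    · show aeval x0 (X ⟨α, e k⟩ : MvPolynomial A O) = x k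
      rw [aeval_X]
      show x (e.symm (e k)) = x k
      rw [e.symm_apply_apply]
    · have : (fun k => Ideal.Quotient.liftₐ I (aeval (pt j)) (fun P hP => (hI P).1 hP j)
          (Ideal.Quotient.mk I (X ⟨α, e k⟩))) = (j α).1 ∘ e := by
        funext k
        show aeval (pt j) (X ⟨α, e k⟩ : MvPolynomial A O) = _
        rw [aeval_X]
        rfl
      rw [this]
      exact (j α).2

theorem Univ.good {O : Subring ℂ} {B J : Type} [CommRing B] [Algebra O B] {π : B →ₐ[O] ℂ}
    {ev : J → (B →ₐ[O] O)} (hU : Univ O π ev) (hu : ∃ u : Oˣ, ∀ n : ℕ, 0 < n → u ^ n ≠ 1) :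
    Good π := by
  have lau : ∀ p : MvPolynomial Bool ℂ, ∃ (N : ℕ) (g : Polynomial ℂ), ∀ t : ℂ, t ≠ 0 →
      g.eval t = t ^ N * eval (fun b => if b then t⁻¹ else t) p := by
    intro p
    induction p using MvPolynomial.induction_on with
    | C a => exact ⟨0, Polynomial.C a, fun t _ => by simp⟩
    | add p q hp hq =>
      obtain ⟨N, g, h⟩ := hp
      obtain ⟨N', g', h'⟩ := hq
      refine ⟨N + N', g * Polynomial.X ^ N' + g' * Polynomial.X ^ N, fun t ht => ?_⟩
      simp only [Polynomial.eval_add, Polynomial.eval_mul, Polynomial.eval_pow, Polynomial.eval_X,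
        h t ht, h' t ht, map_add]
      ring
    | mul_X p b hp =>
      obtain ⟨N, g, h⟩ := hp
      cases b with
      | false =>
        refine ⟨N, g * Polynomial.X, fun t ht => ?_⟩
        simp only [Polynomial.eval_mul, Polynomial.eval_X, h t ht, map_mul, eval_X]
        simp [mul_assoc]
      | true =>
        refine ⟨N + 1, g, fun t ht => ?_⟩
        simp only [h t ht, map_mul, eval_X, if_true]
        field_simp
        ring
  obtain ⟨u, hu⟩ := hu
  have hinj : Function.Injective fun n : ℕ => (((u ^ n : Oˣ) : O) : ℂ) := by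
    have h1 : ¬ IsOfFinOrder u := by
      rw [isOfFinOrder_iff_pow_eq_one]
      rintro ⟨n, hn, h⟩
      exact hu n hn h
    intro m n h
    exact injective_pow_iff_not_isOfFinOrder.2 h1 (Units.ext (Subtype.ext h))
  have hus : ∀ z : ℂ, z ≠ 0 → ∃ u : Bˣ, π (u : B) = z := by
    intro z hz
    have h1 : (fun b : Bool => if b then z⁻¹ else z) ∈
        zcl ((fun s k => ((s k : O) : ℂ)) '' {s : Bool → O | s false * s true = 1}) := by
      intro p hp
      obtain ⟨N, g, h⟩ := lau p
      have hg : g = 0 := by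
        refine Polynomial.eq_zero_of_infinite_isRoot g
          ((Set.infinite_range_of_injective hinj).mono ?_)
        rintro _ ⟨n, rfl⟩
        have h2 : (((u ^ n : Oˣ) : O) : ℂ) * ((((u ^ n)⁻¹ : Oˣ) : O) : ℂ) = 1 := by
          rw [← Subring.coe_mul, Units.mul_inv]; rfl
        show g.eval _ = 0
        rw [h _ (left_ne_zero_of_mul_eq_one h2), hp, mul_zero]
        refine ⟨fun b => if b then (((u ^ n)⁻¹ : Oˣ) : O) else ((u ^ n : Oˣ) : O),
          Units.mul_inv (u ^ n), ?_⟩
        funext b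
        cases b
        · rfl
        · exact eq_inv_of_mul_eq_one_right h2
      have h3 := h z hz
      rw [hg, Polynomial.eval_zero] at h3
      exact (mul_eq_zero.1 h3.symm).resolve_left (pow_ne_zero _ hz)
    obtain ⟨τ, h2, h3⟩ := hU.univ Bool _ _ h1
    have h4 : τ false * τ true = 1 := by
      rw [← sub_eq_zero]
      refine hU.sep _ fun j => ?_
      rw [map_sub, map_mul, map_one, sub_eq_zero]
      exact h3 j
    exact ⟨Units.mkOfMulEqOne _ _ h4, h2 false⟩
  refine ⟨Subtype.val_injective, fun z => ?_, hus⟩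
  by_cases hz : z = 0
  · exact ⟨0, by rw [hz, map_zero]⟩
  · obtain ⟨w, hw⟩ := hus z hz
    exact ⟨w, hw⟩

end Crest.Agent.R3
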