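import Crest.Agent.R3.GenA
import Crest.Agent.R3.RestS
import Crest.Agent.R3.Dens
import Crest.Agent.R3.Fried
import Crest.Agent.R3.RadB
import Crest.Agent.R3.G01
import Crest.Agent.R3.Ind
import Crest.Agent.R3.Univ

/-!
# R3 / All : closed surfaces of genus at least two, and the global induction
-/

set_option autoImplicit false

noncomputable section

open Matrix Filter Topology

namespace Crest.Agent.R3

variable {O : Subring ℂ} {B J : Type} [CommRing B] [Algebra O B] {π : B →ₐ[O] ℂ}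
  {ev : J → (B →ₐ[O] O)}

theorem cl_g2 (hU : Univ O π ev) {r : ℕ} (hD : HasD O r) {ι : Type} [Fintype ι] [DecidableEq ι]
    (hr : Fintype.card ι ≤ r) (hR : RR π ι (Fintype.card ι)) (h2 : 2 ≤ Fintype.card ι) {η : Oˣ} {g : ℕ}
    {T : Rep (g + 2) ι ℂ} (hT : rel T = scalU ι ℂ η) (hI : Irr (gens T)) : CL π η T := by
  refine cl_closed hU fun U hUo hTU => ?_
  have hle : ∀ (c : Matrix ι ι ℂ), Fintype.card ι ≤ neig c ↔ neig c = Fintype.card ι := fun c =>
    ⟨fun h => le_antisymm (neig_le_card c) h, fun h => h.ge⟩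
  have hop : ∀ k : Fin (g + 2) × Bool,
      IsOpen {A : Fin (g + 2) × Bool → Matrix ι ι ℂ | neig (A k) = Fintype.card ι} := fun k => by
    have := (isOpen_neig (ι := ι) (Fintype.card ι)).preimage
      (continuous_apply (A := fun _ : Fin (g + 2) × Bool => Matrix ι ι ℂ) k)
    convert this using 1
    ext A
    simp [hle]
  obtain ⟨T1, h1U, h1T, h1a⟩ := genA (U := U ∩ {A | Irr A}) (hUo.inter isOpen_irr) (fun _ h => h.2)
    ⟨hTU, hI⟩ hT
  obtain ⟨T2, h2U, h2T, h2c⟩ := genA1 (U := (U ∩ {A | Irr A}) ∩ {A | neig (A (0, false)) = Fintype.card ι})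
    ((hUo.inter isOpen_irr).inter (hop _)) (fun _ h => h.1.2) ⟨h1U, h1a⟩ h1T
  obtain ⟨T3, h3U, h3T, h3S⟩ := rest_schur
    (U := ((U ∩ {A | Irr A}) ∩ {A | neig (A (0, false)) = Fintype.card ι}) ∩
      {A | neig (A (1, false)) = Fintype.card ι})
    (((hUo.inter isOpen_irr).inter (hop _)).inter (hop _)) (fun _ h => h.1.1.2) (fun _ h => h.1.2)
    (fun _ h => h.2) ⟨h2U, h2c⟩ h2T
  obtain ⟨p, ⟨T4, h4U, h4T, h41, h42⟩, hp⟩ :=
    good_dense _ (det_gens_ne T3 (0, true)) (ift_open h3S h3T hUo h3U.1.1.1)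
  exact ⟨T4, h4U, cl_good hU hD hr hR h2 h4T (by rw [h41, h42]; exact hp)⟩

theorem QL_step (hU : Univ O π ev) (hG : Good π) {r : ℕ} (hD : HasD O r) {ι : Type} [Fintype ι]
    [DecidableEq ι] (hr : Fintype.card ι ≤ r) (hQ : ∀ n < Fintype.card ι, QL π (Fin n))
    (hR : 2 ≤ Fintype.card ι → RR π ι (Fintype.card ι)) : QL π ι := by
  intro g η T hT
  by_cases hI : Irr (gens T)
  swap
  · exact cl_red hG hQ T hT hI
  by_cases h1 : Fintype.card ι ≤ 1
  · exact cl_dim1 hG h1 T hT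
  match g, T, hT, hI with
  | 0, T, hT, _ => exact cl_g0 hG T hT
  | 1, T, hT, hI => exact cl_g1 hG T hI hT
  | g + 2, T, hT, hI => exact cl_g2 hU hD hr (hR (by omega)) (by omega) hT hI

theorem all_levels (hU : Univ O π ev) (hG : Good π) {r : ℕ} (hD : HasD O r) (m : ℕ) (hm : m ≤ r) :
    (∀ n ≤ m, QL π (Fin n)) ∧ ∀ (L : Type) [Fintype L] [DecidableEq L], PP π L m := by
  induction m with
  | zero =>
    refine ⟨fun n hn => ?_, fun L _ _ => PP_zero π L⟩
    intro g η T hT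
    exact cl_dim1 hG (by simp; omega) T hT
  | succ m ih =>
    obtain ⟨hQ, hP⟩ := ih (by omega)
    have hQ' : QL π (Fin (m + 1)) := by
      refine QL_step hU hG hD (by simpa using hm) (fun n hn => hQ n (by simp at hn; omega)) fun _ => ?_
      rw [Fintype.card_fin]
      exact RR_of_PP hG (hP _)
    refine ⟨fun n hn => ?_, fun L _ _ => PP_succ hG (hP L) hQ'⟩
    rcases Nat.lt_or_ge n (m + 1) with h | h
    · exact hQ n (by omega)
    · obtain rfl : n = m + 1 := by omega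
      exact hQ'

/-- every point of a punctured surface of rank `1 ≤ card ι ≤ r` lifts -/
theorem surf_lift (hU : Univ O π ev) (hG : Good π) {r : ℕ} (hD : HasD O r) {ι : Type} [Fintype ι]
    [DecidableEq ι] [Nonempty ι] (hr : Fintype.card ι ≤ r) {g s : ℕ} {η : Oˣ} {P : Fin s → Punc O ι}
    {T : Rep g ι ℂ} {c : Fin s → GLm ι ℂ × Matrix ι ι ℂ} (h : SurfEq η P T c) : SurfL π η P T c := by
  have hQ : QL π ι :=
    QL.of_card hG (by simp) ((all_levels hU hG hD _ hr).1 (Fintype.card ι) le_rfl)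
  obtain ⟨m, hm⟩ : ∃ m, Fintype.card ι = m + 1 :=
    ⟨Fintype.card ι - 1, by have := Fintype.card_pos (α := ι); omega⟩
  refine surf_all hG hQ ?_ h
  rw [hm]
  exact RR_of_PP hG ((all_levels hU hG hD m (by omega)).2 ι)

end Crest.Agent.R3
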