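import Crest.Agent.R3.Neig

/-!
# R3 / Alpha : `b (∑ t_i e_i)` has at least `k` distinct eigenvalues for generic `t`

Let `R = MvPolynomial (Fin k) ℂ`, `f = charpoly (b ∑ X i • e i) ∈ R[x]`, monic of degree `d = card ι`.
* `f.coeff 0 = ± det b * det (∑ X i • e i)` is non-zero and divisible by every `X i` (it vanishes for `t_i = 0` since
  `e i ≠ 0` is killed), and every coefficient `f.coeff j` is homogeneous of degree `d - j`.
* `R[x]` is a UFD; let `g` be a monic squarefree divisor of `f` with `f ∣ g ^ n` (radical; divisors of a monic polynomial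
  over a domain are associated to monic ones).  `X i` is prime and divides `g.coeff 0 ^ n`, so `∏ X i ∣ g.coeff 0` and
  `k ≤ totalDegree (g.coeff 0)`.
* `totalDegree (g.coeff 0) ≤ natDegree g`: write `f = g h`; under `R[x] ≃ MvPolynomial (Option (Fin k)) ℂ`
  (`optionEquivLeft`) total degrees add (`totalDegree_mul_of_isDomain`), `totalDegree f = d`,
  `totalDegree ≥ natDegree` for monic polynomials, so `totalDegree g = natDegree g`.
* `g` is squarefree, hence separable over `Frac R` (Gauss lemma, characteristic zero; or: `g` and `g'` have no common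
  irreducible factor), so `u g + v g' = C ρ` with `ρ ≠ 0` in `R`.  If `eval t ρ ≠ 0` then `g(t, ·)` is separable of degree
  `≥ k` and divides the characteristic polynomial.  A non-zero polynomial (`ρ ∏ X i`) does not vanish on a
  neighbourhood (`MvPolynomial.funext_set`, or restrict to lines).
-/

set_option autoImplicit false

noncomputable section

open Matrix Filter Topology

namespace Crest.Agent.R3

theorem exists_eval_ne_zero {κ : Type} [Finite κ] {p : MvPolynomial κ ℂ} (hp : p ≠ 0) {x : κ → ℂ}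
    {U : Set (κ → ℂ)} (hU : U ∈ 𝓝 x) : ∃ t ∈ U, MvPolynomial.eval t p ≠ 0 := by
  rw [nhds_pi, Filter.mem_pi] at hU
  obtain ⟨I, -, s, hs, hsub⟩ := hU
  by_contra h
  refine hp (MvPolynomial.funext_set s (fun i => infinite_of_mem_nhds (x i) (hs i)) fun y hy => ?_)
  rw [map_zero]
  by_contra h'
  exact h ⟨y, hsub fun i _ => hy i (Set.mem_univ i), h'⟩

/-- the monic radical and a non-zero element of the ideal `(g, g')` -/
theorem alpha_rad {R : Type} [CommRing R] [IsDomain R] [IsIntegrallyClosed R] [CharZero R]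
    {f : Polynomial R} (hm : f.Monic) :
    ∃ (g : Polynomial R) (n : ℕ) (u v : Polynomial R) (ρ : R), g.Monic ∧ g ∣ f ∧ f ∣ g ^ n ∧ ρ ≠ 0 ∧
      u * g + v * Polynomial.derivative g = Polynomial.C ρ := by
  let K := FractionRing R
  have hinj : Function.Injective (algebraMap R K) := IsFractionRing.injective R K
  have : CharZero K := charZero_of_injective_algebraMap hinj
  obtain ⟨G, n, h1, h2, h3⟩ := exists_squarefree_dvd_pow_of_ne_zero (hm.map (algebraMap R K)).ne_zero
  obtain ⟨g, hg⟩ := IsIntegrallyClosed.eq_map_mul_C_of_dvd K hm h2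
  have hG0 : G.leadingCoeff ≠ 0 := Polynomial.leadingCoeff_ne_zero.2 h1.ne_zero
  have hgm : g.Monic := by
    refine Polynomial.monic_of_injective hinj ?_
    have := congrArg Polynomial.leadingCoeff hg
    rw [Polynomial.leadingCoeff_mul, Polynomial.leadingCoeff_C] at this
    exact mul_right_cancel₀ hG0 (this.trans (one_mul _).symm)
  have hd1 : g.map (algebraMap R K) ∣ G := ⟨_, hg.symm⟩
  have hd2 : G ∣ g.map (algebraMap R K) := by
    refine ⟨Polynomial.C G.leadingCoeff⁻¹, ?_⟩
    conv_rhs => rw [← hg]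
    rw [Polynomial.leadingCoeff_mul, (hgm.map _).leadingCoeff, Polynomial.leadingCoeff_C, one_mul,
      mul_assoc, ← Polynomial.C_mul, mul_inv_cancel₀ hG0, Polynomial.C_1, mul_one]
  obtain ⟨u, v, huv⟩ : (g.map (algebraMap R K)).Separable :=
    PerfectField.separable_iff_squarefree.2 (h1.squarefree_of_dvd hd1)
  obtain ⟨b1, hb1, e1⟩ := IsLocalization.integerNormalization_spec (nonZeroDivisors R) u
  obtain ⟨b2, hb2, e2⟩ := IsLocalization.integerNormalization_spec (nonZeroDivisors R) v
  refine ⟨g, n, Polynomial.C b2 * IsLocalization.integerNormalization (nonZeroDivisors R) u,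
    Polynomial.C b1 * IsLocalization.integerNormalization (nonZeroDivisors R) v, b1 * b2, hgm,
    (Polynomial.map_dvd_map _ hinj hgm).1 (hd1.trans h2),
    (Polynomial.map_dvd_map _ hinj hm).1 ?_,
    mul_ne_zero (nonZeroDivisors.ne_zero hb1) (nonZeroDivisors.ne_zero hb2), ?_⟩
  · rw [Polynomial.map_pow]
    exact h3.trans (pow_dvd_pow_of_dvd hd2 n)
  · apply Polynomial.map_injective _ hinj
    simp only [Polynomial.map_add, Polynomial.map_mul, Polynomial.map_C, e1, e2, map_mul,
      ← Polynomial.derivative_map, Algebra.smul_def, Polynomial.algebraMap_apply]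
    linear_combination (Polynomial.C (algebraMap R K b1) * Polynomial.C (algebraMap R K b2)) * huv

/-- constant term of a monic factor of a homogeneous monic polynomial -/
theorem alpha_deg {k d : ℕ} {f g : Polynomial (MvPolynomial (Fin k) ℂ)} (hm : f.Monic)
    (hd : f.natDegree = d) (hh : ∀ j ≤ d, (f.coeff j).IsHomogeneous (d - j)) (hg : g ∣ f) :
    (g.coeff 0).totalDegree ≤ g.natDegree := by
  obtain ⟨h, rfl⟩ := hg
  obtain ⟨G, rfl⟩ := (MvPolynomial.optionEquivLeft ℂ (Fin k)).surjective g
  obtain ⟨H, rfl⟩ := (MvPolynomial.optionEquivLeft ℂ (Fin k)).surjective h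
  have hG' := left_ne_zero_of_mul hm.ne_zero
  have hH' := right_ne_zero_of_mul hm.ne_zero
  have hG : G ≠ 0 := fun h => hG' (by rw [h, map_zero])
  have hH : H ≠ 0 := fun h => hH' (by rw [h, map_zero])
  have h1 : (G * H).totalDegree ≤ d := by
    refine Finset.sup_le fun m hm' => ?_
    rw [MvPolynomial.mem_support_iff, ← MvPolynomial.optionEquivLeft_coeff_some_coeff_none,
      map_mul] at hm'
    have h2 : m none ≤ d := by
      rw [← hd]
      exact Polynomial.le_natDegree_of_ne_zero fun h => hm' (by rw [h, MvPolynomial.coeff_zero])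
    have h3 : m.some.degree = d - m none := by
      by_contra h
      exact hm' ((hh _ h2).coeff_eq_zero h)
    rw [Finsupp.degree_eq_sum] at h3
    rw [Finsupp.sum_fintype _ _ (fun _ => rfl), Fintype.sum_option]
    simp only [Finsupp.some_apply] at h3
    omega
  rw [MvPolynomial.totalDegree_mul_of_isDomain hG hH] at h1
  rw [Polynomial.natDegree_mul hG' hH', MvPolynomial.natDegree_optionEquivLeft,
    MvPolynomial.natDegree_optionEquivLeft] at hd
  have h4 := MvPolynomial.degreeOf_le_totalDegree H none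
  have h5 := MvPolynomial.totalDegree_coeff_optionEquivLeft_le ℂ (Fin k) G 0
  rw [MvPolynomial.natDegree_optionEquivLeft]
  omega

/-- the algebraic core -/
theorem alpha_core {k d : ℕ} (f : Polynomial (MvPolynomial (Fin k) ℂ)) (hm : f.Monic)
    (hd : f.natDegree = d) (hh : ∀ j ≤ d, (f.coeff j).IsHomogeneous (d - j)) (h0 : f.coeff 0 ≠ 0)
    (hX : ∀ i, MvPolynomial.X i ∣ f.coeff 0) :
    ∃ ρ : MvPolynomial (Fin k) ℂ, ρ ≠ 0 ∧ ∀ t : Fin k → ℂ, MvPolynomial.eval t ρ ≠ 0 →
      k ≤ (f.map (MvPolynomial.eval t)).roots.toFinset.card := by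
  obtain ⟨g, n, u, v, ρ, hg, hgf, hfg, hρ, huv⟩ := alpha_rad hm
  refine ⟨ρ, hρ, fun t ht => ?_⟩
  have hc : ∀ {p q : Polynomial (MvPolynomial (Fin k) ℂ)}, p ∣ q → p.coeff 0 ∣ q.coeff 0 := by
    rintro p q ⟨r, rfl⟩
    exact ⟨r.coeff 0, Polynomial.mul_coeff_zero p r⟩
  have hg0 : g.coeff 0 ≠ 0 := ne_zero_of_dvd_ne_zero h0 (hc hgf)
  have h1 : ∀ i, MvPolynomial.X i ∣ g.coeff 0 := fun i => by
    have := (hX i).trans (hc hfg)
    rw [← Polynomial.constantCoeff_apply, map_pow, Polynomial.constantCoeff_apply] at this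
    exact MvPolynomial.X_prime.dvd_of_dvd_pow this
  have h2 : ∏ i, MvPolynomial.X i ∣ g.coeff 0 :=
    Finset.prod_dvd_of_isRelPrime (fun i _ j _ hij =>
      (MvPolynomial.X_prime.irreducible.isRelPrime_iff_not_dvd).2 fun h =>
        hij (MvPolynomial.X_dvd_X.1 h)) fun i _ => h1 i
  have h3 : (∏ i : Fin k, (MvPolynomial.X i : MvPolynomial (Fin k) ℂ)).totalDegree = k := by
    have := (MvPolynomial.IsHomogeneous.prod Finset.univ
      (fun i : Fin k => (MvPolynomial.X i : MvPolynomial (Fin k) ℂ)) (fun _ => 1)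
      fun i _ => MvPolynomial.isHomogeneous_X ℂ i).totalDegree
      (Finset.prod_ne_zero_iff.2 fun i _ => MvPolynomial.X_ne_zero i)
    simpa using this
  have h4 : k ≤ g.natDegree :=
    h3.symm.le.trans ((MvPolynomial.totalDegree_le_of_dvd_of_isDomain h2 hg0).trans
      (alpha_deg hm hd hh hgf))
  have h5 : (g.map (MvPolynomial.eval t)).Separable := by
    refine ⟨Polynomial.C (MvPolynomial.eval t ρ)⁻¹ * u.map (MvPolynomial.eval t),
      Polynomial.C (MvPolynomial.eval t ρ)⁻¹ * v.map (MvPolynomial.eval t), ?_⟩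
    have := congrArg (Polynomial.map (MvPolynomial.eval t)) huv
    rw [Polynomial.map_add, Polynomial.map_mul, Polynomial.map_mul, Polynomial.map_C,
      ← Polynomial.derivative_map] at this
    rw [mul_assoc, mul_assoc, ← mul_add, this, ← Polynomial.C_mul, inv_mul_cancel₀ ht, Polynomial.C_1]
  calc k ≤ (g.map (MvPolynomial.eval t)).natDegree := by rw [hg.natDegree_map]; exact h4
    _ = (g.map (MvPolynomial.eval t)).roots.toFinset.card := by
        rw [Multiset.toFinset_card_of_nodup (Polynomial.nodup_roots h5),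
          IsAlgClosed.card_roots_eq_natDegree]
    _ ≤ _ := Finset.card_le_card (Multiset.toFinset_subset.2 (Multiset.subset_of_le
        (Polynomial.roots.le_of_dvd (hm.map _).ne_zero (Polynomial.map_dvd _ hgf))))

theorem alpha {ι : Type} [Fintype ι] [DecidableEq ι] {b : Matrix ι ι ℂ} (hb : b.det ≠ 0) {k : ℕ}
    {e : Fin k → Matrix ι ι ℂ} (he : Idems e) {U : Set (Fin k → ℂ)} (hU : U ∈ 𝓝 (1 : Fin k → ℂ)) :
    ∃ t ∈ U, (∀ i, t i ≠ 0) ∧ k ≤ neig (b * ∑ i, t i • e i) := by
  set A : Matrix ι ι (MvPolynomial (Fin k) ℂ) :=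
    ∑ i, (MvPolynomial.X i : MvPolynomial (Fin k) ℂ) • (b * e i).map MvPolynomial.C with hA
  have hev : ∀ t : Fin k → ℂ, A.map (MvPolynomial.eval t) = b * ∑ i, t i • e i := fun t => by
    rw [Matrix.mul_sum]
    ext a c
    simp [hA, Matrix.sum_apply, -Matrix.map_mul]
  have hdet : A.det ≠ 0 := fun h => hb (by
    have := RingHom.map_det (MvPolynomial.eval (1 : Fin k → ℂ)) A
    rw [h, map_zero, RingHom.mapMatrix_apply, hev] at this
    simpa [he.sum] using this.symm)
  have hX : ∀ i, MvPolynomial.X i ∣ A.det := fun i => by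
    have h1 : A * (e i).map MvPolynomial.C =
        (MvPolynomial.X i : MvPolynomial (Fin k) ℂ) • (b * e i).map MvPolynomial.C := by
      rw [hA, Matrix.sum_mul, Finset.sum_eq_single i]
      · rw [Matrix.smul_mul, ← Matrix.map_mul, Matrix.mul_assoc, he.idem]
      · intro j _ hj
        rw [Matrix.smul_mul, ← Matrix.map_mul, Matrix.mul_assoc, he.orth j i hj, Matrix.mul_zero,
          Matrix.map_zero _ (map_zero _), smul_zero]
      · simp
    have h2 : A.det • (e i).map MvPolynomial.C =
        (MvPolynomial.X i : MvPolynomial (Fin k) ℂ) • (A.adjugate * (b * e i).map MvPolynomial.C) := by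
      rw [← Matrix.mul_smul, ← h1, ← Matrix.mul_assoc, adjugate_mul, Matrix.smul_mul, Matrix.one_mul]
    obtain ⟨a, c, hac⟩ : ∃ a c, e i a c ≠ 0 := by
      by_contra h
      push Not at h
      exact he.ne i (Matrix.ext h)
    have h3 := congrFun (congrFun h2 a) c
    simp only [Matrix.smul_apply, smul_eq_mul, map_apply] at h3
    exact ((isUnit_iff_ne_zero.2 hac).map MvPolynomial.C).dvd_mul_right.1 ⟨_, h3⟩
  have hc0 : A.charpoly.coeff 0 = (-1) ^ Fintype.card ι * A.det := by
    rw [det_eq_sign_charpoly_coeff, ← mul_assoc, ← mul_pow]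
    simp
  obtain ⟨ρ, hρ, h⟩ := alpha_core A.charpoly A.charpoly_monic (charpoly_natDegree_eq_dim A)
    (fun j hj => by
      have h1 := (charpoly.univ_coeff_isHomogeneous ℂ ι j (Fintype.card ι - j) (by omega)).eval₂
        (MvPolynomial.C : ℂ →+* MvPolynomial (Fin k) ℂ) (fun p : ι × ι => A p.1 p.2) (n := 1)
        (fun r => MvPolynomial.isHomogeneous_C _ r) (fun p => by
          rw [hA, Matrix.sum_apply]
          refine MvPolynomial.IsHomogeneous.sum _ _ _ fun i _ => ?_
          rw [Matrix.smul_apply, smul_eq_mul, map_apply, mul_comm]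
          exact MvPolynomial.isHomogeneous_C_mul_X _ i)
      rw [← MvPolynomial.coe_eval₂Hom, charpoly.univ_coeff_eval₂Hom, one_mul] at h1
      exact h1)
    (by rw [hc0]; exact mul_ne_zero (pow_ne_zero _ (by simp)) hdet)
    (fun i => by rw [hc0]; exact (hX i).mul_left _)
  obtain ⟨t, ht, h1⟩ := exists_eval_ne_zero
    (mul_ne_zero hρ (Finset.prod_ne_zero_iff.2 fun i (_ : i ∈ Finset.univ) =>
      MvPolynomial.X_ne_zero (R := ℂ) i)) hU
  rw [map_mul, map_prod] at h1
  refine ⟨t, ht, fun i => ?_, ?_⟩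
  · simpa using Finset.prod_ne_zero_iff.1 (right_ne_zero_of_mul h1) i (Finset.mem_univ i)
  · have := h t (left_ne_zero_of_mul h1)
    rwa [← charpoly_map, hev] at this

end Crest.Agent.R3
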