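import Crest.Agent.R3.Defs
import Crest.Prelude.Def_CharVarRel

/-!
# R3 / Arith : the ring of integers of `K(√2, ζ_{pq})`

* `inf_unit`: `u = 1 + √2` (real square root), `u (√2 - 1) = 1`, `u ^ n > 1`.
* `hasD`: `ζ = exp (2 π i / (p q))`, `δ i = ζ ^ i`.  For `0 < k < min p q`, `x = ζ ^ k` is a primitive `pq`-th root of unity.
  `y = x ^ q` satisfies `y ≠ 1`, `y ^ p = 1`, so `∑_{l < p} y ^ l = 0` and `p = ∑ (1 - y ^ l)` is divisible by `1 - x` in the ring;
  likewise `q`; Bezout gives `1 - x ∣ 1`.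
* `killed_of_quasiUnipotent`: list the roots of the characteristic polynomial with multiplicity; Cayley-Hamilton.
-/

set_option autoImplicit false

noncomputable section

open Matrix Crest.NumberTheoryR.CharVarRel

namespace Crest.Agent.R3

theorem mem_intRing {F : Subfield ℂ} {z : ℂ} : z ∈ intRing F ↔ z ∈ F ∧ IsIntegral ℤ z := Iff.rfl

theorem unit_of_root {F : Subfield ℂ} {μ : ℂ} (hF : μ ∈ F) {m : ℕ} (hm : 0 < m) (h : μ ^ m = 1) :
    ∃ u : (intRing F)ˣ, ((u : intRing F) : ℂ) = μ := by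
  have hi : IsIntegral ℤ μ := IsIntegral.of_pow hm (h ▸ isIntegral_one)
  have hx : (⟨μ, mem_intRing.2 ⟨hF, hi⟩⟩ : intRing F) ^ m = 1 := Subtype.ext h
  obtain ⟨u, hu⟩ := IsUnit.of_pow_eq_one hx hm.ne'
  exact ⟨u, by rw [hu]⟩

theorem inf_unit (K : Subfield ℂ) (n : ℕ) :
    ∃ u : (intRing (rootField K n))ˣ, ∀ k : ℕ, 0 < k → u ^ k ≠ 1 := by
  have h2 : ((Real.sqrt 2 : ℝ) : ℂ) ^ 2 = 2 := by
    rw [← Complex.ofReal_pow, Real.sq_sqrt (by norm_num)]; norm_num
  have hm : ((Real.sqrt 2 : ℝ) : ℂ) ∈ intRing (rootField K n) := by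
    refine mem_intRing.2 ⟨Subfield.subset_closure (Or.inl (Or.inr h2)), IsIntegral.of_pow two_pos ?_⟩
    rw [h2]
    exact_mod_cast isIntegral_algebraMap (R := ℤ) (A := ℂ) (x := 2)
  set x : intRing (rootField K n) := ⟨_, hm⟩ with hx
  have e : (1 + x) * (x - 1) = 1 := by
    refine Subtype.ext ?_
    change (1 + ((Real.sqrt 2 : ℝ) : ℂ)) * (((Real.sqrt 2 : ℝ) : ℂ) - 1) = 1
    linear_combination h2
  refine ⟨Units.mkOfMulEqOne _ _ e, fun k hk h => ?_⟩
  have h1 : (1 + ((Real.sqrt 2 : ℝ) : ℂ)) ^ k = 1 :=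
    congrArg (fun u : (intRing (rootField K n))ˣ => ((u : intRing (rootField K n)) : ℂ)) h
  have h3 : (1 + Real.sqrt 2) ^ k = 1 := by exact_mod_cast h1
  have h4 : 0 < Real.sqrt 2 := Real.sqrt_pos.2 two_pos
  exact (one_lt_pow₀ (by linarith) hk.ne').ne' h3

theorem ar_dvd {R : Type} [CommRing R] [IsDomain R] {x : R} {p q : ℕ} (h1 : (x ^ q) ^ p = 1)
    (h2 : x ^ q ≠ 1) : 1 - x ∣ (p : R) := by
  have h3 : ∑ l ∈ Finset.range p, (x ^ q) ^ l = 0 := by
    have := geom_sum_mul (x ^ q) p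
    rw [h1, sub_self] at this
    exact (mul_eq_zero.1 this).resolve_right (sub_ne_zero.2 h2)
  have h4 : (p : R) = ∑ l ∈ Finset.range p, (1 - (x ^ q) ^ l) := by
    rw [Finset.sum_sub_distrib, h3]; simp
  rw [h4]
  exact Finset.dvd_sum fun l _ => by rw [← pow_mul]; exact one_sub_dvd_one_sub_pow x _

theorem hasD (K : Subfield ℂ) {p q r : ℕ} (hp : p.Prime) (hq : q.Prime) (hpq : p ≠ q) (hrp : r < p)
    (hrq : r < q) : HasD (intRing (rootField K (p * q))) r := by
  have hζ := Complex.isPrimitiveRoot_exp (p * q) (mul_ne_zero hp.ne_zero hq.ne_zero)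
  obtain ⟨u, hu⟩ := unit_of_root (F := rootField K (p * q))
    (Subfield.subset_closure (Or.inr hζ.pow_eq_one)) (Nat.mul_pos hp.pos hq.pos) hζ.pow_eq_one
  have hu1 : ∀ n : ℕ, (u : intRing (rootField K (p * q))) ^ n = 1 ↔ p * q ∣ n := fun n => by
    rw [← hζ.pow_eq_one_iff_dvd, ← hu, Subtype.ext_iff]
    rfl
  have key : ∀ k, 0 < k → k < r → IsUnit (1 - (u : intRing (rootField K (p * q))) ^ k) := by
    intro k hk hkr
    refine ((Nat.coprime_primes hp hq).2 hpq).cast.isUnit_of_dvd' (ar_dvd (q := q) ?_ ?_)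
      (ar_dvd (q := p) ?_ ?_)
    · rw [← pow_mul, ← pow_mul, hu1]
      exact ⟨k, by ring⟩
    · rw [← pow_mul, Ne, hu1]
      intro h
      exact absurd (Nat.le_of_dvd hk (Nat.dvd_of_mul_dvd_mul_right hq.pos h)) (by omega)
    · rw [← pow_mul, ← pow_mul, hu1]
      exact ⟨k, by ring⟩
    · rw [← pow_mul, Ne, hu1, mul_comm p q]
      intro h
      exact absurd (Nat.le_of_dvd hk (Nat.dvd_of_mul_dvd_mul_right hp.pos h)) (by omega)
  have key2 : ∀ i j, i < j → j < r → IsUnit (((u ^ i : (intRing (rootField K (p * q)))ˣ) :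
      intRing (rootField K (p * q))) - (u ^ j : (intRing (rootField K (p * q)))ˣ)) := by
    intro i j hij hj
    obtain ⟨k, rfl⟩ := Nat.exists_eq_add_of_le hij.le
    rw [Units.val_pow_eq_pow_val, Units.val_pow_eq_pow_val, pow_add, ← mul_one_sub]
    exact (u.isUnit.pow i).mul (key k (by omega) (by omega))
  refine ⟨fun i => u ^ i, fun i hi j hj hij => ?_⟩
  rcases lt_or_gt_of_ne hij with h | h
  · exact key2 i j h hj
  · rw [← neg_sub]
    exact (key2 j i h hi).neg

theorem ar_enum (s : Multiset ℂ) : ∃ f : ℕ → ℂ, (Multiset.range s.card).map f = s := by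
  induction s using Multiset.induction_on with
  | empty => exact ⟨fun _ => 0, by simp⟩
  | cons a s ih =>
    obtain ⟨f, hf⟩ := ih
    refine ⟨Function.update f s.card a, ?_⟩
    rw [Multiset.card_cons, Multiset.range_succ, Multiset.map_cons, Function.update_self]
    congr 1
    refine Eq.trans (Multiset.map_congr rfl fun k hk => ?_) hf
    exact Function.update_of_ne (Multiset.mem_range.1 hk).ne _ _

theorem killed_of_quasiUnipotent {r : ℕ} (K : Subfield ℂ) (n : ℕ)
    (c : Matrix.SpecialLinearGroup (Fin r) ℂ) (hc : IsQuasiUnipotent c)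
    (hK : ∀ μ : ℂ, c.1.charpoly.IsRoot μ → μ ∈ K) :
    ∃ ξ : ℕ → (intRing (rootField K n))ˣ, Killed ξ r c.1 := by
  have hs : c.1.charpoly.Splits := IsAlgClosed.splits _
  have hcard : c.1.charpoly.roots.card = r := by
    rw [Polynomial.splits_iff_card_roots.1 hs, Matrix.charpoly_natDegree_eq_dim, Fintype.card_fin]
  obtain ⟨f, hf⟩ := ar_enum c.1.charpoly.roots
  rw [hcard] at hf
  have key : ∀ k, ∃ u : (intRing (rootField K n))ˣ, k < r →
      ((u : intRing (rootField K n)) : ℂ) = f k := by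
    intro k
    by_cases hk : k < r
    · have h1 : f k ∈ c.1.charpoly.roots := hf ▸ Multiset.mem_map_of_mem f (Multiset.mem_range.2 hk)
      have h2 := Polynomial.isRoot_of_mem_roots h1
      obtain ⟨m, hm, h3⟩ := hc _ h2
      obtain ⟨u, hu⟩ := unit_of_root (F := rootField K n)
        (Subfield.subset_closure (Or.inl (Or.inl (hK _ h2)))) hm h3
      exact ⟨u, fun _ => hu⟩
    · exact ⟨1, fun h => absurd h hk⟩
  choose ξ hξ using key
  refine ⟨ξ, ?_⟩
  have e : ∏ k ∈ Finset.range r, (Polynomial.X - Polynomial.C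
      (algebraMap (intRing (rootField K n)) ℂ (ξ k : intRing (rootField K n)))) = c.1.charpoly := by
    rw [hs.eq_prod_roots_of_monic (Matrix.charpoly_monic _), ← hf, Multiset.map_map,
      Finset.prod_eq_multiset_prod, Finset.range_val]
    congr 1
    refine Multiset.map_congr rfl fun k hk => ?_
    rw [Function.comp_apply, ← hξ k (Multiset.mem_range.1 hk)]
    rfl
  unfold Killed
  rw [e]
  exact Matrix.aeval_self_charpoly _

theorem int_mem_L (F : Subfield ℂ) (r : ℕ) (z : intRing F) :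
    (z : ℂ) ∈ intRing (unitRootField F r) := by
  exact mem_intRing.2 ⟨Subfield.subset_closure (Or.inl (mem_intRing.1 z.2).1), (mem_intRing.1 z.2).2⟩

theorem root_mem_L (F : Subfield ℂ) {r : ℕ} (hr : 0 < r) (u : (intRing F)ˣ) {t : ℂ}
    (ht : t ^ r = ((u : intRing F) : ℂ)) : t ∈ intRing (unitRootField F r) := by
  have h1 : ((u : intRing F) : ℂ) * ((u⁻¹ : (intRing F)ˣ) : intRing F) = 1 :=
    congrArg (fun z : intRing F => (z : ℂ)) u.mul_inv
  have h2 := mem_intRing.1 (u : intRing F).2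
  refine mem_intRing.2 ⟨Subfield.subset_closure (Or.inr ?_), IsIntegral.of_pow hr (ht ▸ h2.2)⟩
  refine ⟨ht ▸ h2.1, ht ▸ left_ne_zero_of_mul_eq_one h1, ht ▸ h2.2, ?_⟩
  rw [ht, ← eq_inv_of_mul_eq_one_right h1]
  exact (mem_intRing.1 ((u⁻¹ : (intRing F)ˣ) : intRing F).2).2

theorem integrallyValued {g s r : ℕ} (L : Subfield ℂ)
    (T : RelGen g s → Matrix.SpecialLinearGroup (Fin r) ℂ) (h : ∀ v i j, (T v).1 i j ∈ intRing L) :
    IsIntegrallyValuedIn L T := by
  intro p hp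
  clear hp
  refine mem_intRing.1 ?_
  unfold evalRep
  induction p using MvPolynomial.induction_on with
  | C a =>
    rw [MvPolynomial.aeval_C, algebraMap_int_eq, eq_intCast]
    exact intCast_mem _ a
  | add p q hp hq =>
    rw [map_add]
    exact add_mem hp hq
  | mul_X p v hp =>
    rw [map_mul, MvPolynomial.aeval_X]
    exact mul_mem hp (h _ _ _)

theorem ar_inv {r : ℕ} (A : Matrix.SpecialLinearGroup (Fin r) ℂ) {φ φ' : Matrix (Fin r) (Fin r) ℂ}
    (h : φ * φ' = 1) {c : ℂ} (hc : c ≠ 0) (hA : A.1 = c • φ) : (A⁻¹).1 = c⁻¹ • φ' := by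
  have h1 : (A⁻¹).1 * A.1 = 1 := by
    rw [← Matrix.SpecialLinearGroup.coe_mul, inv_mul_cancel, Matrix.SpecialLinearGroup.coe_one]
  have h2 : A.1 * (c⁻¹ • φ') = 1 := by
    rw [hA, Matrix.smul_mul, Matrix.mul_smul, smul_smul, mul_inv_cancel₀ hc, one_smul, h]
  rw [← mul_one (A⁻¹).1, ← h2, ← mul_assoc, h1, one_mul]

/-- conjugation by `GL_r(ℂ)` is conjugation by `SL_r(ℂ)` (scale by a root of the determinant) -/
theorem exists_SL_conj {r : ℕ} (hr : 1 ≤ r) {φ φ' : Matrix (Fin r) (Fin r) ℂ} (h : φ * φ' = 1) :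
    ∃ k : Matrix.SpecialLinearGroup (Fin r) ℂ, ∀ M : Matrix (Fin r) (Fin r) ℂ,
      φ * M * φ' = k.1 * M * (k⁻¹).1 := by
  have hd : φ.det * φ'.det = 1 := by rw [← Matrix.det_mul, h, Matrix.det_one]
  obtain ⟨c, hc⟩ := IsAlgClosed.exists_pow_nat_eq φ'.det hr
  have hc0 : c ≠ 0 := by
    rintro rfl
    rw [zero_pow (by omega)] at hc
    rw [← hc, mul_zero] at hd
    exact zero_ne_one hd
  refine ⟨⟨c • φ, by rw [Matrix.det_smul, Fintype.card_fin, hc, mul_comm, hd]⟩, fun M => ?_⟩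
  rw [ar_inv _ h hc0 rfl]
  simp only [Matrix.smul_mul, Matrix.mul_smul, smul_smul, inv_mul_cancel₀ hc0, one_smul]

/-- the relation of the statement in terms of `rel` -/
theorem relSurf_iff {g s r : ℕ} (T : RelGen g s → Matrix.SpecialLinearGroup (Fin r) ℂ)
    (T0 : Rep g (Fin r) ℂ) (t : Fin g × Bool → ℂ) (ht : ∀ k, t k ≠ 0)
    (h : ∀ k, (T (Sum.inl k)).1 = t k • gens T0 k) :
    IsRelSurfaceRep g s r T ↔
      (rel T0).val * (List.ofFn fun j => (T (Sum.inr j)).1).prod = 1 := by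
  have e : ∀ i : Fin g, (T (Sum.inl (i, false)) * T (Sum.inl (i, true)) *
      (T (Sum.inl (i, false)))⁻¹ * (T (Sum.inl (i, true)))⁻¹).1 = (comm (T0 i)).val := by
    intro i
    have a1 : (T (Sum.inl (i, false))).1 = t (i, false) • (T0 i).1.val := h (i, false)
    have a2 : (T (Sum.inl (i, true))).1 = t (i, true) • (T0 i).2.val := h (i, true)
    simp only [Matrix.SpecialLinearGroup.coe_mul]
    rw [ar_inv _ (T0 i).1.mul_inv (ht _) a1, ar_inv _ (T0 i).2.mul_inv (ht _) a2, a1, a2]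
    simp only [comm, Units.val_mul, Matrix.smul_mul, Matrix.mul_smul, smul_smul]
    have b1 := ht (i, false)
    have b2 := ht (i, true)
    convert one_smul ℂ _
    field_simp
  have e1 : ∀ l : List (Matrix.SpecialLinearGroup (Fin r) ℂ), l.prod.1 = (l.map fun A => A.1).prod :=
    fun l => map_list_prod Matrix.SpecialLinearGroup.coeMonoidHom l
  have e2 : (rel T0).val = ((List.finRange g).map fun i => (comm (T0 i)).val).prod := by
    rw [rel, ← Units.coeHom_apply, map_list_prod, List.ofFn_eq_map, List.map_map, List.map_map]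
    rfl
  unfold IsRelSurfaceRep
  refine Iff.trans Subtype.ext_iff ?_
  rw [Matrix.SpecialLinearGroup.coe_mul, Matrix.SpecialLinearGroup.coe_one, e1, e1,
    e2, List.map_map, List.map_map, List.ofFn_eq_map]
  simp only [Function.comp_def, e]

end Crest.Agent.R3
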