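import Crest.Agent.R3.Neig

/-!
# R3 / Jord : a matrix is cyclic or its centraliser contains many idempotents

`jordan_dich`: view `ι → ℂ` as the torsion `ℂ[X]`-module `Module.AEval' (toLin' a)`; by
`Module.equiv_directSum_of_isTorsion` it is `⨁ i : I, ℂ[X] ⧸ (p i ^ e i)` with `p i` irreducible, i.e. associated to
`X - λ i`.  Discard the summands with `e i = 0`.  The projections give `card I` orthogonal non-zero idempotents
commuting with `a`.  Each `λ i` is an eigenvalue, so if `card I ≤ neig a`... every eigenvalue is some `λ i`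
(`∏ p i ^ e i` kills the module), so `neig a ≤ card (image λ) ≤ card I`; if `card I ≤ neig a` then `λ` is injective and
the vector `v = ∑ 1_i` is cyclic (Chinese remainder theorem).
`cyclic_comm`: if `ψ v = q(a) v` then `ψ = q(a)` on all `a ^ n v`.
`cyclic_sqf`: if `sqf a` kills `a` then `a ^ n v`, `n < neig a`, span everything.
-/

set_option autoImplicit false

noncomputable section

open Matrix

namespace Crest.Agent.R3

variable {ι : Type} [Fintype ι] [DecidableEq ι]

/-- `v` is a cyclic vector of `a` -/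
def Cyc (a : Matrix ι ι ℂ) (v : ι → ℂ) : Prop :=
  ∀ w : ι → ℂ, ∃ q : Polynomial ℂ, (Polynomial.aeval a q).mulVec v = w

open Polynomial in
theorem jord_struct (a : Matrix ι ι ℂ) :
    ∃ (I : Type) (_ : Fintype I) (p : I → ℂ[X]) (_ : ∀ i, Irreducible (p i)) (e : I → ℕ)
      (Ψ : (ι → ℂ) ≃ₗ[ℂ] ∀ i, ℂ[X] ⧸ Ideal.span {p i ^ e i}),
      ∀ (q : ℂ[X]) v, Ψ ((aeval a q).mulVec v) = q • Ψ v := by
  obtain ⟨I, fI, p, hp, e, ⟨Φ⟩⟩ := Module.equiv_directSum_of_isTorsion
    (Module.AEval.isTorsion_of_finiteDimensional ℂ (ι → ℂ) a)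
  refine ⟨I, fI, p, hp, e, Module.AEval.of ℂ (ι → ℂ) a ≪≫ₗ
    (Φ ≪≫ₗ DirectSum.linearEquivFunOnFintype ℂ[X] I _).restrictScalars ℂ, fun q v => ?_⟩
  exact (Φ ≪≫ₗ DirectSum.linearEquivFunOnFintype ℂ[X] I _).map_smul q (Module.AEval.of ℂ (ι → ℂ) a v)

open Polynomial in
theorem jord_root {a : Matrix ι ι ℂ} {P : ℂ[X]} (h : aeval a P = 0) {μ : ℂ}
    (hμ : μ ∈ a.charpoly.roots) : P.eval μ = 0 := by
  have := neig_det_aeval a (C (P.eval μ) - P)
  rw [map_sub, h, sub_zero, aeval_C, Multiset.prod_eq_zero (Multiset.mem_map.2 ⟨μ, hμ, by simp⟩),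
    Algebra.algebraMap_eq_smul_one, det_smul, det_one, mul_one] at this
  exact (pow_eq_zero_iff'.1 this).1

theorem jord_comm {a ψ : Matrix ι ι ℂ} (hψ : ψ * a = a * ψ) (q : Polynomial ℂ) :
    ψ * Polynomial.aeval a q = Polynomial.aeval a q * ψ := by
  induction q using Polynomial.induction_on' with
  | add p q hp hq => rw [map_add, mul_add, add_mul, hp, hq]
  | monomial n c =>
    rw [Polynomial.aeval_monomial]
    exact ((Algebra.commute_algebraMap_right c ψ).mul_right (Commute.pow_right hψ n)).eq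

theorem jordan_dich (a : Matrix ι ι ℂ) :
    (∃ (k : ℕ) (e : Fin k → Matrix ι ι ℂ), neig a < k ∧ Idems e ∧ ∀ i, e i * a = a * e i) ∨
      ∃ v, Cyc a v := by
  classical
  obtain ⟨I, fI, p, hp, e, Ψ, hΨ⟩ := jord_struct a
  have hlam : ∀ i, ∃ l : ℂ, p i ∣ Polynomial.X - Polynomial.C l := fun i => by
    obtain ⟨l, hl⟩ := IsAlgClosed.exists_root (p i) (Polynomial.degree_pos_of_irreducible (hp i)).ne'
    exact ⟨l, (Polynomial.irreducible_X_sub_C l).dvd_symm (hp i) (Polynomial.dvd_iff_isRoot.2 hl)⟩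
  choose lam hlam using hlam
  set J : Finset I := Finset.univ.filter fun i => e i ≠ 0 with hJ
  have hzero : ∀ i, i ∉ J → ∀ y : Polynomial ℂ ⧸ Ideal.span {p i ^ e i}, y = 0 := by
    intro i hi y
    have h0 : e i = 0 := by simpa [hJ] using hi
    obtain ⟨x, rfl⟩ := Ideal.Quotient.mk_surjective y
    rw [Ideal.Quotient.eq_zero_iff_mem, Ideal.mem_span_singleton, h0, pow_zero]
    exact one_dvd _
  have hsm : ∀ (i) (q x : Polynomial ℂ), q • Ideal.Quotient.mk (Ideal.span {p i ^ e i}) x =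
      Ideal.Quotient.mk (Ideal.span {p i ^ e i}) (q * x) := fun _ _ _ => rfl
  by_cases hk : neig a < J.card
  · left
    let E : I → Matrix ι ι ℂ := fun i => LinearMap.toMatrix' (Ψ.symm.toLinearMap ∘ₗ
      LinearMap.single ℂ (fun i => Polynomial ℂ ⧸ Ideal.span {p i ^ e i}) i ∘ₗ
      LinearMap.proj i ∘ₗ Ψ.toLinearMap)
    have hE : ∀ i v, Ψ (E i *ᵥ v) = Pi.single i (Ψ v i) := fun i v => by
      simp only [E]
      rw [← Matrix.toLin'_apply, Matrix.toLin'_toMatrix']
      simp
    have ext : ∀ {A B : Matrix ι ι ℂ}, (∀ v, Ψ (A *ᵥ v) = Ψ (B *ᵥ v)) → A = B := fun h =>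
      ext_iff_mulVec.2 fun v => Ψ.injective (h v)
    refine ⟨J.card, fun j => E (J.equivFin.symm j), hk, ⟨fun j h => ?_, fun j => ?_, fun j j' h => ?_,
      ?_⟩, fun j => ?_⟩
    · set i := J.equivFin.symm j
      have h1 := congrFun (hE i (Ψ.symm (Pi.single i.1 1))) i
      rw [h, zero_mulVec, map_zero, Pi.single_eq_same, Ψ.apply_symm_apply, Pi.single_eq_same] at h1
      have h2 : Ideal.Quotient.mk (Ideal.span {p i ^ e i}) 1 = 0 := h1.symm
      rw [Ideal.Quotient.eq_zero_iff_mem, Ideal.mem_span_singleton, ← isUnit_iff_dvd_one,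
        isUnit_pow_iff (Finset.mem_filter.1 i.2).2] at h2
      exact (hp i).not_isUnit h2
    · refine ext fun v => ?_
      rw [← mulVec_mulVec, hE, hE, Pi.single_eq_same]
    · refine ext fun v => ?_
      rw [← mulVec_mulVec, hE, hE, Pi.single_eq_of_ne, Pi.single_zero, zero_mulVec, map_zero]
      exact fun h' => h (J.equivFin.symm.injective (Subtype.ext h'))
    · refine ext fun v => ?_
      rw [Equiv.sum_comp J.equivFin.symm fun i => E i, Finset.sum_coe_sort J E, sum_mulVec, map_sum,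
        one_mulVec]
      simp only [hE]
      rw [Finset.sum_subset (Finset.subset_univ J) fun i _ hi => by
        rw [hzero i hi (Ψ v i), Pi.single_zero]]
      exact Finset.univ_sum_single _
    · refine ext fun v => ?_
      have hX : ∀ w, Ψ (a *ᵥ w) = (Polynomial.X : Polynomial ℂ) • Ψ w := fun w => by
        rw [← hΨ, Polynomial.aeval_X]
      rw [← mulVec_mulVec, ← mulVec_mulVec, hE, hX, hX, hE, ← Pi.single_smul]
      rfl
  · right
    have hP : Polynomial.aeval a (∏ i, p i ^ e i) = 0 := by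
      refine ext_iff_mulVec.2 fun v => Ψ.injective ?_
      rw [hΨ, zero_mulVec, map_zero]
      funext i
      obtain ⟨x, hx⟩ := Ideal.Quotient.mk_surjective (Ψ v i)
      rw [Pi.smul_apply, ← hx, hsm, Pi.zero_apply, Ideal.Quotient.eq_zero_iff_mem,
        Ideal.mem_span_singleton]
      exact (Finset.dvd_prod_of_mem (fun i => p i ^ e i) (Finset.mem_univ i)).mul_right _
    have hsub : a.charpoly.roots.toFinset ⊆ J.image lam := fun μ hμ => by
      have h1 := jord_root hP (Multiset.mem_toFinset.1 hμ)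
      rw [Polynomial.eval_prod, Finset.prod_eq_zero_iff] at h1
      obtain ⟨i, -, hi⟩ := h1
      rw [Polynomial.eval_pow, pow_eq_zero_iff'] at hi
      have h2 := Polynomial.eval_eq_zero_of_dvd_of_eval_eq_zero (hlam i) hi.1
      refine Finset.mem_image.2 ⟨i, Finset.mem_filter.2 ⟨Finset.mem_univ _, hi.2⟩, ?_⟩
      rw [Polynomial.eval_sub, Polynomial.eval_X, Polynomial.eval_C, sub_eq_zero] at h2
      exact h2.symm
    have hinj : Set.InjOn lam J := Finset.card_image_iff.1 (le_antisymm Finset.card_image_le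
      ((not_lt.1 hk).trans (Finset.card_le_card hsub)))
    have hcop : Pairwise (Function.onFun IsCoprime fun i => Ideal.span {p i ^ e i}) := by
      intro i j hij
      rw [Function.onFun, Ideal.isCoprime_span_singleton_iff]
      by_cases hi : e i = 0
      · rw [hi, pow_zero]; exact isCoprime_one_left
      by_cases hj : e j = 0
      · rw [hj, pow_zero]; exact isCoprime_one_right
      have hne : lam i ≠ lam j := fun h => hij (hinj (by simpa [hJ] using hi) (by simpa [hJ] using hj) h)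
      exact ((Polynomial.isCoprime_X_sub_C_of_isUnit_sub (sub_ne_zero.2 hne).isUnit).mono
        (hlam i) (hlam j)).pow
    refine ⟨Ψ.symm fun i => Ideal.Quotient.mk _ 1, fun w => ?_⟩
    obtain ⟨q, hq⟩ := Ideal.pi_quotient_surjective hcop (Ψ w)
    refine ⟨q, Ψ.injective ?_⟩
    rw [hΨ, Ψ.apply_symm_apply]
    funext i
    rw [Pi.smul_apply, hsm, mul_one]
    exact hq i

theorem cyclic_comm {a : Matrix ι ι ℂ} {v : ι → ℂ} (h : Cyc a v) {ψ : Matrix ι ι ℂ}
    (hψ : ψ * a = a * ψ) : ∃ q : Polynomial ℂ, ψ = Polynomial.aeval a q := by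
  obtain ⟨q, hq⟩ := h (ψ *ᵥ v)
  refine ⟨q, ext_iff_mulVec.2 fun w => ?_⟩
  obtain ⟨r, rfl⟩ := h w
  rw [mulVec_mulVec, jord_comm hψ, ← mulVec_mulVec, ← hq, mulVec_mulVec, mulVec_mulVec, ← map_mul,
    ← map_mul, mul_comm]

theorem cyclic_sqf {a : Matrix ι ι ℂ} {v : ι → ℂ} (h : Cyc a v) (hn : neig a < Fintype.card ι) :
    Polynomial.aeval a (sqf a) ≠ 0 := by
  intro h0
  have hm : (sqf a).Monic := Polynomial.monic_prod_X_sub_C (fun l => l) _
  have hd : (sqf a).degree = (neig a : ℕ) := by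
    rw [Polynomial.degree_eq_natDegree hm.ne_zero, sqf,
      Polynomial.natDegree_finsetProd_X_sub_C_eq_card _ fun l => l]
    rfl
  let F : Polynomial.degreeLT ℂ (neig a) →ₗ[ℂ] (ι → ℂ) :=
    { toFun := fun q => Polynomial.aeval a q.1 *ᵥ v
      map_add' := fun q r => by simp [add_mulVec]
      map_smul' := fun c q => by simp [smul_mulVec] }
  have hF : Function.Surjective F := fun w => by
    obtain ⟨q, rfl⟩ := h w
    refine ⟨⟨Polynomial.modByMonic q (sqf a), Polynomial.mem_degreeLT.2 (hd ▸ Polynomial.degree_modByMonic_lt q hm)⟩, ?_⟩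
    change Polynomial.aeval a (Polynomial.modByMonic q (sqf a)) *ᵥ v = _
    rw [Polynomial.aeval_modByMonic_eq_self_of_root h0]
  haveI := (Polynomial.degreeLTEquiv ℂ (neig a)).symm.finiteDimensional
  have h1 := LinearMap.finrank_le_finrank_of_surjective hF
  rw [(Polynomial.degreeLTEquiv ℂ (neig a)).finrank_eq, Module.finrank_fintype_fun_eq_card,
    Module.finrank_fintype_fun_eq_card, Fintype.card_fin] at h1
  omega

end Crest.Agent.R3
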