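import Crest.Agent.R3.Fox
import Crest.Agent.R3.Burn
import Crest.Agent.R3.Jord

/-!
# R3 / Beta : a cyclic, non semisimple generator of an irreducible point is not rigid

Let `(a, b) = T 0`, `μ = sqf a`, `𝔫 = {(μ r)(a)}` (a subspace of nilpotent matrices in `ℂ[a]`, `𝔫 a = 𝔫` because `a⁻¹ ∈ ℂ[a]`).
`beta_aux`: for `ν` with `trace (ν * v (0,false)) = 0` on `ker fox`, `exists_ann_of_ker` gives `ψ` with
`trace (ν * v (0,false)) = trace (ψ * fox T T v)`.  Put `θ = η • ψ`.  Varying only the tail (`fox_succ`, `fox_ann`): `θ` commutes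
with the tail, hence with `Rt = rel (tail T)`; `χ = Rt ψ = θ c⁻¹` (`c = comm (T 0)`, `Rt c = η`).  By `fox1_eq`, varying `b`:
`σ = b⁻¹ θ b` commutes with `a`; varying `a`: `ν a = θ - σ`.
`beta`: for `ν ∈ 𝔫`, `θ = σ + ν a` commutes with `a`, so `θ, σ ∈ ℂ[a]` (`cyclic_comm`).  For an eigenvalue `λ` of `θ` the
space `W = ker (θ - λ)^N` (`N` large) equals `ker (σ - λ)^N` (commuting matrices with nilpotent difference), so it is
invariant under `a`, `b` and the tail; it is `⊤` by irreducibility.  So `θ - λ = q(a)` is nilpotent, `q` vanishes at all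
eigenvalues of `a`, `θ - λ ∈ 𝔫`, and `σ - λ ∈ 𝔫`.  Thus `θ ↦ θ - b⁻¹ θ b` maps `𝔫' = {θ ∈ 𝔫 | θ commutes with the tail,
b⁻¹ θ b ∈ 𝔫}` onto `𝔫`; by dimension `𝔫' = 𝔫`.  Then `ker μ(a)` is invariant under `a`, the tail and `b`
(`μ(a) b v = b (b⁻¹ μ(a) b) v = b (μ r)(a) v = 0`), it is non-zero (`μ(a)` is nilpotent) and proper (`cyclic_sqf`).
-/

set_option autoImplicit false

noncomputable section

open Matrix

namespace Crest.Agent.R3

variable {O : Type} [CommRing O] [Algebra O ℂ] {η : Oˣ}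
variable {ι : Type} [Fintype ι] [DecidableEq ι] {g : ℕ}

theorem beta_alg {M : Type} [Ring M] (a b : Mˣ) (χ ν : M)
    (h1 : ((a⁻¹ * b⁻¹ : Mˣ) : M) * χ * a = ((b⁻¹ : Mˣ) : M) * χ * ((a * b * a⁻¹ * b⁻¹ : Mˣ) : M))
    (h2 : ν = ((b * a⁻¹ * b⁻¹ : Mˣ) : M) * χ - ((a⁻¹ * b⁻¹ : Mˣ) : M) * χ * ((a * b * a⁻¹ : Mˣ) : M)) :
    (((b⁻¹ : Mˣ) : M) * (χ * ((a * b * a⁻¹ * b⁻¹ : Mˣ) : M)) * b) * a =
        a * (((b⁻¹ : Mˣ) : M) * (χ * ((a * b * a⁻¹ * b⁻¹ : Mˣ) : M)) * b) ∧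
      ν * a = χ * ((a * b * a⁻¹ * b⁻¹ : Mˣ) : M) -
        ((b⁻¹ : Mˣ) : M) * (χ * ((a * b * a⁻¹ * b⁻¹ : Mˣ) : M)) * b := by
  obtain ⟨y, rfl⟩ : ∃ y : M, χ = b * y * ((a⁻¹ : Mˣ) : M) :=
    ⟨((b⁻¹ : Mˣ) : M) * χ * a, by simp [mul_assoc]⟩
  simp only [Units.val_mul, mul_assoc, Units.inv_mul_cancel_left, Units.inv_mul, mul_one] at h1 h2 ⊢
  have h3 : y * (b * ((a⁻¹ : Mˣ) : M)) = ((a⁻¹ : Mˣ) : M) * (y * b) := by
    rw [← mul_assoc ((a⁻¹ : Mˣ) : M), h1]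
    simp only [mul_assoc, Units.inv_mul, mul_one]
  refine ⟨by rw [h3, Units.mul_inv_cancel_left], ?_⟩
  rw [← h1, h3, h2, sub_mul]
  simp only [mul_assoc, Units.inv_mul, mul_one]

theorem beta_trace {ν ν' : Matrix ι ι ℂ} (h : ∀ α, trace (ν * α) = trace (ν' * α)) : ν = ν' := by
  ext i j
  simpa [trace_mul_single] using h (single j i 1)

theorem beta_eig {a : Matrix ι ι ℂ} {l : ℂ} {v : ι → ℂ} (h : a *ᵥ v = l • v) (p : Polynomial ℂ) :
    Polynomial.aeval a p *ᵥ v = p.eval l • v := by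
  induction p using Polynomial.induction_on with
  | C c => simp [Algebra.algebraMap_eq_smul_one, smul_mulVec]
  | add p q hp hq => rw [map_add, add_mulVec, hp, hq, Polynomial.eval_add, add_smul]
  | monomial n c ih =>
    rw [pow_succ, ← mul_assoc, map_mul, ← mulVec_mulVec, Polynomial.aeval_X, h, mulVec_smul, ih,
      Polynomial.eval_mul_X, smul_smul, mul_comm]

theorem beta_root {a : Matrix ι ι ℂ} {l : ℂ} (h : l ∈ a.charpoly.roots) :
    ∃ v : ι → ℂ, v ≠ 0 ∧ a *ᵥ v = l • v := by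
  obtain ⟨v, hv⟩ := ((Module.End.hasEigenvalue_iff_isRoot_charpoly (toLin' a) l).2
    (by rw [charpoly_toLin']; exact Polynomial.isRoot_of_mem_roots h)).exists_hasEigenvector
  exact ⟨v, hv.2, hv.apply_eq_smul⟩

theorem beta_dvd_sqf {a : Matrix ι ι ℂ} {l : ℂ} (h : l ∈ a.charpoly.roots) :
    Polynomial.X - Polynomial.C l ∣ sqf a :=
  Finset.dvd_prod_of_mem _ (Multiset.mem_toFinset.2 h)

theorem beta_sqf_dvd {a : Matrix ι ι ℂ} {p : Polynomial ℂ}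
    (h : ∀ l ∈ a.charpoly.roots, p.eval l = 0) : sqf a ∣ p :=
  Finset.prod_dvd_of_coprime
    (fun _ _ _ _ hij => Polynomial.pairwise_coprime_X_sub_C Function.injective_id hij)
    fun l hl => Polynomial.dvd_iff_isRoot.2 (h l (Multiset.mem_toFinset.1 hl))

theorem beta_nil (a : Matrix ι ι ℂ) : ∃ N, Polynomial.aeval a (sqf a ^ N) = 0 := by
  have h : a.charpoly ∣ sqf a ^ a.charpoly.roots.card := by
    conv_lhs => rw [neig_charpoly_eq a]
    rw [← Multiset.prod_replicate, ← Multiset.map_const']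
    exact Multiset.prod_dvd_prod_of_dvd _ _ fun l hl => beta_dvd_sqf hl
  obtain ⟨q, hq⟩ := h
  exact ⟨_, by rw [hq, map_mul, aeval_self_charpoly, zero_mul]⟩

/-- vectors killed by a power of `x` -/
def betaW (x : Matrix ι ι ℂ) : Submodule ℂ (ι → ℂ) where
  carrier := {v | ∃ m, (x ^ m) *ᵥ v = 0}
  add_mem' := by
    rintro v w ⟨m, hm⟩ ⟨n, hn⟩
    refine ⟨m + n, ?_⟩
    rw [mulVec_add]
    conv_lhs => enter [1]; rw [add_comm m n]
    rw [pow_add, pow_add, ← mulVec_mulVec, ← mulVec_mulVec, hm, hn]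
    simp
  zero_mem' := ⟨0, by simp⟩
  smul_mem' := by
    rintro c v ⟨m, hm⟩
    exact ⟨m, by rw [mulVec_smul, hm, smul_zero]⟩

theorem betaW_map {x y φ : Matrix ι ι ℂ} (h : x * φ = φ * y) {v : ι → ℂ} (hv : v ∈ betaW y) :
    φ *ᵥ v ∈ betaW x := by
  obtain ⟨m, hm⟩ := hv
  refine ⟨m, ?_⟩
  have : x ^ m * φ = φ * y ^ m := (SemiconjBy.pow_right h.symm m).symm
  rw [mulVec_mulVec, this, ← mulVec_mulVec, hm, mulVec_zero]

theorem betaW_le {a : Matrix ι ι ℂ} {P S : Polynomial ℂ} (h : sqf a ∣ P - S) :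
    betaW (Polynomial.aeval a P) ≤ betaW (Polynomial.aeval a S) := by
  rintro v ⟨m, hm⟩
  obtain ⟨N, hN⟩ := beta_nil a
  obtain ⟨r, hr⟩ := pow_dvd_pow_of_dvd ((dvd_neg.2 h).trans (dvd_of_eq (neg_sub P S))) N
  obtain ⟨u, hu⟩ := sub_dvd_pow_sub_pow S (S - P) N
  have h1 : Polynomial.aeval a S ^ N = Polynomial.aeval a (u * P) := by
    rw [← map_pow, eq_add_of_sub_eq hu, hr, map_add, map_mul _ _ r, hN, zero_mul, add_zero,
      sub_sub_cancel, mul_comm]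
  refine ⟨N * m, ?_⟩
  rw [pow_mul, h1, ← map_pow, mul_pow, map_mul, map_pow _ P, ← mulVec_mulVec, hm, mulVec_zero]

theorem beta_aux {T : Rep (g + 1) ι ℂ} (hT : rel T = scalU ι ℂ η) (ν : Matrix ι ι ℂ)
    (hν : ∀ v : Fin (g + 1) × Bool → Matrix ι ι ℂ, fox T T v = 0 → trace (ν * v (0, false)) = 0) :
    ∃ θ : Matrix ι ι ℂ,
      (∀ k, θ * gens (Fin.tail T : Rep g ι ℂ) k = gens (Fin.tail T : Rep g ι ℂ) k * θ) ∧
      ((((T 0).2⁻¹ : GLm ι ℂ) : Matrix ι ι ℂ) * θ * ((T 0).2 : Matrix ι ι ℂ)) *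
          ((T 0).1 : Matrix ι ι ℂ) =
        ((T 0).1 : Matrix ι ι ℂ) *
          ((((T 0).2⁻¹ : GLm ι ℂ) : Matrix ι ι ℂ) * θ * ((T 0).2 : Matrix ι ι ℂ)) ∧
      ν * ((T 0).1 : Matrix ι ι ℂ) =
        θ - (((T 0).2⁻¹ : GLm ι ℂ) : Matrix ι ι ℂ) * θ * ((T 0).2 : Matrix ι ι ℂ) := by
  obtain ⟨ψ, hψ⟩ := exists_ann_of_ker (foxL T T)
    ((traceLinearMap ι ℂ ℂ) ∘ₗ (LinearMap.mulLeft ℂ ν) ∘ₗ LinearMap.proj ((0 : Fin (g + 1)), false))
    hν
  have hψ' : ∀ (α β : Matrix ι ι ℂ) (v : Fin g × Bool → Matrix ι ι ℂ), trace (ν * α) =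
      trace (((rel (Fin.tail T : Rep g ι ℂ) : GLm ι ℂ) : Matrix ι ι ℂ) * ψ *
        fox1 ((T 0).1, (T 0).2) ((T 0).1, (T 0).2) α β) +
      trace (ψ * ((comm (T 0) : GLm ι ℂ) : Matrix ι ι ℂ) *
        fox (Fin.tail T : Rep g ι ℂ) (Fin.tail T : Rep g ι ℂ) v) := fun α β v => by
    have := hψ fun p => Fin.cases (if p.2 then β else α) (fun i => v (i, p.2)) p.1
    change trace (ν * α) = trace (ψ * fox T T _) at this
    rw [this, fox_succ, Matrix.mul_add, trace_add, ← Matrix.mul_assoc, ← Matrix.mul_assoc,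
      trace_mul_cycle]
    rfl
  have h0 : fox (Fin.tail T : Rep g ι ℂ) (Fin.tail T : Rep g ι ℂ) 0 = 0 := map_zero (foxL _ _)
  have h1 := (fox_ann (Fin.tail T : Rep g ι ℂ) (Fin.tail T : Rep g ι ℂ)
    (ψ * ((comm (T 0) : GLm ι ℂ) : Matrix ι ι ℂ))).1 fun v => by
      have := hψ' 0 0 v
      rw [fox1_eq] at this
      simpa using this.symm
  have h2 := rel_conj h1
  rw [← Matrix.mul_assoc, Units.mul_left_inj, ← Matrix.mul_assoc] at h2
  obtain ⟨h3, h4⟩ := beta_alg (T 0).1 (T 0).2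
    (((rel (Fin.tail T : Rep g ι ℂ) : GLm ι ℂ) : Matrix ι ι ℂ) * ψ) ν
    (beta_trace fun β => by
      have := hψ' 0 β 0
      generalize ((rel (Fin.tail T : Rep g ι ℂ) : GLm ι ℂ) : Matrix ι ι ℂ) * ψ = χ at this ⊢
      simp only [h0, fox1_eq, Matrix.mul_zero, Matrix.zero_mul, trace_zero, add_zero, zero_add,
        sub_zero, Matrix.mul_sub, trace_sub, ← Matrix.mul_assoc] at this
      rw [trace_mul_comm _ (((T 0).1⁻¹ * (T 0).2⁻¹ : GLm ι ℂ) : Matrix ι ι ℂ),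
        trace_mul_comm _ (((T 0).2⁻¹ : GLm ι ℂ) : Matrix ι ι ℂ)] at this
      simp only [← Matrix.mul_assoc] at this
      exact sub_eq_zero.1 this.symm)
    (beta_trace fun α => by
      have := hψ' α 0 0
      generalize ((rel (Fin.tail T : Rep g ι ℂ) : GLm ι ℂ) : Matrix ι ι ℂ) * ψ = χ at this ⊢
      simp only [h0, fox1_eq, Matrix.mul_zero, Matrix.zero_mul, trace_zero, add_zero,
        sub_zero, Matrix.mul_sub, trace_sub, ← Matrix.mul_assoc] at this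
      rw [trace_mul_comm _ (((T 0).1⁻¹ * (T 0).2⁻¹ : GLm ι ℂ) : Matrix ι ι ℂ),
        trace_mul_comm _ (((T 0).2 * (T 0).1⁻¹ * (T 0).2⁻¹ : GLm ι ℂ) : Matrix ι ι ℂ)] at this
      simp only [← Matrix.mul_assoc] at this
      rw [this, Matrix.sub_mul, trace_sub])
  refine ⟨_, ?_, h3, h4⟩
  change ∀ k, _ * ((comm (T 0) : GLm ι ℂ) : Matrix ι ι ℂ) * _ =
    _ * (_ * ((comm (T 0) : GLm ι ℂ) : Matrix ι ι ℂ))
  rw [← h2]
  exact h1

theorem beta {T : Rep (g + 1) ι ℂ} (hT : rel T = scalU ι ℂ η) (hI : Irr (gens T)) {w : ι → ℂ}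
    (hc : Cyc ((T 0).1 : Matrix ι ι ℂ) w) (hn : neig ((T 0).1 : Matrix ι ι ℂ) < Fintype.card ι)
    (hr : ∀ v : Fin (g + 1) × Bool → Matrix ι ι ℂ, fox T T v = 0 → ∀ r : Polynomial ℂ,
      trace (Polynomial.aeval ((T 0).1 : Matrix ι ι ℂ) (sqf ((T 0).1 : Matrix ι ι ℂ) * r) *
        v (0, false)) = 0) : False := by
  set a : Matrix ι ι ℂ := ((T 0).1 : Matrix ι ι ℂ) with ha
  set b : Matrix ι ι ℂ := ((T 0).2 : Matrix ι ι ℂ) with hb
  set b' : Matrix ι ι ℂ := (((T 0).2⁻¹ : GLm ι ℂ) : Matrix ι ι ℂ) with hb'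
  have hbb : b * b' = 1 := Units.mul_inv _
  have hbb' : b' * b = 1 := Units.inv_mul _
  have hconj : ∀ θ : Matrix ι ι ℂ, θ * b = b * (b' * θ * b) := fun θ => by
    rw [← Matrix.mul_assoc, ← Matrix.mul_assoc, hbb, Matrix.one_mul]
  have hca : ∀ p : Polynomial ℂ, Polynomial.aeval a p * a = a * Polynomial.aeval a p := fun p => by
    simpa using congrArg (Polynomial.aeval a) (mul_comm p Polynomial.X)
  have hinv : ∀ W : Submodule ℂ (ι → ℂ), (∀ v ∈ W, a *ᵥ v ∈ W) → (∀ v ∈ W, b *ᵥ v ∈ W) →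
      (∀ k, ∀ v ∈ W, gens (Fin.tail T : Rep g ι ℂ) k *ᵥ v ∈ W) → W = ⊥ ∨ W = ⊤ := by
    intro W h1 h2 h3
    refine hI.2 W ?_
    rintro ⟨i, c⟩
    refine Fin.cases ?_ (fun i => h3 (i, c)) i
    cases c
    · exact h1
    · exact h2
  obtain ⟨l0, hl0⟩ : ∃ l, l ∈ a.charpoly.roots :=
    Multiset.card_pos_iff_exists_mem.1 (by rw [neig_card_roots]; omega)
  obtain ⟨v0, hv0, hv0'⟩ := beta_root hl0
  let 𝔫 : Submodule ℂ (Matrix ι ι ℂ) :=
    LinearMap.range ((Polynomial.aeval a).toLinearMap ∘ₗ LinearMap.mulLeft ℂ (sqf a))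
  have h𝔫 : ∀ x, x ∈ 𝔫 ↔ ∃ r, Polynomial.aeval a (sqf a * r) = x := fun x => Iff.rfl
  let 𝔫' : Submodule ℂ (Matrix ι ι ℂ) :=
    { carrier := {θ | θ ∈ 𝔫 ∧ b' * θ * b ∈ 𝔫 ∧
        ∀ k, θ * gens (Fin.tail T : Rep g ι ℂ) k = gens (Fin.tail T : Rep g ι ℂ) k * θ}
      add_mem' := fun hx hy => ⟨𝔫.add_mem hx.1 hy.1, by
        rw [Matrix.mul_add, Matrix.add_mul]; exact 𝔫.add_mem hx.2.1 hy.2.1, fun k => by
        rw [Matrix.mul_add, Matrix.add_mul, hx.2.2, hy.2.2]⟩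
      zero_mem' := ⟨𝔫.zero_mem, by simp, fun k => by simp⟩
      smul_mem' := fun c _ hx => ⟨𝔫.smul_mem c hx.1, by
        rw [Matrix.mul_smul, Matrix.smul_mul]; exact 𝔫.smul_mem c hx.2.1, fun k => by
        rw [Matrix.mul_smul, Matrix.smul_mul, hx.2.2]⟩ }
  let Φ : Matrix ι ι ℂ →ₗ[ℂ] Matrix ι ι ℂ :=
    LinearMap.id - LinearMap.mulRight ℂ b ∘ₗ LinearMap.mulLeft ℂ b'
  have key : 𝔫.map (LinearMap.mulRight ℂ a) ≤ 𝔫'.map Φ := by
    rintro _ ⟨_, ⟨r, rfl⟩, rfl⟩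
    obtain ⟨θ, h1, h2, h3⟩ := beta_aux hT (Polynomial.aeval a (sqf a * r)) fun v hv => hr v hv r
    rw [← ha, ← hb, ← hb'] at h2 h3
    have h3' : θ = Polynomial.aeval a (sqf a * r * Polynomial.X) + b' * θ * b := by
      rw [map_mul _ _ Polynomial.X, Polynomial.aeval_X, h3, sub_add_cancel]
    obtain ⟨s, hs⟩ := cyclic_comm hc h2
    set l := s.eval l0 with hl
    set S := s - Polynomial.C l with hS
    set P := sqf a * r * Polynomial.X + S with hP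
    have hS' : Polynomial.aeval a S = b' * θ * b - l • 1 := by
      rw [hS, map_sub, ← hs, Polynomial.aeval_C, Algebra.algebraMap_eq_smul_one]
    have hP' : Polynomial.aeval a P = θ - l • 1 := by
      rw [hP, map_add, hS', ← add_sub_assoc, ← h3']
    have hPS : sqf a ∣ P - S := ⟨r * Polynomial.X, by rw [hP]; ring⟩
    have hPb : Polynomial.aeval a P * b = b * Polynomial.aeval a S := by
      rw [hP', hS', Matrix.sub_mul, Matrix.mul_sub, ← hconj]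
      simp
    have hPt : ∀ k, Polynomial.aeval a P * gens (Fin.tail T : Rep g ι ℂ) k =
        gens (Fin.tail T : Rep g ι ℂ) k * Polynomial.aeval a P := fun k => by
      rw [hP', Matrix.sub_mul, Matrix.mul_sub, h1]
      simp
    have hW : betaW (Polynomial.aeval a P) = ⊤ := by
      refine (hinv _ (fun v hv => betaW_map (hca P) hv)
        (fun v hv => betaW_map hPb (betaW_le hPS hv)) fun k v hv => betaW_map (hPt k) hv).resolve_left
        fun h => hv0 ?_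
      have h4 : v0 ∈ betaW (Polynomial.aeval a S) :=
        ⟨1, by rw [pow_one, beta_eig hv0', hS]; simp [hl]⟩
      have h5 := betaW_le (P := S) (S := P) ((dvd_neg.2 hPS).trans (dvd_of_eq (neg_sub P S))) h4
      rwa [h, Submodule.mem_bot] at h5
    have hPd : sqf a ∣ P := beta_sqf_dvd fun l' hl' => by
      obtain ⟨v, hv, hv'⟩ := beta_root hl'
      obtain ⟨m, hm⟩ : v ∈ betaW (Polynomial.aeval a P) := hW ▸ Submodule.mem_top
      rw [← map_pow, beta_eig hv', smul_eq_zero, Polynomial.eval_pow] at hm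
      exact pow_eq_zero_iff'.1 (hm.resolve_right hv) |>.1
    have hSd : sqf a ∣ S := by
      have := dvd_sub hPd hPS
      rwa [sub_sub_cancel] at this
    have hbP : b' * Polynomial.aeval a P * b = Polynomial.aeval a S := by
      rw [Matrix.mul_assoc, hPb, ← Matrix.mul_assoc, hbb', Matrix.one_mul]
    obtain ⟨r1, hr1⟩ := hPd
    obtain ⟨r2, hr2⟩ := hSd
    refine ⟨Polynomial.aeval a P, ⟨(h𝔫 _).2 ⟨r1, by rw [hr1]⟩,
      (h𝔫 _).2 ⟨r2, by rw [hbP, hr2]⟩, hPt⟩, ?_⟩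
    change Polynomial.aeval a P - b' * Polynomial.aeval a P * b = Polynomial.aeval a (sqf a * r) * a
    rw [hbP, hP, map_add, add_sub_cancel_right, map_mul _ _ Polynomial.X, Polynomial.aeval_X]
  have heq : 𝔫' = 𝔫 := by
    refine Submodule.eq_of_le_of_finrank_le (fun x hx => hx.1) ?_
    have hinj : Function.Injective (LinearMap.mulRight ℂ a) := fun x y h =>
      (Units.mul_left_inj (T 0).1).1 h
    calc Module.finrank ℂ 𝔫 = Module.finrank ℂ (𝔫.map (LinearMap.mulRight ℂ a)) :=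
          (Submodule.equivMapOfInjective _ hinj 𝔫).finrank_eq
      _ ≤ Module.finrank ℂ (𝔫'.map Φ) := Submodule.finrank_mono key
      _ ≤ _ := Submodule.finrank_map_le _ _
  obtain ⟨-, ⟨r, h2⟩, h3⟩ : Polynomial.aeval a (sqf a) ∈ 𝔫' := by
    rw [heq]
    exact (h𝔫 _).2 ⟨1, by rw [mul_one]⟩
  change Polynomial.aeval a (sqf a * r) = _ at h2
  refine (hinv (LinearMap.ker (toLin' (Polynomial.aeval a (sqf a)))) (fun v hv => ?_) (fun v hv => ?_)
    (fun k v hv => ?_)).elim (fun h => hv0 ?_) fun h =>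
      cyclic_sqf hc hn (toLin'.map_eq_zero_iff.1 (LinearMap.ker_eq_top.1 h))
  · rw [LinearMap.mem_ker, toLin'_apply] at hv ⊢
    rw [mulVec_mulVec, hca, ← mulVec_mulVec, hv, mulVec_zero]
  · rw [LinearMap.mem_ker, toLin'_apply] at hv ⊢
    rw [mulVec_mulVec, hconj, ← h2, mul_comm (sqf a), map_mul, ← mulVec_mulVec, ← mulVec_mulVec, hv,
      mulVec_zero, mulVec_zero]
  · rw [LinearMap.mem_ker, toLin'_apply] at hv ⊢
    rw [mulVec_mulVec, h3, ← mulVec_mulVec, hv, mulVec_zero]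
  · rw [← Submodule.mem_bot ℂ, ← h, LinearMap.mem_ker, toLin'_apply, beta_eig hv0',
      Polynomial.dvd_iff_isRoot.1 (beta_dvd_sqf hl0), zero_smul]

end Crest.Agent.R3
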