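import Crest.Agent.R3.Fox

/-!
# R3 / Flag3 : every matrix is a Richardson element for its kernel flag

`exists_flag`: let `F k = ker ∏_{l < k} (c - ξ l)`, `⊥ = F 0 ≤ F 1 ≤ … ≤ F N = ⊤`, `v ∈ F (k+1) ↔ (c - ξ k) v ∈ F k`.  Choose a
basis adapted to the flag (complements `C k` of `F k` in `F (k+1)`, `⊤ = ⨁ C k`), index it by `ι`, `lev i = k` for basis
vectors in `C k`; `G` has the basis vectors as columns; `n = G⁻¹ c G - dg (ξ ∘ lev)` is `Nil`.  `Rich`: let `c0 = G⁻¹ c G`, `F0 k` the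
span of the `e i`, `lev i < k`.  If `c0 ν - ν c0` is `Nil` then by induction `ν (F0 k) ⊆ F0 k`: for `v ∈ F0 (k+1)`,
`(c0 - ξ k) ν v = ν (c0 - ξ k) v + (c0 ν - ν c0) v ∈ F0 k`.

`class_open`: `𝔭 = {ψ | lev j < lev i → ψ i j = 0}`, `𝔲 = {n | Nil n}`, `c0 = D + n`.  For `c' = D + n'` the map
`L c' : ψ ↦ ψ c0 - c' ψ` sends `𝔭` to `𝔲`.  `L c0 : 𝔭 → 𝔲` is onto: if `trace (ν * L c0 ψ) = 0` for all `ψ ∈ 𝔭` then `c0 ν - ν c0` is
`Nil`, so `ν ∈ 𝔭` by `Rich`, so `trace (ν * u) = 0` on `𝔲` (`mem_range_of_ann`).  Choose a linear section: `ψ_q ∈ 𝔭` with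
`L c0 ψ_q = E_q` for the pairs `q = (i, j)`, `lev i < lev j`.  The matrix `M(n') = (L c' ψ_q)_{q'}` has entries of degree `≤ 1` in
`n'`, `M(n) = 1`.  With `Γ = det M(n')`, `x = adjugate M(n') * (L c' 1)`, the matrix `ψ(n') = Γ • 1 - ∑ x_q ψ_q` satisfies
`ψ c0 = c' ψ`, and `ψ(n) = 1`.  `Θ = det ψ`, computed with the generic `n' = X (i, j)` (or `0` if not `lev i < lev j`).
-/

set_option autoImplicit false

noncomputable section

open Matrix

namespace Crest.Agent.R3

variable {O ι : Type} [CommRing O] [Algebra O ℂ] [Fintype ι] [DecidableEq ι]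

/-- an independent set adapted to a flag -/
theorem fl3_set {V : Type} [AddCommGroup V] [Module ℂ V] (F : ℕ → Submodule ℂ V) (hm : Monotone F)
    (h0 : F 0 = ⊥) (N : ℕ) : ∃ (s : Set V) (lev : V → ℕ), LinearIndepOn ℂ id s ∧
      (∀ v ∈ s, lev v < N) ∧ ∀ k ≤ N, Submodule.span ℂ {v | v ∈ s ∧ lev v < k} = F k := by
  classical
  induction N with
  | zero =>
    refine ⟨∅, fun _ => 0, linearIndepOn_empty _ _, by simp, fun k hk => ?_⟩
    rw [Nat.le_zero.1 hk, h0]
    simp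
  | succ N ih =>
    obtain ⟨s, lev, h1, h2, h3⟩ := ih
    have hs : s ⊆ (F (N + 1) : Set V) := fun v hv => by
      refine hm (Nat.le_succ N) ?_
      rw [← h3 N le_rfl]
      exact Submodule.subset_span ⟨hv, h2 v hv⟩
    obtain ⟨t, ht1, ht2, ht3, ht4⟩ := exists_linearIndepOn_id_extension h1 hs
    have hlt : ∀ v, (if v ∈ s then lev v else N) < N + 1 := fun v => by
      split_ifs with h
      · exact (h2 v h).trans (Nat.lt_succ_self N)
      · exact Nat.lt_succ_self N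
    refine ⟨t, fun v => if v ∈ s then lev v else N, ht4, fun v _ => hlt v, fun k hk => ?_⟩
    rcases Nat.lt_succ_iff_lt_or_eq.1 (Nat.lt_succ_of_le hk) with hk | rfl
    · rw [← h3 k (Nat.lt_succ_iff.1 hk)]
      congr 1
      ext v
      simp only [Set.mem_ofPred_eq]
      by_cases hv : v ∈ s
      · simp [hv, ht2 hv]
      · simp only [hv, if_false, false_and, iff_false, not_and, not_lt]
        exact fun _ => Nat.lt_succ_iff.1 hk
    · have e : {v | v ∈ t ∧ (if v ∈ s then lev v else N) < N + 1} = t := by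
        ext v
        exact ⟨fun h => h.1, fun h => ⟨h, hlt v⟩⟩
      rw [e]
      exact le_antisymm (Submodule.span_le.2 ht1) ht3

omit [DecidableEq ι] in
/-- a basis adapted to a flag -/
theorem fl3_basis (F : ℕ → Submodule ℂ (ι → ℂ)) (hm : Monotone F) (h0 : F 0 = ⊥) {N : ℕ}
    (hN : F N = ⊤) : ∃ (b : Module.Basis ι ℂ (ι → ℂ)) (lev : ι → ℕ),
      ∀ k v, v ∈ F k ↔ ∀ i, k ≤ lev i → b.repr v i = 0 := by
  obtain ⟨s, lev, h1, h2, h3⟩ := fl3_set F hm h0 N
  have hall : ∀ k, N ≤ k → {v | v ∈ s ∧ lev v < k} = s := fun k hk => by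
    ext v
    exact ⟨fun h => h.1, fun h => ⟨h, (h2 v h).trans_le hk⟩⟩
  have htop : Submodule.span ℂ s = ⊤ := by rw [← hN, ← h3 N le_rfl, hall N le_rfl]
  have h4 : ∀ k, Submodule.span ℂ {v | v ∈ s ∧ lev v < k} = F k := fun k => by
    rcases le_total k N with hk | hk
    · exact h3 k hk
    · rw [hall k hk, htop]
      exact (top_le_iff.1 (hN ▸ hm hk)).symm
  let b0 : Module.Basis s ℂ (ι → ℂ) := Module.Basis.mk h1 (by
    rw [← htop]
    exact Submodule.span_mono fun v hv => ⟨⟨v, hv⟩, rfl⟩)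
  let e : s ≃ ι := b0.indexEquiv (Pi.basisFun ℂ ι)
  refine ⟨b0.reindex e, fun i => lev (e.symm i), fun k v => ?_⟩
  have e1 : {v | v ∈ s ∧ lev v < k} = (b0.reindex e) '' {i | lev (e.symm i) < k} := by
    ext w
    constructor
    · rintro ⟨hw, hk⟩
      exact ⟨e ⟨w, hw⟩, by simpa using hk, by simp [b0]⟩
    · rintro ⟨i, hi, rfl⟩
      have : (b0.reindex e) i = (e.symm i : ι → ℂ) := by simp [b0]
      rw [this]
      exact ⟨(e.symm i).2, hi⟩
  rw [← h4 k, e1, Module.Basis.mem_span_image]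
  constructor
  · intro h i hi
    by_contra hne
    exact absurd (h (Finsupp.mem_support_iff.2 hne)) (not_lt.2 hi)
  · intro h i hi
    exact not_le.1 fun hk => Finsupp.mem_support_iff.1 hi (h i hk)

/-- matrix form of the adapted basis -/
theorem fl3_GL (F : ℕ → Submodule ℂ (ι → ℂ)) (hm : Monotone F) (h0 : F 0 = ⊥) {N : ℕ}
    (hN : F N = ⊤) : ∃ (G : GLm ι ℂ) (lev : ι → ℕ),
      ∀ k v, (G : Matrix ι ι ℂ) *ᵥ v ∈ F k ↔ ∀ i, k ≤ lev i → v i = 0 := by
  obtain ⟨b, lev, h⟩ := fl3_basis F hm h0 hN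
  refine ⟨⟨LinearMap.toMatrix' b.equivFun.symm.toLinearMap, LinearMap.toMatrix' b.equivFun.toLinearMap,
    ?_, ?_⟩, lev, fun k v => ?_⟩
  · rw [← LinearMap.toMatrix'_comp]; simp
  · rw [← LinearMap.toMatrix'_comp]; simp
  · rw [h, LinearMap.toMatrix'_mulVec]
    have : ∀ i, b.repr (b.equivFun.symm.toLinearMap v) i = v i := fun i => by
      rw [← b.equivFun_apply]
      simp only [LinearEquiv.coe_coe, LinearEquiv.apply_symm_apply]
    simp only [this]

/-- the criterion used for `Nil` and `Rich` -/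
theorem fl3_crit {lev : ι → ℕ} {ξ : ℕ → Oˣ} {c0 : Matrix ι ι ℂ}
    (h : ∀ (k : ℕ) (v : ι → ℂ), (∀ i, k + 1 ≤ lev i → v i = 0) ↔
      ∀ i, k ≤ lev i → (c0 *ᵥ v - algebraMap O ℂ (ξ k : O) • v) i = 0) :
    (⟨lev, ξ⟩ : Punc O ι).Nil (c0 - dg ℂ fun i => ξ (lev i)) ∧
      (⟨lev, ξ⟩ : Punc O ι).Rich (c0 - dg ℂ fun i => ξ (lev i)) := by
  have hs : ∀ j i, lev j + 1 ≤ lev i → (Pi.single j (1 : ℂ) : ι → ℂ) i = 0 := fun j i hi =>
    Pi.single_eq_of_ne (fun e => by rw [e] at hi; omega) _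
  constructor
  · intro i j hij
    have := (h (lev j) (Pi.single j 1)).1 (hs j) i (not_lt.1 hij)
    rw [mulVec_single_one, Pi.sub_apply, Pi.smul_apply, col_apply] at this
    rw [Matrix.sub_apply, dg, diagonal_apply]
    by_cases e : i = j
    · subst e; simpa using this
    · simpa [e] using this
  · intro ν hν i j hij
    simp only [add_sub_cancel] at hν
    have key : ∀ (k : ℕ) (v : ι → ℂ), (∀ i, k ≤ lev i → v i = 0) → ∀ i, k ≤ lev i → (ν *ᵥ v) i = 0 := by
      intro k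
      induction k with
      | zero =>
        intro v hv i _
        have : v = 0 := funext fun i => hv i (Nat.zero_le _)
        simp [this]
      | succ k ih =>
        intro v hv
        refine (h k _).2 fun i hi => ?_
        have e : c0 *ᵥ (ν *ᵥ v) - algebraMap O ℂ (ξ k : O) • (ν *ᵥ v) =
            ν *ᵥ (c0 *ᵥ v - algebraMap O ℂ (ξ k : O) • v) + (c0 * ν - ν * c0) *ᵥ v := by
          rw [mulVec_sub, mulVec_smul, sub_mulVec, mulVec_mulVec, mulVec_mulVec]
          abel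
        rw [e, Pi.add_apply, ih _ ((h k v).1 hv) i hi, zero_add, mulVec, dotProduct]
        refine Finset.sum_eq_zero fun l _ => ?_
        by_cases hl : k + 1 ≤ lev l
        · rw [hv l hl, mul_zero]
        · rw [hν i l (by simp only [not_lt]; omega), zero_mul]
    have := key (lev j + 1) (Pi.single j 1) (hs j) i hij
    rwa [mulVec_single_one, col_apply] at this

theorem exists_flag {ξ : ℕ → Oˣ} {N : ℕ} {c : Matrix ι ι ℂ} (h : Killed ξ N c) :
    ∃ (lev : ι → ℕ) (G : GLm ι ℂ) (n : Matrix ι ι ℂ), (⟨lev, ξ⟩ : Punc O ι).Nil n ∧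
      (⟨lev, ξ⟩ : Punc O ι).val (G, n) = c ∧ (⟨lev, ξ⟩ : Punc O ι).Rich n := by
  set p : ℕ → Matrix ι ι ℂ := fun k => Polynomial.aeval c (∏ l ∈ Finset.range k,
    (Polynomial.X - Polynomial.C (algebraMap O ℂ (ξ l : O)))) with hp
  have hlin : ∀ (k : ℕ) (v : ι → ℂ),
      (Polynomial.aeval c (Polynomial.X - Polynomial.C (algebraMap O ℂ (ξ k : O)))) *ᵥ v =
        c *ᵥ v - algebraMap O ℂ (ξ k : O) • v := fun k v => by
    rw [map_sub, Polynomial.aeval_X, Polynomial.aeval_C, sub_mulVec, Algebra.algebraMap_eq_smul_one,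
      smul_mulVec, one_mulVec]
  have h1 : ∀ (k : ℕ) (v : ι → ℂ),
      p (k + 1) *ᵥ v = p k *ᵥ (c *ᵥ v - algebraMap O ℂ (ξ k : O) • v) := fun k v => by
    simp only [hp]
    rw [Finset.prod_range_succ, map_mul, ← mulVec_mulVec, hlin]
  have h2 : ∀ (k : ℕ) (v : ι → ℂ), p k *ᵥ v = 0 → p (k + 1) *ᵥ v = 0 := fun k v hv => by
    simp only [hp] at hv ⊢
    rw [Finset.prod_range_succ_comm, map_mul, ← mulVec_mulVec, hv, mulVec_zero]
  obtain ⟨G, lev, hG⟩ := fl3_GL (fun k => LinearMap.ker (toLin' (p k)))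
    (monotone_nat_of_le_succ fun k v hv => by
      rw [LinearMap.mem_ker, toLin'_apply] at hv ⊢
      exact h2 k v hv)
    (by simp [hp]) (N := N) (by
      have : p N = 0 := h
      simp [this])
  simp only [LinearMap.mem_ker, toLin'_apply] at hG
  set c0 := ((G⁻¹ : GLm ι ℂ) : Matrix ι ι ℂ) * c * (G : Matrix ι ι ℂ) with hc0
  have hGc : (G : Matrix ι ι ℂ) * c0 = c * G := by
    rw [hc0, ← Matrix.mul_assoc, ← Matrix.mul_assoc, Units.mul_inv, Matrix.one_mul]
  obtain ⟨h3, h4⟩ := fl3_crit (lev := lev) (ξ := ξ) (c0 := c0) fun k v => by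
    rw [← hG, ← hG, h1, mulVec_sub (G : Matrix ι ι ℂ), mulVec_smul, mulVec_mulVec v (G : Matrix ι ι ℂ),
      hGc, mulVec_mulVec v c]
  refine ⟨lev, G, _, h3, ?_, h4⟩
  simp only [Punc.val, add_sub_cancel]
  rw [hGc, Matrix.mul_assoc, Units.mul_inv, Matrix.mul_one]

section generic
variable {R R' : Type} [CommRing R] [CommRing R']

/-- the matrix of `u ↦ u + D s(u)` -/
def fl3M (ψ : ι × ι → Matrix ι ι R) (D : Matrix ι ι R) : Matrix (ι × ι) (ι × ι) R :=
  1 + Matrix.of fun q' q => (D * ψ q) q'.1 q'.2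

/-- the solution of the linear system, up to the determinant -/
def fl3x (ψ : ι × ι → Matrix ι ι R) (D : Matrix ι ι R) : ι × ι → R :=
  (fl3M ψ D).adjugate *ᵥ fun q => D q.1 q.2

/-- the conjugating matrix -/
def fl3P (ψ : ι × ι → Matrix ι ι R) (D : Matrix ι ι R) : Matrix ι ι R :=
  (fl3M ψ D).det • (1 : Matrix ι ι R) - ∑ q, fl3x ψ D q • ψ q

theorem fl3M_map (φ : R →+* R') (ψ : ι × ι → Matrix ι ι R) (D : Matrix ι ι R) :
    φ.mapMatrix (fl3M ψ D) = fl3M (fun q => (ψ q).map φ) (D.map φ) := by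
  unfold fl3M
  rw [map_add, map_one]
  congr 1
  ext q' q
  simp only [RingHom.mapMatrix_apply, map_apply, of_apply, ← Matrix.map_mul]

theorem fl3x_map (φ : R →+* R') (ψ : ι × ι → Matrix ι ι R) (D : Matrix ι ι R) (q : ι × ι) :
    φ (fl3x ψ D q) = fl3x (fun q => (ψ q).map φ) (D.map φ) q := by
  unfold fl3x
  rw [RingHom.map_mulVec, ← fl3M_map, ← RingHom.map_adjugate]
  rfl

theorem fl3P_map (φ : R →+* R') (ψ : ι × ι → Matrix ι ι R) (D : Matrix ι ι R) :
    φ (fl3P ψ D).det = (fl3P (fun q => (ψ q).map φ) (D.map φ)).det := by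
  rw [RingHom.map_det]
  congr 1
  unfold fl3P
  rw [map_sub, map_sum, ← fl3M_map, ← RingHom.map_det]
  congr 1
  · ext i j
    simp only [RingHom.mapMatrix_apply, map_apply, Matrix.smul_apply, smul_eq_mul, map_mul, one_apply]
    split_ifs <;> simp
  · refine Finset.sum_congr rfl fun q _ => ?_
    ext i j
    simp only [RingHom.mapMatrix_apply, map_apply, Matrix.smul_apply, smul_eq_mul, map_mul, fl3x_map]

theorem fl3P_zero (ψ : ι × ι → Matrix ι ι R) : fl3P ψ 0 = 1 := by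
  have h1 : fl3M ψ 0 = 1 := by
    unfold fl3M
    ext q' q
    simp
  have h2 : fl3x ψ 0 = 0 := by
    unfold fl3x
    exact mulVec_zero _
  simp [fl3P, h1, h2]

theorem fl3x_eq (ψ : ι × ι → Matrix ι ι R) (D : Matrix ι ι R) (i j : ι) :
    fl3x ψ D (i, j) + (D * ∑ q, fl3x ψ D q • ψ q) i j = (fl3M ψ D).det * D i j := by
  have h : fl3M ψ D *ᵥ fl3x ψ D = (fl3M ψ D).det • fun q : ι × ι => D q.1 q.2 := by
    rw [fl3x, mulVec_mulVec, mul_adjugate, smul_mulVec, one_mulVec]
  have h2 := congrFun h (i, j)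
  rw [Pi.smul_apply, smul_eq_mul] at h2
  rw [← h2]
  generalize fl3x ψ D = x
  rw [fl3M, add_mulVec, one_mulVec, Pi.add_apply, Matrix.mul_sum, Matrix.sum_apply]
  congr 1
  simp only [mulVec, dotProduct, of_apply, Matrix.mul_smul, Matrix.smul_apply, smul_eq_mul, mul_comm]

end generic

/-- the linear section -/
theorem fl3_section {P : Punc O ι} {n : Matrix ι ι ℂ} (hR : P.Rich n) (q : ι × ι) :
    ∃ ψ : Matrix ι ι ℂ, (∀ i j, P.lev j < P.lev i → ψ i j = 0) ∧
      ψ * (dg ℂ (fun i => P.ξ (P.lev i)) + n) - (dg ℂ (fun i => P.ξ (P.lev i)) + n) * ψ =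
        if P.lev q.1 < P.lev q.2 then single q.1 q.2 1 else 0 := by
  set c0 := dg ℂ (fun i => P.ξ (P.lev i)) + n with hc0
  let 𝔭 : Submodule ℂ (Matrix ι ι ℂ) :=
    { carrier := {ψ | ∀ i j, P.lev j < P.lev i → ψ i j = 0}
      add_mem' := fun ha hb i j h => by rw [Matrix.add_apply, ha i j h, hb i j h, add_zero]
      zero_mem' := fun _ _ _ => rfl
      smul_mem' := fun c _ ha i j h => by rw [Matrix.smul_apply, ha i j h, smul_zero] }
  obtain ⟨e, he⟩ := mem_range_of_ann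
    ((LinearMap.mulRight ℂ c0 - LinearMap.mulLeft ℂ c0) ∘ₗ 𝔭.subtype)
    (if P.lev q.1 < P.lev q.2 then single q.1 q.2 1 else 0) fun ν hν => by
      have h1 : P.Nil (c0 * ν - ν * c0) := fun i j hij => by
        have hm : single j i (1 : ℂ) ∈ 𝔭 := fun a b hab => by
          refine single_apply_of_ne _ _ _ _ _ ?_
          rintro ⟨rfl, rfl⟩
          exact hij hab
        have h2 := hν ⟨_, hm⟩
        simp only [LinearMap.comp_apply, LinearMap.sub_apply, LinearMap.mulRight_apply,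
          LinearMap.mulLeft_apply, Submodule.subtype_apply] at h2
        rw [Matrix.mul_sub, trace_sub, ← Matrix.mul_assoc, trace_mul_cycle, ← Matrix.mul_assoc,
          ← trace_sub, ← Matrix.sub_mul, trace_mul_single] at h2
        simpa using h2
      split_ifs with hq
      · rw [trace_mul_single, hR ν h1 _ _ hq, smul_zero]
      · simp
  exact ⟨e.1, e.2, he⟩

theorem class_open {P : Punc O ι} {n : Matrix ι ι ℂ} (hn : P.Nil n) (hR : P.Rich n) :
    ∃ Θ : MvPolynomial (ι × ι) ℂ, MvPolynomial.eval (fun p => n p.1 p.2) Θ ≠ 0 ∧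
      ∀ n' : Matrix ι ι ℂ, P.Nil n' → MvPolynomial.eval (fun p => n' p.1 p.2) Θ ≠ 0 →
        ∃ h : GLm ι ℂ, dg ℂ (fun i => P.ξ (P.lev i)) + n' =
          (h : Matrix ι ι ℂ) * (dg ℂ (fun i => P.ξ (P.lev i)) + n) *
            ((h⁻¹ : GLm ι ℂ) : Matrix ι ι ℂ) := by
  choose ψ hψ1 hψ2 using fl3_section hR
  set c0 := dg ℂ (fun i => P.ξ (P.lev i)) + n with hc0
  have hev : ∀ n' : Matrix ι ι ℂ, MvPolynomial.eval (fun p : ι × ι => n' p.1 p.2)
      (fl3P (fun q => (ψ q).map MvPolynomial.C)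
        (n.map MvPolynomial.C - Matrix.of fun i j => MvPolynomial.X (i, j))).det =
      (fl3P ψ (n - n')).det := fun n' => by
    rw [fl3P_map]
    congr 2
    · funext q
      ext i j
      simp
    · ext i j
      simp
  refine ⟨(fl3P (fun q => (ψ q).map MvPolynomial.C)
    (n.map MvPolynomial.C - Matrix.of fun i j => MvPolynomial.X (i, j))).det, ?_,
    fun n' hn' hΘ => ?_⟩
  swap
  · rw [hev] at hΘ
    set D := n - n' with hD
    have hDn : P.Nil D := fun i j h => by rw [hD, Matrix.sub_apply, hn i j h, hn' i j h, sub_zero]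
    set S := ∑ q, fl3x ψ D q • ψ q with hS
    have hSp : ∀ i j, P.lev j < P.lev i → S i j = 0 := fun i j h => by
      rw [hS, Matrix.sum_apply]
      exact Finset.sum_eq_zero fun q _ => by rw [Matrix.smul_apply, hψ1 q i j h, smul_zero]
    have hDS : P.Nil (D * S) := fun i j h => by
      rw [Matrix.mul_apply]
      refine Finset.sum_eq_zero fun l _ => ?_
      by_cases hl : P.lev i < P.lev l
      · rw [hSp l j (by omega), mul_zero]
      · rw [hDn i l hl, zero_mul]
    have h1 : S * c0 - c0 * S = (fl3M ψ D).det • D - D * S := by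
      have e : S * c0 - c0 * S =
          ∑ q, fl3x ψ D q • (if P.lev q.1 < P.lev q.2 then single q.1 q.2 (1 : ℂ) else 0) := by
        rw [hS, Matrix.sum_mul, Matrix.mul_sum, ← Finset.sum_sub_distrib]
        refine Finset.sum_congr rfl fun q _ => ?_
        rw [← hψ2 q, Matrix.smul_mul, Matrix.mul_smul, smul_sub]
      rw [e]
      ext i j
      have h2 := fl3x_eq ψ D i j
      rw [← hS] at h2
      rw [Matrix.sub_apply, Matrix.smul_apply, smul_eq_mul, ← h2, add_sub_cancel_right,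
        Matrix.sum_apply, Finset.sum_eq_single (i, j)]
      · split_ifs with hij
        · simp
        · rw [hDn i j hij, hDS i j hij] at h2
          simpa using h2.symm
      · intro q _ hq
        split_ifs
        · rw [Matrix.smul_apply, single_apply_of_ne, smul_zero]
          rintro ⟨h3, h4⟩
          exact hq (Prod.ext h3 h4)
        · simp
      · simp
    have h3 : dg ℂ (fun i => P.ξ (P.lev i)) + n' = c0 - D := by rw [hc0, hD]; abel
    have h4 : fl3P ψ D * c0 = (c0 - D) * fl3P ψ D := by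
      rw [fl3P, ← hS]
      clear_value S D c0
      simp only [Matrix.sub_mul, Matrix.mul_sub, Matrix.smul_mul, Matrix.mul_smul, Matrix.one_mul,
        Matrix.mul_one, eq_add_of_sub_eq h1, smul_sub]
      abel
    obtain ⟨u, hu⟩ := (isUnit_iff_isUnit_det _).2 (isUnit_iff_ne_zero.2 hΘ)
    refine ⟨u, ?_⟩
    rw [h3, hu, h4, ← hu, Matrix.mul_assoc, Units.mul_inv, Matrix.mul_one]
  · rw [hev, sub_self, fl3P_zero, det_one]
    exact one_ne_zero

end Crest.Agent.R3
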