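import Crest.Agent.R3.All
import Crest.Agent.R3.Flag3

/-!
# R3 / Block : an irreducible point with prescribed boundary classes lifts, generically with the same properties

`exists_flag` for each `C j`, `surf_lift` with `η = 1`.  `C' j = (P j).val (c' j)`.  `Irr.poly` with the entries of
`Sum.elim (gens T') C'` as `τ`, `class_open` with the entries of `(c' j).2` as `τ`; `Generic.and`, `generic_forall`.
For a specialisation `φ`: `(C' j).map φ = g' (D + n') g'⁻¹`, `D + n' = h (D + n) h⁻¹`, `C j = g (D + n) g⁻¹`.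
-/

set_option autoImplicit false

noncomputable section

open Matrix

namespace Crest.Agent.R3

variable {O : Subring ℂ} {B J : Type} [CommRing B] [Algebra O B] {π : B →ₐ[O] ℂ}
  {ev : J → (B →ₐ[O] O)}

theorem blk_val_map {ι : Type} [Fintype ι] [DecidableEq ι] (φ : B →ₐ[O] ℂ) (P : Punc O ι)
    (p : GLm ι B × Matrix ι ι B) :
    (P.val p).map φ = P.val (mapU (φ : B →+* ℂ) p.1, p.2.map φ) := by
  have h1 : ∀ M N : Matrix ι ι B, (M * N).map φ = M.map φ * N.map φ := fun M N =>
    Matrix.map_mul (f := (φ : B →+* ℂ))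
  have h2 : ∀ M N : Matrix ι ι B, (M + N).map φ = M.map φ + N.map φ := fun M N => by
    ext i j; simp
  simp only [Punc.val]
  rw [h1, h1, h2, dg_map, ← map_inv]
  rfl

theorem block_lift (hU : Univ O π ev) (hG : Good π) {r : ℕ} (hD : HasD O r) {ι : Type} [Fintype ι]
    [DecidableEq ι] (hr : Fintype.card ι ≤ r) {g s : ℕ} (T : Rep g ι ℂ) (C : Fin s → Matrix ι ι ℂ)
    (ξ : Fin s → ℕ → Oˣ) (N : ℕ) (hK : ∀ j, Killed (ξ j) N (C j))
    (hT : (rel T).val * (List.ofFn C).prod = 1) (hI : Irr (Sum.elim (gens T) C)) :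
    ∃ (T' : Rep g ι B) (C' : Fin s → Matrix ι ι B), mapRep (π : B →+* ℂ) T' = T ∧
      (∀ j, (C' j).map π = C j) ∧ (rel T').val * (List.ofFn C').prod = 1 ∧
      Generic π fun φ => Irr (Sum.elim (fun k => (gens T' k).map φ) fun j => (C' j).map φ) ∧
        ∀ j, ∃ h : GLm ι ℂ, (C' j).map φ = h.val * C j * (h⁻¹).val := by
  have : Nonempty ι := hI.1
  choose lev G n hn hv hR using fun j => exists_flag (hK j)
  let P : Fin s → Punc O ι := fun j => ⟨lev j, ξ j⟩
  have hS : SurfEq (1 : Oˣ) P T (fun j => (G j, n j)) := by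
    refine ⟨hn, ?_⟩
    have : (fun j => (P j).val (G j, n j)) = C := funext hv
    rw [this, hT, scalU_val]
    simp
  obtain ⟨T', c', h1, h2, h3, h4⟩ := surf_lift hU hG hD hr hS
  have hC : ∀ j, ((P j).val (c' j)).map π = C j := fun j => by
    rw [blk_val_map, (h2 j).1, (h2 j).2]
    exact hv j
  refine ⟨T', fun j => (P j).val (c' j), h1, hC, ?_, Generic.and ?_ (generic_forall fun j => ?_)⟩
  · rw [h4, scalU_val]
    simp
  · obtain ⟨Θ, t1, t2⟩ := hI.poly
    refine ⟨(Fin g × Bool ⊕ Fin s) × ι × ι,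
      fun p => (Sum.elim (gens T') (fun j => (P j).val (c' j)) p.1 : Matrix ι ι B) p.2.1 p.2.2, Θ, ?_,
      fun φ hφ => t2 _ ?_⟩
    · convert t1 using 3
      funext p
      obtain ⟨k | j, a, b⟩ := p
      · simp only [Sum.elim_inl]
        rw [← h1, gens_mapRep]
        rfl
      · simp only [Sum.elim_inr]
        rw [← hC]
        rfl
    · convert hφ using 3
      funext p
      obtain ⟨k | j, a, b⟩ := p <;> rfl
  · obtain ⟨Θ, t1, t2⟩ := class_open (hn j) (hR j)
    refine ⟨ι × ι, fun p => (c' j).2 p.1 p.2, Θ, ?_, fun φ hφ => ?_⟩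
    · convert t1 using 3
      funext p
      rw [← show (c' j).2.map π = n j from (h2 j).2]
      rfl
    · obtain ⟨h, hh⟩ := t2 ((c' j).2.map φ) (fun a b hab => by
        rw [Matrix.map_apply, h3 j a b hab, map_zero]) hφ
      refine ⟨mapU (φ : B →+* ℂ) (c' j).1 * h * (G j)⁻¹, ?_⟩
      rw [blk_val_map, ← hv j]
      simp only [Punc.val]
      rw [hh]
      simp only [_root_.mul_inv_rev, inv_inv, Units.val_mul, Matrix.mul_assoc, Units.inv_mul_cancel_left]

end Crest.Agent.R3
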