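import Crest.Agent.R3.Occ
import Crest.Agent.R3.Bruhat

/-!
# R3 / Edge : elimination of a full variable both of whose occurrences are followed by non-trivial steps

The word is `h :: A ++ z :: β :: C ++ [z̄]`, `z = x v b : Ω → Ω'`; the state `(Xh | Yh)` of `h` lives on `Ω`
(`Q = h.inS` or `Q` is trivial; the face is cyclic), the state `(Xβ | Yβ)` of `β` lives on `Ω'`.
By `bruhat` there are `H` (stabilising `Xβ`) and `A# ⊆ Ω'` with `Flag Xh A# (H z)`.  Put `Q# = Ω' \ A#`.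
`Flag.lin2`: `H z = (l1 + l2) (e + g1)`, `H' = (m1 + m2) (e + g2)`, and with the inverses (`flag_of_lin2`,
`gap_conj`) `H = (m1' + m2') (e + g3)`, `g3 = - m1 g2 m2'`, `z̄ H' = (l1' + l2') (e + g4)`, `g4 = - l1 g1 l2'`.
Four fresh names `ν 0, …, ν 3` for `l1, l2, m1, m2` (`exists_fresh`, `exists_asg`, `OccOK.remove`,
`OccOK.add_slots`).  New steps (all with `d = 1`):
`s1 = ⟨Xh, Yh, A#, Q#, (ν0,false), (ν1,false), 1, g1⟩`, `s2 = ⟨Xβ, Yβ, Xβ, Yβ, (ν2,false), (ν3,false), 1, g2⟩`,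
`s3 = ⟨Xβ, Yβ, Xβ, Yβ, (ν2,true), (ν3,true), 1, g3⟩`, `s4 = ⟨A#, Q#, Xh, Yh, (ν0,true), (ν1,true), 1, g4⟩`;
complex values: `val s2 * val s1 = z`, `val s4 * val s3 = z̄`.
Lifting: given lifts `l̃, m̃, g̃1 … g̃4` define `y v b = (e - g̃3) (m̃1 + m̃2) (l̃1 + l̃2) (e + g̃1)` and `y v (!b)` its
inverse `(e - g̃1) (l̃1' + l̃2') (m̃1' + m̃2') (e + g̃3)`.  Then
`val s2 * val s1 = (e + (m̃1 g̃2 m̃2' + g̃3)) * y v b` and `val s4 * val s3 = (e + (l̃1' g̃4 l̃2 + g̃1)) * y v (!b)`;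
the two unipotent factors are killed by `π` and are absorbed by the gaps of `β` and `h` (`SL.absorb`; for `h`
use that the equation `u • (p * e) = e` is cyclic: `u • ((e + w) * p) = e → u • (p * (e + w)) = e`, since
`p (e + w) = (e - w) ((e + w) p) (e + w)`).
-/

set_option autoImplicit false
set_option linter.unusedSectionVars false

noncomputable section

open Matrix

namespace Crest.Agent.R3

variable {O L V : Type} [CommRing O] [Fintype L] [DecidableEq L]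
variable {B : Type} [CommRing B] [Algebra O B] [Algebra O ℂ] {π : B →ₐ[O] ℂ}

/-- a step with two variables and trivial diagonal part -/
def edgeS (O : Type) [CommRing O] (X Y X1 Y1 : Finset L) (a a' : V) (t : Bool) (g : Matrix L L ℂ) :
    Step O L V := ⟨X, Y, X1, Y1, some (a, t), some (a', t), 1, g⟩

theorem edge_seg_cons {X Y X1 Y1 Ω Ω' : Finset L} {a a' : V} {t : Bool} {g : Matrix L L ℂ}
    {l : List (Step O L V)} {Q' : St L} (hΩ : Ω = X ∪ Y) (hΩ' : Ω' = X1 ∪ Y1) (hd : Disjoint X Y)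
    (hd1 : Disjoint X1 Y1) (hX : X.card = X1.card) (hY : Y.card = Y1.card) (hl : Seg ⟨Ω', ∅⟩ l Q') :
    Seg ⟨Ω, ∅⟩ (edgeS O X Y X1 Y1 a a' t g :: l) Q' := by
  refine ⟨⟨?_, hd, Or.inr (Or.inr rfl)⟩, ⟨hd1, ⟨hX, fun h => by cases h⟩, hY, fun h => by cases h⟩,
    ⟨Ω', ∅⟩, ⟨?_, Finset.disjoint_empty_right _, fun _ _ _ _ _ _ => rfl⟩, hl⟩
  · simpa [St.set, Step.inS, edgeS] using hΩ
  · simpa [St.set, edgeS] using hΩ'

section
variable {R : Type} [CommRing R] {X Y X1 Y1 : Finset L} {l1 l1' l2 l2' n n' : Matrix L L R}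

theorem edge_val [Algebra O R] {a a' : V} {t : Bool} {g : Matrix L L ℂ} {y : Asg V L R}
    (h1 : Sup X1 X (y a t)) (h2 : Sup Y1 Y (y a' t)) (n : Matrix L L R) :
    (edgeS O X Y X1 Y1 a a' t g).valG y n = (y a t + y a' t) * (eS R (X ∪ Y) + n) := by
  simp only [Step.valG, edgeS, dg_one, Matrix.one_mul, blk_some h1, blk_some h2]

theorem edge_cancel (h1 : PI X X1 l1 l1') (h2 : PI Y Y1 l2 l2') (hn : Sup X Y n) :
    l1' * -(l1 * n * l2') * l2 = -n := by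
  have e : l1' * (l1 * n * l2') * l2 = (l1' * l1) * n * (l2' * l2) := by simp only [Matrix.mul_assoc]
  rw [Matrix.mul_neg, Matrix.neg_mul, e, h1.l, h2.l, hn.eS_mul subset_rfl, hn.mul_eS subset_rfl]

theorem edge_sup (h1 : PI X X1 l1 l1') (h2 : PI Y Y1 l2 l2') (hn : Sup X Y n) : Sup X1 Y1 (l1 * n * l2') :=
  (h1.s1.mul hn).mul h2.s2

/-- the inverse of `(l1 + l2) (e + n)` has the same form -/
theorem edge_inv (h1 : PI X X1 l1 l1') (h2 : PI Y Y1 l2 l2') (hn : Sup X Y n) (hd : Disjoint X Y)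
    (hd1 : Disjoint X1 Y1) :
    (eS R (X ∪ Y) - n) * (l1' + l2') = (l1' + l2') * (eS R (X1 ∪ Y1) + -(l1 * n * l2')) := by
  rw [gap_conj h1.symm h2.symm (edge_sup h1 h2 hn).neg hd1 hd, edge_cancel h1 h2 hn, sub_eq_add_neg]

theorem edge_shift (h1 : PI X X1 l1 l1') (h2 : PI Y Y1 l2 l2') (hn : Sup X Y n) (hn' : Sup X1 Y1 n')
    (hd : Disjoint X Y) (hd1 : Disjoint X1 Y1) :
    (l1 + l2) * (eS R (X ∪ Y) + n) =
      (eS R (X1 ∪ Y1) + (l1 * n * l2' + n')) * ((eS R (X1 ∪ Y1) - n') * (l1 + l2)) := by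
  rw [gap_conj h1 h2 hn hd hd1, ← unip_mul hd1 (edge_sup h1 h2 hn) hn', Matrix.mul_assoc (_ + _ * _ * _),
    ← Matrix.mul_assoc (_ + n'), (PI.unip hd1 hn').r, (h1.add h2 hd hd1).s1.eS_mul subset_rfl]

/-- the equation of a face is cyclic -/
theorem edge_cyc {P : Matrix L L R} {c : R} (hd : Disjoint X Y) (hn : Sup X Y n)
    (hP : eS R (X ∪ Y) * P = P) (h : c • ((eS R (X ∪ Y) + n) * P * eS R (X ∪ Y)) = eS R (X ∪ Y)) :
    c • (P * (eS R (X ∪ Y) + n) * eS R (X ∪ Y)) = eS R (X ∪ Y) := by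
  have hU := PI.unip hd hn
  have h1 : P * (eS R (X ∪ Y) + n) * eS R (X ∪ Y) = (eS R (X ∪ Y) - n) *
      ((eS R (X ∪ Y) + n) * P * eS R (X ∪ Y)) * (eS R (X ∪ Y) + n) := by
    rw [← Matrix.mul_assoc (_ - n), ← Matrix.mul_assoc (_ - n), hU.l, hP, Matrix.mul_assoc P,
      Matrix.mul_assoc P, hU.s1.mul_eS subset_rfl, hU.s1.eS_mul subset_rfl]
  rw [h1, ← Matrix.smul_mul, ← Matrix.mul_smul, h, hU.s2.mul_eS subset_rfl, hU.l]

end

theorem edge_map_add (M N : Matrix L L B) : (M + N).map π = M.map π + N.map π :=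
  Matrix.map_add π (map_add π) M N

theorem edge_map_sub (M N : Matrix L L B) : (M - N).map π = M.map π - N.map π :=
  Matrix.map_sub π (map_sub π) M N

theorem mv_edge [Infinite V] {x : Asg V L ℂ} {D0 : Diag O L V} {Q : St L} {u : Oˣ} {v : V} {b : Bool}
    {Ω Ω' : Finset L} {h β : Step O L V} {A C : List (Step O L V)} (hh : h.nontriv) (hβ : β.nontriv)
    (hW : WF (⟨Q, u, h :: A ++ Step.full v b Ω Ω' :: β :: C ++ [Step.full v (!b) Ω' Ω]⟩ ::ₘ D0))
    (hS : Sol x (⟨Q, u, h :: A ++ Step.full v b Ω Ω' :: β :: C ++ [Step.full v (!b) Ω' Ω]⟩ ::ₘ D0)) :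
    ∃ (x' : Asg V L ℂ) (s1 s2 s3 s4 : Step O L V), s1.nontriv ∧ s2.nontriv ∧ s3.nontriv ∧ s4.nontriv ∧
      Red π x (⟨Q, u, h :: A ++ Step.full v b Ω Ω' :: β :: C ++ [Step.full v (!b) Ω' Ω]⟩ ::ₘ D0) x'
        (⟨Q, u, h :: A ++ s1 :: s2 :: β :: C ++ [s3, s4]⟩ ::ₘ D0) := by
  classical
  -- the segments
  have hseg := hW.seg _ (Multiset.mem_cons_self _ _)
  obtain ⟨hs1, -, hsQ⟩ := seg_full.1 hseg
  obtain ⟨hsA, -, hsC⟩ := seg_full.1 hs1
  have hQ : Q.set = h.X ∪ h.Y := hsA.1.1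
  have hdh : Disjoint h.X h.Y := hsA.1.2.1
  have hdβ : Disjoint β.X β.Y := hsC.1.2.1
  obtain rfl : Ω = h.X ∪ h.Y := by
    have := hsQ.1
    rw [hQ] at this
    simpa [St.set] using this
  obtain rfl : Ω' = β.X ∪ β.Y := by simpa [St.set, Step.inS] using hsC.1.1
  -- the occurrences
  set c0 : Occ L V := ⟨v, b, h.X ∪ h.Y, β.X ∪ β.Y⟩ with hc0
  set N : Multiset (Occ L V) := occL (h :: A) + occL (β :: C) with hN
  have hocc : Face.occ (⟨Q, u, h :: A ++ Step.full v b (h.X ∪ h.Y) (β.X ∪ β.Y) :: β :: C ++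
      [Step.full v (!b) (β.X ∪ β.Y) (h.X ∪ h.Y)]⟩ : Face O L V) = {c0} + {c0.flip} + N := by
    simp only [Face.occ]
    rw [occL_append, occL_append, occL_cons (Step.full ..), occL_cons (Step.full ..), occL_nil,
      occ_full_of_nonempty _ _ _ (hh.1.mono Finset.subset_union_left),
      occ_full_of_nonempty _ _ _ (hβ.1.mono Finset.subset_union_left)]
    simp only [hN, hc0, Occ.flip]
    abel
  have hO := hW.occ
  rw [occD_cons, hocc, add_assoc] at hO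
  obtain ⟨hOM, hv⟩ := hO.remove
  obtain ⟨⟨hvar, hgap, heqn⟩, -⟩ := sol_cons.1 hS
  rw [hocc] at hvar
  have hNf : ∀ c ∈ N, c ∈ ({c0} + {c0.flip} + N : Multiset (Occ L V)) := fun c hc =>
    Multiset.mem_add.2 (Or.inr hc)
  have hNM : ∀ c ∈ N, c ∈ N + occD D0 := fun c hc => Multiset.mem_add.2 (Or.inl hc)
  have hDM : ∀ c ∈ occD D0, c ∈ N + occD D0 := fun c hc => Multiset.mem_add.2 (Or.inr hc)
  have hAN : ∀ c ∈ occL (h :: A), c ∈ N := fun c hc => Multiset.mem_add.2 (Or.inl hc)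
  have hCN : ∀ c ∈ occL (β :: C), c ∈ N := fun c hc => Multiset.mem_add.2 (Or.inr hc)
  have hz : PI (h.X ∪ h.Y) (β.X ∪ β.Y) (x v b) (x v (!b)) := hvar c0 (by simp)
  -- Bruhat decomposition
  obtain ⟨H, H', A', hA', hH, hF1, hF2⟩ :=
    bruhat (X := h.X) (X' := β.X) hz Finset.subset_union_left Finset.subset_union_left
  obtain ⟨Q', hAQ, hdA⟩ : ∃ Q', A' ∪ Q' = β.X ∪ β.Y ∧ Disjoint A' Q' :=
    ⟨_, Finset.union_sdiff_of_subset hA', Finset.disjoint_sdiff⟩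
  have hHz : PI (h.X ∪ h.Y) (A' ∪ Q') (H * x v b) (x v (!b) * H') := hAQ ▸ hz.trans hH
  obtain ⟨l1, l1', l2, l2', g1, hl1, hl2, hg1, hel⟩ := hF2.lin2 hHz hdh hdA
  obtain ⟨m1, m1', m2, m2', g2, hm1, hm2, hg2, hem⟩ := hF1.symm.lin2 hH.symm hdβ hdβ
  have hel' : x v (!b) * H' = (eS ℂ (h.X ∪ h.Y) - g1) * (l1' + l2') :=
    hHz.uniq (hel ▸ (flag_of_lin2 hl1 hl2 hg1 hdh hdA).1)
  have hem' : H = (eS ℂ (β.X ∪ β.Y) - g2) * (m1' + m2') :=
    hH.symm.uniq (hem ▸ (flag_of_lin2 hm1 hm2 hg2 hdβ hdβ).1)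
  have hel'' := hel'.trans (edge_inv hl1 hl2 hg1 hdh hdA)
  have hem'' := hem'.trans (edge_inv hm1 hm2 hg2 hdβ hdβ)
  have hg3 := (edge_sup hm1 hm2 hg2).neg
  have hg4 := (edge_sup hl1 hl2 hg1).neg
  have hA'n : A'.Nonempty := Finset.card_pos.1 (hl1.card_eq ▸ hh.1.card_pos)
  have hQ'n : Q'.Nonempty := Finset.card_pos.1 (hl2.card_eq ▸ hh.2.card_pos)
  -- fresh names
  obtain ⟨ν, hν, hf⟩ := exists_fresh (N + occD D0) (Fin 4)
  obtain ⟨x', hx', hxx⟩ := exists_asg x hν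
    fun i t => if t then ![l1', l2', m1', m2'] i else ![l1, l2, m1, m2] i
  have hx0 : x' (ν 0) false = l1 := hx' 0 false
  have hx0' : x' (ν 0) true = l1' := hx' 0 true
  have hx1 : x' (ν 1) false = l2 := hx' 1 false
  have hx1' : x' (ν 1) true = l2' := hx' 1 true
  have hx2 : x' (ν 2) false = m1 := hx' 2 false
  have hx2' : x' (ν 2) true = m1' := hx' 2 true
  have hx3 : x' (ν 3) false = m2 := hx' 3 false
  have hx3' : x' (ν 3) true = m2' := hx' 3 true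
  have hag : ∀ c ∈ N + occD D0, ∀ t, x c.v t = x' c.v t := fun c hc t => by
    rw [hxx c.v fun i => hf i c hc]
  set s1 := edgeS O h.X h.Y A' Q' (ν 0) (ν 1) false g1 with hs1d
  set s2 := edgeS O β.X β.Y β.X β.Y (ν 2) (ν 3) false g2 with hs2d
  set s3 := edgeS O β.X β.Y β.X β.Y (ν 2) (ν 3) true (-(m1 * g2 * m2')) with hs3d
  set s4 := edgeS O A' Q' h.X h.Y (ν 0) (ν 1) true (-(l1 * g1 * l2')) with hs4d
  set S : Multiset (Occ L V) := (slot (some (ν 0, false)) h.X A' + slot (some (ν 1, false)) h.Y Q' +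
      slot (some (ν 2, false)) β.X β.X + slot (some (ν 3, false)) β.Y β.Y) +
    (slot (some (ν 0, true)) A' h.X + slot (some (ν 1, true)) Q' h.Y +
      slot (some (ν 2, true)) β.X β.X + slot (some (ν 3, true)) β.Y β.Y) with hSd
  have hocc' : Face.occ (⟨Q, u, h :: A ++ s1 :: s2 :: β :: C ++ [s3, s4]⟩ : Face O L V) = S + N := by
    simp only [Face.occ]
    rw [occL_append, occL_append, occL_cons s1, occL_cons s2, occL_cons s3, occL_cons s4, occL_nil]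
    simp only [hN, hSd, hs1d, hs2d, hs3d, hs4d, edgeS, Step.occ]
    abel
  refine ⟨x', s1, s2, s3, s4, hh, hβ, hβ, ⟨hA'n, hQ'n⟩,
    Red.local1 hW hS ?_ ?_ (fun c hc => hag c (hDM c hc)) ?_ ?_ ?_ ?_⟩
  · refine seg_append.2 ⟨⟨β.X ∪ β.Y, ∅⟩, seg_append.2 ⟨⟨h.X ∪ h.Y, ∅⟩, hsA, ?_⟩, ?_⟩
    · exact edge_seg_cons rfl hAQ.symm hdh hdA hl1.card_eq hl2.card_eq
        (edge_seg_cons rfl rfl hdβ hdβ rfl rfl hsC)
    · exact edge_seg_cons rfl rfl hdβ hdβ rfl rfl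
        (edge_seg_cons hAQ.symm rfl hdA hdh hl1.card_eq.symm hl2.card_eq.symm hsQ)
  · have := hOM.add_slots hν hf ![h.X, h.Y, β.X, β.Y] ![A', Q', β.X, β.Y] (fun i => by
      fin_cases i
      · exact hl1.card_eq
      · exact hl2.card_eq
      · rfl
      · rfl)
    rw [Fin.sum_univ_four, Fin.sum_univ_four] at this
    rw [hocc', add_assoc]
    exact this
  · rw [hocc', varOK_add]
    refine ⟨?_, (hvar.mono hNf).congr fun c hc => hag c (hNM c hc)⟩
    simp only [hSd, varOK_add]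
    refine ⟨⟨⟨⟨varOK_slot ?_, varOK_slot ?_⟩, varOK_slot ?_⟩, varOK_slot ?_⟩,
      ⟨⟨varOK_slot ?_, varOK_slot ?_⟩, varOK_slot ?_⟩, varOK_slot ?_⟩ <;>
      simp only [Bool.not_false, Bool.not_true, hx0, hx0', hx1, hx1', hx2, hx2', hx3, hx3']
    exacts [hl1, hl2, hm1, hm2, hl1.symm, hl2.symm, hm1.symm, hm2.symm]
  · intro s hs
    simp only [List.mem_append, List.mem_cons, List.not_mem_nil, or_false] at hs hgap
    rcases hs with (hs | rfl | rfl | hs) | rfl | rfl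
    · exact hgap s (Or.inl (Or.inl hs))
    · exact hg1
    · exact hg2
    · exact hgap s (Or.inl (Or.inr (Or.inr hs)))
    · exact hg3
    · exact hg4
  · have e1 : s1.valG x' s1.n = H * x v b := by
      rw [hs1d, edge_val (hx0 ▸ hl1.s1) (hx1 ▸ hl2.s1), hx0, hx1, hel]; rfl
    have e2 : s2.valG x' s2.n = H' := by
      rw [hs2d, edge_val (hx2 ▸ hm1.s1) (hx3 ▸ hm2.s1), hx2, hx3, hem]; rfl
    have e3 : s3.valG x' s3.n = H := by
      rw [hs3d, edge_val (hx2' ▸ hm1.s2) (hx3' ▸ hm2.s2), hx2', hx3', hem'']; rfl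
    have e4 : s4.valG x' s4.n = x v (!b) * H' := by
      rw [hs4d, edge_val (hx0' ▸ hl1.s2) (hx1' ▸ hl2.s2), hx0', hx1', hel'']; rfl
    have eA : prodL x' (h :: A) = prodL x (h :: A) :=
      (prodL_congr fun c hc => hag c (hNM c (hAN c hc))).symm
    have eC : prodL x' (β :: C) = prodL x (β :: C) :=
      (prodL_congr fun c hc => hag c (hNM c (hCN c hc))).symm
    have key : prodL x' (h :: A ++ s1 :: s2 :: β :: C ++ [s3, s4]) =
        prodL x (h :: A ++ Step.full v b (h.X ∪ h.Y) (β.X ∪ β.Y) :: β :: C ++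
          [Step.full v (!b) (β.X ∪ β.Y) (h.X ∪ h.Y)]) := by
      have f1 : prodL x' (s1 :: s2 :: β :: C) = prodL x' (β :: C) * s2.valG x' s2.n * s1.valG x' s1.n := rfl
      have f2 : prodL x' [s3, s4] = 1 * s4.valG x' s4.n * s3.valG x' s3.n := rfl
      have f3 : prodL x (Step.full v b (h.X ∪ h.Y) (β.X ∪ β.Y) :: β :: C) =
          prodL x (β :: C) * (Step.full v b (h.X ∪ h.Y) (β.X ∪ β.Y) : Step O L V).valG x 0 := rfl
      have f4 : prodL x [(Step.full v (!b) (β.X ∪ β.Y) (h.X ∪ h.Y) : Step O L V)] =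
          1 * (Step.full v (!b) (β.X ∪ β.Y) (h.X ∪ h.Y) : Step O L V).valG x 0 := rfl
      rw [prodL_append, prodL_append, prodL_append, prodL_append, f1, f2, f3, f4, e1, e2, e3, e4, eA, eC,
        valG_full hz.s1, valG_full hz.s2, Matrix.one_mul, Matrix.one_mul, Matrix.mul_assoc (x v (!b)) H' H,
        hH.l, hz.s2.mul_eS subset_rfl, Matrix.mul_assoc _ H', ← Matrix.mul_assoc H' H, hH.l,
        hz.s1.eS_mul subset_rfl]
    have heqn' := heqn
    unfold Face.Eqn at heqn' ⊢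
    simp only [key]
    exact heqn'
  · intro y' p' hy' hv' hp' he'
    rw [hocc'] at hy' hv'
    have hSN : ∀ c ∈ N, c ∈ S + N := fun c hc => Multiset.mem_add.2 (Or.inr hc)
    have k0 : (⟨ν 0, false, h.X, A'⟩ : Occ L V) ∈ S + N := by simp [hSd, mem_slot, hh.1]
    have k1 : (⟨ν 1, false, h.Y, Q'⟩ : Occ L V) ∈ S + N := by simp [hSd, mem_slot, hh.2]
    have k2 : (⟨ν 2, false, β.X, β.X⟩ : Occ L V) ∈ S + N := by simp [hSd, mem_slot, hβ.1]
    have k3 : (⟨ν 3, false, β.Y, β.Y⟩ : Occ L V) ∈ S + N := by simp [hSd, mem_slot, hβ.2]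
    have j0 : PI h.X A' (y' (ν 0) false) (y' (ν 0) true) := hv' _ k0
    have j1 : PI h.Y Q' (y' (ν 1) false) (y' (ν 1) true) := hv' _ k1
    have j2 : PI β.X β.X (y' (ν 2) false) (y' (ν 2) true) := hv' _ k2
    have j3 : PI β.Y β.Y (y' (ν 3) false) (y' (ν 3) true) := hv' _ k3
    have i0' : (y' (ν 0) true).map π = l1' := (hy' _ k0 true).trans hx0'
    have i1 : (y' (ν 1) false).map π = l2 := (hy' _ k1 false).trans hx1
    have i1' : (y' (ν 1) true).map π = l2' := (hy' _ k1 true).trans hx1'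
    have i2 : (y' (ν 2) false).map π = m1 := (hy' _ k2 false).trans hx2
    have i2' : (y' (ν 2) true).map π = m1' := (hy' _ k2 true).trans hx2'
    have i3' : (y' (ν 3) true).map π = m2' := (hy' _ k3 true).trans hx3'
    obtain ⟨q1, q2, hq1, hq2, rfl⟩ := PL_append.1 hp'
    obtain ⟨qA, q3, ⟨ph, pA, hph, hpA, rfl⟩,
      ⟨p1, _, ⟨n1, hn1, hn1', rfl⟩, ⟨p2, _, ⟨n2, hn2, hn2', rfl⟩, ⟨pβ, pC, hpβ, hpC, rfl⟩, rfl⟩, rfl⟩, rfl⟩ :=
      PL_append.1 hq1
    obtain ⟨p3, _, ⟨n3, hn3, hn3', rfl⟩, ⟨p4, _, ⟨n4, hn4, hn4', rfl⟩, rfl, rfl⟩, rfl⟩ := hq2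
    replace hn1 : n1.map π = g1 := hn1
    replace hn2 : n2.map π = g2 := hn2
    replace hn3 : n3.map π = -(m1 * g2 * m2') := hn3
    replace hn4 : n4.map π = -(l1 * g1 * l2') := hn4
    replace hn1' : Sup h.X h.Y n1 := hn1'
    replace hn2' : Sup β.X β.Y n2 := hn2'
    replace hn3' : Sup β.X β.Y n3 := hn3'
    replace hn4' : Sup A' Q' n4 := hn4'
    have hP1 := (flag_of_lin2 j0 j1 hn1' hdh hdA).1
    have hP3 := (flag_of_lin2 j2.symm j3.symm hn3' hdβ hdβ).1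
    rw [hAQ] at hP1
    have hY := hP1.trans hP3.symm
    obtain ⟨y, hy, hyb, hyy⟩ := exists_asg1 y' v b
      ((eS B (β.X ∪ β.Y) - n3) * (y' (ν 2) false + y' (ν 3) false) *
        ((y' (ν 0) false + y' (ν 1) false) * (eS B (h.X ∪ h.Y) + n1)))
      ((eS B (h.X ∪ h.Y) - n1) * (y' (ν 0) true + y' (ν 1) true) *
        ((y' (ν 2) true + y' (ν 3) true) * (eS B (β.X ∪ β.Y) + n3)))
    rw [← hy, ← hyb] at hY
    have hag' : ∀ c ∈ N + occD D0, ∀ t, y' c.v t = y c.v t := fun c hc t => by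
      rw [hyy c.v (hv c hc)]
    have hm' : (y v (!b)).map π = x v (!b) := by
      rw [hyb, Matrix.map_mul, Matrix.map_mul, Matrix.map_mul, edge_map_add, edge_map_add, edge_map_add,
        edge_map_sub, eS_map, eS_map, hn1, hn3, i0', i1', i2', i3', ← hel', ← hem'', Matrix.mul_assoc, hH.l,
        hz.s2.mul_eS subset_rfl]
    have hm : (y v b).map π = x v b := hY.symm.map_inv hz.symm hm'
    have hwβ := (edge_sup j2 j3 hn2').add hn3'
    have hwh := (edge_sup j0.symm j1.symm hn4').add hn1'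
    have hwβ0 : (y' (ν 2) false * n2 * y' (ν 3) true + n3).map π = 0 := by
      rw [edge_map_add, Matrix.map_mul, Matrix.map_mul, i2, i3', hn2, hn3, add_neg_cancel]
    have hwh0 : (y' (ν 0) true * n4 * y' (ν 1) false + n1).map π = 0 := by
      rw [edge_map_add, Matrix.map_mul, Matrix.map_mul, i0', i1, hn4, hn1, edge_cancel hl1 hl2 hg1,
        neg_add_cancel]
    have e21 : s2.valG y' n2 * s1.valG y' n1 =
        (eS B (β.X ∪ β.Y) + (y' (ν 2) false * n2 * y' (ν 3) true + n3)) * y v b := by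
      rw [hs1d, hs2d, edge_val j0.s1 j1.s1, edge_val j2.s1 j3.s1, hy, edge_shift j2 j3 hn2' hn3' hdβ hdβ,
        Matrix.mul_assoc]
    have e43 : s4.valG y' n4 * s3.valG y' n3 =
        (eS B (h.X ∪ h.Y) + (y' (ν 0) true * n4 * y' (ν 1) false + n1)) * y v (!b) := by
      rw [hs3d, hs4d, edge_val j0.s2 j1.s2, edge_val j2.s2 j3.s2, hyb,
        edge_shift j0.symm j1.symm hn4' hn1' hdA hdh, Matrix.mul_assoc]
    have hPA : PL π y (h :: A) (pA * (ph * (eS B (h.X ∪ h.Y) + (y' (ν 0) true * n4 * y' (ν 1) false + n1)))) :=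
      PL.congr (l := h :: A) ⟨_, _, hph.absorb hdh hwh hwh0, hpA, rfl⟩ fun c hc => hag' c (hNM c (hAN c hc))
    have hPC : PL π y (β :: C) (pC * (pβ * (eS B (β.X ∪ β.Y) + (y' (ν 2) false * n2 * y' (ν 3) true + n3)))) :=
      PL.congr (l := β :: C) ⟨_, _, hpβ.absorb hdβ hwβ hwβ0, hpC, rfl⟩ fun c hc => hag' c (hNM c (hCN c hc))
    refine ⟨y, _, fun c hc => hag' c (hDM c hc), ?_, ?_,
      PL_append.2 ⟨_, _, PL_append.2 ⟨_, _, hPA, ⟨_, _, (SL_full hY.s1).2 rfl, hPC, rfl⟩, rfl⟩,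
        PL_single.2 ((SL_full hY.s2).2 rfl), rfl⟩, ?_⟩
    · rw [hocc]
      intro c hc t
      have hvb : ∀ t, (y v t).map π = x v t := fun t => by
        by_cases ht : t = b
        · rw [ht, hm]
        · rw [Bool.eq_not.2 ht, hm']
      simp only [Multiset.mem_add, Multiset.mem_singleton] at hc
      rcases hc with (rfl | rfl) | hc'
      · exact hvb t
      · exact hvb t
      · rw [← hag' c (hNM c hc'), hy' c (hSN c hc'), hag c (hNM c hc')]
    · rw [hocc, varOK_add, varOK_add]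
      refine ⟨⟨fun c hc => ?_, fun c hc => ?_⟩, (hv'.mono hSN).congr fun c hc => hag' c (hNM c hc)⟩
      · rw [Multiset.mem_singleton.1 hc]
        exact hY
      · rw [Multiset.mem_singleton.1 hc]
        simpa only [hc0, Occ.flip, Bool.not_not] using hY.symm
    · unfold Face.Eqn at he' ⊢
      simp only [hQ] at he' ⊢
      have := edge_cyc (c := algebraMap O B (u : O)) (P := y v (!b) *
        (pC * (pβ * (eS B (β.X ∪ β.Y) + (y' (ν 2) false * n2 * y' (ν 3) true + n3))) * y v b * (pA * ph)))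
        hdh hwh (by rw [← Matrix.mul_assoc, hY.s2.eS_mul subset_rfl]) (by
          rw [Matrix.one_mul, e43, Matrix.mul_assoc (pC * pβ), e21] at he'
          simpa only [Matrix.mul_assoc] using he')
      simpa only [Matrix.mul_assoc] using this

end Crest.Agent.R3
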