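import Crest.Agent.R3.Slide
import Crest.Agent.R3.Edge

/-!
# R3 / Comb : a normal face with a non-trivial step and a full step loses weight

`comb_aux`: strong induction on `M.length`, for all `A`, `v`, `b`, `Ω`, `Ω'`, `x`.  Write `z, z̄` for the two full
steps.  All labels sets are non-empty because `h` is non-trivial (`Seg.step`, `Seg.card_eq`).
* `M = []`: `mv_cancel`.
* `M = β :: C` with `β` non-trivial: `mv_edge` (non-trivial steps have weight `0`).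
* `M = y :: M'` with `y` full (normality).  Its partner `ȳ` is in the face (`partner_full`) and is different from
  `h, z, y, z̄` (`nodup` of names), so it is in `M'` or in `A`.
  - `M' = M1 ++ ȳ :: M2`: `mv_slide` with `P = h :: A`, `C = [z]` gives
    `h :: (A ++ y* :: M1 ++ [ȳ*]) ++ z :: M2 ++ [z̄]`, same weight, still normal, `M2` shorter.
  - `A = A1 ++ ȳ :: A2`: `mv_dup`, then `mv_slide` with `P = [h.dup]`, `C = h :: A1`, pair `(ȳ, y)`,
    `R = A2 ++ [z]`, `S = M' ++ [z̄]` gives `h.dup :: ȳ* :: A2 ++ z :: y* :: h :: A1 ++ M' ++ [z̄]`; then `mv_slide'`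
    for the pair `(z, z̄)` with `R = [y*]`, `C = h :: A1 ++ M'` gives
    `h.dup :: (ȳ* :: A2) ++ z* :: h :: (A1 ++ M' ++ [y*]) ++ [z̄*]`, and `mv_edge` applies.
`comb_main`: a list with a non-trivial and a full step, all steps being of one of the two kinds, has a rotation
`h :: W ++ [z̄]` with `h` non-trivial, `z̄` full (`mv_rot`); the partner of `z̄` is in `W`.
-/

set_option autoImplicit false

noncomputable section

open Matrix

namespace Crest.Agent.R3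

variable {O L V : Type} [CommRing O] [Fintype L] [DecidableEq L]
variable {B : Type} [CommRing B] [Algebra O B] [Algebra O ℂ] {π : B →ₐ[O] ℂ}

/-- the conclusion of `comb_main` -/
def CombG (π : B →ₐ[O] ℂ) (x : Asg V L ℂ) (f : Face O L V) (D0 : Diag O L V) : Prop :=
  ∃ (x' : Asg V L ℂ) (f' : Face O L V), f'.size = f.size ∧ f'.HasNT ∧ f'.wt < f.wt ∧
    Red π x (f ::ₘ D0) x' (f' ::ₘ D0)

theorem comb_step {x x1 : Asg V L ℂ} {f f1 : Face O L V} {D0 : Diag O L V}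
    (hR : Red π x (f ::ₘ D0) x1 (f1 ::ₘ D0)) (hs : f1.size = f.size) (hw : f1.wt ≤ f.wt)
    (h : CombG π x1 f1 D0) : CombG π x f D0 := by
  obtain ⟨x', f', h1, h2, h3, h4⟩ := h
  exact ⟨x', f', h1.trans hs, h2, h3.trans_le hw, hR.trans h4⟩

omit [Fintype L] [Algebra O ℂ] in
theorem comb_seg {f : Face O L V} {D0 : Diag O L V} (hW : WF (f ::ₘ D0)) : Seg f.Q f.l f.Q :=
  hW.seg f (Multiset.mem_cons_self _ _)

omit [Algebra O ℂ] in
theorem comb_pos {f : Face O L V} {D0 : Diag O L V} (hW : WF (f ::ₘ D0)) (hNT : f.HasNT) :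
    0 < f.size := by
  obtain ⟨h, h1, h2⟩ := hNT
  unfold Face.size
  rw [← ((comb_seg hW).step h1).2.2]
  exact Finset.card_pos.2 (h2.1.mono Finset.subset_union_left)

omit [Algebra O ℂ] in
theorem comb_ne {f : Face O L V} {D0 : Diag O L V} (hW : WF (f ::ₘ D0)) (hNT : f.HasNT) {v : V}
    {b : Bool} {Ω Ω' : Finset L} (h : Step.full v b Ω Ω' ∈ f.l) : Ω.Nonempty := by
  have h1 := ((comb_seg hW).step h).2.2
  have h2 := comb_pos hW hNT
  unfold Face.size at h2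
  rw [← h1] at h2
  simpa [Step.full] using h2

omit [Algebra O ℂ] in
theorem comb_nodup {Q : St L} {u : Oˣ} {l l1 l2 : List (Step O L V)} {D0 : Diag O L V}
    (hW : WF (⟨Q, u, l⟩ ::ₘ D0)) (hl : l = l1 ++ l2) {v : V} {b : Bool} {Ω Ω' : Finset L}
    (hne : Ω.Nonempty) (h1 : Step.full v b Ω Ω' ∈ l1) (h2 : Step.full v b Ω Ω' ∈ l2) : False := by
  have h := hW.occ
  rw [occD_cons, Face.occ, hl, occL_append, add_assoc] at h
  have m : ∀ l' : List (Step O L V), Step.full v b Ω Ω' ∈ l' → (⟨v, b, Ω, Ω'⟩ : Occ L V) ∈ occL l' :=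
    fun l' hl' => mem_occL.2 ⟨_, hl', by rw [occ_full_of_nonempty v b Ω' hne]; simp⟩
  exact h.disj (m l1 h1) (Multiset.mem_add.2 (Or.inl (m l2 h2))) rfl

omit [Fintype L] [DecidableEq L] [Algebra O ℂ] in
theorem comb_full_inj {v w : V} {b c : Bool} {Ω Ω' Θ Θ' : Finset L}
    (h : (Step.full v b Ω Ω' : Step O L V) = Step.full w c Θ Θ') :
    v = w ∧ b = c ∧ Ω = Θ ∧ Ω' = Θ' := by
  simp only [Step.full, Step.mk.injEq, Option.some.injEq, Prod.mk.injEq] at h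
  exact ⟨h.2.2.2.2.1.1, h.2.2.2.2.1.2, h.1, h.2.2.1⟩

theorem comb_edge [Infinite V] {x : Asg V L ℂ} {D0 : Diag O L V} {Q : St L} {u : Oˣ} {v : V}
    {b : Bool} {Ω Ω' : Finset L} {h β : Step O L V} {A C : List (Step O L V)} (hh : h.nontriv)
    (hβ : β.nontriv)
    (hW : WF (⟨Q, u, h :: A ++ Step.full v b Ω Ω' :: β :: C ++ [Step.full v (!b) Ω' Ω]⟩ ::ₘ D0))
    (hS : Sol x (⟨Q, u, h :: A ++ Step.full v b Ω Ω' :: β :: C ++ [Step.full v (!b) Ω' Ω]⟩ ::ₘ D0)) :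
    CombG π x ⟨Q, u, h :: A ++ Step.full v b Ω Ω' :: β :: C ++ [Step.full v (!b) Ω' Ω]⟩ D0 := by
  obtain ⟨x', s1, s2, s3, s4, h1, h2, h3, h4, hR⟩ := mv_edge (π := π) hh hβ hW hS
  refine ⟨x', ⟨Q, u, h :: A ++ s1 :: s2 :: β :: C ++ [s3, s4]⟩, rfl, ⟨h, by simp, hh⟩, ?_, hR⟩
  simp [Face.wt, wt_full, wt_nontriv h1, wt_nontriv h2, wt_nontriv h3, wt_nontriv h4]
  omega

theorem comb_aux' [Infinite V] (hG : Good π) {D0 : Diag O L V} {Q : St L} {u : Oˣ} {h : Step O L V}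
    (hh : h.nontriv) (hB : BigCl Q.set.card D0) (k : ℕ) : ∀ (M : List (Step O L V)), M.length < k →
    ∀ (A : List (Step O L V)) (v : V) (b : Bool) (Ω Ω' : Finset L) (x : Asg V L ℂ),
    (⟨Q, u, h :: A ++ Step.full v b Ω Ω' :: M ++ [Step.full v (!b) Ω' Ω]⟩ : Face O L V).Normal →
    WF (⟨Q, u, h :: A ++ Step.full v b Ω Ω' :: M ++ [Step.full v (!b) Ω' Ω]⟩ ::ₘ D0) →
    Sol x (⟨Q, u, h :: A ++ Step.full v b Ω Ω' :: M ++ [Step.full v (!b) Ω' Ω]⟩ ::ₘ D0) →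
    CombG π x ⟨Q, u, h :: A ++ Step.full v b Ω Ω' :: M ++ [Step.full v (!b) Ω' Ω]⟩ D0 := by
  induction k with
  | zero => intro M hM; omega
  | succ k ih =>
  intro M hM A v b Ω Ω' x hN hW hS
  have hNT : (⟨Q, u, h :: A ++ Step.full v b Ω Ω' :: M ++ [Step.full v (!b) Ω' Ω]⟩ :
      Face O L V).HasNT := ⟨h, by simp, hh⟩
  have hΩ : Ω.Nonempty := comb_ne hW hNT (v := v) (b := b) (Ω' := Ω') (by simp)
  have hΩ' : Ω'.Nonempty := comb_ne hW hNT (v := v) (b := !b) (Ω' := Ω) (by simp)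
  rcases M with _ | ⟨y, M'⟩
  · have e : h :: A ++ [Step.full v b Ω Ω'] ++ [Step.full v (!b) Ω' Ω] =
        h :: A ++ Step.full v b Ω Ω' :: Step.full v (!b) Ω' Ω :: [] := by simp
    rw [e] at hW hS ⊢
    refine ⟨x, ⟨Q, u, h :: A ++ []⟩, rfl, ⟨h, by simp, hh⟩, ?_, mv_cancel hG hΩ hW hS⟩
    simp [Face.wt, wt_full]
  rcases hN y (by simp) with hy | ⟨w, c, Θ, Θ', rfl⟩
  · exact comb_edge hh hy hW hS
  have hΘ : Θ.Nonempty := comb_ne hW hNT (v := w) (b := c) (Ω' := Θ') (by simp)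
  have hp := partner_full hW hB hN (comb_pos hW hNT) (v := w) (b := c) (Ω := Θ) (Ω' := Θ') (by simp)
  have hΘ' : Θ'.Nonempty := comb_ne hW hNT hp
  simp only [List.cons_append, List.mem_cons, List.mem_append, List.not_mem_nil, or_false] at hp
  rcases hp with hp | (hp | hp | hp | hp) | hp
  · exact absurd (hp ▸ hh) (not_nontriv_full _ _ _ _)
  · -- the partner is in `A`
    obtain ⟨A1, A2, rfl⟩ := List.append_of_mem hp
    have e0 : h :: (A1 ++ Step.full w (!c) Θ' Θ :: A2) ++ Step.full v b Ω Ω' ::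
        Step.full w c Θ Θ' :: M' ++ [Step.full v (!b) Ω' Ω] =
        h :: (A1 ++ Step.full w (!c) Θ' Θ :: A2 ++ Step.full v b Ω Ω' ::
        Step.full w c Θ Θ' :: M' ++ [Step.full v (!b) Ω' Ω]) := by simp
    rw [e0] at hW hS ⊢
    have R1 := mv_dup (π := π) hW hS
    have hd : h.dup.nontriv := hh
    refine comb_step R1 rfl (by simp [Face.wt, wt_nontriv hd]) ?_
    have W1 := R1.wf
    have S1 := R1.sol
    have hP : Seg Q [h.dup] ⟨h.X ∪ h.Y, ∅⟩ := by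
      have := comb_seg W1
      refine seg_single.2 ⟨this.1, this.2.1, by simp [St.set, Step.dup], by simp, ?_⟩
      intro i _ j _ _ _
      rfl
    have e1 : h.dup :: h :: (A1 ++ Step.full w (!c) Θ' Θ :: A2 ++ Step.full v b Ω Ω' ::
        Step.full w c Θ Θ' :: M' ++ [Step.full v (!b) Ω' Ω]) =
        [h.dup] ++ (h :: A1) ++ Step.full w (!c) Θ' Θ :: (A2 ++ [Step.full v b Ω Ω']) ++
          Step.full w (!!c) Θ Θ' :: (M' ++ [Step.full v (!b) Ω' Ω]) := by simp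
    rw [e1] at W1 S1 ⊢
    obtain ⟨x2, R2⟩ := mv_slide (π := π) hΘ' W1 S1 hP
    refine comb_step R2 rfl (by simp [Face.wt, wt_full]; omega) ?_
    have W2 := R2.wf
    have S2 := R2.sol
    have e2 : [h.dup] ++ Step.full w (!c) (h.X ∪ h.Y) Θ :: (A2 ++ [Step.full v b Ω Ω']) ++
        Step.full w (!!c) Θ (h.X ∪ h.Y) :: (h :: A1) ++ (M' ++ [Step.full v (!b) Ω' Ω]) =
        (h.dup :: Step.full w (!c) (h.X ∪ h.Y) Θ :: A2) ++ Step.full v b Ω Ω' ::
          [Step.full w (!!c) Θ (h.X ∪ h.Y)] ++ (h :: A1 ++ M') ++ Step.full v (!b) Ω' Ω :: [] := by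
      simp
    rw [e2] at W2 S2 ⊢
    have hR : Seg ⟨Ω', ∅⟩ [(Step.full w (!!c) Θ (h.X ∪ h.Y) : Step O L V)] ⟨h.X ∪ h.Y, ∅⟩ := by
      have s1 := comb_seg W2
      have e3 : (h.dup :: Step.full w (!c) (h.X ∪ h.Y) Θ :: A2) ++ Step.full v b Ω Ω' ::
          [Step.full w (!!c) Θ (h.X ∪ h.Y)] ++ (h :: A1 ++ M') ++ Step.full v (!b) Ω' Ω :: [] =
          (h.dup :: Step.full w (!c) (h.X ∪ h.Y) Θ :: A2) ++ Step.full v b Ω Ω' ::
          ([] ++ Step.full w (!!c) Θ (h.X ∪ h.Y) :: (h :: A1 ++ M' ++ [Step.full v (!b) Ω' Ω])) := by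
        simp
      simp only [] at s1
      rw [e3] at s1
      have s2 := seg_full.1 (seg_full.1 s1).2.2
      exact (seg_full (l1 := []) (l2 := [])).2 ⟨s2.1, s2.2.1, St.le_refl (by simp)⟩
    obtain ⟨x3, R3⟩ := mv_slide' (π := π) hΩ W2 S2 hR
    refine comb_step R3 rfl (by simp [Face.wt, wt_full]; omega) ?_
    have W3 := R3.wf
    have S3 := R3.sol
    have e4 : (h.dup :: Step.full w (!c) (h.X ∪ h.Y) Θ :: A2) ++ Step.full v b Ω (h.X ∪ h.Y) ::
        (h :: A1 ++ M') ++ [Step.full w (!!c) Θ (h.X ∪ h.Y)] ++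
          Step.full v (!b) (h.X ∪ h.Y) Ω :: [] =
        h.dup :: (Step.full w (!c) (h.X ∪ h.Y) Θ :: A2) ++ Step.full v b Ω (h.X ∪ h.Y) :: h ::
          (A1 ++ M' ++ [Step.full w (!!c) Θ (h.X ∪ h.Y)]) ++ [Step.full v (!b) (h.X ∪ h.Y) Ω] := by
      simp
    rw [e4] at W3 S3 ⊢
    exact comb_edge hd hh W3 S3
  · obtain ⟨rfl, rfl, rfl, rfl⟩ := comb_full_inj hp
    exact (comb_nodup hW (l1 := h :: A ++ [Step.full w (!c) Θ' Θ, Step.full w c Θ Θ'])
      (l2 := M' ++ [Step.full w (!!c) Θ Θ']) (by simp) hΘ (v := w) (b := c) (Ω' := Θ') (by simp)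
      (by simp)).elim
  · exact absurd (comb_full_inj hp).2.1 (by cases c <;> simp)
  · -- the partner is in `M'`
    obtain ⟨M1, M2, rfl⟩ := List.append_of_mem hp
    have hP : Seg Q (h :: A) ⟨Ω, ∅⟩ := by
      have s1 := comb_seg hW
      simp only [List.append_assoc] at s1
      exact (seg_full.1 s1).1
    have e1 : h :: A ++ Step.full v b Ω Ω' :: Step.full w c Θ Θ' ::
        (M1 ++ Step.full w (!c) Θ' Θ :: M2) ++ [Step.full v (!b) Ω' Ω] =
        (h :: A) ++ [Step.full v b Ω Ω'] ++ Step.full w c Θ Θ' :: M1 ++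
          Step.full w (!c) Θ' Θ :: (M2 ++ [Step.full v (!b) Ω' Ω]) := by simp
    rw [e1] at hW hS hN ⊢
    obtain ⟨x2, R2⟩ := mv_slide (π := π) hΘ hW hS hP
    refine comb_step R2 rfl (by simp [Face.wt, wt_full]; omega) ?_
    have W2 := R2.wf
    have S2 := R2.sol
    have e2 : (h :: A) ++ Step.full w c Ω Θ' :: M1 ++ Step.full w (!c) Θ' Ω ::
        [Step.full v b Ω Ω'] ++ (M2 ++ [Step.full v (!b) Ω' Ω]) =
        h :: (A ++ Step.full w c Ω Θ' :: M1 ++ [Step.full w (!c) Θ' Ω]) ++ Step.full v b Ω Ω' ::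
          M2 ++ [Step.full v (!b) Ω' Ω] := by simp
    rw [e2] at W2 S2 ⊢
    refine ih M2 (by simp at hM; omega) _ v b Ω Ω' x2 (fun s hs => ?_) W2 S2
    simp only [List.cons_append, List.mem_cons, List.mem_append, List.not_mem_nil, or_false] at hs
    rcases hs with rfl | (((hs | rfl | hs) | rfl) | rfl | hs) | rfl
    · exact Or.inl hh
    · exact hN s (by simp [hs])
    · exact Or.inr ⟨_, _, _, _, rfl⟩
    · exact hN s (by simp [hs])
    · exact Or.inr ⟨_, _, _, _, rfl⟩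
    · exact Or.inr ⟨_, _, _, _, rfl⟩
    · exact hN s (by simp [hs])
    · exact Or.inr ⟨_, _, _, _, rfl⟩
  · obtain ⟨rfl, hcb, rfl, rfl⟩ := comb_full_inj hp
    obtain rfl : c = b := by simpa using hcb
    exact (comb_nodup hW (l1 := h :: A ++ [Step.full w c Θ Θ'])
      (l2 := Step.full w c Θ Θ' :: M' ++ [Step.full w (!c) Θ' Θ]) (by simp) hΘ (v := w) (b := c)
      (Ω' := Θ') (by simp) (by simp)).elim

theorem comb_aux [Infinite V] (hG : Good π) {D0 : Diag O L V} {Q : St L} {u : Oˣ} {h : Step O L V}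
    (hh : h.nontriv) (hB : BigCl Q.set.card D0) (M A : List (Step O L V)) (v : V) (b : Bool)
    (Ω Ω' : Finset L) (x : Asg V L ℂ)
    (hN : (⟨Q, u, h :: A ++ Step.full v b Ω Ω' :: M ++ [Step.full v (!b) Ω' Ω]⟩ : Face O L V).Normal)
    (hW : WF (⟨Q, u, h :: A ++ Step.full v b Ω Ω' :: M ++ [Step.full v (!b) Ω' Ω]⟩ ::ₘ D0))
    (hS : Sol x (⟨Q, u, h :: A ++ Step.full v b Ω Ω' :: M ++ [Step.full v (!b) Ω' Ω]⟩ ::ₘ D0)) :
    ∃ (x' : Asg V L ℂ) (f' : Face O L V), f'.size = Q.set.card ∧ f'.HasNT ∧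
      f'.wt < (⟨Q, u, h :: A ++ Step.full v b Ω Ω' :: M ++ [Step.full v (!b) Ω' Ω]⟩ : Face O L V).wt ∧
      Red π x (⟨Q, u, h :: A ++ Step.full v b Ω Ω' :: M ++ [Step.full v (!b) Ω' Ω]⟩ ::ₘ D0) x'
        (f' ::ₘ D0) := by
  exact comb_aux' hG hh hB _ M (Nat.lt_succ_self _) A v b Ω Ω' x hN hW hS

theorem comb_end [Infinite V] (hG : Good π) {x : Asg V L ℂ} {D0 : Diag O L V} {Q : St L} {u : Oˣ}
    {h z : Step O L V} {W : List (Step O L V)} (hh : h.nontriv) (hz : z.IsFull)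
    (hB : BigCl Q.set.card D0) (hN : (⟨Q, u, h :: W ++ [z]⟩ : Face O L V).Normal)
    (hW : WF (⟨Q, u, h :: W ++ [z]⟩ ::ₘ D0)) (hS : Sol x (⟨Q, u, h :: W ++ [z]⟩ ::ₘ D0)) :
    CombG π x ⟨Q, u, h :: W ++ [z]⟩ D0 := by
  obtain ⟨v, b, Ω, Ω', rfl⟩ := hz
  have hp := partner_full hW hB hN (comb_pos hW ⟨h, by simp, hh⟩) (v := v) (b := b) (Ω := Ω)
    (Ω' := Ω') (by simp)
  simp only [List.cons_append, List.mem_cons, List.mem_append, List.not_mem_nil, or_false] at hp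
  rcases hp with hp | hp | hp
  · exact absurd (hp ▸ hh) (not_nontriv_full _ _ _ _)
  · obtain ⟨A, M, rfl⟩ := List.append_of_mem hp
    have e : h :: (A ++ Step.full v (!b) Ω' Ω :: M) ++ [Step.full v b Ω Ω'] =
        h :: A ++ Step.full v (!b) Ω' Ω :: M ++ [Step.full v (!!b) Ω Ω'] := by simp
    rw [e] at hN hW hS ⊢
    exact comb_aux hG hh hB M A v (!b) Ω' Ω x hN hW hS
  · exact absurd (comb_full_inj hp).2.1 (by cases b <;> simp)

theorem comb_rot {x : Asg V L ℂ} {D0 : Diag O L V} {Q : St L} {u : Oˣ}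
    {A C : List (Step O L V)} (hW : WF (⟨Q, u, A ++ C⟩ ::ₘ D0)) (hS : Sol x (⟨Q, u, A ++ C⟩ ::ₘ D0))
    (h : ∀ Q' : St L, Q'.set.card = Q.set.card → WF (⟨Q', u, C ++ A⟩ ::ₘ D0) →
      Sol x (⟨Q', u, C ++ A⟩ ::ₘ D0) → CombG π x ⟨Q', u, C ++ A⟩ D0) :
    CombG π x ⟨Q, u, A ++ C⟩ D0 := by
  obtain ⟨Q', h1, R⟩ := mv_rot (π := π) hW hS
  exact comb_step R h1 (by simp [Face.wt, add_comm]) (h Q' h1 R.wf R.sol)

theorem comb_first {α : Type} {P : α → Prop} : ∀ {l : List α}, (∃ s ∈ l, P s) →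
    ∃ F h G, l = F ++ h :: G ∧ P h ∧ ∀ s ∈ F, ¬ P s
  | [], h => by simp at h
  | a :: l, h => by
    by_cases ha : P a
    · exact ⟨[], a, l, rfl, ha, by simp⟩
    · obtain ⟨F, h', G, e, h1, h2⟩ := comb_first (P := P) (l := l) (by simpa [ha] using h)
      exact ⟨a :: F, h', G, by rw [e]; rfl, h1, by simpa [ha] using h2⟩

theorem comb_main [Infinite V] (hG : Good π) {x : Asg V L ℂ} {f : Face O L V} {D0 : Diag O L V}
    (hW : WF (f ::ₘ D0)) (hS : Sol x (f ::ₘ D0)) (hB : BigCl f.size D0) (hN : f.Normal) (hNT : f.HasNT)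
    (hF : ∃ s ∈ f.l, s.IsFull) :
    ∃ (x' : Asg V L ℂ) (f' : Face O L V), f'.size = f.size ∧ f'.HasNT ∧ f'.wt < f.wt ∧
      Red π x (f ::ₘ D0) x' (f' ::ₘ D0) := by
  obtain ⟨Q, u, l⟩ := f
  obtain ⟨z, hz, hzF⟩ := hF
  obtain ⟨A, C, rfl⟩ := List.append_of_mem hz
  have hznt : ¬ z.nontriv := by
    obtain ⟨v, b, Ω, Ω', rfl⟩ := hzF
    exact not_nontriv_full _ _ _ _
  have hex : ∃ s ∈ C ++ A, s.nontriv := by
    obtain ⟨s, hs, hs'⟩ := hNT
    simp only [List.mem_append, List.mem_cons] at hs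
    rcases hs with hs | rfl | hs
    · exact ⟨s, by simp [hs], hs'⟩
    · exact absurd hs' hznt
    · exact ⟨s, by simp [hs], hs'⟩
  obtain ⟨F, h, G, e, hh, hFn⟩ := comb_first hex
  have hmem : ∀ s ∈ F ++ h :: G, s.nontriv ∨ s.IsFull := by
    intro s hs
    rw [← e] at hs
    exact hN s (by simp only [List.mem_append, List.mem_cons] at hs ⊢; tauto)
  have e1 : A ++ z :: C = (A ++ [z]) ++ C := by simp
  show CombG π x ⟨Q, u, A ++ z :: C⟩ D0
  rw [e1] at hW hS ⊢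
  refine comb_rot hW hS fun Q1 hQ1 W1 S1 => ?_
  have e2 : C ++ (A ++ [z]) = F ++ (h :: G ++ [z]) := by
    rw [← List.append_assoc, e]; simp
  rw [e2] at W1 S1 ⊢
  refine comb_rot W1 S1 fun Q2 hQ2 W2 S2 => ?_
  have hB2 : BigCl Q2.set.card D0 := by rw [hQ2, hQ1]; exact hB
  have hN2 : ∀ s ∈ h :: G ++ [z] ++ F, s.nontriv ∨ s.IsFull := by
    intro s hs
    simp only [List.cons_append, List.mem_append, List.mem_cons, List.not_mem_nil, or_false] at hs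
    rcases hs with rfl | (hs | rfl) | hs
    · exact Or.inl hh
    · exact hmem s (by simp [hs])
    · exact Or.inr hzF
    · exact hmem s (by simp [hs])
  rcases F.eq_nil_or_concat with rfl | ⟨F', z1, rfl⟩
  · rw [List.append_nil] at W2 S2 hN2 ⊢
    exact comb_end hG hh hzF hB2 hN2 W2 S2
  · have e3 : h :: G ++ [z] ++ F'.concat z1 = h :: (G ++ z :: F') ++ [z1] := by simp
    rw [e3] at W2 S2 hN2 ⊢
    exact comb_end hG hh ((hmem z1 (by simp)).resolve_left (hFn z1 (by simp))) hB2 hN2 W2 S2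

end Crest.Agent.R3
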