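import Crest.Agent.R3.Burn

/-!
# R3 / Decomp : completely reducible families are block diagonal with irreducible blocks

It may be convenient to view `ι → ℂ` as a module over `FreeAlgebra ℂ κ` (type synonym) and to use Mathlib's
`IsSemisimpleModule`.  Directly: `ss_decomp` by induction on the dimension for invariant subspaces (take a minimal
non-zero invariant subspace and an invariant complement; an invariant subspace of an `SS` family is `SS`), or: a
maximal independent family of minimal invariant subspaces spans.  `ss_of_sup`: if `⊤` is the sum of finitely many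
minimal invariant subspaces `U k`, then for an invariant `W` a maximal invariant `W'` with `W ⊓ W' = ⊥` is a complement
(if `U k ⊄ W ⊔ W'` then `U k ⊓ (W ⊔ W') = ⊥` and `W' ⊔ U k` is bigger).
-/

set_option autoImplicit false

noncomputable section

open Matrix

namespace Crest.Agent.R3

variable {κ ι ι' : Type} [Fintype ι] [DecidableEq ι] [Fintype ι'] [DecidableEq ι']

/-- invariant subspace -/
private def dcI (A : κ → Matrix ι ι ℂ) (W : Submodule ℂ (ι → ℂ)) : Prop :=
  ∀ k, ∀ v ∈ W, (A k).mulVec v ∈ W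

omit [DecidableEq ι] in
private theorem dcI_sup {A : κ → Matrix ι ι ℂ} {W W' : Submodule ℂ (ι → ℂ)} (h : dcI A W)
    (h' : dcI A W') : dcI A (W ⊔ W') := by
  intro k v hv
  obtain ⟨a, ha, b, hb, rfl⟩ := Submodule.mem_sup.1 hv
  rw [mulVec_add]
  exact Submodule.add_mem_sup (h k a ha) (h' k b hb)

omit [DecidableEq ι] in
private theorem dc_fam {A : κ → Matrix ι ι ℂ} (h : SS A) (W : Submodule ℂ (ι → ℂ)) :
    dcI A W → ∃ s : Finset (Submodule ℂ (ι → ℂ)), s.SupIndep id ∧ s.sup id = W ∧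
      ∀ U ∈ s, dcI A U ∧ U ≠ ⊥ ∧ ∀ U' ≤ U, dcI A U' → U' = ⊥ ∨ U' = U := by
  classical
  induction W using WellFoundedLT.induction with
  | ind W ih =>
    intro hW
    by_cases h0 : W = ⊥
    · exact ⟨∅, by simp, by simp [h0], by simp⟩
    obtain ⟨U, ⟨hU1, hU2, hU3⟩, hU⟩ := (wellFounded_lt (α := Submodule ℂ (ι → ℂ))).has_min
      {U | dcI A U ∧ U ≠ ⊥ ∧ U ≤ W} ⟨W, hW, h0, le_rfl⟩
    obtain ⟨U', hU', hc⟩ := h U hU1
    have hd : Disjoint U (U' ⊓ W) := hc.disjoint.mono_right inf_le_left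
    have hs : U ⊔ U' ⊓ W = W := by rw [← sup_inf_assoc_of_le _ hU3, hc.sup_eq_top, top_inf_eq]
    have hlt : U' ⊓ W < W := by
      refine lt_of_le_of_ne inf_le_right fun he => hU2 ?_
      rw [he] at hd
      exact hd.eq_bot_of_le hU3
    obtain ⟨s, h1, h2, h3⟩ := ih _ hlt fun k v hv => ⟨hU' k v hv.1, hW k v hv.2⟩
    refine ⟨insert U s, h1.insert (by rw [h2]; exact hd), by rw [Finset.sup_insert, h2]; exact hs,
      fun V hV => ?_⟩
    rcases Finset.mem_insert.1 hV with rfl | hV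
    · refine ⟨hU1, hU2, fun V' hV' hI => ?_⟩
      by_contra hn
      push Not at hn
      exact hU V' ⟨hI, hn.1, hV'.trans hU3⟩ (lt_of_le_of_ne hV' hn.2)
    · exact h3 V hV

theorem SS.iso {A : κ → Matrix ι ι ℂ} {A' : κ → Matrix ι' ι' ℂ} (h : SS A) {φ : Matrix ι' ι ℂ}
    {φ' : Matrix ι ι' ℂ} (h1 : φ * φ' = 1) (h2 : φ' * φ = 1) (hI : Intw A A' φ) : SS A' := by
  have hI' : ∀ k, φ' * A' k = A k * φ' := fun k => by
    calc φ' * A' k = φ' * (A' k * φ) * φ' := by
          rw [Matrix.mul_assoc, Matrix.mul_assoc, h1, Matrix.mul_one]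
      _ = A k * φ' := by rw [← hI k, ← Matrix.mul_assoc, h2, Matrix.one_mul]
  intro W hW
  obtain ⟨U, hU, hc⟩ := h (W.comap φ.mulVecLin) fun k v hv => by
    show φ *ᵥ (A k *ᵥ v) ∈ W
    rw [mulVec_mulVec, hI k, ← mulVec_mulVec]
    exact hW k _ hv
  refine ⟨U.comap φ'.mulVecLin, fun k v hv => ?_, ?_, ?_⟩
  · show φ' *ᵥ (A' k *ᵥ v) ∈ U
    rw [mulVec_mulVec, hI' k, ← mulVec_mulVec]
    exact hU k _ hv
  · rw [Submodule.disjoint_def]
    intro x hx hx'
    have e : φ *ᵥ (φ' *ᵥ x) = x := by rw [mulVec_mulVec, h1, one_mulVec]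
    have := Submodule.disjoint_def.1 hc.disjoint (φ' *ᵥ x) (by
      show φ *ᵥ (φ' *ᵥ x) ∈ W
      rwa [e]) hx'
    rw [← e, this, mulVec_zero]
  · rw [codisjoint_iff, eq_top_iff]
    intro x _
    have hx : φ' *ᵥ x ∈ W.comap φ.mulVecLin ⊔ U := by rw [hc.sup_eq_top]; trivial
    obtain ⟨a, ha, b, hb, hab⟩ := Submodule.mem_sup.1 hx
    refine Submodule.mem_sup.2 ⟨φ *ᵥ a, ha, φ *ᵥ b, ?_, ?_⟩
    · show φ' *ᵥ (φ *ᵥ b) ∈ U
      rwa [mulVec_mulVec, h2, one_mulVec]
    · rw [← mulVec_add, hab, mulVec_mulVec, h1, one_mulVec]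

theorem SS.smul {A : κ → Matrix ι ι ℂ} (h : SS A) (t : κ → ℂ) (ht : ∀ k, t k ≠ 0) :
    SS fun k => t k • A k := by
  intro W hW
  obtain ⟨U, hU, hc⟩ := h W fun k v hv => by
    have := W.smul_mem (t k)⁻¹ (hW k v hv)
    rwa [smul_mulVec, smul_smul, inv_mul_cancel₀ (ht k), one_smul] at this
  refine ⟨U, fun k v hv => ?_, hc⟩
  rw [smul_mulVec]
  exact U.smul_mem _ (hU k v hv)

theorem ss_decomp {A : κ → Matrix ι ι ℂ} (h : SS A) :
    ∃ (t : ℕ) (n : Fin t → ℕ) (S : ∀ k : Fin t, κ → Matrix (Fin (n k)) (Fin (n k)) ℂ)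
      (φ : Matrix (Σ k : Fin t, Fin (n k)) ι ℂ) (φ' : Matrix ι (Σ k : Fin t, Fin (n k)) ℂ),
      (∀ k, Irr (S k)) ∧ φ * φ' = 1 ∧ φ' * φ = 1 ∧
        Intw A (fun v => blockDiagonal' fun k => S k v) φ := by
  classical
  obtain ⟨s, h1, h2, h3⟩ := dc_fam h ⊤ fun _ _ _ => trivial
  let U : Fin s.card → Submodule ℂ (ι → ℂ) := fun k => (s.equivFin.symm k : Submodule ℂ (ι → ℂ))
  have hU : ∀ k, U k ∈ s := fun k => (s.equivFin.symm k).2
  have hInt : DirectSum.IsInternal U := by
    rw [DirectSum.isInternal_submodule_iff_iSupIndep_and_iSup_eq_top]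
    refine ⟨h1.independent.comp s.equivFin.symm.injective, ?_⟩
    rw [eq_top_iff, ← h2, Finset.sup_le_iff]
    intro V hV
    refine le_iSup_of_le (s.equivFin ⟨V, hV⟩) ?_
    simp [U]
  let b := fun k => Module.finBasis ℂ (U k)
  have hm : ∀ v k, Set.MapsTo (Matrix.toLin' (A v)) (U k) (U k) := fun v k x hx =>
    (h3 _ (hU k)).1 v x hx
  let c := hInt.collectedBasis b
  let e := Pi.basisFun ℂ ι
  refine ⟨s.card, fun k => Module.finrank ℂ (U k),
    fun k v => LinearMap.toMatrix (b k) (b k) ((Matrix.toLin' (A v)).restrict (hm v k)),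
    c.toMatrix e, e.toMatrix c, fun k => ⟨?_, fun W hW => ?_⟩, c.toMatrix_mul_toMatrix_flip e,
    e.toMatrix_mul_toMatrix_flip c, fun v => ?_⟩
  · have : Nontrivial (U k) := Submodule.nontrivial_iff_ne_bot.2 (h3 _ (hU k)).2.1
    exact ⟨⟨0, Module.finrank_pos⟩⟩
  · let L : (Fin (Module.finrank ℂ (U k)) → ℂ) →ₗ[ℂ] (ι → ℂ) :=
      (U k).subtype ∘ₗ (b k).equivFun.symm.toLinearMap
    have hL : Function.Injective L := (U k).injective_subtype.comp (b k).equivFun.symm.injective
    have hr : Submodule.map L ⊤ = U k := by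
      rw [Submodule.map_comp, Submodule.map_top, LinearEquiv.range, Submodule.map_top,
        Submodule.range_subtype]
    have hA : ∀ v x, A v *ᵥ L x =
        L (LinearMap.toMatrix (b k) (b k) ((Matrix.toLin' (A v)).restrict (hm v k)) *ᵥ x) := fun v x => by
      obtain ⟨y, rfl⟩ := (b k).equivFun.surjective x
      have := LinearMap.toMatrix_mulVec_repr (b k) (b k) ((Matrix.toLin' (A v)).restrict (hm v k)) y
      rw [← Module.Basis.equivFun_apply, ← Module.Basis.equivFun_apply] at this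
      rw [this]
      simp only [L, LinearMap.comp_apply, LinearEquiv.coe_coe, LinearEquiv.symm_apply_apply]
      rfl
    rcases (h3 _ (hU k)).2.2 (W.map L) ((Submodule.map_mono le_top).trans hr.le) (by
      rintro v _ ⟨x, hx, rfl⟩
      exact ⟨_, hW v x hx, (hA v x).symm⟩) with h4 | h4
    · left
      exact Submodule.map_injective_of_injective hL (by rw [h4, Submodule.map_bot])
    · right
      exact Submodule.map_injective_of_injective hL (by rw [h4, hr])
  · have e1 : A v = LinearMap.toMatrix e e (Matrix.toLin' (A v)) := by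
      rw [LinearMap.toMatrix_eq_toMatrix', LinearMap.toMatrix'_toLin']
    dsimp only
    rw [← LinearMap.toMatrix_directSum_collectedBasis_eq_blockDiagonal' hInt hInt b b (hm v),
      linearMap_toMatrix_mul_basis_toMatrix]
    conv_lhs => rw [e1]
    rw [basis_toMatrix_mul_linearMap_toMatrix]

theorem ss_of_blocks {t : ℕ} {n : Fin t → ℕ} {S : ∀ k : Fin t, κ → Matrix (Fin (n k)) (Fin (n k)) ℂ}
    (h : ∀ k, Irr (S k)) : SS fun v => blockDiagonal' fun k => S k v := by
  classical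
  intro W hW
  set D : κ → Matrix (Σ k : Fin t, Fin (n k)) (Σ k : Fin t, Fin (n k)) ℂ :=
    fun v => blockDiagonal' fun k => S k v with hD
  let E : ∀ k : Fin t, Matrix (Σ k : Fin t, Fin (n k)) (Fin (n k)) ℂ := fun k =>
    (1 : Matrix (Σ k : Fin t, Fin (n k)) (Σ k : Fin t, Fin (n k)) ℂ).submatrix id fun i => ⟨k, i⟩
  have hE : ∀ k v, D v * E k = E k * S k v := fun k v => by
    ext ⟨k', i⟩ j
    simp only [E, mul_apply, submatrix_apply, id, one_apply, mul_ite, mul_one, mul_zero,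
      Finset.sum_ite_eq', Finset.mem_univ, if_true, ite_mul, one_mul, zero_mul, hD]
    by_cases hk : k' = k
    · subst hk
      simp
    · rw [blockDiagonal'_apply_ne _ _ _ hk]
      symm
      refine Finset.sum_eq_zero fun l _ => if_neg fun h => hk (congrArg Sigma.fst h)
  have hsum : ∀ y : (Σ k : Fin t, Fin (n k)) → ℂ, y = ∑ k, E k *ᵥ fun i => y ⟨k, i⟩ := fun y => by
    funext a
    simp only [Finset.sum_apply, E, mulVec, dotProduct, submatrix_apply, id, one_apply, ite_mul,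
      one_mul, zero_mul]
    rw [← Fintype.sum_sigma (fun b : Σ k : Fin t, Fin (n k) => if a = b then y b else 0)]
    simp
  obtain ⟨W', ⟨hI, hd⟩, hmax⟩ := (wellFounded_gt (α := Submodule ℂ ((Σ k : Fin t, Fin (n k)) → ℂ))).has_min
    {U | dcI D U ∧ Disjoint W U} ⟨⊥, fun k v hv => by
      rw [(Submodule.mem_bot ℂ).1 hv, mulVec_zero]; exact Submodule.zero_mem _, disjoint_bot_right⟩
  refine ⟨W', hI, hd, ?_⟩
  have hV : ∀ k x, E k *ᵥ x ∈ W ⊔ W' := by
    intro k
    rcases (h k).2 ((W ⊔ W').comap (E k).mulVecLin) (fun v x hx => by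
      show E k *ᵥ (S k v *ᵥ x) ∈ W ⊔ W'
      rw [mulVec_mulVec, ← hE, ← mulVec_mulVec]
      exact dcI_sup hW hI v _ hx) with h1 | h1
    · have h2 : dcI D (LinearMap.range (E k).mulVecLin) := by
        rintro v _ ⟨x, rfl⟩
        refine ⟨S k v *ᵥ x, ?_⟩
        simp only [mulVecLin_apply, mulVec_mulVec, hE]
      have h3 : Disjoint W (W' ⊔ LinearMap.range (E k).mulVecLin) := by
        rw [Submodule.disjoint_def]
        intro w hw hw'
        obtain ⟨a, ha, _, ⟨x, rfl⟩, hab⟩ := Submodule.mem_sup.1 hw'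
        have h4 : x ∈ (W ⊔ W').comap (E k).mulVecLin := by
          show (E k).mulVecLin x ∈ W ⊔ W'
          rw [eq_sub_of_add_eq' hab]
          exact Submodule.sub_mem _ (Submodule.mem_sup_left hw) (Submodule.mem_sup_right ha)
        rw [h1, Submodule.mem_bot] at h4
        rw [h4, map_zero, add_zero] at hab
        exact Submodule.disjoint_def.1 hd w hw (hab ▸ ha)
      have h5 : W' ⊔ LinearMap.range (E k).mulVecLin = W' := by
        by_contra hne
        exact hmax _ ⟨dcI_sup hI h2, h3⟩ (lt_of_le_of_ne le_sup_left (Ne.symm hne))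
      intro x
      refine Submodule.mem_sup_right ?_
      rw [← h5]
      exact Submodule.mem_sup_right ⟨x, rfl⟩
    · intro x
      have : x ∈ (W ⊔ W').comap (E k).mulVecLin := by rw [h1]; trivial
      exact this
  rw [codisjoint_iff, eq_top_iff]
  intro y _
  rw [hsum y]
  exact Submodule.sum_mem _ fun k _ => hV k _

end Crest.Agent.R3
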