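import Mathlib

/-!
# R3 / Defs : definitions for row 3 (S0003, integral points of character varieties).  DO NOT EDIT.

Owner: helper27.  Overview of the proof.

* `O` is a ring of "integers", `π : B →ₐ[O] ℂ` a ring map which is onto and onto on units (`Good π`).
  "A complex solution of a system of matrix equations *lifts*" means that it is the image under `π` of a
  solution over `B`.  For the universal ring of `R3/Univ` this is the same as lying in the Zariski closure
  of the `O`-points.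
* PART 1 (diagrams).  All matrices are `Matrix L L R` for one fixed finite type `L` of *labels*; a finset
  `Ω` of labels is the space spanned by the corresponding basis vectors, `eS R Ω` its identity,
  `PI X X1 M M'` says that `M : span X → span X1` is an isomorphism with inverse `M'`.
  A `Step` goes from the labels `X ∪ Y` to the labels `X1 ∪ Y1`: first the free unipotent *gap* `e + n`
  (`n : span Y → span X`), then optional variables on the two blocks, then a diagonal matrix of units.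
  A `Face` is the equation `u • (product of the steps) = e`; a diagram is a multiset of faces in which
  every variable occurs exactly twice, as `ℓ` and as `ℓ⁻¹` (`WF`).  Theorem: every complex solution of a
  diagram lifts, if this is true for the closed surfaces `∏ [aᵢ,bᵢ] = η` (`QL`).
* PART 2: closed surfaces.  PART 3: the statement.
-/

set_option autoImplicit false

noncomputable section

open Matrix

namespace Crest.Agent.R3

/-! ## Lifting context -/

/-- `π` is onto, onto on units, and `O` embeds into `ℂ`. -/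
structure Good {O B : Type} [CommRing O] [CommRing B] [Algebra O B] [Algebra O ℂ]
    (π : B →ₐ[O] ℂ) : Prop where
  inj : Function.Injective (algebraMap O ℂ)
  surj : Function.Surjective π
  usurj : ∀ z : ℂ, z ≠ 0 → ∃ u : Bˣ, π (u : B) = z

/-! ## Partial isomorphisms between coordinate subspaces -/

section PIso
variable {L : Type} [Fintype L] [DecidableEq L] {R : Type} [CommRing R]

/-- the identity of the span of the labels in `S` -/
def eS (R : Type) [CommRing R] (S : Finset L) : Matrix L L R :=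
  diagonal fun i => if i ∈ S then 1 else 0

/-- `M` is supported on rows in `A` and columns in `C` (`M : span C → span A`) -/
def Sup (A C : Finset L) (M : Matrix L L R) : Prop := ∀ i j, ¬ (i ∈ A ∧ j ∈ C) → M i j = 0

/-- `M : span X → span X1` is an isomorphism with inverse `M'` -/
structure PI (X X1 : Finset L) (M M' : Matrix L L R) : Prop where
  s1 : Sup X1 X M
  s2 : Sup X X1 M'
  l : M' * M = eS R X
  r : M * M' = eS R X1

/-- `M` (with inverse `M'`) maps `span X` onto `span X1` -/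
def Flag (X X1 : Finset L) (M M' : Matrix L L R) : Prop :=
  Sup X1 X (M * eS R X) ∧ Sup X X1 (M' * eS R X1)

/-- diagonal matrix of units of `O` -/
def dg {O : Type} [CommRing O] (R : Type) [CommRing R] [Algebra O R] (d : L → Oˣ) : Matrix L L R :=
  diagonal fun i => algebraMap O R (d i : O)

end PIso

/-! ## Diagrams -/

/-- a two step flag: subspace `span X`, quotient `span Y` -/
@[ext] structure St (L : Type) where
  X : Finset L
  Y : Finset L

/-- one step of a face; `n` is the complex value of the gap -/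
structure Step (O L V : Type) [CommRing O] where
  X : Finset L
  Y : Finset L
  X1 : Finset L
  Y1 : Finset L
  o1 : Option (V × Bool)
  o2 : Option (V × Bool)
  d : L → Oˣ
  n : Matrix L L ℂ

/-- the equation `u • ∏ l = e` starting and ending at the state `Q` -/
structure Face (O L V : Type) [CommRing O] where
  Q : St L
  u : Oˣ
  l : List (Step O L V)

/-- an occurrence of the variable `v` (with exponent `b`) as a map `span X → span X1` -/
@[ext] structure Occ (L V : Type) where
  v : V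
  b : Bool
  X : Finset L
  X1 : Finset L

/-- values of the variables: `x v b` and `x v (!b)` are inverse to each other -/
abbrev Asg (V L R : Type) := V → Bool → Matrix L L R

section Diag
variable {O L V : Type} [CommRing O] [Fintype L] [DecidableEq L]

def St.set (Q : St L) : Finset L := Q.X ∪ Q.Y

/-- a junction of type `Q` may be followed by a step whose state is `Q'` -/
def St.le (Q Q' : St L) : Prop :=
  Q.set = Q'.set ∧ Disjoint Q'.X Q'.Y ∧ (Q = Q' ∨ Q.X = ∅ ∨ Q.Y = ∅)

def Occ.flip (c : Occ L V) : Occ L V := ⟨c.v, !c.b, c.X1, c.X⟩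
def Occ.name (c : Occ L V) : V × Bool := (c.v, c.b)

def slotOK (o : Option (V × Bool)) (X X1 : Finset L) : Prop :=
  X.card = X1.card ∧ (o = none → X1 = X)

/-- occurrences on empty blocks are ignored -/
def slot (o : Option (V × Bool)) (X X1 : Finset L) : Multiset (Occ L V) :=
  match o with
  | none => 0
  | some p => if X.Nonempty then {⟨p.1, p.2, X, X1⟩} else 0

/-- value of a slot -/
def blk {R : Type} [CommRing R] (x : Asg V L R) (o : Option (V × Bool)) (X X1 : Finset L) :
    Matrix L L R :=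
  match o with
  | none => eS R X
  | some p => eS R X1 * x p.1 p.2 * eS R X

/-- inverse of the value of a slot -/
def blk' {R : Type} [CommRing R] (x : Asg V L R) (o : Option (V × Bool)) (X X1 : Finset L) :
    Matrix L L R :=
  match o with
  | none => eS R X
  | some p => eS R X * x p.1 (!p.2) * eS R X1

namespace Step

def inS (s : Step O L V) : St L := ⟨s.X, s.Y⟩

def ok (s : Step O L V) : Prop :=
  Disjoint s.X1 s.Y1 ∧ slotOK s.o1 s.X s.X1 ∧ slotOK s.o2 s.Y s.Y1

/-- the step can be followed by the state `Q`: same labels, `d` constant on the four pieces -/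
def link (s : Step O L V) (Q : St L) : Prop :=
  Q.set = s.X1 ∪ s.Y1 ∧ Disjoint Q.X Q.Y ∧
    ∀ i ∈ Q.set, ∀ j ∈ Q.set, (i ∈ s.X1 ↔ j ∈ s.X1) → (i ∈ Q.X ↔ j ∈ Q.X) → s.d i = s.d j

def occ (s : Step O L V) : Multiset (Occ L V) := slot s.o1 s.X s.X1 + slot s.o2 s.Y s.Y1

/-- value of a step for given values of the variables and of the gap -/
def valG {R : Type} [CommRing R] [Algebra O R] (s : Step O L V) (x : Asg V L R) (n : Matrix L L R) :
    Matrix L L R :=
  dg R s.d * (blk x s.o1 s.X s.X1 + blk x s.o2 s.Y s.Y1) * (eS R (s.X ∪ s.Y) + n)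

def nontriv (s : Step O L V) : Prop := s.X.Nonempty ∧ s.Y.Nonempty

def ren {V' : Type} (ρ : V → V') (s : Step O L V) : Step O L V' :=
  ⟨s.X, s.Y, s.X1, s.Y1, s.o1.map (Prod.map ρ id), s.o2.map (Prod.map ρ id), s.d, s.n⟩

/-- the step consisting of one variable acting on all labels -/
def full (v : V) (b : Bool) (Ω Ω' : Finset L) : Step O L V :=
  ⟨Ω, ∅, Ω', ∅, some (v, b), none, 1, 0⟩

def IsFull (s : Step O L V) : Prop := ∃ v b Ω Ω', s = full v b Ω Ω'

/-- a step without variables with the state of `s` -/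
def dup (s : Step O L V) : Step O L V := ⟨s.X, s.Y, s.X, s.Y, none, none, 1, 0⟩

/-- the step consisting of the diagonal matrix `d` on the labels `Ω` -/
def dgOnly (Ω : Finset L) (d : L → Oˣ) : Step O L V := ⟨Ω, ∅, Ω, ∅, none, none, d, 0⟩

open Classical in
/-- weight used in the induction -/
def wt (s : Step O L V) : ℕ :=
  if s.nontriv then 0 else if s.IsFull then 1 else if s.occ = 0 then 1 else 3

end Step

/-- a well formed word from the junction `Q` to the junction `Q'` -/
def Seg : St L → List (Step O L V) → St L → Prop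
  | Q, [], Q' => Q.le Q'
  | Q, s :: l, Q' => Q.le s.inS ∧ s.ok ∧ ∃ Q1, s.link Q1 ∧ Seg Q1 l Q'

def occL (l : List (Step O L V)) : Multiset (Occ L V) := (l.map Step.occ).sum

/-- complex value of a word (the first step acts first) -/
def prodL [Algebra O ℂ] (x : Asg V L ℂ) : List (Step O L V) → Matrix L L ℂ
  | [] => 1
  | s :: l => prodL x l * s.valG x s.n

/-- `p` is a value of the step over `B`, for some lift of the gap -/
def SL {B : Type} [CommRing B] [Algebra O B] [Algebra O ℂ] (π : B →ₐ[O] ℂ) (x : Asg V L B)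
    (s : Step O L V) (p : Matrix L L B) : Prop :=
  ∃ n : Matrix L L B, n.map π = s.n ∧ Sup s.X s.Y n ∧ p = s.valG x n

/-- `p` is a value of the word over `B`, for some lifts of the gaps -/
def PL {B : Type} [CommRing B] [Algebra O B] [Algebra O ℂ] (π : B →ₐ[O] ℂ) (x : Asg V L B) :
    List (Step O L V) → Matrix L L B → Prop
  | [], p => p = 1
  | s :: l, p => ∃ p1 p2, SL π x s p1 ∧ PL π x l p2 ∧ p = p2 * p1

namespace Face

def size (f : Face O L V) : ℕ := f.Q.set.card
def occ (f : Face O L V) : Multiset (Occ L V) := occL f.l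
def ren {V' : Type} (ρ : V → V') (f : Face O L V) : Face O L V' := ⟨f.Q, f.u, f.l.map (Step.ren ρ)⟩
def wt (f : Face O L V) : ℕ := 1 + (f.l.map Step.wt).sum
def HasNT (f : Face O L V) : Prop := ∃ s ∈ f.l, s.nontriv
/-- every step is non-trivial or a full variable -/
def Normal (f : Face O L V) : Prop := ∀ s ∈ f.l, s.nontriv ∨ s.IsFull

/-- the equation of the face, `p` being the value of its word -/
def Eqn {R : Type} [CommRing R] [Algebra O R] (f : Face O L V) (p : Matrix L L R) : Prop :=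
  algebraMap O R (f.u : O) • (p * eS R f.Q.set) = eS R f.Q.set

end Face

abbrev Diag (O L V : Type) [CommRing O] := Multiset (Face O L V)

def occD (D : Diag O L V) : Multiset (Occ L V) := (D.map Face.occ).sum

/-- every variable occurs exactly twice, with opposite exponents and opposite types -/
structure OccOK (M : Multiset (Occ L V)) : Prop where
  nodup : (M.map Occ.name).Nodup
  flip : ∀ c ∈ M, c.flip ∈ M

structure WF (D : Diag O L V) : Prop where
  seg : ∀ f ∈ D, Seg f.Q f.l f.Q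
  occ : OccOK (occD D)

/-- the occurrences of size `m` in `D` have their partners in `D` -/
def BigCl (m : ℕ) (D : Diag O L V) : Prop := ∀ c ∈ occD D, c.X.card = m → c.flip ∈ occD D

def VarOK {R : Type} [CommRing R] (x : Asg V L R) (M : Multiset (Occ L V)) : Prop :=
  ∀ c ∈ M, PI c.X c.X1 (x c.v c.b) (x c.v (!c.b))

structure Sol [Algebra O ℂ] (x : Asg V L ℂ) (D : Diag O L V) : Prop where
  var : VarOK x (occD D)
  gap : ∀ f ∈ D, ∀ s ∈ f.l, Sup s.X s.Y s.n
  eqn : ∀ f ∈ D, f.Eqn (prodL x f.l)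

variable {B : Type} [CommRing B] [Algebra O B] [Algebra O ℂ]

/-- the solution `x` (and the gaps stored in `D`) lift to `B` -/
def Lift (π : B →ₐ[O] ℂ) (x : Asg V L ℂ) (D : Diag O L V) : Prop :=
  ∃ y : Asg V L B, (∀ c ∈ occD D, ∀ b, (y c.v b).map π = x c.v b) ∧ VarOK y (occD D) ∧
    ∀ f ∈ D, ∃ p, PL π y f.l p ∧ f.Eqn p

/-- the solution `x` of `D` reduces to the solution `x'` of `D'` -/
structure Red (π : B →ₐ[O] ℂ) (x : Asg V L ℂ) (D : Diag O L V) {V' : Type} (x' : Asg V' L ℂ)
    (D' : Diag O L V') : Prop where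
  wf : WF D'
  sol : Sol x' D'
  lift : Lift π x' D' → Lift π x D

/-- the face `f` can be replaced by smaller faces -/
def Elim (π : B →ₐ[O] ℂ) (x : Asg V L ℂ) (f : Face O L V) (D0 : Diag O L V) : Prop :=
  ∃ (x' : Asg V L ℂ) (S : Diag O L V), (∀ g ∈ S, g.size < f.size) ∧ Red π x (f ::ₘ D0) x' (D0 + S)

/-- all solutions of all diagrams with faces of size `≤ m` lift -/
def PP (π : B →ₐ[O] ℂ) (L : Type) [Fintype L] [DecidableEq L] (m : ℕ) : Prop :=
  ∀ (V : Type) (D : Diag O L V) (x : Asg V L ℂ), WF D → (∀ f ∈ D, f.size ≤ m) → Sol x D → Lift π x D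

/-- exactly one face may have size `m`, and it has a non-trivial step -/
def Single (m : ℕ) (D : Diag O L V) : Prop :=
  ∃ f D0, D = f ::ₘ D0 ∧ f.HasNT ∧ ∀ f' ∈ D0, f'.size < m

def RR (π : B →ₐ[O] ℂ) (L : Type) [Fintype L] [DecidableEq L] (m : ℕ) : Prop :=
  ∀ (V : Type) (D : Diag O L V) (x : Asg V L ℂ), WF D → (∀ f ∈ D, f.size ≤ m) → Single m D →
    Sol x D → Lift π x D

end Diag

/-! ## The triangle: normal form of three flags -/

/-- Labels of the normal form of three subspaces `F_p, F_c, F_n` (previous, current, next):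
`C p c n` are the labels of basis vectors lying in exactly the indicated subspaces; for `k ∈ K` the
plane with basis `e k, e (τ k)` contains the three lines `e k ∈ F_p`, `e (τ k) ∈ F_c`,
`e k + e (τ k) ∈ F_n`. -/
structure TD (L : Type) where
  C : Bool → Bool → Bool → Finset L
  K : Finset L
  τ : Equiv.Perm L

/-- a junction: the flag `(Xp | Yp)` produced by the previous step and the state `(X | Y)` of the next -/
structure Jn (L : Type) where
  Xp : Finset L
  Yp : Finset L
  X : Finset L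
  Y : Finset L

/-- a frame at a junction: four isomorphisms on the pieces, four gaps and the slack `z` -/
structure Fr (L R : Type) where
  φ : Fin 4 → Matrix L L R
  φ' : Fin 4 → Matrix L L R
  a : Matrix L L R
  b : Matrix L L R
  c : Matrix L L R
  e : Matrix L L R
  z : Matrix L L R

section Tri
variable {O L V : Type} [CommRing O] [Fintype L] [DecidableEq L]

namespace TD
def K' (T : TD L) : Finset L := T.K.image T.τ
def nP (T : TD L) : Finset L := T.C true true true ∪ T.C true true false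
def nS (T : TD L) : Finset L := T.C true false true ∪ T.C true false false ∪ T.K
def nT (T : TD L) : Finset L := T.C false true true ∪ T.C false true false ∪ T.K
def nT' (T : TD L) : Finset L := T.C false true true ∪ T.C false true false ∪ T.K'
def nZ (T : TD L) : Finset L := T.C false false true ∪ T.C false false false
/-- labels of `F_p` -/
def Fp (T : TD L) : Finset L := T.nP ∪ T.nS
/-- labels of `F_c` -/
def Fc (T : TD L) : Finset L := T.nP ∪ T.nT'
def all (T : TD L) : Finset L := T.nP ∪ T.nS ∪ T.nT' ∪ T.nZ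
/-- the same data seen from the next step -/
def rot (T : TD L) : TD L := ⟨fun p c n => T.C n p c, T.K, T.τ⟩

structure ok (T : TD L) : Prop where
  dC : ∀ p c n p' c' n', (p, c, n) ≠ (p', c', n') → Disjoint (T.C p c n) (T.C p' c' n')
  dK : ∀ p c n, Disjoint (T.C p c n) T.K
  dK' : ∀ p c n, Disjoint (T.C p c n) T.K'
  dKK : Disjoint T.K T.K'
  fix : ∀ p c n, ∀ i ∈ T.C p c n, T.τ i = i
  inv : ∀ i, T.τ (T.τ i) = i

/-- the permutation matrix `e j ↦ e (τ j)` -/
def w (T : TD L) (R : Type) [CommRing R] : Matrix L L R := Matrix.of fun i j => if i = T.τ j then 1 else 0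

/-- the constant matrix (of order three up to `rot`) with `F_c ↦ rot.F_p`, `F_n ↦ rot.F_c` -/
def cM (T : TD L) (R : Type) [CommRing R] : Matrix L L R :=
  eS R (T.C true true true ∪ T.C true true false ∪ T.C true false false ∪ T.C false true false ∪
      T.C false false true ∪ T.C false false false) -
    eS R (T.C false true true ∪ T.C true false true ∪ T.K) - T.w R * eS R T.K + T.w R * eS R T.K'

def εX (T : TD L) (O : Type) [CommRing O] : L → Oˣ :=
  fun i => if i ∈ T.C false true true then -1 else 1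
def εY (T : TD L) (O : Type) [CommRing O] : L → Oˣ :=
  fun i => if i ∈ T.C true false true ∪ T.K then -1 else 1
end TD

namespace Jn
def P (J : Jn L) : Finset L := J.Xp ∩ J.X
def S (J : Jn L) : Finset L := J.Xp ∩ J.Y
def T (J : Jn L) : Finset L := J.Yp ∩ J.X
def Z (J : Jn L) : Finset L := J.Yp ∩ J.Y
def ok (J : Jn L) : Prop := Disjoint J.Xp J.Yp ∧ Disjoint J.X J.Y ∧ J.Xp ∪ J.Yp = J.X ∪ J.Y
end Jn

/-- the junction between the steps `s` and `t` -/
def Step.jn (s t : Step O L V) : Jn L := ⟨s.X1, s.Y1, t.X, t.Y⟩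

namespace Fr
variable {R : Type} [CommRing R]

structure ok (F : Fr L R) (T : TD L) (J : Jn L) : Prop where
  p0 : PI J.P T.nP (F.φ 0) (F.φ' 0)
  p1 : PI J.S T.nS (F.φ 1) (F.φ' 1)
  p2 : PI J.T T.nT (F.φ 2) (F.φ' 2)
  p3 : PI J.Z T.nZ (F.φ 3) (F.φ' 3)
  sa : Sup J.P J.S F.a
  sb : Sup J.T J.Z F.b
  sc : Sup T.nP T.nT F.c
  se : Sup T.nS T.nZ F.e
  sz : Sup T.nP J.Z F.z

/-- the isomorphism `span (junction labels) → span T.all` defined by the frame -/
def psi (F : Fr L R) (T : TD L) : Matrix L L R :=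
  F.φ 0 + F.φ 1 + T.w R * F.φ 2 + F.φ 3 + F.φ 0 * F.a + T.w R * F.φ 2 * F.b - F.c * F.φ 2 -
    F.e * F.φ 3 + F.z

def map {R' : Type} [CommRing R'] (F : Fr L R) (φ : R →+* R') : Fr L R' :=
  ⟨fun i => (F.φ i).map φ, fun i => (F.φ' i).map φ, F.a.map φ, F.b.map φ, F.c.map φ, F.e.map φ,
    F.z.map φ⟩

/-- the names `ν i` have the values of the frame -/
def asg (F : Fr L R) (x : Asg V L R) (ν : Fin 4 → V) : Prop :=
  ∀ i, x (ν i) false = F.φ i ∧ x (ν i) true = F.φ' i
end Fr

/-- equation of the face `faceX`; `lam` is the value of the first slot of the step -/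
def EqX {R : Type} [CommRing R] [Algebra O R] (u : Oˣ) (d : L → Oˣ) (lam : Matrix L L R) (T : TD L)
    (J J' : Jn L) (F F' : Fr L R) : Prop :=
  algebraMap O R (u : O) • ((F.φ' 0 + F.φ' 2) * (eS R (T.nP ∪ T.nT) + F.c) * dg R (T.εX O) *
    (F'.φ 0 + F'.φ 1) * (eS R (J'.P ∪ J'.S) + F'.a) * dg R d * lam) = eS R J.X

/-- equation of the face `faceY`; `lam` is the value of the second slot of the step -/
def EqY {R : Type} [CommRing R] [Algebra O R] (u : Oˣ) (d : L → Oˣ) (lam : Matrix L L R) (T : TD L)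
    (J J' : Jn L) (F F' : Fr L R) : Prop :=
  algebraMap O R (u : O) • ((F.φ' 1 + F.φ' 3) * (eS R (T.nS ∪ T.nZ) + F.e) * dg R (T.εY O) *
    (F'.φ 2 + F'.φ 3) * (eS R (J'.T ∪ J'.Z) + F'.b) * dg R d * lam) = eS R J.Y

/-- the small face on the subspace of the step `s`; `J, ν, F` belong to the junction before `s`
(normal form `T`), `J', ν', F'` to the junction after `s` (normal form `T.rot`) -/
def faceX (s : Step O L V) (u : Oˣ) (T : TD L) (J J' : Jn L) (ν ν' : Fin 4 → V) (F F' : Fr L ℂ) :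
    Face O L V :=
  ⟨⟨s.X, ∅⟩, u,
    [⟨s.X, ∅, s.X1, ∅, s.o1, none, s.d, 0⟩,
     ⟨J'.P, J'.S, T.rot.nP, T.rot.nS, some (ν' 0, false), some (ν' 1, false), T.εX O, F'.a⟩,
     ⟨T.nP, T.nT, J.P, J.T, some (ν 0, true), some (ν 2, true), 1, F.c⟩]⟩

/-- the small face on the quotient of the step `s` -/
def faceY (s : Step O L V) (u : Oˣ) (T : TD L) (J J' : Jn L) (ν ν' : Fin 4 → V) (F F' : Fr L ℂ) :
    Face O L V :=
  ⟨⟨s.Y, ∅⟩, u,
    [⟨s.Y, ∅, s.Y1, ∅, s.o2, none, s.d, 0⟩,
     ⟨J'.T, J'.Z, T.rot.nT, T.rot.nZ, some (ν' 2, false), some (ν' 3, false), T.εY O, F'.b⟩,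
     ⟨T.nS, T.nZ, J.S, J.Z, some (ν 1, true), some (ν 3, true), 1, F.e⟩]⟩

/-- the occurrences `φ i` of the frame variables of a junction -/
def jocc (T : TD L) (J : Jn L) (ν : Fin 4 → V) : Multiset (Occ L V) :=
  slot (some (ν 0, false)) J.P T.nP + slot (some (ν 1, false)) J.S T.nS +
    slot (some (ν 2, false)) J.T T.nT + slot (some (ν 3, false)) J.Z T.nZ

end Tri

/-! ## Surface groups -/

abbrev GLm (ι R : Type) [Fintype ι] [DecidableEq ι] [CommRing R] := (Matrix ι ι R)ˣ

/-- `g` handles -/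
abbrev Rep (g : ℕ) (ι R : Type) [Fintype ι] [DecidableEq ι] [CommRing R] :=
  Fin g → GLm ι R × GLm ι R

section Surf
variable {O : Type} [CommRing O] {ι : Type} [Fintype ι] [DecidableEq ι]

def comm {G : Type} [Group G] (p : G × G) : G := p.1 * p.2 * p.1⁻¹ * p.2⁻¹

/-- `∏ [aᵢ, bᵢ]` -/
def rel {G : Type} [Group G] {g : ℕ} (T : Fin g → G × G) : G := ((List.ofFn T).map comm).prod

/-- value of a word in a group (`true` means inverse) -/
def wordVal {G V : Type} [Group G] (x : V → G) (w : List (V × Bool)) : G :=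
  (w.map fun p => if p.2 then (x p.1)⁻¹ else x p.1).prod

/-- cyclic rotation of the handles: `rotR T 0 = T 1` -/
def rotR {G : Type} {g : ℕ} (T : Fin g → G) : Fin g → G := fun i => T (finRotate g i)

/-- the scalar matrix `η` -/
def scalU (ι R : Type) [Fintype ι] [DecidableEq ι] [CommRing R] [Algebra O R] (η : Oˣ) : GLm ι R :=
  Units.map (algebraMap O (Matrix ι ι R)).toMonoidHom η

def mapU {R R' : Type} [CommRing R] [CommRing R'] (φ : R →+* R') : GLm ι R →* GLm ι R' :=
  Units.map (φ.mapMatrix : Matrix ι ι R →+* Matrix ι ι R').toMonoidHom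

def mapRep {R R' : Type} [CommRing R] [CommRing R'] (φ : R →+* R') {g : ℕ} (T : Rep g ι R) :
    Rep g ι R' := fun i => (mapU φ (T i).1, mapU φ (T i).2)

/-- generators of a representation -/
def gens {R : Type} [CommRing R] {g : ℕ} (T : Rep g ι R) : Fin g × Bool → Matrix ι ι R :=
  fun p => if p.2 then ((T p.1).2 : Matrix ι ι R) else ((T p.1).1 : Matrix ι ι R)

/-- irreducible family of matrices -/
def Irr {κ : Type} (A : κ → Matrix ι ι ℂ) : Prop :=
  Nonempty ι ∧ ∀ W : Submodule ℂ (ι → ℂ), (∀ k, ∀ v ∈ W, (A k).mulVec v ∈ W) → W = ⊥ ∨ W = ⊤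

/-- only scalars commute with the family -/
def Schur {κ : Type} (A : κ → Matrix ι ι ℂ) : Prop :=
  ∀ ψ : Matrix ι ι ℂ, (∀ k, ψ * A k = A k * ψ) → ∃ c : ℂ, ψ = c • (1 : Matrix ι ι ℂ)

/-- intertwiner `T' → T''` -/
def Intw {R : Type} [CommRing R] {ι' ι'' κ : Type} [Fintype ι'] [Fintype ι'']
    (A' : κ → Matrix ι' ι' R) (A'' : κ → Matrix ι'' ι'' R) (ψ : Matrix ι'' ι' R) : Prop :=
  ∀ k, ψ * A' k = A'' k * ψ

variable {B : Type} [CommRing B] [Algebra O B] [Algebra O ℂ]

/-- the point `T` of the closed surface `∏ [aᵢ,bᵢ] = η` lifts -/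
def CL (π : B →ₐ[O] ℂ) (η : Oˣ) {g : ℕ} (T : Rep g ι ℂ) : Prop :=
  ∃ T' : Rep g ι B, mapRep (π : B →+* ℂ) T' = T ∧ rel T' = scalU ι B η

/-- all points of all closed surfaces of rank `card ι` lift -/
def QL (π : B →ₐ[O] ℂ) (ι : Type) [Fintype ι] [DecidableEq ι] : Prop :=
  ∀ (g : ℕ) (η : Oˣ) (T : Rep g ι ℂ), rel T = scalU ι ℂ η → CL π η T

/-- type of a puncture: a flag (`lev`) and the scalars on its graded pieces -/
structure Punc (O ι : Type) [CommRing O] where
  lev : ι → ℕ
  ξ : ℕ → Oˣ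

def Punc.Nil {R : Type} [CommRing R] (P : Punc O ι) (n : Matrix ι ι R) : Prop :=
  ∀ i j, ¬ P.lev i < P.lev j → n i j = 0

/-- `g (ξ + n) g⁻¹` -/
def Punc.val {R : Type} [CommRing R] [Algebra O R] (P : Punc O ι) (p : GLm ι R × Matrix ι ι R) :
    Matrix ι ι R :=
  (p.1 : Matrix ι ι R) * (dg R (fun i => P.ξ (P.lev i)) + p.2) * ((p.1⁻¹ : GLm ι R) : Matrix ι ι R)

/-- `∏ [aᵢ,bᵢ] ∏ cⱼ = η` with `cⱼ = gⱼ (ξⱼ + nⱼ) gⱼ⁻¹` -/
def SurfEq {R : Type} [CommRing R] [Algebra O R] (η : Oˣ) {g s : ℕ} (P : Fin s → Punc O ι)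
    (T : Rep g ι R) (c : Fin s → GLm ι R × Matrix ι ι R) : Prop :=
  (∀ j, (P j).Nil (c j).2) ∧
    ((rel T : GLm ι R) : Matrix ι ι R) * (List.ofFn fun j => (P j).val (c j)).prod =
      ((scalU ι R η : GLm ι R) : Matrix ι ι R)

/-- the point `(T, c)` of the punctured surface lifts -/
def SurfL (π : B →ₐ[O] ℂ) (η : Oˣ) {g s : ℕ} (P : Fin s → Punc O ι) (T : Rep g ι ℂ)
    (c : Fin s → GLm ι ℂ × Matrix ι ι ℂ) : Prop :=
  ∃ (T' : Rep g ι B) (c' : Fin s → GLm ι B × Matrix ι ι B), mapRep (π : B →+* ℂ) T' = T ∧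
    (∀ j, mapU (π : B →+* ℂ) (c' j).1 = (c j).1 ∧ (c' j).2.map π = (c j).2) ∧ SurfEq η P T' c'

/-! ### the diagram of a punctured surface -/

def Punc.lvl (P : Punc O ι) (k : ℕ) : Finset ι := Finset.univ.filter fun i => P.lev i = k
def Punc.up (P : Punc O ι) (k : ℕ) : Finset ι := Finset.univ.filter fun i => k ≤ P.lev i

/-- names: handles; `(j, 0)` is `g_j`; `(j, k)`, `k ≥ 1`, is the block of `ξ_j + n_j` on the levels `≥ k` -/
abbrev SV (g s : ℕ) := (Fin g × Bool) ⊕ (Fin s × ℕ)

/-- the step splitting off level `k` from the levels `≥ k` -/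
def pstep {g s : ℕ} (P : Punc O ι) (j : Fin s) (k : ℕ) (n : Matrix ι ι ℂ) : Step O ι (SV g s) :=
  ⟨P.lvl k, P.up (k + 1), P.lvl k, P.up (k + 1), none, some (Sum.inr (j, k + 1), false),
    fun i => if P.lev i = k then P.ξ k else 1,
    algebraMap O ℂ (((P.ξ k)⁻¹ : Oˣ) : O) • (eS ℂ (P.lvl k) * n * eS ℂ (P.up (k + 1)))⟩

/-- the factors of the surface relation, from left to right -/
def sfac {g s : ℕ} (P : Fin s → Punc O ι) (n : Fin s → Matrix ι ι ℂ) : List (Step O ι (SV g s)) :=
  ((List.finRange g).flatMap fun i =>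
    [Step.full (Sum.inl (i, false)) false Finset.univ Finset.univ,
     Step.full (Sum.inl (i, true)) false Finset.univ Finset.univ,
     Step.full (Sum.inl (i, false)) true Finset.univ Finset.univ,
     Step.full (Sum.inl (i, true)) true Finset.univ Finset.univ]) ++
  ((List.finRange s).flatMap fun j =>
    [Step.full (Sum.inr (j, 0)) false Finset.univ Finset.univ, pstep (P j) j 0 (n j),
     Step.full (Sum.inr (j, 0)) true Finset.univ Finset.univ])

def smain (g : ℕ) {s : ℕ} (η : Oˣ) (P : Fin s → Punc O ι) (n : Fin s → Matrix ι ι ℂ) :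
    Face O ι (SV g s) :=
  ⟨⟨Finset.univ, ∅⟩, η⁻¹, (sfac P n).reverse⟩

/-- the face defining the block on the levels `≥ k + 1` -/
def ssub (g : ℕ) {s : ℕ} (P : Fin s → Punc O ι) (n : Fin s → Matrix ι ι ℂ) (j : Fin s) (k : ℕ) :
    Face O ι (SV g s) :=
  ⟨⟨(P j).up (k + 1), ∅⟩, 1,
    [pstep (P j) j (k + 1) (n j),
     Step.full (Sum.inr (j, k + 1)) true ((P j).up (k + 1)) ((P j).up (k + 1))]⟩

/-- the diagram of the punctured surface; all levels are `≤ N` -/
def sdiag (g : ℕ) {s : ℕ} (η : Oˣ) (P : Fin s → Punc O ι) (n : Fin s → Matrix ι ι ℂ) (N : ℕ) :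
    Diag O ι (SV g s) :=
  smain g η P n ::ₘ (Finset.univ ×ˢ Finset.range N : Finset (Fin s × ℕ)).val.map
    fun q => ssub g P n q.1 q.2

/-- `x` takes the values given by the point `(T, c)` on the handles and on the `g_j` -/
def SAsg {R : Type} [CommRing R] {g s : ℕ} (x : Asg (SV g s) ι R) (T : Rep g ι R)
    (G : Fin s → GLm ι R) : Prop :=
  (∀ i, x (Sum.inl (i, false)) false = ((T i).1 : Matrix ι ι R) ∧
      x (Sum.inl (i, false)) true = (((T i).1⁻¹ : GLm ι R) : Matrix ι ι R) ∧
      x (Sum.inl (i, true)) false = ((T i).2 : Matrix ι ι R) ∧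
      x (Sum.inl (i, true)) true = (((T i).2⁻¹ : GLm ι R) : Matrix ι ι R)) ∧
    ∀ j, x (Sum.inr (j, 0)) false = (G j : Matrix ι ι R) ∧
      x (Sum.inr (j, 0)) true = (((G j)⁻¹ : GLm ι R) : Matrix ι ι R)

/-! ### extensions and Fox calculus -/

section Fox
variable {R : Type} [CommRing R] {ι' ι'' : Type} [Fintype ι'] [DecidableEq ι'] [Fintype ι'']
  [DecidableEq ι'']

/-- the block triangular unit `[[a'', α], [0, a']]` -/
def extU (a'' : GLm ι'' R) (a' : GLm ι' R) (α : Matrix ι'' ι' R) : GLm (ι'' ⊕ ι') R where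
  val := fromBlocks (a'' : Matrix ι'' ι'' R) α 0 (a' : Matrix ι' ι' R)
  inv := fromBlocks ((a''⁻¹ : GLm ι'' R) : Matrix ι'' ι'' R)
    (-(((a''⁻¹ : GLm ι'' R) : Matrix ι'' ι'' R) * α * ((a'⁻¹ : GLm ι' R) : Matrix ι' ι' R))) 0
    ((a'⁻¹ : GLm ι' R) : Matrix ι' ι' R)
  val_inv := by
    rw [fromBlocks_multiply]
    simp [← Matrix.mul_assoc, fromBlocks_one]
  inv_val := by
    rw [fromBlocks_multiply]
    simp [Matrix.mul_assoc, fromBlocks_one]

/-- the extension of `T'` by `T''` with cochain `α` -/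
def extR {g : ℕ} (T'' : Rep g ι'' R) (T' : Rep g ι' R) (α : Fin g × Bool → Matrix ι'' ι' R) :
    Rep g (ι'' ⊕ ι') R :=
  fun i => (extU (T'' i).1 (T' i).1 (α (i, false)), extU (T'' i).2 (T' i).2 (α (i, true)))

/-- upper right block of the relator of the extension; for `T'' = T' = T` the derivative of `rel` -/
def fox {g : ℕ} (T'' : Rep g ι'' R) (T' : Rep g ι' R) (α : Fin g × Bool → Matrix ι'' ι' R) :
    Matrix ι'' ι' R :=
  ((rel (extR T'' T' α) : GLm (ι'' ⊕ ι') R) : Matrix (ι'' ⊕ ι') (ι'' ⊕ ι') R).toBlocks₁₂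

/-- `fox` for one handle -/
def fox1 (p'' : GLm ι'' R × GLm ι'' R) (p' : GLm ι' R × GLm ι' R) (α β : Matrix ι'' ι' R) :
    Matrix ι'' ι' R :=
  ((comm (extU p''.1 p'.1 α, extU p''.2 p'.2 β) : GLm (ι'' ⊕ ι') R) :
    Matrix (ι'' ⊕ ι') (ι'' ⊕ ι') R).toBlocks₁₂

end Fox

end Surf

/-! ## Zariski closure, universal ring -/

/-- Zariski closure in `κ → ℂ` -/
def zcl {κ : Type} (S : Set (κ → ℂ)) : Set (κ → ℂ) :=
  {x | ∀ p : MvPolynomial κ ℂ, (∀ s ∈ S, MvPolynomial.eval s p = 0) → MvPolynomial.eval x p = 0}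

/-- `B` is a ring of functions `J → O`; a tuple of complex numbers is in the closure of a set `S` of
`O`-points iff it is the image of a `B`-tuple all of whose values lie in `S`. -/
structure Univ (O : Subring ℂ) {B J : Type} [CommRing B] [Algebra O B] (π : B →ₐ[O] ℂ)
    (ev : J → (B →ₐ[O] O)) : Prop where
  sep : ∀ b : B, (∀ j, ev j b = 0) → b = 0
  cl : ∀ (κ : Type) (τ : κ → B), (fun k => π (τ k)) ∈ zcl (Set.range fun j k => ((ev j (τ k) : O) : ℂ))
  univ : ∀ (κ : Type) [Finite κ] (S : Set (κ → O)) (x : κ → ℂ),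
    x ∈ zcl ((fun s k => ((s k : O) : ℂ)) '' S) →
      ∃ τ : κ → B, (∀ k, π (τ k) = x k) ∧ ∀ j, (fun k => ev j (τ k)) ∈ S

/-- coordinates of a representation: entries of the generators and of their inverses -/
def co {ι R : Type} [Fintype ι] [DecidableEq ι] [CommRing R] {g : ℕ} (T : Rep g ι R) :
    Fin g × Bool × Bool × ι × ι → R := fun p =>
  let a : GLm ι R := if p.2.1 then (T p.1).2 else (T p.1).1
  ((if p.2.2.1 then a⁻¹ else a : GLm ι R) : Matrix ι ι R) p.2.2.2.1 p.2.2.2.2

/-- closure of the `O`-points of the closed surface -/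
def ZZ (O : Subring ℂ) (η : Oˣ) (g : ℕ) (ι : Type) [Fintype ι] [DecidableEq ι] : Set (Rep g ι ℂ) :=
  {T | co T ∈ zcl {y | ∃ T' : Rep g ι O, rel T' = scalU ι O η ∧ y = co (mapRep O.subtype T')}}

/-- number of distinct eigenvalues -/
def neig {ι : Type} [Fintype ι] [DecidableEq ι] (c : Matrix ι ι ℂ) : ℕ :=
  c.charpoly.roots.toFinset.card

/-- `r` units with unit differences -/
def HasD (O : Type) [CommRing O] (r : ℕ) : Prop :=
  ∃ δ : ℕ → Oˣ, ∀ i < r, ∀ j < r, i ≠ j → IsUnit ((δ i : O) - δ j)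

/-- multiplicatively independent complex numbers -/
def MulInd {ι : Type} [Fintype ι] (β : ι → ℂ) : Prop :=
  (∀ i, β i ≠ 0) ∧ ∀ μ : ι → ℤ, ∏ i, β i ^ μ i = 1 → μ = 0

/-- all principal minors are non-zero -/
def PrinNZ {ι : Type} [Fintype ι] [DecidableEq ι] (A : Matrix ι ι ℂ) : Prop :=
  ∀ I : Finset ι, (A.submatrix (fun i : I => (i : ι)) (fun i : I => (i : ι))).det ≠ 0

/-- non-zero orthogonal idempotents with sum one -/
structure Idems {ι : Type} [Fintype ι] [DecidableEq ι] {k : ℕ} (e : Fin k → Matrix ι ι ℂ) : Prop where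
  ne : ∀ i, e i ≠ 0
  idem : ∀ i, e i * e i = e i
  orth : ∀ i j, i ≠ j → e i * e j = 0
  sum : ∑ i, e i = 1

/-- the squarefree polynomial with the same roots as the characteristic polynomial -/
def sqf {ι : Type} [Fintype ι] [DecidableEq ι] (a : Matrix ι ι ℂ) : Polynomial ℂ :=
  ∏ l ∈ a.charpoly.roots.toFinset, (Polynomial.X - Polynomial.C l)

/-- `γ` is a curve of families of matrices with derivative `v` at `0` -/
def Curve {κ ι : Type} (γ : ℂ → κ → Matrix ι ι ℂ) (v : κ → Matrix ι ι ℂ) : Prop :=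
  ∀ k i j, HasDerivAt (fun t => γ t k i j) (v k i j) 0

/-- `(a, b)` is in good position for the torus argument -/
def GoodPair {ι : Type} [Fintype ι] [DecidableEq ι] (a b : Matrix ι ι ℂ) : Prop :=
  ∃ (G : GLm ι ℂ) (β : ι → ℂ), MulInd β ∧
    b = (G : Matrix ι ι ℂ) * diagonal β * ((G⁻¹ : GLm ι ℂ) : Matrix ι ι ℂ) ∧
    PrinNZ (((G⁻¹ : GLm ι ℂ) : Matrix ι ι ℂ) * a * (G : Matrix ι ι ℂ))

/-- completely reducible family of matrices -/
def SS {κ ι : Type} [Fintype ι] (A : κ → Matrix ι ι ℂ) : Prop :=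
  ∀ W : Submodule ℂ (ι → ℂ), (∀ k, ∀ v ∈ W, (A k).mulVec v ∈ W) →
    ∃ W' : Submodule ℂ (ι → ℂ), (∀ k, ∀ v ∈ W', (A k).mulVec v ∈ W') ∧ IsCompl W W'

/-- the relator as a function of the matrix entries (Pi types, so that norms are available) -/
def relM {ι : Type} [Fintype ι] [DecidableEq ι] {g : ℕ} (x : Fin g × Bool → ι → ι → ℂ) : ι → ι → ℂ :=
  ((List.ofFn fun i : Fin g => (Matrix.of (x (i, false)) * Matrix.of (x (i, true)) *
    (Matrix.of (x (i, false)))⁻¹ * (Matrix.of (x (i, true)))⁻¹ : Matrix ι ι ℂ)).prod : Matrix ι ι ℂ)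

/-- `ξ + n` is a Richardson element for the flag of `P` -/
def Punc.Rich {O ι : Type} [CommRing O] [Algebra O ℂ] [Fintype ι] [DecidableEq ι] (P : Punc O ι)
    (n : Matrix ι ι ℂ) : Prop :=
  ∀ ν : Matrix ι ι ℂ,
    P.Nil ((dg ℂ (fun i => P.ξ (P.lev i)) + n) * ν - ν * (dg ℂ (fun i => P.ξ (P.lev i)) + n)) →
      ∀ i j, P.lev j < P.lev i → ν i j = 0

/-- `c` is killed by `∏_{k < N} (X - ξ k)` -/
def Killed {O ι : Type} [CommRing O] [Algebra O ℂ] [Fintype ι] [DecidableEq ι] (ξ : ℕ → Oˣ) (N : ℕ)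
    (c : Matrix ι ι ℂ) : Prop :=
  Polynomial.aeval c (∏ k ∈ Finset.range N,
    (Polynomial.X - Polynomial.C (algebraMap O ℂ (ξ k : O)))) = 0

/-- the property `P` of specialisations `φ` of `B` holds on a Zariski neighbourhood of `π` -/
def Generic {O B : Type} [CommRing O] [CommRing B] [Algebra O B] [Algebra O ℂ] (π : B →ₐ[O] ℂ)
    (P : (B →ₐ[O] ℂ) → Prop) : Prop :=
  ∃ (κ : Type) (τ : κ → B) (Θ : MvPolynomial κ ℂ), MvPolynomial.eval (fun k => π (τ k)) Θ ≠ 0 ∧
    ∀ φ : B →ₐ[O] ℂ, MvPolynomial.eval (fun k => φ (τ k)) Θ ≠ 0 → P φ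

/-- the ring of integers of a subfield of `ℂ` -/
def intRing (F : Subfield ℂ) : Subring ℂ := F.toSubring ⊓ (integralClosure ℤ ℂ).toSubring

end Crest.Agent.R3
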