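import Crest.Agent.R3.LiftB

/-!
# R3 / Fox : Fox calculus for the surface relator

`fox1_ann`: by `fox1_eq` and cyclicity of the trace the condition is
(α) `b' a'⁻¹ b'⁻¹ χ = a'⁻¹ b'⁻¹ χ a'' b'' a''⁻¹`, (β) `a'⁻¹ b'⁻¹ χ a'' = b'⁻¹ χ c''` with `c'' = comm p''`.  With
`θ = χ c''`: (β) in (α) gives `θ a''⁻¹ = b'⁻¹ θ b'' a''⁻¹`, so `θ b'' = b' θ`; then (β) with `χ = θ c''⁻¹` gives
`θ a'' = a' θ`.  The converse is a direct computation.
`fox_ann`: induction on `g` with `fox_succ`.  `ψ c''` annihilates `fox` of the tails, so `θ = ψ c'' rel(tail T'') =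
ψ rel T''` intertwines the tails, so `rel(tail T') θ = θ rel(tail T'')` (`rel_conj`), and `χ = rel(tail T') ψ` has
`χ c'' = θ`.
-/

set_option autoImplicit false

noncomputable section

open Matrix

namespace Crest.Agent.R3

variable {R : Type} [CommRing R] {ι' ι'' : Type} [Fintype ι'] [DecidableEq ι'] [Fintype ι'']
  [DecidableEq ι''] {g : ℕ}

theorem extU_val (a'' : GLm ι'' R) (a' : GLm ι' R) (α : Matrix ι'' ι' R) :
    ((extU a'' a' α : GLm (ι'' ⊕ ι') R) : Matrix (ι'' ⊕ ι') (ι'' ⊕ ι') R) =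
      fromBlocks (a'' : Matrix ι'' ι'' R) α 0 (a' : Matrix ι' ι' R) := rfl

theorem fx_extU_mul (a'' b'' : GLm ι'' R) (a' b' : GLm ι' R) (α β : Matrix ι'' ι' R) :
    extU a'' a' α * extU b'' b' β =
      extU (a'' * b'') (a' * b') ((a'' : Matrix ι'' ι'' R) * β + α * (b' : Matrix ι' ι' R)) := by
  apply Units.ext
  rw [Units.val_mul, extU_val, extU_val, extU_val, fromBlocks_multiply]
  simp

theorem fx_extU_inv (a'' : GLm ι'' R) (a' : GLm ι' R) (α : Matrix ι'' ι' R) :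
    (extU a'' a' α)⁻¹ = extU a''⁻¹ a'⁻¹
      (-(((a''⁻¹ : GLm ι'' R) : Matrix ι'' ι'' R) * α * ((a'⁻¹ : GLm ι' R) : Matrix ι' ι' R))) :=
  Units.ext rfl

theorem fx_extU_one : extU (1 : GLm ι'' R) (1 : GLm ι' R) 0 = 1 := by
  apply Units.ext
  rw [extU_val]
  simp

theorem fx_block (a'' : GLm ι'' R) (a' : GLm ι' R) (α : Matrix ι'' ι' R) :
    ((extU a'' a' α : GLm (ι'' ⊕ ι') R) : Matrix (ι'' ⊕ ι') (ι'' ⊕ ι') R).toBlocks₁₂ = α := rfl

theorem fx_comm (p'' : GLm ι'' R × GLm ι'' R) (p' : GLm ι' R × GLm ι' R) (α β : Matrix ι'' ι' R) :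
    comm (extU p''.1 p'.1 α, extU p''.2 p'.2 β) = extU (comm p'') (comm p') (fox1 p'' p' α β) := by
  have : ∃ γ, comm (extU p''.1 p'.1 α, extU p''.2 p'.2 β) = extU (comm p'') (comm p') γ := by
    simp only [comm, fx_extU_inv, fx_extU_mul]
    exact ⟨_, rfl⟩
  obtain ⟨γ, h⟩ := this
  rw [fox1, h, fx_block]

theorem fx_cancel {κ : Type} (u : GLm ι'' R) (M : Matrix ι'' κ R) :
    (u : Matrix ι'' ι'' R) * (((u⁻¹ : GLm ι'' R) : Matrix ι'' ι'' R) * M) = M := by
  rw [← Matrix.mul_assoc, Units.mul_inv, Matrix.one_mul]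

theorem fx_cancel' {κ : Type} (u : GLm ι'' R) (M : Matrix ι'' κ R) :
    ((u⁻¹ : GLm ι'' R) : Matrix ι'' ι'' R) * ((u : Matrix ι'' ι'' R) * M) = M := by
  rw [← Matrix.mul_assoc, Units.inv_mul, Matrix.one_mul]

theorem gens_extR (T'' : Rep g ι'' R) (T' : Rep g ι' R) (α : Fin g × Bool → Matrix ι'' ι' R)
    (k : Fin g × Bool) : gens (extR T'' T' α) k = fromBlocks (gens T'' k) (α k) 0 (gens T' k) := by
  obtain ⟨i, b⟩ := k
  cases b <;> rfl

theorem rel_extR (T'' : Rep g ι'' R) (T' : Rep g ι' R) (α : Fin g × Bool → Matrix ι'' ι' R) :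
    rel (extR T'' T' α) = extU (rel T'') (rel T') (fox T'' T' α) := by
  have : ∃ γ, rel (extR T'' T' α) = extU (rel T'') (rel T') γ := by
    induction g with
    | zero => exact ⟨0, by rw [rel_zero, rel_zero, rel_zero, fx_extU_one]⟩
    | succ g ih =>
      obtain ⟨γ, h⟩ := ih (Fin.tail T'') (Fin.tail T') fun p => α (p.1.succ, p.2)
      have e : Fin.tail (extR T'' T' α) =
          extR (Fin.tail T'') (Fin.tail T') fun p => α (p.1.succ, p.2) := rfl
      have e0 : extR T'' T' α 0 =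
          (extU (T'' 0).1 (T' 0).1 (α (0, false)), extU (T'' 0).2 (T' 0).2 (α (0, true))) := rfl
      rw [rel_succ, rel_succ T'', rel_succ T', e, h, e0, fx_comm, fx_extU_mul]
      exact ⟨_, rfl⟩
  obtain ⟨γ, h⟩ := this
  rw [fox, h, fx_block]

theorem fox1_eq (a'' b'' : GLm ι'' R) (a' b' : GLm ι' R) (α β : Matrix ι'' ι' R) :
    fox1 (a'', b'') (a', b') α β =
      α * ((b' * a'⁻¹ * b'⁻¹ : GLm ι' R) : Matrix ι' ι' R) +
        (a'' : Matrix ι'' ι'' R) * β * ((a'⁻¹ * b'⁻¹ : GLm ι' R) : Matrix ι' ι' R) -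
        ((a'' * b'' * a''⁻¹ : GLm ι'' R) : Matrix ι'' ι'' R) * α *
          ((a'⁻¹ * b'⁻¹ : GLm ι' R) : Matrix ι' ι' R) -
        ((a'' * b'' * a''⁻¹ * b''⁻¹ : GLm ι'' R) : Matrix ι'' ι'' R) * β *
          ((b'⁻¹ : GLm ι' R) : Matrix ι' ι' R) := by
  simp only [fox1, comm, fx_extU_inv, fx_extU_mul, fx_block, Units.val_mul, Matrix.add_mul,
    Matrix.mul_neg, Matrix.neg_mul, Matrix.mul_assoc]
  abel

theorem fox_zero (T'' : Rep 0 ι'' R) (T' : Rep 0 ι' R) (α : Fin 0 × Bool → Matrix ι'' ι' R) :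
    fox T'' T' α = 0 := by
  rw [fox, rel_zero, ← fx_extU_one, fx_block]

theorem fox_succ (T'' : Rep (g + 1) ι'' R) (T' : Rep (g + 1) ι' R)
    (α : Fin (g + 1) × Bool → Matrix ι'' ι' R) :
    fox T'' T' α =
      fox1 (T'' 0) (T' 0) (α (0, false)) (α (0, true)) *
          ((rel (Fin.tail T') : GLm ι' R) : Matrix ι' ι' R) +
        ((comm (T'' 0) : GLm ι'' R) : Matrix ι'' ι'' R) *
          fox (Fin.tail T'') (Fin.tail T') fun p => α (p.1.succ, p.2) := by
  have e : Fin.tail (extR T'' T' α) =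
      extR (Fin.tail T'') (Fin.tail T') fun p => α (p.1.succ, p.2) := rfl
  have e0 : extR T'' T' α 0 =
      (extU (T'' 0).1 (T' 0).1 (α (0, false)), extU (T'' 0).2 (T' 0).2 (α (0, true))) := rfl
  rw [fox, rel_succ, e, rel_extR, e0, fx_comm, fx_extU_mul, fx_block, add_comm]

theorem fx_fox1_add (p'' : GLm ι'' R × GLm ι'' R) (p' : GLm ι' R × GLm ι' R) (α β α' β' : Matrix ι'' ι' R) :
    fox1 p'' p' (α + α') (β + β') = fox1 p'' p' α β + fox1 p'' p' α' β' := by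
  obtain ⟨a'', b''⟩ := p''
  obtain ⟨a', b'⟩ := p'
  simp only [fox1_eq, Matrix.add_mul, Matrix.mul_add]
  abel

theorem fx_fox1_smul (p'' : GLm ι'' R × GLm ι'' R) (p' : GLm ι' R × GLm ι' R) (c : R)
    (α β : Matrix ι'' ι' R) : fox1 p'' p' (c • α) (c • β) = c • fox1 p'' p' α β := by
  obtain ⟨a'', b''⟩ := p''
  obtain ⟨a', b'⟩ := p'
  simp only [fox1_eq, Matrix.smul_mul, Matrix.mul_smul, smul_add, smul_sub]

theorem fox_add (T'' : Rep g ι'' R) (T' : Rep g ι' R) (α β : Fin g × Bool → Matrix ι'' ι' R) :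
    fox T'' T' (α + β) = fox T'' T' α + fox T'' T' β := by
  induction g with
  | zero => simp only [fox_zero, add_zero]
  | succ g ih =>
    have := ih (Fin.tail T'') (Fin.tail T') (fun p => α (p.1.succ, p.2)) fun p => β (p.1.succ, p.2)
    have e : (fun p : Fin g × Bool => (α + β) (p.1.succ, p.2)) =
        (fun p => α (p.1.succ, p.2)) + fun p => β (p.1.succ, p.2) := rfl
    rw [fox_succ, fox_succ T'' T' α, fox_succ T'' T' β, e, this, Pi.add_apply, Pi.add_apply,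
      fx_fox1_add, Matrix.add_mul, Matrix.mul_add]
    abel

theorem fox_smul (T'' : Rep g ι'' R) (T' : Rep g ι' R) (c : R) (α : Fin g × Bool → Matrix ι'' ι' R) :
    fox T'' T' (c • α) = c • fox T'' T' α := by
  induction g with
  | zero => simp only [fox_zero, smul_zero]
  | succ g ih =>
    have := ih (Fin.tail T'') (Fin.tail T') (fun p => α (p.1.succ, p.2))
    have e : (fun p : Fin g × Bool => (c • α) (p.1.succ, p.2)) =
        c • (fun p => α (p.1.succ, p.2)) := rfl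
    rw [fox_succ, fox_succ T'' T' α, e, this, Pi.smul_apply, Pi.smul_apply,
      fx_fox1_smul, Matrix.smul_mul, Matrix.mul_smul, smul_add]

/-- `fox` as a linear map -/
def foxL (T'' : Rep g ι'' R) (T' : Rep g ι' R) :
    (Fin g × Bool → Matrix ι'' ι' R) →ₗ[R] Matrix ι'' ι' R where
  toFun := fox T'' T'
  map_add' := fox_add T'' T'
  map_smul' := fox_smul T'' T'

theorem mapRep_extR {R' : Type} [CommRing R'] (φ : R →+* R') (T'' : Rep g ι'' R) (T' : Rep g ι' R)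
    (α : Fin g × Bool → Matrix ι'' ι' R) :
    mapRep φ (extR T'' T' α) = extR (mapRep φ T'') (mapRep φ T') fun k => (α k).map φ := by
  refine rep_ext fun k => ?_
  rw [gens_mapRep, gens_extR, gens_extR, fromBlocks_map, gens_mapRep, gens_mapRep,
    Matrix.map_zero _ (map_zero φ)]

theorem fox_map {R' : Type} [CommRing R'] (φ : R →+* R') (T'' : Rep g ι'' R) (T' : Rep g ι' R)
    (α : Fin g × Bool → Matrix ι'' ι' R) :
    (fox T'' T' α).map φ = fox (mapRep φ T'') (mapRep φ T') fun k => (α k).map φ := by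
  rw [fox, fox, ← mapRep_extR, rel_mapRep, mapU_val]
  rfl

/-- pairs intertwined by `θ` -/
def fxH (θ : Matrix ι' ι'' R) : Subgroup (GLm ι' R × GLm ι'' R) where
  carrier := {p | θ * (p.2 : Matrix ι'' ι'' R) = (p.1 : Matrix ι' ι' R) * θ}
  one_mem' := by simp
  mul_mem' := fun {p q} hp hq => by
    have hp' : θ * (p.2 : Matrix ι'' ι'' R) = (p.1 : Matrix ι' ι' R) * θ := hp
    have hq' : θ * (q.2 : Matrix ι'' ι'' R) = (q.1 : Matrix ι' ι' R) * θ := hq
    show θ * ((p.2 * q.2 : GLm ι'' R) : Matrix ι'' ι'' R) = ((p.1 * q.1 : GLm ι' R) : Matrix ι' ι' R) * θ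
    rw [Units.val_mul, Units.val_mul, ← Matrix.mul_assoc, hp', Matrix.mul_assoc, hq', Matrix.mul_assoc]
  inv_mem' := fun {p} hp => by
    have hp' : θ * (p.2 : Matrix ι'' ι'' R) = (p.1 : Matrix ι' ι' R) * θ := hp
    show θ * ((p.2⁻¹ : GLm ι'' R) : Matrix ι'' ι'' R) = ((p.1⁻¹ : GLm ι' R) : Matrix ι' ι' R) * θ
    rw [← fx_cancel' p.1 (θ * _), ← Matrix.mul_assoc (p.1 : Matrix ι' ι' R), ← hp', Matrix.mul_assoc θ,
      Units.mul_inv, Matrix.mul_one]

theorem fx_memH (θ : Matrix ι' ι'' R) (u u' : GLm ι' R) (v v' : GLm ι'' R) :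
    (u : Matrix ι' ι' R) * θ * (v : Matrix ι'' ι'' R) = (u' : Matrix ι' ι' R) * θ * (v' : Matrix ι'' ι'' R) ↔
      (u'⁻¹ * u, v' * v⁻¹) ∈ fxH θ := by
  show _ ↔ θ * ((v' * v⁻¹ : GLm ι'' R) : Matrix ι'' ι'' R) = ((u'⁻¹ * u : GLm ι' R) : Matrix ι' ι' R) * θ
  rw [Units.val_mul, Units.val_mul]
  constructor
  · intro h
    have := congrArg (fun M => ((u'⁻¹ : GLm ι' R) : Matrix ι' ι' R) * M *
      ((v⁻¹ : GLm ι'' R) : Matrix ι'' ι'' R)) h
    simp only [Matrix.mul_assoc, fx_cancel', Units.mul_inv, Matrix.mul_one] at this ⊢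
    exact this.symm
  · intro h
    have := congrArg (fun M => (u' : Matrix ι' ι' R) * M * (v : Matrix ι'' ι'' R)) h
    simp only [Matrix.mul_assoc, fx_cancel, Units.inv_mul, Matrix.mul_one] at this ⊢
    exact this.symm

theorem fx_trace (P : Matrix ι' ι'' R) : (∀ α : Matrix ι'' ι' R, trace (P * α) = 0) ↔ P = 0 := by
  constructor
  · intro h
    ext i j
    have := h (single j i 1)
    rw [trace_mul_single] at this
    simpa using this
  · rintro rfl α
    simp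

theorem fx_grp {G : Type} [Group G] (H : Subgroup G) (x y : G) :
    (y * x * y * x⁻¹ * y⁻¹ ∈ H ∧ y * x⁻¹ * y⁻¹ ∈ H) ↔ (x ∈ H ∧ y ∈ H) := by
  constructor
  · rintro ⟨h1, h2⟩
    have hy : y ∈ H := by
      have := H.mul_mem (H.mul_mem h2 h1) (H.inv_mem h2)
      convert this using 1
      group
    refine ⟨?_, hy⟩
    have := H.mul_mem (H.mul_mem (H.inv_mem hy) (H.inv_mem h2)) hy
    convert this using 1
    group
  · rintro ⟨hx, hy⟩
    exact ⟨H.mul_mem (H.mul_mem (H.mul_mem (H.mul_mem hy hx) hy) (H.inv_mem hx)) (H.inv_mem hy),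
      H.mul_mem (H.mul_mem hy (H.inv_mem hx)) (H.inv_mem hy)⟩

theorem fox1_ann (p'' : GLm ι'' R × GLm ι'' R) (p' : GLm ι' R × GLm ι' R) (χ : Matrix ι' ι'' R) :
    (∀ α β, trace (χ * fox1 p'' p' α β) = 0) ↔
      (χ * ((comm p'' : GLm ι'' R) : Matrix ι'' ι'' R)) * (p''.1 : Matrix ι'' ι'' R) =
          (p'.1 : Matrix ι' ι' R) * (χ * ((comm p'' : GLm ι'' R) : Matrix ι'' ι'' R)) ∧
        (χ * ((comm p'' : GLm ι'' R) : Matrix ι'' ι'' R)) * (p''.2 : Matrix ι'' ι'' R) =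
          (p'.2 : Matrix ι' ι' R) * (χ * ((comm p'' : GLm ι'' R) : Matrix ι'' ι'' R)) := by
  obtain ⟨A, B⟩ := p''
  obtain ⟨a, b⟩ := p'
  set θ := χ * ((comm (A, B) : GLm ι'' R) : Matrix ι'' ι'' R) with hθ
  have hχ : χ = θ * (((comm (A, B))⁻¹ : GLm ι'' R) : Matrix ι'' ι'' R) := by
    rw [hθ, Matrix.mul_assoc, Units.mul_inv, Matrix.mul_one]
  set P : Matrix ι' ι'' R := ((b * a⁻¹ * b⁻¹ : GLm ι' R) : Matrix ι' ι' R) * χ -
    ((a⁻¹ * b⁻¹ : GLm ι' R) : Matrix ι' ι' R) * χ * ((A * B * A⁻¹ : GLm ι'' R) : Matrix ι'' ι'' R) with hP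
  set Q : Matrix ι' ι'' R := ((a⁻¹ * b⁻¹ : GLm ι' R) : Matrix ι' ι' R) * χ * (A : Matrix ι'' ι'' R) -
    ((b⁻¹ : GLm ι' R) : Matrix ι' ι' R) * χ * ((A * B * A⁻¹ * B⁻¹ : GLm ι'' R) : Matrix ι'' ι'' R) with hQ
  have h1 : ∀ α β, trace (χ * fox1 (A, B) (a, b) α β) = trace (P * α) + trace (Q * β) := by
    intro α β
    have c1 : ∀ (U : Matrix ι'' ι'' R) (γ : Matrix ι'' ι' R) (V : Matrix ι' ι' R),
        trace (χ * (U * γ * V)) = trace (V * χ * U * γ) := fun U γ V => by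
      rw [← Matrix.mul_assoc, trace_mul_comm]
      simp only [Matrix.mul_assoc]
    have c2 : ∀ (γ : Matrix ι'' ι' R) (V : Matrix ι' ι' R),
        trace (χ * (γ * V)) = trace (V * χ * γ) := fun γ V => by
      rw [← Matrix.mul_assoc, trace_mul_comm]
      simp only [Matrix.mul_assoc]
    rw [fox1_eq, hP, hQ, Matrix.mul_sub, Matrix.mul_sub, Matrix.mul_add, trace_sub, trace_sub, trace_add,
      c1, c1, c1, c2, Matrix.sub_mul, Matrix.sub_mul, trace_sub, trace_sub]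
    ring
  have h2 : (∀ α β, trace (χ * fox1 (A, B) (a, b) α β) = 0) ↔ P = 0 ∧ Q = 0 := by
    constructor
    · intro h
      refine ⟨(fx_trace P).1 fun α => ?_, (fx_trace Q).1 fun β => ?_⟩
      · simpa [h1] using h α 0
      · simpa [h1] using h 0 β
    · rintro ⟨k1, k2⟩ α β
      simp [h1, k1, k2]
  have h3 : P = 0 ↔ (b, B) * (a, A) * (b, B) * (a, A)⁻¹ * (b, B)⁻¹ ∈ fxH θ := by
    have := fx_memH θ (b * a⁻¹ * b⁻¹) (a⁻¹ * b⁻¹) (comm (A, B))⁻¹ ((comm (A, B))⁻¹ * (A * B * A⁻¹))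
    rw [hP, sub_eq_zero, hχ]
    simp only [Units.val_mul, Matrix.mul_assoc] at this ⊢
    rw [this]
    refine Iff.of_eq (congrArg (· ∈ fxH θ) (Prod.ext ?_ ?_))
    · simp only [Prod.mk_mul_mk, Prod.inv_mk]; group
    · simp only [Prod.mk_mul_mk, Prod.inv_mk, comm]; group
  have h4 : Q = 0 ↔ (b, B) * (a, A)⁻¹ * (b, B)⁻¹ ∈ fxH θ := by
    have := fx_memH θ (a⁻¹ * b⁻¹) b⁻¹ ((comm (A, B))⁻¹ * A) ((comm (A, B))⁻¹ * (A * B * A⁻¹ * B⁻¹))
    rw [hQ, sub_eq_zero, hχ]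
    simp only [Units.val_mul, Matrix.mul_assoc] at this ⊢
    rw [this]
    refine Iff.of_eq (congrArg (· ∈ fxH θ) (Prod.ext ?_ ?_))
    · simp only [Prod.mk_mul_mk, Prod.inv_mk]; group
    · simp only [Prod.mk_mul_mk, Prod.inv_mk, comm]; group
  rw [h2, h3, h4, fx_grp]
  rfl

/-- the annihilator of the image of `fox` -/
theorem fox_ann (T'' : Rep g ι'' R) (T' : Rep g ι' R) (ψ : Matrix ι' ι'' R) :
    (∀ α, trace (ψ * fox T'' T' α) = 0) ↔
      Intw (gens T'') (gens T') (ψ * ((rel T'' : GLm ι'' R) : Matrix ι'' ι'' R)) := by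
  induction g generalizing ψ with
  | zero =>
    refine ⟨fun _ k => k.1.elim0, fun _ α => ?_⟩
    rw [fox_zero, Matrix.mul_zero, trace_zero]
  | succ g ih =>
    set c : GLm ι'' R := comm (T'' 0) with hc
    set r'' : GLm ι'' R := rel (Fin.tail T'') with hr''
    set r' : GLm ι' R := rel (Fin.tail T') with hr'
    have h1 : ∀ α, trace (ψ * fox T'' T' α) =
        trace ((r' : Matrix ι' ι' R) * ψ * fox1 (T'' 0) (T' 0) (α (0, false)) (α (0, true))) +
        trace (ψ * (c : Matrix ι'' ι'' R) *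
          fox (Fin.tail T'') (Fin.tail T') fun p => α (p.1.succ, p.2)) := fun α => by
      rw [fox_succ, Matrix.mul_add, trace_add, ← Matrix.mul_assoc, trace_mul_comm]
      simp only [Matrix.mul_assoc]
      rfl
    have z1 : fox1 (T'' 0) (T' 0) 0 0 = 0 := by
      simpa using fx_fox1_smul (T'' 0) (T' 0) 0 0 0
    have z2 : fox (Fin.tail T'') (Fin.tail T') 0 = 0 := (foxL (Fin.tail T'') (Fin.tail T')).map_zero
    have h2 : (∀ α, trace (ψ * fox T'' T' α) = 0) ↔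
        (∀ α β, trace ((r' : Matrix ι' ι' R) * ψ * fox1 (T'' 0) (T' 0) α β) = 0) ∧
        ∀ α, trace (ψ * (c : Matrix ι'' ι'' R) * fox (Fin.tail T'') (Fin.tail T') α) = 0 := by
      constructor
      · intro h
        refine ⟨fun α β => ?_, fun α => ?_⟩
        · have := h fun p => Fin.cases (if p.2 then β else α) (fun _ => 0) p.1
          rw [h1] at this
          simp only [Fin.cases_zero, Fin.cases_succ, if_true, Bool.false_eq_true, if_false] at this
          rwa [show (fun _ : Fin g × Bool => (0 : Matrix ι'' ι' R)) = 0 from rfl, z2, Matrix.mul_zero,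
            trace_zero, add_zero] at this
        · have := h fun p => Fin.cases 0 (fun i => α (i, p.2)) p.1
          rw [h1] at this
          simp only [Fin.cases_zero, Fin.cases_succ] at this
          rwa [z1, Matrix.mul_zero, trace_zero, zero_add] at this
      · rintro ⟨k1, k2⟩ α
        rw [h1, k1, k2, add_zero]
    have e : ψ * (c : Matrix ι'' ι'' R) * (r'' : Matrix ι'' ι'' R) =
        ψ * ((rel T'' : GLm ι'' R) : Matrix ι'' ι'' R) := by
      rw [rel_succ T'', Units.val_mul, Matrix.mul_assoc]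
    rw [h2, fox1_ann, ih, e, ← hc]
    set θ := ψ * ((rel T'' : GLm ι'' R) : Matrix ι'' ι'' R) with hθ
    have h3 : Intw (gens (Fin.tail T'')) (gens (Fin.tail T')) θ →
        (r' : Matrix ι' ι' R) * ψ * (c : Matrix ι'' ι'' R) = θ := fun h => by
      have k := rel_conj h
      rw [← hr'', ← hr'] at k
      have k2 := congrArg (· * ((r''⁻¹ : GLm ι'' R) : Matrix ι'' ι'' R)) k
      simp only [Matrix.mul_assoc θ, Units.mul_inv, Matrix.mul_one] at k2
      rw [k2, ← e]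
      simp only [Matrix.mul_assoc, Units.mul_inv, Matrix.mul_one]
    constructor
    · rintro ⟨⟨k1, k2⟩, k3⟩ ⟨i, b⟩
      rw [h3 k3] at k1 k2
      refine Fin.cases ?_ (fun i => k3 (i, b)) i
      cases b
      · exact k1
      · exact k2
    · intro h
      have k3 : Intw (gens (Fin.tail T'')) (gens (Fin.tail T')) θ := fun k => h (k.1.succ, k.2)
      rw [h3 k3]
      exact ⟨⟨h (0, false), h (0, true)⟩, k3⟩

/-- a linear functional on matrices is a trace pairing -/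
theorem exists_trace_pairing (f : Matrix ι'' ι' R →ₗ[R] R) :
    ∃ ψ : Matrix ι' ι'' R, ∀ M, f M = trace (ψ * M) := by
  refine ⟨Matrix.of fun j i => f (single i j 1), fun M => ?_⟩
  conv_lhs => rw [matrix_eq_sum_single M]
  simp only [map_sum, trace, diag_apply, mul_apply, of_apply]
  rw [Finset.sum_comm]
  refine Finset.sum_congr rfl fun j _ => Finset.sum_congr rfl fun i _ => ?_
  rw [mul_comm, ← smul_eq_mul, ← map_smul, smul_single, smul_eq_mul, mul_one]

/-- image of a linear map into matrices = annihilator of its annihilator -/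
theorem mem_range_of_ann {E : Type} [AddCommGroup E] [Module ℂ E] (F : E →ₗ[ℂ] Matrix ι'' ι' ℂ)
    (M : Matrix ι'' ι' ℂ) (h : ∀ ψ : Matrix ι' ι'' ℂ, (∀ e, trace (ψ * F e) = 0) → trace (ψ * M) = 0) :
    ∃ e, F e = M := by
  by_contra hM
  have hM' : M ∉ LinearMap.range F := hM
  obtain ⟨f, h1, h2⟩ := Submodule.exists_le_ker_of_notMem hM'
  obtain ⟨ψ, hψ⟩ := exists_trace_pairing f
  refine h1 ?_
  rw [hψ]
  exact h ψ fun e => by rw [← hψ]; exact h2 ⟨e, rfl⟩

/-- a functional vanishing on the kernel of `F` factors through `F` -/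
theorem exists_ann_of_ker {E : Type} [AddCommGroup E] [Module ℂ E] (F : E →ₗ[ℂ] Matrix ι'' ι' ℂ)
    (f : E →ₗ[ℂ] ℂ) (h : ∀ e, F e = 0 → f e = 0) :
    ∃ ψ : Matrix ι' ι'' ℂ, ∀ e, f e = trace (ψ * F e) := by
  have h1 : f ∈ LinearMap.range F.dualMap := by
    rw [LinearMap.range_dualMap_eq_dualAnnihilator_ker, Submodule.mem_dualAnnihilator]
    exact h
  obtain ⟨φ, rfl⟩ := h1
  obtain ⟨ψ, hψ⟩ := exists_trace_pairing φ
  exact ⟨ψ, fun e => by rw [← hψ]; rfl⟩

end Crest.Agent.R3
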