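import Crest.Agent.R3.Decomp
import Crest.Agent.R3.Fox

/-!
# R3 / RadA : the radical of a representation

`block_of_inv`: a basis of `W` extended to a basis of `ι → ℂ` makes all `A k` block triangular.
`rad_ss`: let `W` be the intersection of all maximal proper invariant subspaces (`W ≠ ⊤` if `ι` is non-empty; it is
a finite intersection `M 1 ⊓ … ⊓ M t` by finite dimension).  The quotient family is `SS`: for an invariant `N ⊇ W`
take `N'` minimal (in dimension) among the finite intersections of maximal invariant subspaces with `N ⊔ N' = ⊤`; if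
`N ⊓ N' ⊄ M` for a maximal `M` then `(N ⊓ N') ⊔ M = ⊤` and `N ⊔ (N' ⊓ M) = ⊤` (modular law), contradiction; so
`N ⊓ N' = W`.  The kernel of a non-zero intertwiner to an irreducible family is a maximal invariant subspace,
so the intertwiner kills `W`.
`rad_split` combines `rad_ss` and `ss_decomp`; block triangular units have invertible diagonal blocks
(determinants), so the blocks are representations (`Matrix.GeneralLinearGroup.mk''`/`Matrix.nonsing_inv`).
-/

set_option autoImplicit false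

noncomputable section

open Matrix

namespace Crest.Agent.R3

variable {κ ι : Type} [Fintype ι] [DecidableEq ι]

theorem block_of_inv (A : κ → Matrix ι ι ℂ) (W : Submodule ℂ (ι → ℂ))
    (hW : ∀ k, ∀ v ∈ W, (A k).mulVec v ∈ W) :
    ∃ (n'' n' : ℕ) (A'' : κ → Matrix (Fin n'') (Fin n'') ℂ) (A' : κ → Matrix (Fin n') (Fin n') ℂ)
      (α : κ → Matrix (Fin n'') (Fin n') ℂ) (φ : Matrix (Fin n'' ⊕ Fin n') ι ℂ)
      (φ' : Matrix ι (Fin n'' ⊕ Fin n') ℂ), φ * φ' = 1 ∧ φ' * φ = 1 ∧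
      Intw A (fun k => fromBlocks (A'' k) (α k) 0 (A' k)) φ ∧
      ∀ v, v ∈ W ↔ ∀ j, (φ.mulVec v) (Sum.inr j) = 0 := by
  obtain ⟨W', h⟩ := W.exists_isCompl
  let b : Module.Basis (Fin (Module.finrank ℂ W) ⊕ Fin (Module.finrank ℂ W')) ℂ (ι → ℂ) :=
    ((Module.finBasis ℂ W).prod (Module.finBasis ℂ W')).map (W.prodEquivOfIsCompl W' h)
  let φ : Matrix (Fin (Module.finrank ℂ W) ⊕ Fin (Module.finrank ℂ W')) ι ℂ :=
    LinearMap.toMatrix' b.equivFun.toLinearMap
  let φ' : Matrix ι (Fin (Module.finrank ℂ W) ⊕ Fin (Module.finrank ℂ W')) ℂ :=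
    LinearMap.toMatrix' b.equivFun.symm.toLinearMap
  have h1 : φ * φ' = 1 := by
    simp only [φ, φ']
    rw [← LinearMap.toMatrix'_comp]
    simp
  have h2 : φ' * φ = 1 := by
    simp only [φ, φ']
    rw [← LinearMap.toMatrix'_comp]
    simp
  have hv : ∀ v, φ.mulVec v = b.equivFun v := by
    intro v
    simp only [φ]
    rw [LinearMap.toMatrix'_mulVec]
    rfl
  have hmem : ∀ v, v ∈ W ↔ ∀ j, (φ.mulVec v) (Sum.inr j) = 0 := by
    intro v
    rw [← Submodule.prodEquivOfIsCompl_symm_apply_snd_eq_zero W W' h]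
    simp only [hv, b, Module.Basis.equivFun_apply, Module.Basis.map_repr, LinearEquiv.trans_apply,
      Module.Basis.prod_repr_inr]
    constructor
    · intro h0 j
      rw [h0]; simp
    · intro h0
      apply (Module.finBasis ℂ W').repr.injective
      ext j
      simpa using h0 j
  refine ⟨_, _, fun k => (φ * A k * φ').toBlocks₁₁, fun k => (φ * A k * φ').toBlocks₂₂,
    fun k => (φ * A k * φ').toBlocks₁₂, φ, φ', h1, h2, ?_, hmem⟩
  intro k
  have h21 : (φ * A k * φ').toBlocks₂₁ = 0 := by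
    ext j i
    have hw : φ'.mulVec (Pi.single (Sum.inl i) 1) ∈ W := by
      rw [hmem]
      intro j'
      rw [mulVec_mulVec, h1, one_mulVec]
      simp
    have := (hmem _).1 (hW k _ hw) j
    rw [mulVec_mulVec, mulVec_mulVec] at this
    simpa [toBlocks₂₁] using this
  show φ * A k = fromBlocks _ _ 0 _ * φ
  rw [← h21, fromBlocks_toBlocks, Matrix.mul_assoc, h2, Matrix.mul_one]

/-- invariant subspace -/
def RaInv (A : κ → Matrix ι ι ℂ) (N : Submodule ℂ (ι → ℂ)) : Prop := ∀ k, ∀ v ∈ N, (A k).mulVec v ∈ N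

/-- maximal proper invariant subspace -/
def RaMax (A : κ → Matrix ι ι ℂ) (M : Submodule ℂ (ι → ℂ)) : Prop :=
  RaInv A M ∧ M ≠ ⊤ ∧ ∀ N, RaInv A N → M ≤ N → N = M ∨ N = ⊤

omit [DecidableEq ι] in
theorem RaInv.inf {A : κ → Matrix ι ι ℂ} {N N' : Submodule ℂ (ι → ℂ)} (h : RaInv A N) (h' : RaInv A N') :
    RaInv A (N ⊓ N') := fun k v hv => ⟨h k v hv.1, h' k v hv.2⟩

omit [DecidableEq ι] in
theorem RaInv.sup {A : κ → Matrix ι ι ℂ} {N N' : Submodule ℂ (ι → ℂ)} (h : RaInv A N) (h' : RaInv A N') :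
    RaInv A (N ⊔ N') := by
  intro k v hv
  obtain ⟨x, hx, y, hy, rfl⟩ := Submodule.mem_sup.1 hv
  rw [mulVec_add]
  exact Submodule.add_mem_sup (h k x hx) (h' k y hy)

omit [DecidableEq ι] in
theorem ra_exists_max [Nonempty ι] (A : κ → Matrix ι ι ℂ) : ∃ M, RaMax A M := by
  have hne : ({N | RaInv A N ∧ N ≠ ⊤} : Set (Submodule ℂ (ι → ℂ))).Nonempty :=
    ⟨⊥, fun k v hv => by simp_all, bot_ne_top⟩
  obtain ⟨M, hM, hmax⟩ := (wellFounded_gt (α := Submodule ℂ (ι → ℂ))).has_min _ hne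
  refine ⟨M, hM.1, hM.2, fun N hN hle => ?_⟩
  by_contra hc
  push Not at hc
  exact hmax N ⟨hN, hc.2⟩ (lt_of_le_of_ne hle (Ne.symm hc.1))

omit [DecidableEq ι] in
theorem ra_compl (A : κ → Matrix ι ι ℂ) (N : Submodule ℂ (ι → ℂ)) (hN : RaInv A N) :
    ∃ N', RaInv A N' ∧ sInf {M | RaMax A M} ≤ N' ∧ N ⊔ N' = ⊤ ∧ N ⊓ N' ≤ sInf {M | RaMax A M} := by
  have hne : ({N' | RaInv A N' ∧ sInf {M | RaMax A M} ≤ N' ∧ N ⊔ N' = ⊤} :
      Set (Submodule ℂ (ι → ℂ))).Nonempty := ⟨⊤, fun k v _ => trivial, le_top, by simp⟩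
  obtain ⟨N', hN', hmin⟩ := (wellFounded_lt (α := Submodule ℂ (ι → ℂ))).has_min _ hne
  refine ⟨N', hN'.1, hN'.2.1, hN'.2.2, le_sInf fun M hM => ?_⟩
  by_contra hc
  have h1 : (N ⊓ N') ⊔ M = ⊤ := by
    rcases hM.2.2 _ ((hN.inf hN'.1).sup hM.1) le_sup_right with h | h
    · exact absurd (le_sup_left.trans h.le) hc
    · exact h
  have h2 : (N ⊓ N') ⊔ (M ⊓ N') = N' := by
    rw [← sup_inf_assoc_of_le M (inf_le_right : N ⊓ N' ≤ N'), h1, top_inf_eq]
  have h3 : N ⊔ (M ⊓ N') = ⊤ := by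
    rw [eq_top_iff, ← hN'.2.2]
    refine sup_le le_sup_left ?_
    conv_lhs => rw [← h2]
    exact sup_le_sup_right inf_le_left _
  refine hmin (M ⊓ N') ⟨hM.1.inf hN'.1, le_inf (sInf_le hM) hN'.2.1, h3⟩ (lt_of_le_of_ne inf_le_right ?_)
  intro h4
  exact hc (inf_le_right.trans (h4.ge.trans inf_le_left))

theorem rad_ss [Nonempty ι] (A : κ → Matrix ι ι ℂ) :
    ∃ (n'' n' : ℕ) (A'' : κ → Matrix (Fin n'') (Fin n'') ℂ) (A' : κ → Matrix (Fin n') (Fin n') ℂ)
      (α : κ → Matrix (Fin n'') (Fin n') ℂ) (φ : Matrix (Fin n'' ⊕ Fin n') ι ℂ)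
      (φ' : Matrix ι (Fin n'' ⊕ Fin n') ℂ), 0 < n' ∧ SS A' ∧ φ * φ' = 1 ∧ φ' * φ = 1 ∧
      Intw A (fun k => fromBlocks (A'' k) (α k) 0 (A' k)) φ ∧
      ∀ (n0 : ℕ) (S : κ → Matrix (Fin n0) (Fin n0) ℂ), Irr S →
        ∀ ψ : Matrix (Fin n0) (Fin n'' ⊕ Fin n') ℂ,
          Intw (fun k => fromBlocks (A'' k) (α k) 0 (A' k)) S ψ → ψ.toCols₁ = 0 := by
  set W : Submodule ℂ (ι → ℂ) := sInf {M | RaMax A M} with hWdef
  have hWi : RaInv A W := by
    intro k v hv
    rw [hWdef, Submodule.mem_sInf] at hv ⊢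
    exact fun M hM => hM.1 k v (hv M hM)
  obtain ⟨n'', n', A'', A', α, φ, φ', h1, h2, hI, hmem⟩ := block_of_inv A W hWi
  let π : (ι → ℂ) →ₗ[ℂ] (Fin n' → ℂ) := LinearMap.funLeft ℂ ℂ Sum.inr ∘ₗ φ.mulVecLin
  have hπ : ∀ v j, π v j = (φ.mulVec v) (Sum.inr j) := fun v j => rfl
  have hker : ∀ v, v ∈ W ↔ π v = 0 := by
    intro v
    rw [hmem, funext_iff]
    rfl
  have hsurj : Function.Surjective π := by
    intro u
    refine ⟨φ'.mulVec (Sum.elim 0 u), ?_⟩
    funext j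
    rw [hπ, mulVec_mulVec, h1, one_mulVec]
    rfl
  have hint : ∀ k v, π ((A k).mulVec v) = (A' k).mulVec (π v) := by
    intro k v
    funext j
    rw [hπ, mulVec_mulVec, hI k, ← mulVec_mulVec, fromBlocks_mulVec]
    simp only [zero_mulVec, zero_add, Sum.elim_inr]
    rfl
  refine ⟨n'', n', A'', A', α, φ, φ', ?_, ?_, h1, h2, hI, ?_⟩
  · obtain ⟨M, hM⟩ := ra_exists_max A
    rcases Nat.eq_zero_or_pos n' with h0 | h0
    · subst h0
      exfalso
      apply hM.2.1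
      rw [eq_top_iff]
      intro v _
      have : v ∈ W := (hmem v).2 fun j => j.elim0
      exact (sInf_le hM : W ≤ M) this
    · exact h0
  · intro U hU
    have hN : RaInv A (U.comap π) := by
      intro k v hv
      rw [Submodule.mem_comap] at hv ⊢
      rw [hint]
      exact hU k _ hv
    obtain ⟨N', hN', hWN', hsup, hinf⟩ := ra_compl A _ hN
    refine ⟨N'.map π, ?_, ?_, ?_⟩
    · rintro k _ ⟨v, hv, rfl⟩
      exact ⟨_, hN' k v hv, hint k v⟩
    · rw [Submodule.disjoint_def]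
      rintro _ hu ⟨v, hv, rfl⟩
      exact (hker v).1 (hinf ⟨hu, hv⟩)
    · rw [codisjoint_iff, eq_top_iff]
      intro u _
      obtain ⟨v, rfl⟩ := hsurj u
      have hv : v ∈ U.comap π ⊔ N' := hsup ▸ Submodule.mem_top
      obtain ⟨x, hx, y, hy, rfl⟩ := Submodule.mem_sup.1 hv
      rw [map_add]
      exact Submodule.add_mem_sup hx ⟨y, hy, rfl⟩
  · intro n0 S hS ψ hψ
    let p : (ι → ℂ) →ₗ[ℂ] (Fin n0 → ℂ) := (ψ * φ).mulVecLin
    have hp : ∀ k v, p ((A k).mulVec v) = (S k).mulVec (p v) := by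
      intro k v
      simp only [p, mulVecLin_apply, mulVec_mulVec]
      rw [Matrix.mul_assoc, hI k, ← Matrix.mul_assoc, hψ k, Matrix.mul_assoc]
    have hWK : W ≤ LinearMap.ker p := by
      by_cases hK : LinearMap.ker p = ⊤
      · rw [hK]; exact le_top
      refine sInf_le ⟨?_, hK, ?_⟩
      · intro k v hv
        rw [LinearMap.mem_ker] at hv ⊢
        rw [hp, hv, mulVec_zero]
      · intro N hN hle
        have hinv : ∀ k, ∀ u ∈ N.map p, (S k).mulVec u ∈ N.map p := by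
          rintro k _ ⟨v, hv, rfl⟩
          exact ⟨_, hN k v hv, hp k v⟩
        rcases hS.2 _ hinv with h | h
        · left
          refine le_antisymm (fun v hv => ?_) hle
          have : p v ∈ N.map p := ⟨v, hv, rfl⟩
          rw [h] at this
          exact this
        · right
          rw [eq_top_iff]
          intro v _
          have : p v ∈ N.map p := h ▸ Submodule.mem_top
          obtain ⟨w, hw, hwv⟩ := this
          have h3 : v - w ∈ N := hle (by rw [LinearMap.mem_ker, map_sub, hwv, sub_self])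
          simpa using N.add_mem h3 hw
    ext r i
    have hw : φ'.mulVec (Pi.single (Sum.inl i) 1) ∈ W := by
      rw [hmem]
      intro j'
      rw [mulVec_mulVec, h1, one_mulVec]
      simp
    have h4 := hWK hw
    rw [LinearMap.mem_ker] at h4
    simp only [p, mulVecLin_apply, mulVec_mulVec] at h4
    rw [Matrix.mul_assoc, h1, Matrix.mul_one] at h4
    simpa [toCols₁] using congrFun h4 r

theorem exists_rep {g : ℕ} (A : Fin g × Bool → Matrix ι ι ℂ) (h : ∀ k, (A k).det ≠ 0) :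
    ∃ T : Rep g ι ℂ, gens T = A := by
  have hu : ∀ k, IsUnit (A k) := fun k => (isUnit_iff_isUnit_det _).2 (h k).isUnit
  refine ⟨fun i => ((hu (i, false)).unit, (hu (i, true)).unit), ?_⟩
  funext ⟨i, b⟩
  cases b <;> simp [gens]

theorem det_gens_ne {g : ℕ} (T : Rep g ι ℂ) (k : Fin g × Bool) : (gens T k).det ≠ 0 := by
  have hu : IsUnit (gens T k) := by
    obtain ⟨i, b⟩ := k
    cases b
    · exact (T i).1.isUnit
    · exact (T i).2.isUnit
  exact ((isUnit_iff_isUnit_det _).1 hu).ne_zero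

/-- direct sum of representations -/
theorem exists_blockRep {R : Type} [CommRing R] {g t : ℕ} {n : Fin t → ℕ}
    (S : ∀ k : Fin t, Rep g (Fin (n k)) R) :
    ∃ T' : Rep g (Σ k : Fin t, Fin (n k)) R, (∀ p, gens T' p = blockDiagonal' fun k => gens (S k) p) ∧
      (rel T').val = blockDiagonal' fun k => (rel (S k)).val := by
  let B : (∀ k : Fin t, GLm (Fin (n k)) R) →* GLm (Σ k : Fin t, Fin (n k)) R :=
    (Units.map (blockDiagonal'RingHom (fun k : Fin t => Fin (n k)) R).toMonoidHom).comp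
      (MulEquiv.piUnits (M := fun k : Fin t => Matrix (Fin (n k)) (Fin (n k)) R)).symm.toMonoidHom
  have hB : ∀ x, (B x).val = blockDiagonal' fun k => (x k).val := fun x => rfl
  let X : Fin g → (∀ k : Fin t, GLm (Fin (n k)) R) × (∀ k : Fin t, GLm (Fin (n k)) R) :=
    fun i => (fun k => (S k i).1, fun k => (S k i).2)
  refine ⟨fun i => (B (X i).1, B (X i).2), ?_, ?_⟩
  · rintro ⟨i, b⟩
    cases b <;> rfl
  · rw [rel_map B X, hB]
    congr 1
    funext k
    have := rel_map (Pi.evalMonoidHom (fun k : Fin t => GLm (Fin (n k)) R) k) X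
    exact congrArg Units.val this.symm

theorem ra_det_conj {ι' : Type} [Fintype ι'] [DecidableEq ι'] {A : Matrix ι ι ℂ} {B : Matrix ι' ι' ℂ}
    {φ : Matrix ι' ι ℂ} {φ' : Matrix ι ι' ℂ} (h1 : φ * φ' = 1) (hI : φ * A = B * φ)
    (hA : A.det ≠ 0) : B.det ≠ 0 := by
  have h3 : B * (φ * A⁻¹ * φ') = 1 := by
    rw [← Matrix.mul_assoc, ← Matrix.mul_assoc, ← hI, Matrix.mul_assoc φ A, mul_nonsing_inv _ hA.isUnit,
      Matrix.mul_one, h1]
  intro h0
  have := congrArg det h3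
  rw [det_mul, h0, zero_mul, det_one] at this
  exact zero_ne_one this

/-- projection to one block -/
def raPr {t : ℕ} (n : Fin t → ℕ) (k : Fin t) : Matrix (Fin (n k)) (Σ k : Fin t, Fin (n k)) ℂ :=
  Matrix.of fun i s => if s = ⟨k, i⟩ then 1 else 0

theorem raPr_mul {t : ℕ} (n : Fin t → ℕ) (k : Fin t) {m : Type} (M : Matrix (Σ k : Fin t, Fin (n k)) m ℂ)
    (i : Fin (n k)) (j : m) : (raPr n k * M) i j = M ⟨k, i⟩ j := by
  simp [raPr, Matrix.mul_apply]

theorem raPr_mul_transpose {t : ℕ} (n : Fin t → ℕ) (k : Fin t) : raPr n k * (raPr n k)ᵀ = 1 := by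
  ext i j
  rw [raPr_mul]
  simp [raPr, Matrix.one_apply]

theorem raPr_intw {t : ℕ} (n : Fin t → ℕ) (k : Fin t) (S : ∀ k : Fin t, Matrix (Fin (n k)) (Fin (n k)) ℂ) :
    raPr n k * blockDiagonal' S = S k * raPr n k := by
  ext i ⟨k', j⟩
  rw [raPr_mul]
  by_cases h : k = k'
  · subst h
    simp [raPr, Matrix.mul_apply]
  · rw [blockDiagonal'_apply_ne _ _ _ h]
    simp [raPr, Matrix.mul_apply, Ne.symm h]

theorem rad_split [Nonempty ι] {g : ℕ} (T : Rep g ι ℂ) :
    ∃ (t : ℕ) (n : Fin t → ℕ) (S : ∀ k : Fin t, Rep g (Fin (n k)) ℂ) (n'' : ℕ)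
      (T'' : Rep g (Fin n'') ℂ) (T' : Rep g (Σ k : Fin t, Fin (n k)) ℂ)
      (α : Fin g × Bool → Matrix (Fin n'') (Σ k : Fin t, Fin (n k)) ℂ)
      (φ : Matrix (Fin n'' ⊕ (Σ k : Fin t, Fin (n k))) ι ℂ)
      (φ' : Matrix ι (Fin n'' ⊕ (Σ k : Fin t, Fin (n k))) ℂ),
      n'' < Fintype.card ι ∧ (∀ k, Irr (gens (S k))) ∧
      (∀ k, n k < Fintype.card ι ∨ (n k = Fintype.card ι ∧ Irr (gens T))) ∧
      (∀ p, gens T' p = blockDiagonal' fun k => gens (S k) p) ∧ φ * φ' = 1 ∧ φ' * φ = 1 ∧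
      Intw (gens T) (gens (extR T'' T' α)) φ ∧
      ∀ (n0 : ℕ) (S0 : Fin g × Bool → Matrix (Fin n0) (Fin n0) ℂ), Irr S0 →
        ∀ ψ : Matrix (Fin n0) (Fin n'' ⊕ (Σ k : Fin t, Fin (n k))) ℂ,
          Intw (gens (extR T'' T' α)) S0 ψ → ψ.toCols₁ = 0 := by
  obtain ⟨n'', n', A'', A', α, φ, φ', hpos, hSS, h1, h2, hI, hrad⟩ := rad_ss (gens T)
  obtain ⟨t, n, S, χ, χ', hS, g1, g2, gI⟩ := ss_decomp hSS
  have hdet : ∀ p, (A'' p).det ≠ 0 ∧ (A' p).det ≠ 0 := by
    intro p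
    have := ra_det_conj h1 (hI p) (det_gens_ne T p)
    simp only [det_fromBlocks_zero₂₁] at this
    exact mul_ne_zero_iff.1 this
  have hdS : ∀ k p, (S k p).det ≠ 0 := by
    intro k p
    exact ra_det_conj (raPr_mul_transpose n k) (raPr_intw n k fun k => S k p)
      (ra_det_conj g1 (gI p) (hdet p).2)
  obtain ⟨T'', hT''⟩ := exists_rep A'' fun p => (hdet p).1
  choose SR hSR using fun k => exists_rep (S k) (hdS k)
  obtain ⟨T', hT', -⟩ := exists_blockRep SR
  have c1 := iso_card h1 h2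
  have c2 := iso_card g1 g2
  simp only [Fintype.card_sum, Fintype.card_fin, Fintype.card_sigma] at c1 c2
  have e1 : (fromBlocks (1 : Matrix (Fin n'') (Fin n'') ℂ) 0 0 χ) * fromBlocks (1 : Matrix (Fin n'') (Fin n'') ℂ) 0 0 χ'
      = 1 := by
    rw [fromBlocks_multiply]
    simp [g1]
  have e2 : (fromBlocks (1 : Matrix (Fin n'') (Fin n'') ℂ) 0 0 χ') * fromBlocks (1 : Matrix (Fin n'') (Fin n'') ℂ) 0 0 χ
      = 1 := by
    rw [fromBlocks_multiply]
    simp [g2]
  have hG : ∀ p, gens (extR T'' T' fun p => α p * χ') p =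
      fromBlocks (A'' p) (α p * χ') 0 (blockDiagonal' fun k => S k p) := by
    intro p
    rw [gens_extR, hT'', hT']
    simp only [hSR]
  have eI : ∀ p, fromBlocks (1 : Matrix (Fin n'') (Fin n'') ℂ) 0 0 χ * fromBlocks (A'' p) (α p) 0 (A' p) =
      gens (extR T'' T' fun p => α p * χ') p * fromBlocks (1 : Matrix (Fin n'') (Fin n'') ℂ) 0 0 χ := by
    intro p
    rw [hG, fromBlocks_multiply, fromBlocks_multiply]
    have := gI p
    simp only [] at this
    simp [this, Matrix.mul_assoc, g2]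
  have k1 : (fromBlocks (1 : Matrix (Fin n'') (Fin n'') ℂ) 0 0 χ * φ) * (φ' * fromBlocks (1 : Matrix (Fin n'') (Fin n'') ℂ) 0 0 χ') = 1 := by
    rw [Matrix.mul_assoc, ← Matrix.mul_assoc φ, h1, Matrix.one_mul, e1]
  have k2 : (φ' * fromBlocks (1 : Matrix (Fin n'') (Fin n'') ℂ) 0 0 χ') * (fromBlocks (1 : Matrix (Fin n'') (Fin n'') ℂ) 0 0 χ * φ) = 1 := by
    rw [Matrix.mul_assoc, ← Matrix.mul_assoc _ _ φ, e2, Matrix.one_mul, h2]
  have kI : Intw (gens T) (gens (extR T'' T' fun p => α p * χ')) (fromBlocks (1 : Matrix (Fin n'') (Fin n'') ℂ) 0 0 χ * φ) := by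
    intro p
    rw [Matrix.mul_assoc, hI p, ← Matrix.mul_assoc, eI, Matrix.mul_assoc]
  refine ⟨t, n, SR, n'', T'', T', fun p => α p * χ', _, _, by omega, fun k => hSR k ▸ hS k, ?_, hT', k1, k2, kI, ?_⟩
  · intro k
    have hle : n k ≤ ∑ k, n k := Finset.single_le_sum (f := n) (fun _ _ => Nat.zero_le _) (Finset.mem_univ k)
    rcases Nat.lt_or_ge (n k) (Fintype.card ι) with h | h
    · exact Or.inl h
    have hk : n k = Fintype.card ι := by omega
    refine Or.inr ⟨hk, ?_⟩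
    let q : Matrix (Fin (n k)) (Fin n'' ⊕ (Σ k : Fin t, Fin (n k))) ℂ := fromCols 0 (raPr n k)
    have q1 : q * qᵀ = 1 := by
      simp [q, transpose_fromCols, fromCols_mul_fromRows, raPr_mul_transpose]
    have qI : ∀ p, q * gens (extR T'' T' fun p => α p * χ') p = S k p * q := by
      intro p
      rw [hG]
      simp [q, fromCols_mul_fromBlocks, mul_fromCols, raPr_intw]
    have w1 : (q * (fromBlocks (1 : Matrix (Fin n'') (Fin n'') ℂ) 0 0 χ * φ)) *
        ((φ' * fromBlocks (1 : Matrix (Fin n'') (Fin n'') ℂ) 0 0 χ') * qᵀ) = 1 := by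
      rw [Matrix.mul_assoc, ← Matrix.mul_assoc _ _ qᵀ, k1, Matrix.one_mul, q1]
    have w2 := (Matrix.mul_eq_one_comm_of_card_eq _ _ _ (by simpa using hk)).1 w1
    refine (hS k).iso w2 w1 ?_
    intro p
    have w3 : (q * (fromBlocks (1 : Matrix (Fin n'') (Fin n'') ℂ) 0 0 χ * φ)) * gens T p = S k p * (q * (fromBlocks (1 : Matrix (Fin n'') (Fin n'') ℂ) 0 0 χ * φ)) := by
      rw [Matrix.mul_assoc, kI p, ← Matrix.mul_assoc, qI, Matrix.mul_assoc]
    set ω := q * (fromBlocks (1 : Matrix (Fin n'') (Fin n'') ℂ) 0 0 χ * φ)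
    set ω' := (φ' * fromBlocks (1 : Matrix (Fin n'') (Fin n'') ℂ) 0 0 χ') * qᵀ
    calc ω' * S k p = ω' * S k p * (ω * ω') := by rw [w1, Matrix.mul_one]
      _ = ω' * (S k p * ω) * ω' := by simp only [Matrix.mul_assoc]
      _ = (ω' * ω) * gens T p * ω' := by rw [← w3]; simp only [Matrix.mul_assoc]
      _ = gens T p * ω' := by rw [w2, Matrix.one_mul]
  · intro n0 S0 hS0 ψ hψ
    have := hrad n0 S0 hS0 (ψ * fromBlocks (1 : Matrix (Fin n'') (Fin n'') ℂ) 0 0 χ) (fun p => by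
      rw [Matrix.mul_assoc, eI, ← Matrix.mul_assoc, hψ p, Matrix.mul_assoc])
    rw [← fromCols_toCols ψ, fromCols_mul_fromBlocks] at this
    simpa using this

end Crest.Agent.R3
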