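import Crest.Agent.R3.IftA
import Crest.Agent.R3.RadA

/-!
# R3 / IftB : consequences of the implicit function theorem

If `ι` is empty both statements are trivial.  Otherwise fix `i0 : ι`, `E0 = single i0 i0 1`.
`Ψ (x, z) = relM x + z • E0` has surjective derivative `(v, z) ↦ fox T T v + z • E0` at `(gens T, 0)`: by `mem_range_of_ann`
it suffices that an annihilating `ψ` is zero; `fox_ann` and `Schur` make it a scalar, `trace (ψ * E0) = 0` kills it.
If `Ψ (x, z) = η • 1` with `x = gens T'` then `1 = det (rel T') = η ^ (d - 1) (η - z)` and `η ^ d = 1`, so `z = 0`.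
* `ift_curve`: `HasStrictFDerivAt.implicitFunction`, `to_implicitFunction`, `map_implicitFunction_eq`; restrict to the
  line through `(v, 0)` in the kernel.  Invertibility near `gens T` by continuity of `det`, `exists_rep`.
* `ift_open`: `Ψ' (x, z) = ((x (0,false), x (0,true)), Ψ (x, z))` has surjective derivative, because already the variations of the
  other handles (`fox_succ`: `comm (T 0) * fox (tail T) (tail T) v`) and of `z` are onto;
  `HasStrictFDerivAt.map_nhds_eq_of_surj`.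
-/

set_option autoImplicit false

noncomputable section

open Matrix Filter Topology

namespace Crest.Agent.R3

variable {O : Type} [CommRing O] [Algebra O ℂ] {η : Oˣ}
variable {ι : Type} [Fintype ι] [DecidableEq ι] {g : ℕ}

theorem ift_scal : ((scalU ι ℂ η : GLm ι ℂ) : Matrix ι ι ℂ) = algebraMap O ℂ (η : O) • 1 := by
  change algebraMap O (Matrix ι ι ℂ) (η : O) = _
  rw [Algebra.algebraMap_eq_smul_one, algebraMap_smul]

theorem ift_surj {S : Rep g ι ℂ} (hS : Schur (gens S)) {C : Matrix ι ι ℂ} {c0 : ℂ} (h0 : c0 ≠ 0)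
    (hC : C * ((rel S : GLm ι ℂ) : Matrix ι ι ℂ) = c0 • 1) (i0 : ι) (M : Matrix ι ι ℂ) :
    ∃ (v : Fin g × Bool → Matrix ι ι ℂ) (z : ℂ), C * fox S S v + z • single i0 i0 (1 : ℂ) = M := by
  obtain ⟨e, he⟩ := mem_range_of_ann ((LinearMap.mulLeft ℂ C ∘ₗ foxL S S).coprod
    (LinearMap.toSpanSingleton ℂ _ (single i0 i0 (1 : ℂ)))) M fun ψ hψ => by
      have h1 : ∀ v, trace (ψ * C * fox S S v) = 0 := fun v => by
        simpa [foxL, Matrix.mul_assoc] using hψ (v, 0)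
      have h2 : ψ i0 i0 = 0 := by
        simpa [trace_mul_single] using hψ (0, 1)
      have h3 := (fox_ann S S _).1 h1
      rw [Matrix.mul_assoc, hC, Matrix.mul_smul, Matrix.mul_one] at h3
      obtain ⟨c, hc⟩ := hS _ h3
      have h4 := congrFun (congrFun hc i0) i0
      simp only [Matrix.smul_apply, h2, one_apply_eq, smul_eq_mul, mul_zero, mul_one] at h4
      rw [← h4, zero_smul, smul_eq_zero] at hc
      rw [hc.resolve_left h0, Matrix.zero_mul, trace_zero]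
  exact ⟨e.1, e.2, he⟩

theorem ift_zero {T T' : Rep g ι ℂ} (hT : rel T = scalU ι ℂ η) {i0 : ι} {z : ℂ}
    (h : ((rel T' : GLm ι ℂ) : Matrix ι ι ℂ) + z • single i0 i0 (1 : ℂ) =
      ((rel T : GLm ι ℂ) : Matrix ι ι ℂ)) : rel T' = scalU ι ℂ η := by
  have key : ∀ c z : ℂ, det (c • (1 : Matrix ι ι ℂ) - z • single i0 i0 (1 : ℂ)) =
      (c - z) * ∏ _i ∈ Finset.univ \ {i0}, c := by
    intro c z
    rw [← Finset.prod_update_of_mem (Finset.mem_univ i0), ← det_diagonal]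
    congr 1
    ext i j
    by_cases hij : i = j
    · subst hij
      by_cases hi : i = i0
      · subst hi; simp
      · simp [hi, Ne.symm hi]
    · rw [diagonal_apply_ne _ hij, Matrix.sub_apply, Matrix.smul_apply, Matrix.smul_apply, one_apply_ne hij,
        single_apply_of_ne _ _ _ _ _ fun h => hij (h.1.symm.trans h.2)]
      simp
  have h1 := key (algebraMap O ℂ (η : O)) 0
  have h2 := key (algebraMap O ℂ (η : O)) z
  rw [zero_smul, sub_zero, ← ift_scal, ← hT, det_rel, sub_zero] at h1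
  rw [← ift_scal, ← hT, ← h, add_sub_cancel_right, det_rel] at h2
  have h3 : z = 0 := by
    have h4 : z * ∏ _i ∈ Finset.univ \ {i0}, algebraMap O ℂ (η : O) = 0 := by
      linear_combination h2 - h1
    exact (mul_eq_zero.1 h4).resolve_right (right_ne_zero_of_mul_eq_one h1.symm)
  rw [h3, zero_smul, add_zero] at h
  exact (Units.ext h).trans hT

theorem ift_near (T : Rep g ι ℂ) :
    ∀ᶠ x : Fin g × Bool → Matrix ι ι ℂ in 𝓝 (gens T), ∃ T' : Rep g ι ℂ, gens T' = x := by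
  have : ∀ᶠ x : Fin g × Bool → Matrix ι ι ℂ in 𝓝 (gens T), ∀ k, (x k).det ≠ 0 := by
    refine eventually_all.2 fun k => ?_
    refine ((continuous_apply k).matrix_det.continuousAt (x := gens T)).eventually_ne ?_
    obtain ⟨i, _ | _⟩ := k
    · exact (isUnits_det_units (T i).1).ne_zero
    · exact (isUnits_det_units (T i).2).ne_zero
  exact this.mono fun x hx => exists_rep x hx

/-- the elementary matrix, as a function -/
def iftE (i0 : ι) : ι → ι → ℂ := single i0 i0 (1 : ℂ)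

/-- the base point, with the function type -/
def iftP (T : Rep g ι ℂ) (z : ℂ) : (Fin g × Bool → ι → ι → ℂ) × ℂ := (gens T, z)

/-- the relator with one more parameter -/
def iftΨ (i0 : ι) (p : (Fin g × Bool → ι → ι → ℂ) × ℂ) : ι → ι → ℂ :=
  relM p.1 + p.2 • iftE i0

theorem ift_deriv (T : Rep g ι ℂ) (i0 : ι) :
    ∃ L : ((Fin g × Bool → ι → ι → ℂ) × ℂ) →L[ℂ] (ι → ι → ℂ),
      HasStrictFDerivAt (iftΨ i0) L (iftP T 0) ∧
        ∀ (v : Fin g × Bool → Matrix ι ι ℂ) (z : ℂ),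
          L (v, z) = (fox T T v + z • single i0 i0 (1 : ℂ) : Matrix ι ι ℂ) := by
  obtain ⟨Φ, hΦ, hv⟩ := relM_deriv T
  refine ⟨_, (hΦ.comp (iftP T 0) (hasStrictFDerivAt_fst (p := iftP T 0))).add
    ((hasStrictFDerivAt_snd (p := iftP T 0)).smul_const (iftE i0)), fun v z => ?_⟩
  rw [← hv]
  rfl

theorem iftΨ_gens (T : Rep g ι ℂ) (i0 : ι) (z : ℂ) : iftΨ i0 (iftP T z) =
    (((rel T : GLm ι ℂ) : Matrix ι ι ℂ) + z • single i0 i0 (1 : ℂ) : Matrix ι ι ℂ) := by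
  rw [← relM_gens]
  rfl

theorem ift_η : algebraMap O ℂ (η : O) ≠ 0 := (η.isUnit.map _).ne_zero

theorem ift_curve {T : Rep g ι ℂ} (hS : Schur (gens T)) (hT : rel T = scalU ι ℂ η)
    {v : Fin g × Bool → Matrix ι ι ℂ} (hv : fox T T v = 0) :
    ∃ γ : ℂ → Fin g × Bool → Matrix ι ι ℂ, Curve γ v ∧ γ 0 = gens T ∧
      ∀ᶠ s in 𝓝 (0 : ℂ), ∃ T' : Rep g ι ℂ, gens T' = γ s ∧ rel T' = scalU ι ℂ η := by
  rcases isEmpty_or_nonempty ι with hι | ⟨⟨i0⟩⟩
  · exact ⟨fun _ => gens T, fun _ i => isEmptyElim i, rfl, Eventually.of_forall fun _ => ⟨T, rfl, hT⟩⟩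
  obtain ⟨L, hL, hLv⟩ := ift_deriv T i0
  have hsurj : L.range = ⊤ := LinearMap.range_eq_top.2 fun M => by
    obtain ⟨w, z, h⟩ := ift_surj hS (C := 1) ift_η (by rw [hT, ift_scal, Matrix.one_mul]) i0 M
    rw [Matrix.one_mul] at h
    exact ⟨(w, z), (hLv w z).trans h⟩
  let w : L.ker := ⟨(v, 0), (hLv v 0).trans (by rw [hv, zero_smul, add_zero]; rfl)⟩
  let Γ : ℂ → (Fin g × Bool → ι → ι → ℂ) × ℂ := fun s =>
    hL.implicitFunction _ _ hsurj (iftΨ i0 (iftP T 0)) (s • w)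
  have hΓ0 : Γ 0 = iftP T 0 := by
    simp only [Γ, zero_smul]
    exact hL.implicitFunction_apply_image hsurj
  have hw : HasDerivAt (fun s : ℂ => s • w) w 0 := by
    simpa using (hasDerivAt_id (0 : ℂ)).smul_const w
  have hΓ : HasDerivAt Γ (v, 0) 0 :=
    (hL.to_implicitFunction hsurj).hasFDerivAt.comp_hasDerivAt_of_eq 0 hw (zero_smul _ _).symm
  have hγ : HasDerivAt (F := Fin g × Bool → ι → ι → ℂ) (fun s => (Γ s).1) v 0 :=
    (ContinuousLinearMap.fst ℂ (Fin g × Bool → ι → ι → ℂ) ℂ).hasFDerivAt.comp_hasDerivAt 0 hΓ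
  refine ⟨fun s => (Γ s).1, fun k i j => hasDerivAt_pi.1 (hasDerivAt_pi.1 (hasDerivAt_pi.1 hγ k) i) j,
    congrArg Prod.fst hΓ0, ?_⟩
  have t1 : Tendsto (fun s => (Γ s).1) (𝓝 0) (𝓝 (gens T)) := by
    have := hγ.continuousAt.tendsto
    rwa [hΓ0] at this
  have t2 : Tendsto (fun s : ℂ => (iftΨ i0 (iftP T 0), s • w)) (𝓝 0)
      (𝓝 (iftΨ i0 (iftP T 0), 0)) := by
    have := hw.continuousAt.tendsto
    rw [zero_smul] at this
    exact tendsto_const_nhds.prodMk_nhds this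
  filter_upwards [t1.eventually (ift_near T), t2.eventually (hL.map_implicitFunction_eq hsurj)]
    with s ⟨T', hT'⟩ hs
  refine ⟨T', hT', ift_zero hT (i0 := i0) (z := (Γ s).2) ?_⟩
  have h1 := iftΨ_gens T i0 0
  rw [zero_smul, add_zero] at h1
  have h2 : iftP T' (Γ s).2 = Γ s := Prod.ext hT' rfl
  exact (iftΨ_gens T' i0 _).symm.trans (((congrArg (iftΨ i0) h2).trans hs).trans h1)

theorem Curve.eventually_mem {κ : Type} {γ : ℂ → κ → Matrix ι ι ℂ} {v : κ → Matrix ι ι ℂ}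
    (h : Curve γ v) {U : Set (κ → Matrix ι ι ℂ)} (hU : IsOpen U) (h0 : γ 0 ∈ U) :
    ∀ᶠ s in 𝓝 (0 : ℂ), γ s ∈ U := by
  have : ContinuousAt γ 0 := continuousAt_pi.2 fun k => continuousAt_pi.2 fun i =>
    continuousAt_pi.2 fun j => (h k i j).continuousAt
  exact this.eventually_mem (hU.mem_nhds h0)

theorem ift_open {T : Rep (g + 1) ι ℂ} (hS : Schur (gens (Fin.tail T : Rep g ι ℂ)))
    (hT : rel T = scalU ι ℂ η) {U : Set (Fin (g + 1) × Bool → Matrix ι ι ℂ)} (hU : IsOpen U)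
    (h0 : gens T ∈ U) :
    ∀ᶠ p : Matrix ι ι ℂ × Matrix ι ι ℂ in
        𝓝 (((T 0).1 : Matrix ι ι ℂ), ((T 0).2 : Matrix ι ι ℂ)),
      ∃ T' : Rep (g + 1) ι ℂ, gens T' ∈ U ∧ rel T' = scalU ι ℂ η ∧
        ((T' 0).1 : Matrix ι ι ℂ) = p.1 ∧ ((T' 0).2 : Matrix ι ι ℂ) = p.2 := by
  rcases isEmpty_or_nonempty ι with hι | ⟨⟨i0⟩⟩
  · exact Eventually.of_forall fun _ => ⟨T, h0, hT, Subsingleton.elim _ _, Subsingleton.elim _ _⟩
  obtain ⟨L, hL, hLv⟩ := ift_deriv T i0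
  let π : ((Fin (g + 1) × Bool → ι → ι → ℂ) × ℂ) →L[ℂ] (ι → ι → ℂ) × (ι → ι → ℂ) :=
    ((ContinuousLinearMap.proj (R := ℂ) (φ := fun _ : Fin (g + 1) × Bool => ι → ι → ℂ) (0, false)).prod
      (ContinuousLinearMap.proj (0, true))).comp (ContinuousLinearMap.fst ℂ _ _)
  have hΨ := (π.hasStrictFDerivAt (x := iftP T 0)).prodMk hL
  have hsurj : (π.prod L).range = ⊤ := LinearMap.range_eq_top.2 fun ⟨⟨A, B⟩, M⟩ => by
    obtain ⟨w, z, h⟩ := ift_surj hS (C := ((comm (T 0) : GLm ι ℂ) : Matrix ι ι ℂ)) (ift_η (η := η))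
      (by rw [← Units.val_mul, ← rel_succ, hT, ift_scal]) i0
      (Matrix.of M - fox1 (T 0) (T 0) A B * ((rel (Fin.tail T) : GLm ι ℂ) : Matrix ι ι ℂ))
    refine ⟨(fun p => Fin.cases (cond p.2 B A) (fun i => w (i, p.2)) p.1, z), Prod.ext rfl ?_⟩
    refine (hLv _ z).trans ?_
    rw [fox_succ, add_assoc]
    exact (congrArg _ h).trans (add_sub_cancel _ _)
  have hmap := hΨ.map_nhds_eq_of_surj hsurj
  have h1 : ∀ᶠ p : (Fin (g + 1) × Bool → ι → ι → ℂ) × ℂ in 𝓝 (iftP T 0),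
      p.1 ∈ U ∧ ∃ T' : Rep (g + 1) ι ℂ, gens T' = p.1 :=
    (continuous_fst.tendsto (iftP T 0)).eventually (Eventually.and (hU.mem_nhds h0) (ift_near T))
  have h2 := image_mem_map (m := fun p => (π p, iftΨ i0 p)) h1
  rw [hmap] at h2
  have t : Tendsto (fun p : (ι → ι → ℂ) × (ι → ι → ℂ) => (p, iftΨ i0 (iftP T 0)))
      (𝓝 (π (iftP T 0))) (𝓝 (π (iftP T 0), iftΨ i0 (iftP T 0))) :=
    tendsto_id.prodMk_nhds tendsto_const_nhds
  refine (t.eventually h2).mono ?_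
  rintro p ⟨⟨x, z⟩, ⟨hx, T', hT'⟩, he⟩
  obtain ⟨e1, e2⟩ := Prod.ext_iff.1 he
  simp only at hx hT' e1 e2
  subst hT'
  refine ⟨T', hx, ift_zero hT (i0 := i0) (z := z) ?_, congrArg Prod.fst e1, congrArg Prod.snd e1⟩
  have h3 := iftΨ_gens T i0 0
  rw [zero_smul, add_zero] at h3
  rw [← iftΨ_gens, ← h3]
  exact e2

end Crest.Agent.R3
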