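import Crest.Agent.R3.Neig

/-!
# R3 / Rigid : if the number of eigenvalues does not grow along a curve, the tangent vector is orthogonal to the
nilradical of `ℂ[a]`

`deriv_trace_aeval`: `d/ds trace (q (c s)) = trace (q'(c 0) c')` (monomials: product rule and cyclicity).
Let `a = c 0`, `μ = sqf a`.  For `M` large the coefficient vectors of `μ` and `μ p` are in the kernel of the symmetric
matrix `hank a M` (`trace_aeval`: `trace ((μ r) (a)) = 0`).  `lemma_R` with `rank_hank` gives
`d/ds trace ((μ² p) (c s)) = 0`, i.e. `trace ((μ (2 μ' p + μ p')) (a) c') = 0` for all `p`.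
Let `f r = trace ((μ r) (a) c')`.  Claim: `f (μ ^ j r) = 0` for all `r`, by descending induction on `j` (true for
`j ≥ card ι` since the characteristic polynomial divides `μ ^ card ι`, Cayley-Hamilton).  With `p = μ ^ j p0`:
`2 μ' p + μ p' = μ ^ j ((2 + j) μ' p0 + μ p0')`; since `μ` is separable, `u μ + v μ' = 1`; take `p0 = v r / (2 + j)`.
-/

set_option autoImplicit false

noncomputable section

open Matrix Filter Topology

namespace Crest.Agent.R3

variable {ι : Type} [Fintype ι] [DecidableEq ι]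

open Polynomial in
theorem rigid_deriv (c : ℂ → Matrix ι ι ℂ) (c' : Matrix ι ι ℂ)
    (hc : ∀ i j, HasDerivAt (fun s => c s i j) (c' i j) 0) (q : Polynomial ℂ) :
    ∃ D : Matrix ι ι ℂ, (∀ i j, HasDerivAt (fun s => aeval (c s) q i j) (D i j) 0) ∧
      ∀ B, Commute B (c 0) → trace (B * D) = trace (B * aeval (c 0) (derivative q) * c') := by
  induction q using Polynomial.induction_on with
  | C a =>
    refine ⟨0, fun i j => ?_, fun B _ => by simp⟩
    simp only [aeval_C]
    exact hasDerivAt_const _ _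
  | add p q hp hq =>
    obtain ⟨D, h1, h2⟩ := hp
    obtain ⟨E, h3, h4⟩ := hq
    refine ⟨D + E, fun i j => ?_, fun B hB => ?_⟩
    · simp only [map_add, Matrix.add_apply]
      exact (h1 i j).add (h3 i j)
    · simp only [map_add, mul_add, add_mul, trace_add, h2 B hB, h4 B hB]
  | monomial n a ih =>
    obtain ⟨D, h1, h2⟩ := ih
    rw [pow_succ, ← mul_assoc]
    generalize C a * X ^ n = q at h1 h2 ⊢
    refine ⟨D * c 0 + aeval (c 0) q * c', fun i j => ?_, fun B hB => ?_⟩
    · simp only [map_mul, aeval_X, Matrix.add_apply, mul_apply, ← Finset.sum_add_distrib]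
      exact HasDerivAt.fun_sum fun k _ => (h1 i k).mul (hc k j)
    · have e : aeval (c 0) (derivative q) * c 0 = c 0 * aeval (c 0) (derivative q) := by
        have : aeval (c 0) (derivative q * X) = aeval (c 0) (X * derivative q) := by rw [mul_comm]
        simpa using this
      rw [mul_add, trace_add, ← mul_assoc, trace_mul_comm, ← mul_assoc,
        h2 _ ((Commute.refl _).mul_left hB), derivative_mul, derivative_X, mul_one, map_add, map_mul,
        aeval_X, e, ← hB.eq]
      simp only [mul_add, add_mul, trace_add, mul_assoc]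

theorem deriv_trace_aeval (c : ℂ → Matrix ι ι ℂ) (c' : Matrix ι ι ℂ)
    (hc : ∀ i j, HasDerivAt (fun s => c s i j) (c' i j) 0) (q : Polynomial ℂ) :
    HasDerivAt (fun s => trace (Polynomial.aeval (c s) q))
      (trace (Polynomial.aeval (c 0) (Polynomial.derivative q) * c')) 0 := by
  obtain ⟨D, h1, h2⟩ := rigid_deriv c c' hc q
  have h3 := h2 1 (Commute.one_left _)
  rw [one_mul, one_mul] at h3
  rw [← h3]
  exact HasDerivAt.fun_sum fun i _ => h1 i i

open Polynomial in
theorem rigid_sum (τ : Polynomial ℂ →ₗ[ℂ] ℂ) (r : Polynomial ℂ) {q : Polynomial ℂ} {M : ℕ}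
    (h : q.natDegree < M) : ∑ j : Fin M, τ (r * X ^ (j : ℕ)) * q.coeff j = τ (r * q) := by
  conv_rhs => rw [q.as_sum_range' M h, Finset.sum_range, Finset.mul_sum, map_sum]
  refine Finset.sum_congr rfl fun j _ => ?_
  rw [← smul_X_eq_monomial, mul_smul_comm, map_smul, smul_eq_mul, mul_comm]

open Polynomial in
theorem rigid_dvd (a : Matrix ι ι ℂ) : a.charpoly ∣ sqf a ^ Fintype.card ι := by
  rw [sqf, ← Finset.prod_pow]
  conv_lhs => rw [neig_charpoly_eq a, Finset.prod_multiset_map_count]
  refine Finset.prod_dvd_prod_of_dvd _ _ fun l _ => pow_dvd_pow _ ?_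
  rw [← neig_card_roots a]
  exact Multiset.count_le_card _ _

open Polynomial in
theorem neig_rigid (c : ℂ → Matrix ι ι ℂ) (c' : Matrix ι ι ℂ)
    (hc : ∀ i j, HasDerivAt (fun s => c s i j) (c' i j) 0)
    (hr : ∀ᶠ s in 𝓝 (0 : ℂ), neig (c s) ≤ neig (c 0)) (r : Polynomial ℂ) :
    trace (Polynomial.aeval (c 0) (sqf (c 0) * r) * c') = 0 := by
  set a := c 0 with ha
  set μ := sqf a with hμ
  let τ0 : Polynomial ℂ →ₗ[ℂ] ℂ := traceLinearMap ι ℂ ℂ ∘ₗ (aeval a).toLinearMap
  let φ : Polynomial ℂ →ₗ[ℂ] ℂ :=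
    traceLinearMap ι ℂ ℂ ∘ₗ LinearMap.mulRight ℂ c' ∘ₗ (aeval a).toLinearMap
  have hτ0 : ∀ q, τ0 q = trace (aeval a q) := fun _ => rfl
  have hφ : ∀ q, φ q = trace (aeval a q * c') := fun _ => rfl
  let τ1 : Polynomial ℂ →ₗ[ℂ] ℂ := φ ∘ₗ derivative
  have hz : ∀ q, τ0 (q * μ) = 0 := by
    intro q
    rw [hτ0, trace_aeval]
    refine Multiset.sum_eq_zero fun x hx => ?_
    obtain ⟨l, hl, rfl⟩ := Multiset.mem_map.1 hx
    rw [eval_mul, hμ, sqf, eval_prod,
      Finset.prod_eq_zero (Multiset.mem_toFinset.2 hl) (by simp), mul_zero]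
  have key : ∀ p, τ1 (p * μ * μ) = 0 := by
    intro p
    set M := Fintype.card ι + μ.natDegree + (p * μ).natDegree + 1 with hM
    have hM0 : Fintype.card ι ≤ M := by omega
    let H' : Matrix (Fin M) (Fin M) ℂ := Matrix.of fun i j => τ1 (X ^ (i : ℕ) * X ^ (j : ℕ))
    have hH : ∀ i j, hank a M i j = τ0 (X ^ (i : ℕ) * X ^ (j : ℕ)) := fun i j => by
      rw [hτ0, ← pow_add, map_pow, aeval_X]; rfl
    have hd : ∀ i j : Fin M, HasDerivAt (fun s => hank (c s) M i j) (H' i j) 0 := by
      intro i j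
      have := deriv_trace_aeval c c' hc (X ^ (i : ℕ) * X ^ (j : ℕ))
      refine this.congr_of_eventuallyEq (Eventually.of_forall fun s => ?_)
      simp only [← pow_add, map_pow, aeval_X]
      rfl
    have hrk : ∀ᶠ s in 𝓝 (0 : ℂ), (hank (c s) M).rank ≤ (hank (c 0) M).rank := by
      filter_upwards [hr] with s hs
      rwa [rank_hank _ hM0, rank_hank _ hM0]
    have hv : hank (c 0) M *ᵥ (fun j => μ.coeff j) = 0 := by
      funext i
      simp only [mulVec, dotProduct, ← ha, hH, Pi.zero_apply]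
      rw [rigid_sum τ0 _ (by omega), hz]
    obtain ⟨u, hu⟩ := lemma_R (fun s => hank (c s) M) H' hd hrk (fun j => μ.coeff j) hv
    have h1 : ∀ i : Fin M, τ1 (μ * X ^ (i : ℕ)) =
        ∑ j : Fin M, τ0 (X ^ (j : ℕ) * X ^ (i : ℕ)) * u j := by
      intro i
      have := congrFun hu i
      simp only [mulVec, dotProduct, H', of_apply, ← ha, hH] at this
      rw [rigid_sum τ1 _ (by omega)] at this
      rw [mul_comm, this]
      exact Finset.sum_congr rfl fun j _ => by rw [mul_comm (X ^ (i : ℕ))]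
    rw [mul_comm, ← rigid_sum τ1 (M := M) _ (by omega)]
    simp only [h1, Finset.sum_mul]
    rw [Finset.sum_comm]
    refine Finset.sum_eq_zero fun j _ => ?_
    simp only [mul_right_comm _ (u j)]
    rw [← Finset.sum_mul, rigid_sum τ0 _ (by omega), ← mul_assoc, hz, zero_mul]
  have hsep : μ.Separable := separable_prod_X_sub_C_iff'.2 fun _ _ _ _ h => h
  obtain ⟨u, v, huv⟩ := hsep
  have step : ∀ j : ℕ, (∀ r, φ (μ ^ (j + 2) * r) = 0) → ∀ r, φ (μ ^ (j + 1) * r) = 0 := by
    intro j hj r
    have h1 := key (μ ^ j * (v * r))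
    have e1 : derivative (μ ^ j * (v * r) * μ * μ) =
        ((j : ℂ) + 2) • (μ ^ (j + 1) * r) +
          μ ^ (j + 2) * (derivative (v * r) - ((j : Polynomial ℂ) + 2) * u * r) := by
      rw [show μ ^ j * (v * r) * μ * μ = μ ^ (j + 2) * (v * r) by ring, derivative_mul,
        derivative_pow_succ, smul_eq_C_mul]
      simp only [map_add, map_natCast, map_one, map_ofNat]
      push_cast
      linear_combination ((j : Polynomial ℂ) + 2) * μ ^ (j + 1) * r * huv
    have h2 : τ1 (μ ^ j * (v * r) * μ * μ) = φ (derivative (μ ^ j * (v * r) * μ * μ)) := rfl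
    rw [h2, e1, map_add, hj, add_zero, map_smul, smul_eq_mul] at h1
    refine (mul_eq_zero.1 h1).resolve_left ?_
    exact_mod_cast (by omega : j + 2 ≠ 0)
  have top : ∀ r, φ (μ ^ (Fintype.card ι + 1) * r) = 0 := by
    intro r
    obtain ⟨g, hg⟩ := rigid_dvd a
    rw [pow_succ, hμ, hg, hφ, mul_assoc, mul_assoc, map_mul, aeval_self_charpoly, zero_mul, zero_mul,
      trace_zero]
  have all : ∀ k j : ℕ, j + k = Fintype.card ι → ∀ r, φ (μ ^ (j + 1) * r) = 0 := by
    intro k
    induction k with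
    | zero => intro j hj; rw [show j = Fintype.card ι by omega]; exact top
    | succ k ih => intro j hj; exact step j (ih (j + 1) (by omega))
  have := all _ 0 (zero_add _) r
  rwa [zero_add, pow_one] at this

end Crest.Agent.R3
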