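import Crest.Agent.R3.Beta
import Crest.Agent.R3.Alpha
import Crest.Agent.R3.Rigid
import Crest.Agent.R3.IftB

/-!
# R3 / GenA : the first generator can be made regular semisimple

Among the points `T' ∈ U` with `rel T' = η` take one, `T' 0 = (a, b)`, with maximal `N = neig a ≤ card ι`.  Suppose
`N < card ι` and use `jordan_dich a`.
* Idempotents `e i` (`k > N` of them) commuting with `a`: `b' = b * ∑ t i • e i` (`alpha`, `t` near `1`, `t i ≠ 0`; the inverse
  of `∑ t i • e i` is `∑ (t i)⁻¹ • e i`) has `comm (a, b') = comm (a, b)` and `neig b' ≥ k`.  With the spectral idempotents of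
  `b'` (`spectral_idems`) `a' = a * ∑ t' i • e' i` has `comm (a', b') = comm (a, b')`, `neig a' ≥ neig b' > N`. Contradiction.
* `a` cyclic: for `v ∈ ker fox` take the curve of `ift_curve` (`Irr.schur`); it stays in `U`, so `neig ≤ N` along it;
  `neig_rigid` and `beta` give a contradiction.
`genA1`: apply `genA` to `rotR T` and the image of `U` under the reindexing homeomorphism (`rel_rotR`).
-/

set_option autoImplicit false

noncomputable section

open Matrix Filter Topology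

namespace Crest.Agent.R3

variable {O : Type} [CommRing O] [Algebra O ℂ] {η : Oˣ}
variable {ι : Type} [Fintype ι] [DecidableEq ι] {g : ℕ}

/-- the unit `∑ t i • e i` -/
def gaUnit {k : ℕ} {e : Fin k → Matrix ι ι ℂ} (he : Idems e) (t : Fin k → ℂ) (ht : ∀ i, t i ≠ 0) :
    GLm ι ℂ :=
  have key : ∀ s s' : Fin k → ℂ, (∀ i, s i * s' i = 1) → (∑ i, s i • e i) * ∑ i, s' i • e i = 1 := by
    intro s s' h
    rw [Finset.sum_mul, ← he.sum]
    refine Finset.sum_congr rfl fun i _ => ?_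
    rw [Finset.mul_sum, Finset.sum_eq_single i]
    · rw [Matrix.smul_mul, Matrix.mul_smul, smul_smul, h, one_smul, he.idem]
    · intro j _ hj
      rw [Matrix.smul_mul, Matrix.mul_smul, he.orth i j (Ne.symm hj), smul_zero, smul_zero]
    · simp
  ⟨∑ i, t i • e i, ∑ i, (t i)⁻¹ • e i, key _ _ fun i => mul_inv_cancel₀ (ht i),
    key _ _ fun i => inv_mul_cancel₀ (ht i)⟩

theorem ga_twist {U : Set (Fin (g + 1) × Bool → Matrix ι ι ℂ)} (hU : IsOpen U) {T : Rep (g + 1) ι ℂ}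
    (h0 : gens T ∈ U) (c : Bool) {k : ℕ} {e : Fin k → Matrix ι ι ℂ} (he : Idems e)
    (hc : ∀ i, e i * gens T (0, !c) = gens T (0, !c) * e i) :
    ∃ T' : Rep (g + 1) ι ℂ, gens T' ∈ U ∧ rel T' = rel T ∧ k ≤ neig (gens T' (0, c)) := by
  let τ : (Fin k → ℂ) → Fin (g + 1) × Bool → Matrix ι ι ℂ :=
    fun t => Function.update (gens T) (0, c) (gens T (0, c) * ∑ i, t i • e i)
  have hτ : Continuous τ := by
    refine continuous_const.update _ (continuous_const.mul ?_)
    exact continuous_finset_sum _ fun i _ => (continuous_apply i).smul continuous_const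
  have hτ1 : τ 1 = gens T := by
    simp [τ, he.sum]
  obtain ⟨t, htU, ht, hk⟩ := alpha (det_gens_ne T (0, c)) he
    (U := τ ⁻¹' U) (hτ.continuousAt.preimage_mem_nhds (hU.mem_nhds (hτ1 ▸ h0)))
  let z := gaUnit he t ht
  have hz : z.val * gens T (0, !c) = gens T (0, !c) * z.val := by
    change (∑ i, t i • e i) * _ = _ * ∑ i, t i • e i
    rw [Finset.sum_mul, Finset.mul_sum]
    exact Finset.sum_congr rfl fun i _ => by rw [Matrix.smul_mul, Matrix.mul_smul, hc]
  let p : GLm ι ℂ × GLm ι ℂ := if c then ((T 0).1, (T 0).2 * z) else ((T 0).1 * z, (T 0).2)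
  have hg : gens (Function.update T 0 p : Rep (g + 1) ι ℂ) = τ t := by
    funext ⟨i, b⟩
    by_cases hi : i = 0
    · subst hi
      cases b <;> cases c <;> simp [gens, τ, p, z, gaUnit]
    · have : (i, b) ≠ (0, c) := fun h => hi (congrArg Prod.fst h)
      simp [gens, τ, Function.update_of_ne hi, Function.update_of_ne this]
  refine ⟨Function.update T 0 p, hg ▸ htU, ?_, ?_⟩
  · rw [rel_succ, rel_succ T, Fin.tail_update_zero, Function.update_self]
    congr 1
    cases c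
    · have h1 : z * (T 0).2 = (T 0).2 * z := Units.ext hz
      simp only [p, comm, Bool.false_eq_true, if_false, _root_.mul_inv_rev]
      calc (T 0).1 * z * (T 0).2 * (z⁻¹ * (T 0).1⁻¹) * (T 0).2⁻¹
          = (T 0).1 * (z * (T 0).2) * (z⁻¹ * (T 0).1⁻¹) * (T 0).2⁻¹ := by group
        _ = _ := by rw [h1]; group
    · have h1 : z * (T 0).1 = (T 0).1 * z := Units.ext hz
      have h2 : z * (T 0).1⁻¹ = (T 0).1⁻¹ * z := by
        calc z * (T 0).1⁻¹ = (T 0).1⁻¹ * ((T 0).1 * z) * (T 0).1⁻¹ := by group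
          _ = _ := by rw [← h1]; group
      simp only [p, comm, if_true, _root_.mul_inv_rev]
      calc (T 0).1 * ((T 0).2 * z) * (T 0).1⁻¹ * (z⁻¹ * (T 0).2⁻¹)
          = (T 0).1 * (T 0).2 * (z * (T 0).1⁻¹) * (z⁻¹ * (T 0).2⁻¹) := by group
        _ = _ := by rw [h2]; group
  · rw [hg]
    simpa [τ] using hk

theorem genA {U : Set (Fin (g + 1) × Bool → Matrix ι ι ℂ)} (hU : IsOpen U) (hI : ∀ A ∈ U, Irr A)
    {T : Rep (g + 1) ι ℂ} (h0 : gens T ∈ U) (hT : rel T = scalU ι ℂ η) :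
    ∃ T' : Rep (g + 1) ι ℂ, gens T' ∈ U ∧ rel T' = scalU ι ℂ η ∧
      neig ((T' 0).1 : Matrix ι ι ℂ) = Fintype.card ι := by
  have hg0 : ∀ T' : Rep (g + 1) ι ℂ, gens T' (0, false) = ((T' 0).1 : Matrix ι ι ℂ) := fun _ => rfl
  let Sr : Set ℕ := {n | ∃ T' : Rep (g + 1) ι ℂ, gens T' ∈ U ∧ rel T' = scalU ι ℂ η ∧
    neig (gens T' (0, false)) = n}
  have hbd : BddAbove Sr := ⟨Fintype.card ι, by
    rintro _ ⟨T', -, -, rfl⟩
    exact neig_le_card _⟩
  obtain ⟨T', hU', hT', hr'⟩ := Nat.sSup_mem (s := Sr) ⟨_, T, h0, hT, rfl⟩ hbd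
  have hmax : ∀ T2 : Rep (g + 1) ι ℂ, gens T2 ∈ U → rel T2 = scalU ι ℂ η →
      neig (gens T2 (0, false)) ≤ neig (gens T' (0, false)) := fun T2 h1 h2 => by
    rw [hr']
    exact le_csSup hbd ⟨T2, h1, h2, rfl⟩
  refine ⟨T', hU', hT', ?_⟩
  by_contra hne
  have hlt : neig ((T' 0).1 : Matrix ι ι ℂ) < Fintype.card ι := lt_of_le_of_ne (neig_le_card _) hne
  rcases jordan_dich (gens T' (0, false)) with ⟨k, e, hk, he, hc⟩ | ⟨w, hw⟩
  · obtain ⟨T1, h1U, h1T, h1k⟩ := ga_twist hU hU' true he hc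
    obtain ⟨e', he', hc'⟩ := spectral_idems (gens T1 (0, true))
    obtain ⟨T2, h2U, h2T, h2k⟩ := ga_twist hU h1U false he' hc'
    have := hmax T2 h2U (by rw [h2T, h1T, hT'])
    omega
  · rw [hg0] at hw
    refine beta hT' (hI _ hU') hw hlt fun v hv r => ?_
    obtain ⟨c, hcv, hc0, hcev⟩ := ift_curve (hI _ hU').schur hT' hv
    have := neig_rigid (fun s => c s (0, false)) (v (0, false)) (hcv (0, false))
      (by
        filter_upwards [hcev, hcv.eventually_mem hU (hc0 ▸ hU')] with s hs hsU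
        obtain ⟨T2, h21, h22⟩ := hs
        rw [hc0, ← h21]
        exact hmax T2 (h21 ▸ hsU) h22) r
    simp only [hc0, hg0] at this
    exact this

theorem genA1 {U : Set (Fin (g + 2) × Bool → Matrix ι ι ℂ)} (hU : IsOpen U) (hI : ∀ A ∈ U, Irr A)
    {T : Rep (g + 2) ι ℂ} (h0 : gens T ∈ U) (hT : rel T = scalU ι ℂ η) :
    ∃ T' : Rep (g + 2) ι ℂ, gens T' ∈ U ∧ rel T' = scalU ι ℂ η ∧
      neig ((T' 1).1 : Matrix ι ι ℂ) = Fintype.card ι := by
  let σ : Fin (g + 2) × Bool → Fin (g + 2) × Bool := fun k => ((finRotate (g + 2)).symm k.1, k.2)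
  have hcont : Continuous fun A : Fin (g + 2) × Bool → Matrix ι ι ℂ => A ∘ σ :=
    continuous_pi fun k => continuous_apply _
  have hrot : ∀ T1 : Rep (g + 2) ι ℂ, gens (rotR T1 : Rep (g + 2) ι ℂ) ∘ σ = gens T1 := by
    intro T1
    funext ⟨i, b⟩
    simp [gens, rotR, σ]
  obtain ⟨T1, h1U, h1T, h1⟩ := genA (U := (fun A => A ∘ σ) ⁻¹' U) (hU.preimage hcont)
    (fun A hA => Irr.comp σ (hI _ hA)) (T := rotR T) (by
      change gens (rotR T : Rep (g + 2) ι ℂ) ∘ σ ∈ U
      rw [hrot]; exact h0)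
    ((rel_rotR T (scalU_comm η)).2 hT)
  let T2 : Rep (g + 2) ι ℂ := fun i => T1 ((finRotate (g + 2)).symm i)
  have h2 : rotR T2 = T1 := by
    funext i
    simp [rotR, T2]
  refine ⟨T2, ?_, (rel_rotR T2 (scalU_comm η)).1 (h2 ▸ h1T), ?_⟩
  · rw [← hrot, h2]; exact h1U
  · have h3 : T2 1 = T1 0 := by
      rw [← h2]
      simp [rotR]
    rw [h3]; exact h1

end Crest.Agent.R3
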