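import Crest.Agent.R3.Block
import Crest.Agent.R3.Arith

/-!
# R3 / Glob : lifting a semisimple point

`sum_lift` works on the index type `σ = Σ k, Fin (n k)`: apply `block_lift` to every block (the blocks of the handles are
invertible, `exists_rep`; the blocks of `C j` are killed by the same polynomial; `n k ≤ card σ`), take direct sums
(`exists_blockRep`), `ss_of_blocks`, `generic_forall`; the conjugating matrix is block diagonal.

`global_lift`: `ss_decomp` for `fun v => (T v).1` gives `φ, φ'` and blocks; `card σ = r` (`iso_card`); lift `φ, φ'` to `ψ, ψ'`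
(`iso_lift`) and put `A v = ψ' * (block sum over B) * ψ`; `u k = (det (A (inl k)))⁻¹`.  For a specialisation `f` and `t` with
`t k ^ r = f (u k)` the matrices `t k • (A (inl k)).map f` have determinant one; `(A (inr j)).map f` is conjugate to
`(T (inr j)).1`, hence has determinant one and is `SL`-conjugate to `c j` (`exists_SL_conj`); `relSurf_iff`, `SS.iso`, `SS.smul`.
-/

set_option autoImplicit false

noncomputable section

open Matrix Crest.NumberTheoryR.CharVarRel

namespace Crest.Agent.R3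

variable {O : Subring ℂ} {B J : Type} [CommRing B] [Algebra O B] {π : B →ₐ[O] ℂ}
  {ev : J → (B →ₐ[O] O)}

section GlobAux
variable {R : Type} [CommRing R] {t : ℕ} {n : Fin t → ℕ}

theorem glob_bd_prod {s : ℕ} (M : ∀ k : Fin t, Fin s → Matrix (Fin (n k)) (Fin (n k)) R) :
    (List.ofFn fun j => blockDiagonal' fun k => M k j).prod =
      blockDiagonal' fun k => (List.ofFn (M k)).prod := by
  induction s with
  | zero =>
    simp only [List.ofFn_zero, List.prod_nil]
    exact blockDiagonal'_one.symm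
  | succ s ih =>
    simp only [List.ofFn_succ, List.prod_cons]
    rw [ih fun k j => M k j.succ, ← blockDiagonal'_mul]

theorem glob_bd_left (M : ∀ k : Fin t, Matrix (Fin (n k)) (Fin (n k)) R)
    (N : Matrix (Σ k : Fin t, Fin (n k)) (Σ k : Fin t, Fin (n k)) R) (k : Fin t) :
    (blockDiagonal' M * N).blockDiag' k = M k * N.blockDiag' k := by
  ext i j
  rw [blockDiag'_apply, mul_apply, mul_apply, Fintype.sum_sigma, Finset.sum_eq_single k]
  · simp [blockDiag'_apply]
  · intro k' _ hk
    refine Finset.sum_eq_zero fun l _ => ?_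
    rw [blockDiagonal'_apply_ne _ _ _ hk.symm, zero_mul]
  · simp

theorem glob_bd_killed {O : Type} [CommRing O] [Algebra O ℂ] {ξ : ℕ → Oˣ} {N : ℕ}
    {M : ∀ k : Fin t, Matrix (Fin (n k)) (Fin (n k)) ℂ} (h : Killed ξ N (blockDiagonal' M)) (k : Fin t) :
    Killed ξ N (M k) := by
  have key : ∀ p : Polynomial ℂ, Polynomial.aeval (blockDiagonal' M) p =
      blockDiagonal' fun k => Polynomial.aeval (M k) p := by
    intro p
    induction p using Polynomial.induction_on' with
    | add p q hp hq =>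
      simp only [map_add, hp, hq]
      exact (blockDiagonal'_add _ _).symm
    | monomial m a =>
      simp only [Polynomial.aeval_monomial, ← Algebra.smul_def]
      rw [← blockDiagonal'_pow, ← blockDiagonal'_smul]
      rfl
  unfold Killed at h ⊢
  rw [key, ← blockDiagonal'_zero] at h
  exact congrFun (blockDiagonal'_injective h) k

/-- direct sum of units -/
def globU (h : ∀ k : Fin t, GLm (Fin (n k)) R) : GLm (Σ k : Fin t, Fin (n k)) R where
  val := blockDiagonal' fun k => (h k).val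
  inv := blockDiagonal' fun k => ((h k)⁻¹).val
  val_inv := by
    rw [← blockDiagonal'_mul]
    simp only [Units.mul_inv]
    exact blockDiagonal'_one
  inv_val := by
    rw [← blockDiagonal'_mul]
    simp only [Units.inv_mul]
    exact blockDiagonal'_one

end GlobAux

theorem glob_conj_prod {R κ κ' : Type} [CommRing R] [Fintype κ] [DecidableEq κ] [Fintype κ'] [DecidableEq κ']
    {φ : Matrix κ κ' R} {φ' : Matrix κ' κ R} (h : φ * φ' = 1) (h' : φ' * φ = 1) {s : ℕ}
    (M : Fin s → Matrix κ' κ' R) :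
    (List.ofFn fun j => φ * M j * φ').prod = φ * (List.ofFn M).prod * φ' := by
  induction s with
  | zero => simp [h]
  | succ s ih =>
    simp only [List.ofFn_succ, List.prod_cons]
    rw [ih fun j => M j.succ]
    calc _ = φ * (M 0 * (φ' * φ) * (List.ofFn fun j => M j.succ).prod) * φ' := by
          simp only [Matrix.mul_assoc]
      _ = _ := by rw [h', Matrix.mul_one]

theorem glob_rel_conj {R κ κ' : Type} [CommRing R] [Fintype κ] [DecidableEq κ] [Fintype κ'] [DecidableEq κ']
    {φ : Matrix κ κ' R} {φ' : Matrix κ' κ R} (h : φ * φ' = 1) (h' : φ' * φ = 1) {g s : ℕ}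
    {T : Rep g κ' R} {T' : Rep g κ R} (hT : ∀ k, gens T' k = φ * gens T k * φ')
    (M : Fin s → Matrix κ' κ' R) (hr : (rel T).val * (List.ofFn M).prod = 1) :
    (rel T').val * (List.ofFn fun j => φ * M j * φ').prod = 1 := by
  have hI : Intw (gens T) (gens T') φ := fun k => by
    rw [hT, Matrix.mul_assoc, h', Matrix.mul_one]
  rw [glob_conj_prod h h', ← Matrix.mul_assoc, ← Matrix.mul_assoc, ← rel_conj hI, Matrix.mul_assoc φ, hr,
    Matrix.mul_one, h]

theorem glob_killed_conj {O κ κ' : Type} [CommRing O] [Algebra O ℂ] [Fintype κ] [DecidableEq κ] [Fintype κ']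
    [DecidableEq κ'] {φ : Matrix κ κ' ℂ} {φ' : Matrix κ' κ ℂ} (h : φ * φ' = 1) (h' : φ' * φ = 1)
    {ξ : ℕ → Oˣ} {N : ℕ} {M : Matrix κ' κ' ℂ} (hK : Killed ξ N M) : Killed ξ N (φ * M * φ') := by
  have hp : ∀ m : ℕ, (φ * M * φ') ^ m = φ * M ^ m * φ' := by
    intro m
    induction m with
    | zero => simp [h]
    | succ m ih =>
      rw [pow_succ, ih, pow_succ]
      calc _ = φ * (M ^ m * (φ' * φ) * M) * φ' := by simp only [Matrix.mul_assoc]
        _ = _ := by rw [h', Matrix.mul_one]
  have key : ∀ p : Polynomial ℂ, Polynomial.aeval (φ * M * φ') p = φ * Polynomial.aeval M p * φ' := by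
    intro p
    induction p using Polynomial.induction_on' with
    | add p q hp hq => simp only [map_add, hp, hq, Matrix.mul_add, Matrix.add_mul]
    | monomial m a =>
      simp only [Polynomial.aeval_monomial, ← Algebra.smul_def, hp, Matrix.mul_smul, Matrix.smul_mul]
  unfold Killed at hK ⊢
  rw [key, hK, Matrix.mul_zero, Matrix.zero_mul]

theorem glob_map_prod {R R' κ : Type} [CommRing R] [CommRing R'] [Fintype κ] [DecidableEq κ] (f : R →+* R')
    {s : ℕ} (M : Fin s → Matrix κ κ R) :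
    (List.ofFn M).prod.map f = (List.ofFn fun j => (M j).map f).prod := by
  induction s with
  | zero => simp
  | succ s ih =>
    simp only [List.ofFn_succ, List.prod_cons]
    rw [Matrix.map_mul, ih fun j => M j.succ]

theorem sum_lift (hU : Univ O π ev) (hG : Good π) {r : ℕ} (hD : HasD O r) {t : ℕ} {n : Fin t → ℕ}
    (hr : Fintype.card (Σ k : Fin t, Fin (n k)) ≤ r) {g s : ℕ}
    (S : ∀ k : Fin t, (Fin g × Bool) ⊕ Fin s → Matrix (Fin (n k)) (Fin (n k)) ℂ) (hI : ∀ k, Irr (S k))
    (T : Rep g (Σ k : Fin t, Fin (n k)) ℂ)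
    (hTS : ∀ p, gens T p = blockDiagonal' fun k => S k (Sum.inl p))
    (ξ : Fin s → ℕ → Oˣ) (N : ℕ)
    (hK : ∀ j, Killed (ξ j) N (blockDiagonal' fun k => S k (Sum.inr j)))
    (hT : (rel T).val * (List.ofFn fun j => blockDiagonal' fun k => S k (Sum.inr j)).prod = 1) :
    ∃ (T' : Rep g (Σ k : Fin t, Fin (n k)) B)
      (C' : Fin s → Matrix (Σ k : Fin t, Fin (n k)) (Σ k : Fin t, Fin (n k)) B),
      mapRep (π : B →+* ℂ) T' = T ∧ (∀ j, (C' j).map π = blockDiagonal' fun k => S k (Sum.inr j)) ∧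
      (rel T').val * (List.ofFn C').prod = 1 ∧
      Generic π fun φ => SS (Sum.elim (fun k => (gens T' k).map φ) fun j => (C' j).map φ) ∧
        ∀ j, ∃ h : GLm (Σ k : Fin t, Fin (n k)) ℂ,
          (C' j).map φ = h.val * (blockDiagonal' fun k => S k (Sum.inr j)) * (h⁻¹).val := by
  have hdet : ∀ k p, (S k (Sum.inl p)).det ≠ 0 := by
    intro k p
    have h1 : gens T p * (gens T p)⁻¹ = 1 := mul_nonsing_inv _ (Ne.isUnit (det_gens_ne T p))
    have h2 := congrArg (fun M => M.blockDiag' k) h1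
    rw [hTS p, glob_bd_left, blockDiag'_one] at h2
    exact (isUnit_det_of_right_inverse h2).ne_zero
  choose Tk hTk using fun k => exists_rep (fun p => S k (Sum.inl p)) (hdet k)
  obtain ⟨T0, hT0, hT0r⟩ := exists_blockRep Tk
  have hT0T : T0 = T := rep_ext fun p => by rw [hT0, hTS]; simp only [hTk]
  subst hT0T
  have hrel : ∀ k, (rel (Tk k)).val * (List.ofFn fun j => S k (Sum.inr j)).prod = 1 := by
    rw [hT0r, glob_bd_prod (fun k j => S k (Sum.inr j)), ← blockDiagonal'_mul, ← blockDiagonal'_one] at hT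
    exact fun k => congrFun (blockDiagonal'_injective hT) k
  have hcard : ∀ k, Fintype.card (Fin (n k)) ≤ r := fun k =>
    (Fintype.card_le_of_injective _ (sigma_mk_injective (β := fun k => Fin (n k)) (i := k))).trans hr
  have hIk : ∀ k, Irr (Sum.elim (gens (Tk k)) fun j => S k (Sum.inr j)) := by
    intro k
    have : (Sum.elim (gens (Tk k)) fun j => S k (Sum.inr j)) = S k := by
      funext v
      rcases v with p | j
      · simp [hTk]
      · rfl
    rw [this]
    exact hI k
  choose T' C' h1 h2 h3 h4 using fun k => block_lift hU hG hD (hcard k) (Tk k) (fun j => S k (Sum.inr j)) ξ N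
    (fun j => glob_bd_killed (hK j) k) (hrel k) (hIk k)
  obtain ⟨T1, hT1, hT1r⟩ := exists_blockRep T'
  refine ⟨T1, fun j => blockDiagonal' fun k => C' k j, rep_ext fun p => ?_, fun j => ?_, ?_, ?_⟩
  · rw [gens_mapRep, hT1, hT0, blockDiagonal'_map _ _ (map_zero _)]
    congr 1
    funext k
    rw [← h1 k, gens_mapRep]
  · rw [blockDiagonal'_map _ _ (map_zero _)]
    simp only [h2]
  · rw [hT1r, glob_bd_prod, ← blockDiagonal'_mul]
    simp only [h3]
    exact blockDiagonal'_one
  · refine (generic_forall h4).mono fun φ hφ => ⟨?_, fun j => ?_⟩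
    · have := ss_of_blocks fun k => (hφ k).1
      convert this using 1
      funext v
      rcases v with p | j
      · simp only [Sum.elim_inl]
        rw [hT1, blockDiagonal'_map _ _ (map_zero _)]
      · simp only [Sum.elim_inr]
        rw [blockDiagonal'_map _ _ (map_zero _)]
    · choose h hh using fun k => (hφ k).2 j
      refine ⟨globU h, ?_⟩
      show _ = (blockDiagonal' fun k => (h k).val) * _ * blockDiagonal' fun k => ((h k)⁻¹).val
      rw [blockDiagonal'_map _ _ (map_zero _), ← blockDiagonal'_mul, ← blockDiagonal'_mul]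
      simp only [hh]

theorem global_lift (hU : Univ O π ev) (hG : Good π) {g s r : ℕ} (hr : 1 ≤ r) (hD : HasD O r)
    (c : Fin s → Matrix.SpecialLinearGroup (Fin r) ℂ) (ξ : Fin s → ℕ → Oˣ)
    (hK : ∀ j, Killed (ξ j) r (c j).1) (T : RelGen g s → Matrix.SpecialLinearGroup (Fin r) ℂ)
    (hT : IsRelSurfaceRep g s r T) (hss : IsSemisimpleRep T) (hcl : HasBoundaryClasses c T) :
    ∃ (A : RelGen g s → Matrix (Fin r) (Fin r) B) (u : Fin g × Bool → Bˣ),
      (∀ v, (A v).map π = (T v).1) ∧ (∀ k, π (u k : B) = 1) ∧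
      Generic π fun f => ∀ t : Fin g × Bool → ℂ, (∀ k, t k ^ r = f (u k : B)) →
        ∃ T' : RelGen g s → Matrix.SpecialLinearGroup (Fin r) ℂ,
          (∀ k, (T' (Sum.inl k)).1 = t k • (A (Sum.inl k)).map f) ∧
          (∀ j, (T' (Sum.inr j)).1 = (A (Sum.inr j)).map f) ∧
          IsRelSurfaceRep g s r T' ∧ IsSemisimpleRep T' ∧ HasBoundaryClasses c T' := by
  obtain ⟨t, n, S, φ, φ', hI, e1, e2, hInt⟩ := ss_decomp (A := fun v => (T v).1) hss
  have hS : ∀ v, (blockDiagonal' fun k => S k v) = φ * (T v).1 * φ' := fun v => by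
    rw [hInt v, Matrix.mul_assoc, e1, Matrix.mul_one]
  have hS' : ∀ v, φ' * (blockDiagonal' fun k => S k v) * φ = (T v).1 := fun v => by
    rw [Matrix.mul_assoc, ← hInt v, ← Matrix.mul_assoc, e2, Matrix.one_mul]
  have hcard : Fintype.card (Σ k : Fin t, Fin (n k)) ≤ r := by
    rw [iso_card e1 e2, Fintype.card_fin]
  obtain ⟨T0, hT0⟩ := exists_rep (fun p : Fin g × Bool => (T (Sum.inl p)).1) fun p => by
    rw [(T (Sum.inl p)).2]; exact one_ne_zero
  have hrel0 : (rel T0).val * (List.ofFn fun j => (T (Sum.inr j)).1).prod = 1 :=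
    (relSurf_iff T T0 (fun _ => 1) (fun _ => one_ne_zero) fun k => by rw [hT0, one_smul]).1 hT
  obtain ⟨T1, hT1⟩ := rep_transport T0 e1 e2
  have hSL : ∀ h : Matrix.SpecialLinearGroup (Fin r) ℂ, h.1 * (h⁻¹).1 = 1 := fun h => by
    rw [← Matrix.SpecialLinearGroup.coe_mul, mul_inv_cancel, Matrix.SpecialLinearGroup.coe_one]
  have hSL' : ∀ h : Matrix.SpecialLinearGroup (Fin r) ℂ, (h⁻¹).1 * h.1 = 1 := fun h => by
    rw [← Matrix.SpecialLinearGroup.coe_mul, inv_mul_cancel, Matrix.SpecialLinearGroup.coe_one]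
  choose hc hhc using hcl
  have hhc' : ∀ j, (T (Sum.inr j)).1 = (hc j).1 * (c j).1 * ((hc j)⁻¹).1 := fun j => by
    rw [hhc j, Matrix.SpecialLinearGroup.coe_mul, Matrix.SpecialLinearGroup.coe_mul]
  obtain ⟨T', C', h1, h2, h3, h4⟩ := sum_lift hU hG hD hcard S hI T1 (fun p => by rw [hT1, hT0, hS]) ξ r
    (fun j => by
      rw [hS, hhc']
      exact glob_killed_conj e1 e2 (glob_killed_conj (hSL _) (hSL' _) (hK j)))
    (by
      simp only [hS]
      exact glob_rel_conj e1 e2 hT1 _ hrel0)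
  obtain ⟨ψ, ψ', l1, l2, l3, l4⟩ := iso_lift hG e1 e2
  obtain ⟨T2, hT2⟩ := rep_transport T' l4 l3
  have hrel2 := glob_rel_conj l4 l3 hT2 _ h3
  have hun : ∀ k, IsUnit (gens T2 k).det := by
    rintro ⟨i, b⟩
    cases b
    · exact (isUnit_iff_isUnit_det _).1 (T2 i).1.isUnit
    · exact (isUnit_iff_isUnit_det _).1 (T2 i).2.isUnit
  have hA1 : ∀ k, (gens T2 k).map π = (T (Sum.inl k)).1 := fun k => by
    have e : (gens T' k).map π = gens T1 k := by rw [← h1, gens_mapRep]; rfl
    rw [hT2, Matrix.map_mul, Matrix.map_mul, l1, l2, e, hT1, hT0, ← hS, hS']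
  have hdetmap : ∀ (f : B →ₐ[O] ℂ) (M : Matrix (Fin r) (Fin r) B), (M.map f).det = f M.det := fun f M =>
    (AlgHom.map_det f M).symm
  have hu : ∀ (f : B →ₐ[O] ℂ) k, f ((hun k).unit⁻¹ : Bˣ) * ((gens T2 k).map f).det = 1 := fun f k => by
    rw [hdetmap, ← map_mul, IsUnit.val_inv_mul, map_one]
  refine ⟨Sum.elim (gens T2) fun j => ψ' * C' j * ψ, fun k => (hun k).unit⁻¹, ?_, fun k => ?_, ?_⟩
  · rintro (k | j)
    · exact hA1 k
    · simp only [Sum.elim_inr]
      rw [Matrix.map_mul, Matrix.map_mul, l1, l2, h2, hS']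
  · have := hu π k
    rwa [hA1, (T (Sum.inl k)).2, mul_one] at this
  refine h4.mono fun f hf τ hτ => ?_
  obtain ⟨hf1, hf2⟩ := hf
  have m3 : ψ.map f * ψ'.map f = 1 := by rw [← Matrix.map_mul, l3, Matrix.map_one _ (map_zero f) (map_one f)]
  have m4 : ψ'.map f * ψ.map f = 1 := by rw [← Matrix.map_mul, l4, Matrix.map_one _ (map_zero f) (map_one f)]
  have hτ0 : ∀ k, τ k ≠ 0 := fun k h0 => by
    have := hu f k
    rw [← hτ k, h0, zero_pow (by omega), zero_mul] at this
    exact zero_ne_one this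
  have hconj : ∀ j, ∃ h : Matrix.SpecialLinearGroup (Fin r) ℂ,
      (ψ' * C' j * ψ).map f = h.1 * (c j).1 * (h⁻¹).1 := by
    intro j
    obtain ⟨h, hh⟩ := hf2 j
    have hi : (ψ'.map f * h.val * φ * (hc j).1) * (((hc j)⁻¹).1 * φ' * (h⁻¹).val * ψ.map f) = 1 := by
      calc _ = ψ'.map f * (h.val * (φ * ((hc j).1 * ((hc j)⁻¹).1) * φ') * (h⁻¹).val) * ψ.map f := by
            simp only [Matrix.mul_assoc]
        _ = 1 := by rw [hSL, Matrix.mul_one, e1, Matrix.mul_one, Units.mul_inv, Matrix.mul_one, m4]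
    obtain ⟨k, hk⟩ := exists_SL_conj hr hi
    refine ⟨k, ?_⟩
    rw [← hk, Matrix.map_mul, Matrix.map_mul, hh, hS, hhc']
    simp only [Matrix.mul_assoc]
  choose kc hkc using hconj
  have hd1 : ∀ k, (τ k • (gens T2 k).map f).det = 1 := fun k => by
    rw [det_smul, Fintype.card_fin, hτ k, hu]
  let T3 : RelGen g s → Matrix.SpecialLinearGroup (Fin r) ℂ :=
    Sum.elim (fun k => ⟨τ k • (gens T2 k).map f, hd1 k⟩) fun j => kc j * c j * (kc j)⁻¹
  have hT3 : ∀ j, (T3 (Sum.inr j)).1 = (ψ' * C' j * ψ).map f := fun j => by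
    rw [hkc, ← Matrix.SpecialLinearGroup.coe_mul, ← Matrix.SpecialLinearGroup.coe_mul]
    rfl
  refine ⟨T3, fun k => rfl, hT3, ?_, ?_, fun j => ⟨kc j, rfl⟩⟩
  · refine (relSurf_iff T3 (mapRep (f : B →+* ℂ) T2) τ hτ0 fun k => by rw [gens_mapRep]; rfl).2 ?_
    simp only [hT3]
    have := congrArg (fun M => M.map (f : B →+* ℂ)) hrel2
    rw [Matrix.map_mul, glob_map_prod, Matrix.map_one _ (map_zero _) (map_one _)] at this
    rw [rel_mapRep, mapU_val]
    exact this
  · have s1 : SS (Sum.elim (fun k => (gens T2 k).map f) fun j => (ψ' * C' j * ψ).map f) := by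
      refine hf1.iso m4 m3 ?_
      rintro (k | j)
      · simp only [Sum.elim_inl]
        rw [hT2, Matrix.map_mul, Matrix.map_mul, Matrix.mul_assoc _ _ (ψ'.map f), m3, Matrix.mul_one]
      · simp only [Sum.elim_inr]
        rw [Matrix.map_mul, Matrix.map_mul, Matrix.mul_assoc _ _ (ψ'.map f), m3, Matrix.mul_one]
    have s2 := s1.smul (Sum.elim τ fun _ => 1) (by rintro (k | j); exacts [hτ0 k, one_ne_zero])
    have e : (fun v => (T3 v).1) = fun v => Sum.elim τ (fun _ => (1 : ℂ)) v •
        Sum.elim (fun k => (gens T2 k).map f) (fun j => (ψ' * C' j * ψ).map f) v := by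
      funext v
      rcases v with k | j
      · rfl
      · rw [hT3]
        simp
    rw [← e] at s2
    exact s2

end Crest.Agent.R3
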