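import Mathlib

/-!
# R3 / HomS : a homogeneous polynomial map `ℂ^d → ℂ^d` without non-trivial zero is onto

Let `A = ℂ[t_i]`, `R = Algebra.adjoin ℂ (range e)`.  Nullstellensatz (`MvPolynomial.vanishingIdeal_zeroLocus_eq_radical`):
`t_i ^ N ∈ span (range e)` for some `N`; so every monomial of degree `≥ M = N * card ι` is in the ideal, and taking
homogeneous components it is `∑ h_k e_k` with `h_k` homogeneous of smaller degree.  By induction on the degree,
`A` is spanned as an `R`-module by the monomials of degree `< M`; so `A` is finite over `ℂ[y_k]` via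
`φ = aeval e`.  `A` is algebraic over `R` and `trdeg A = d`, so `e` is a transcendence basis
(`Algebra.IsAlgebraic.isTranscendenceBasis_of_le_trdeg_of_finite`, `MvPolynomial.trdeg_of_isDomain`) and `φ` is
injective.  Lying over (`Ideal.exists_ideal_over_maximal_of_isIntegral`) for the maximal ideal of `y`, and maximal
ideals of `A` are points (`MvPolynomial.isMaximal_iff_eq_vanishingIdeal_singleton`).
-/

set_option autoImplicit false

noncomputable section

open MvPolynomial

namespace Crest.Agent.R3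

theorem hom_finite {ι κ : Type} [Fintype ι] [Fintype κ] (e : κ → MvPolynomial ι ℂ) (n : κ → ℕ)
    (hn : ∀ k, 0 < n k) (he : ∀ k, (e k).IsHomogeneous (n k))
    (h0 : ∀ t : ι → ℂ, (∀ k, eval t (e k) = 0) → t = 0) :
    (aeval e : MvPolynomial κ ℂ →ₐ[ℂ] MvPolynomial ι ℂ).toRingHom.Finite := by
  classical
  have h1 : idealOfVars ι ℂ ≤ (Ideal.span (Set.range e)).radical := by
    rw [← vanishingIdeal_zeroLocus_eq_radical (K := ℂ)]
    refine Ideal.span_le.2 ?_
    rintro _ ⟨i, rfl⟩ x hx
    rw [h0 x fun k => hx _ (Ideal.subset_span ⟨k, rfl⟩)]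
    simp
  obtain ⟨M, hM⟩ := Ideal.exists_pow_le_of_le_radical_of_fg h1 (idealOfVars_fg ι ℂ)
  let := (aeval e : MvPolynomial κ ℂ →ₐ[ℂ] MvPolynomial ι ℂ).toRingHom.toAlgebra
  have hs : ∀ (b : MvPolynomial κ ℂ) (a : MvPolynomial ι ℂ), b • a = aeval e b * a := fun _ _ => rfl
  let W := Submodule.span (MvPolynomial κ ℂ)
    ((fun s => (monomial s 1 : MvPolynomial ι ℂ)) '' {s | Finsupp.degree s < M})
  have key : ∀ d, ∀ p : MvPolynomial ι ℂ, p.IsHomogeneous d → p ∈ W := by
    intro d
    induction d using Nat.strong_induction_on with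
    | _ d ih =>
      intro p hp
      have hdeg : ∀ s ∈ p.support, Finsupp.degree s = d := fun s h => by
        by_contra h'
        exact mem_support_iff.1 h (hp.coeff_eq_zero h')
      by_cases hd : d < M
      · rw [p.as_sum]
        refine W.sum_mem fun s h => ?_
        have e1 : monomial s (coeff s p) = (C (coeff s p) : MvPolynomial κ ℂ) •
            (monomial s 1 : MvPolynomial ι ℂ) := by
          rw [hs, aeval_C, algebraMap_eq, C_mul_monomial, mul_one]
        rw [e1]
        exact W.smul_mem _ (Submodule.subset_span ⟨s, (hdeg s h).trans_lt hd, rfl⟩)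
      · obtain ⟨c, hc⟩ := Ideal.mem_span_range_iff_exists_fun.1
          (hM ((mem_pow_idealOfVars_iff M p).2 fun s h => (not_lt.1 hd).trans (hdeg s h).ge))
        rw [← homogeneousComponent_eq_self hp, ← hc, map_sum]
        refine W.sum_mem fun k _ => ?_
        rw [← sum_homogeneousComponent (c k), Finset.sum_mul, map_sum]
        refine W.sum_mem fun j _ => ?_
        rw [homogeneousComponent_of_mem ((homogeneousComponent_isHomogeneous j (c k)).mul (he k))]
        split_ifs with hj
        · have e1 : homogeneousComponent j (c k) * e k =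
              (X k : MvPolynomial κ ℂ) • homogeneousComponent j (c k) := by
            rw [hs, aeval_X, mul_comm]
          rw [e1]
          exact W.smul_mem _ (ih j (by have := hn k; omega) _ (homogeneousComponent_isHomogeneous j _))
        · exact W.zero_mem
  have htop : W = ⊤ := eq_top_iff.2 fun p _ => by
    rw [← sum_homogeneousComponent p]
    exact W.sum_mem fun j _ => key j _ (homogeneousComponent_isHomogeneous j _)
  exact ⟨htop ▸ Submodule.fg_span ((Finsupp.finite_of_degree_lt M).image _)⟩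

theorem hom_surj {ι κ : Type} [Fintype ι] [Fintype κ] (hc : Fintype.card κ = Fintype.card ι)
    (e : κ → MvPolynomial ι ℂ) (n : κ → ℕ) (hn : ∀ k, 0 < n k) (he : ∀ k, (e k).IsHomogeneous (n k))
    (h0 : ∀ t : ι → ℂ, (∀ k, eval t (e k) = 0) → t = 0) (y : κ → ℂ) :
    ∃ t : ι → ℂ, ∀ k, eval t (e k) = y k := by
  have hI := (hom_finite e n hn he h0).to_isIntegral
  have hA : Algebra.IsIntegral (Algebra.adjoin ℂ (Set.range e)) (MvPolynomial ι ℂ) :=
    ⟨RingHom.IsIntegral.tower_top ((aeval e : MvPolynomial κ ℂ →ₐ[ℂ] MvPolynomial ι ℂ).codRestrict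
      (Algebra.adjoin ℂ (Set.range e)) fun b => by
        rw [Algebra.adjoin_range_eq_range_aeval]
        exact ⟨b, rfl⟩).toRingHom _ hI⟩
  have hinj := (Algebra.IsAlgebraic.isTranscendenceBasis_of_le_trdeg_of_finite ℂ e (by
    rw [MvPolynomial.trdeg_of_isDomain, Cardinal.mk_fintype, Cardinal.mk_fintype, hc]
    simp)).1
  let := (aeval e : MvPolynomial κ ℂ →ₐ[ℂ] MvPolynomial ι ℂ).toRingHom.toAlgebra
  have : Algebra.IsIntegral (MvPolynomial κ ℂ) (MvPolynomial ι ℂ) := ⟨hI⟩
  obtain ⟨Q, hQ, hQ'⟩ := Ideal.exists_ideal_over_maximal_of_isIntegral (S := MvPolynomial ι ℂ)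
    (vanishingIdeal ℂ {y}) (((RingHom.injective_iff_ker_eq_bot _).1 hinj).trans_le bot_le)
  obtain ⟨t, rfl⟩ := isMaximal_iff_eq_vanishingIdeal_singleton.1 hQ
  refine ⟨t, fun k => ?_⟩
  have h1 : (X k - C (y k) : MvPolynomial κ ℂ) ∈ vanishingIdeal ℂ {y} := by
    simp [mem_vanishingIdeal_singleton_iff]
  rw [← hQ', Ideal.mem_comap, mem_vanishingIdeal_singleton_iff] at h1
  have h2 : aeval t (aeval e (X k - C (y k) : MvPolynomial κ ℂ)) = 0 := h1
  simpa [sub_eq_zero] using h2

end Crest.Agent.R3
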