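import Crest.Agent.R3.Fox

/-!
# R3 / IftA : the derivative of the relator is `fox`

Work with Pi types (`ι → ι → ℂ`), on which the sup norm is available; `Matrix.of` is the identity.
The statement can be proved entrywise (`hasStrictFDerivAt_pi`), or with the normed algebra structure
`Matrix.linftyOpNormedAlgebra` and transported (all norms on a finite dimensional space are equivalent;
`ContDiffAt` / `AnalyticAt` do not depend on the norm).  A convenient way: `relM` is `ContDiffAt ℂ 1` at `gens T`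
(entries are rational functions: `a⁻¹ = (det a)⁻¹ • adjugate a`), so it is strictly differentiable with derivative
`fderiv`; identify `fderiv v` with `fox T T v` along the line `s ↦ gens T + s • v` by induction on `g` (`fox_succ`,
`fox1_eq`, product rule, `(a + s α)⁻¹` has derivative `- a⁻¹ α a⁻¹`).
-/

set_option autoImplicit false

noncomputable section

open Matrix

namespace Crest.Agent.R3

variable {ι : Type} [Fintype ι] [DecidableEq ι] {g : ℕ}

theorem ifa_zero (x : Fin 0 × Bool → ι → ι → ℂ) : relM x = (1 : Matrix ι ι ℂ) := by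
  simp only [relM, List.ofFn_zero, List.prod_nil]

theorem ifa_succ (x : Fin (g + 1) × Bool → ι → ι → ℂ) : relM x =
    (Matrix.of (x (0, false)) * Matrix.of (x (0, true)) * (Matrix.of (x (0, false)))⁻¹ *
      (Matrix.of (x (0, true)))⁻¹ * Matrix.of (relM fun p : Fin g × Bool => x (p.1.succ, p.2)) :
        Matrix ι ι ℂ) := by
  simp only [relM, List.ofFn_succ, List.prod_cons]
  rfl

/-- `F` has the value `u` and the strict derivative `D` at `x` -/
def IfaD {E : Type} [NormedAddCommGroup E] [NormedSpace ℂ E] (F : E → Matrix ι ι ℂ) (x : E)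
    (u : GLm ι ℂ) (D : E → Matrix ι ι ℂ) : Prop :=
  F x = (u : Matrix ι ι ℂ) ∧ ∃ Φ : E →L[ℂ] Matrix ι ι ℂ, HasStrictFDerivAt F Φ x ∧ ∀ v, Φ v = D v

section
variable {E : Type} [NormedAddCommGroup E] [NormedSpace ℂ E] {x : E}

open scoped Matrix.Norms.Operator in
theorem IfaD.mul {F G D D' : E → Matrix ι ι ℂ} {u w : GLm ι ℂ} (h : IfaD F x u D) (h' : IfaD G x w D') :
    IfaD (fun y => F y * G y) x (u * w) fun v => (u : Matrix ι ι ℂ) * D' v + D v * (w : Matrix ι ι ℂ) := by
  obtain ⟨h1, Φ, h2, h3⟩ := h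
  obtain ⟨h1', Φ', h2', h3'⟩ := h'
  refine ⟨?_, _, HasStrictFDerivAt.mul' (𝔸 := Matrix ι ι ℂ) h2 h2', fun v => ?_⟩
  · show F x * G x = _
    rw [h1, h1', Units.val_mul]
  · show F x * Φ' v + Φ v * G x = _
    rw [h1, h1', h3, h3']

open scoped Matrix.Norms.Operator in
theorem IfaD.inv {F D : E → Matrix ι ι ℂ} {u : GLm ι ℂ} (h : IfaD F x u D) :
    IfaD (fun y => (F y)⁻¹) x u⁻¹ fun v =>
      -(((u⁻¹ : GLm ι ℂ) : Matrix ι ι ℂ) * D v * ((u⁻¹ : GLm ι ℂ) : Matrix ι ι ℂ)) := by
  obtain ⟨h1, Φ, h2, h3⟩ := h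
  have h4 := hasStrictFDerivAt_ringInverse (𝕜 := ℂ) u
  rw [← h1] at h4
  simp only [nonsing_inv_eq_ringInverse]
  refine ⟨?_, _, h4.comp x h2, fun v => ?_⟩
  · show Ring.inverse (F x) = _
    rw [h1, Ring.inverse_unit]
  · show -(_ * Φ v * _) = _
    rw [h3]

theorem ifa_rel (T : Rep g ι ℂ) (F D : E → Fin g × Bool → ι → ι → ℂ)
    (h : ∀ i, IfaD (fun y => F y (i, false)) x (T i).1 (fun v => D v (i, false)) ∧
      IfaD (fun y => F y (i, true)) x (T i).2 fun v => D v (i, true)) :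
    IfaD (fun y => relM (F y)) x (rel T) fun v => fox T T (D v) := by
  induction g with
  | zero =>
    simp only [ifa_zero, rel_zero, fox_zero]
    exact ⟨rfl, 0, hasStrictFDerivAt_const _ _, fun _ => rfl⟩
  | succ g ih =>
    obtain ⟨h1, Φ, h2, h3⟩ := ((((h 0).1.mul (h 0).2).mul (h 0).1.inv).mul (h 0).2.inv).mul
      (ih (Fin.tail T) (fun y p => F y (p.1.succ, p.2)) (fun y p => D y (p.1.succ, p.2)) fun i => h i.succ)
    simp only [ifa_succ, rel_succ]
    refine ⟨h1, Φ, h2, fun v => (h3 v).trans ?_⟩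
    beta_reduce
    rw [fox_succ, add_comm, ← Prod.mk.eta (p := T 0), fox1_eq]
    congr 2
    simp only [Units.val_mul, Matrix.add_mul, Matrix.mul_neg, Matrix.neg_mul, Matrix.mul_assoc]
    abel

end

theorem ifa_main (T : Rep g ι ℂ) : IfaD (relM : (Fin g × Bool → ι → ι → ℂ) → ι → ι → ℂ) (gens T) (rel T)
    fun v => fox T T v :=
  ifa_rel T (fun y => y) (fun y => y) fun i =>
    ⟨⟨rfl, _, hasStrictFDerivAt_apply (𝕜 := ℂ) (F' := fun _ => ι → ι → ℂ) (i, false) (gens T), fun _ => rfl⟩,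
      ⟨rfl, _, hasStrictFDerivAt_apply (𝕜 := ℂ) (F' := fun _ => ι → ι → ℂ) (i, true) (gens T), fun _ => rfl⟩⟩

theorem relM_gens (T : Rep g ι ℂ) : relM (gens T) = ((rel T : GLm ι ℂ) : Matrix ι ι ℂ) := by
  exact (ifa_main T).1

theorem det_rel (T : Rep g ι ℂ) : ((rel T : GLm ι ℂ) : Matrix ι ι ℂ).det = 1 := by
  induction g with
  | zero => rw [rel_zero, Units.val_one, det_one]
  | succ g ih =>
    have h1 := (T 0).1.mul_inv
    have h2 := (T 0).2.mul_inv
    have h3 := congrArg det h1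
    have h4 := congrArg det h2
    rw [det_mul, det_one] at h3 h4
    simp only [rel_succ, comm, Units.val_mul, det_mul, ih]
    linear_combination (det ((T 0).2 : Matrix ι ι ℂ) * det (((T 0).2⁻¹ : GLm ι ℂ) : Matrix ι ι ℂ)) * h3 + h4

theorem relM_deriv (T : Rep g ι ℂ) :
    ∃ Φ : (Fin g × Bool → ι → ι → ℂ) →L[ℂ] (ι → ι → ℂ),
      HasStrictFDerivAt (relM : (Fin g × Bool → ι → ι → ℂ) → ι → ι → ℂ) Φ (gens T) ∧
        ∀ v, Φ v = fox T T v := by
  exact (ifa_main T).2

end Crest.Agent.R3
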