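import Crest.Agent.R3.Defs

/-!
# R3 / Mat : calculus of `eS`, `Sup`, `dg`, `PI`, `Flag`

All proofs are entrywise or short algebra.  `Sup A C M ↔ eS A * M * eS C = M` (`sup_iff`) reduces most
of them to `eS_mul_eS`.
-/

set_option autoImplicit false
set_option linter.unusedSectionVars false

noncomputable section

open Matrix

namespace Crest.Agent.R3

variable {L : Type} [Fintype L] [DecidableEq L] {R : Type} [CommRing R]
variable {A A' C C' E X X1 X2 Y Y1 : Finset L} {M M' M'' N N' : Matrix L L R}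

theorem eS_mul_eS (A C : Finset L) : eS R A * eS R C = eS R (A ∩ C) := by
  unfold eS
  rw [diagonal_mul_diagonal]
  congr 1
  funext i
  by_cases h1 : i ∈ A <;> by_cases h2 : i ∈ C <;> simp [h1, h2]

theorem eS_mul_self (A : Finset L) : eS R A * eS R A = eS R A := by
  rw [eS_mul_eS, Finset.inter_self]

theorem eS_mul_of_subset (h : A ⊆ C) : eS R A * eS R C = eS R A := by
  rw [eS_mul_eS, Finset.inter_eq_left.2 h]

theorem eS_mul_of_superset (h : C ⊆ A) : eS R A * eS R C = eS R C := by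
  rw [eS_mul_eS, Finset.inter_eq_right.2 h]

theorem eS_mul_of_disjoint (h : Disjoint A C) : eS R A * eS R C = 0 := by
  rw [eS_mul_eS, Finset.disjoint_iff_inter_eq_empty.1 h]
  simp [eS]

theorem eS_union (h : Disjoint A C) : eS R (A ∪ C) = eS R A + eS R C := by
  unfold eS
  rw [diagonal_add]
  congr 1
  funext i
  have : i ∈ A → i ∉ C := fun k => Finset.disjoint_left.1 h k
  by_cases h1 : i ∈ A <;> by_cases h2 : i ∈ C <;> simp_all

@[simp] theorem eS_empty : eS R (∅ : Finset L) = 0 := by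
  simp [eS]

@[simp] theorem eS_univ : eS R (Finset.univ : Finset L) = 1 := by
  simp [eS]

theorem eS_map {R' F : Type} [CommRing R'] [FunLike F R R'] [RingHomClass F R R'] (φ : F)
    (A : Finset L) : (eS R A).map φ = eS R' A := by
  unfold eS
  rw [diagonal_map (map_zero φ)]
  congr 1
  funext i
  split_ifs <;> simp

theorem mat_eS_mul (A : Finset L) (M : Matrix L L R) (i j : L) :
    (eS R A * M) i j = if i ∈ A then M i j else 0 := by
  rw [eS, diagonal_mul, ite_mul, one_mul, zero_mul]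

theorem mat_mul_eS (A : Finset L) (M : Matrix L L R) (i j : L) :
    (M * eS R A) i j = if j ∈ A then M i j else 0 := by
  rw [eS, mul_diagonal, mul_ite, mul_one, mul_zero]

theorem sup_iff : Sup A C M ↔ eS R A * M * eS R C = M := by
  constructor
  · intro h
    ext i j
    rw [mat_mul_eS, mat_eS_mul]
    split_ifs with h1 h2
    · rfl
    · exact (h i j fun k => h2 k.1).symm
    · exact (h i j fun k => h1 k.2).symm
  · intro h i j k
    rw [← h, mat_mul_eS, mat_eS_mul]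
    split_ifs with h1 h2
    · exact absurd ⟨h2, h1⟩ k
    · rfl
    · rfl

theorem Sup.eS_mul (h : Sup A C M) (hA : A ⊆ A') : eS R A' * M = M := by
  ext i j
  rw [mat_eS_mul]
  split_ifs with h1
  · rfl
  · exact (h i j fun k => h1 (hA k.1)).symm

theorem Sup.mul_eS (h : Sup A C M) (hC : C ⊆ C') : M * eS R C' = M := by
  ext i j
  rw [mat_mul_eS]
  split_ifs with h1
  · rfl
  · exact (h i j fun k => h1 (hC k.2)).symm

theorem Sup.eS_mul_zero (h : Sup A C M) (hA : Disjoint A' A) : eS R A' * M = 0 := by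
  ext i j
  rw [mat_eS_mul]
  split_ifs with h1
  · exact h i j fun k => Finset.disjoint_left.1 hA h1 k.1
  · rfl

theorem Sup.mul_eS_zero (h : Sup A C M) (hC : Disjoint C C') : M * eS R C' = 0 := by
  ext i j
  rw [mat_mul_eS]
  split_ifs with h1
  · exact h i j fun k => Finset.disjoint_left.1 hC k.2 h1
  · rfl

theorem Sup.mono (h : Sup A C M) (hA : A ⊆ A') (hC : C ⊆ C') : Sup A' C' M :=
  fun i j k => h i j fun k' => k ⟨hA k'.1, hC k'.2⟩

theorem Sup.inter (h : Sup A C M) (h' : Sup A' C' M) : Sup (A ∩ A') (C ∩ C') M := by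
  intro i j k
  by_cases h1 : i ∈ A ∧ j ∈ C
  · exact h' i j fun k' => k ⟨Finset.mem_inter.2 ⟨h1.1, k'.1⟩, Finset.mem_inter.2 ⟨h1.2, k'.2⟩⟩
  · exact h i j h1

theorem sup_zero (A C : Finset L) : Sup A C (0 : Matrix L L R) :=
  fun _ _ _ => rfl

theorem sup_univ (M : Matrix L L R) : Sup Finset.univ Finset.univ M :=
  fun i j k => absurd ⟨Finset.mem_univ i, Finset.mem_univ j⟩ k

theorem Sup.add (h : Sup A C M) (h' : Sup A C N) : Sup A C (M + N) := by
  intro i j k
  rw [Matrix.add_apply, h i j k, h' i j k, add_zero]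

theorem Sup.neg (h : Sup A C M) : Sup A C (-M) := by
  intro i j k
  rw [Matrix.neg_apply, h i j k, neg_zero]

theorem Sup.sub (h : Sup A C M) (h' : Sup A C N) : Sup A C (M - N) := by
  intro i j k
  rw [Matrix.sub_apply, h i j k, h' i j k, sub_zero]

theorem Sup.smul (h : Sup A C M) (c : R) : Sup A C (c • M) := by
  intro i j k
  rw [Matrix.smul_apply, h i j k, smul_zero]

theorem Sup.mul (h : Sup A C M) (h' : Sup A' C' N) : Sup A C' (M * N) := by
  intro i j k
  rw [Matrix.mul_apply]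
  refine Finset.sum_eq_zero fun l _ => ?_
  by_cases h1 : i ∈ A
  · rw [h' l j fun k' => k ⟨h1, k'.2⟩, mul_zero]
  · rw [h i l fun k' => h1 k'.1, zero_mul]

theorem Sup.mul_eq_zero (h : Sup A C M) (h' : Sup A' C' N) (hd : Disjoint C A') : M * N = 0 := by
  rw [← h'.eS_mul subset_rfl, ← Matrix.mul_assoc, h.mul_eS_zero hd, Matrix.zero_mul]

theorem Sup.eq_zero (h : Sup A C M) (he : A = ∅ ∨ C = ∅) : M = 0 := by
  ext i j
  refine h i j fun k => ?_
  rcases he with rfl | rfl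
  · exact Finset.notMem_empty _ k.1
  · exact Finset.notMem_empty _ k.2

theorem Sup.map {R' F : Type} [CommRing R'] [FunLike F R R'] [RingHomClass F R R'] (h : Sup A C M)
    (φ : F) : Sup A C (M.map φ) := by
  intro i j k
  rw [Matrix.map_apply, h i j k, map_zero]

theorem sup_eS (A : Finset L) : Sup A A (eS R A) := by
  rw [sup_iff, eS_mul_self, eS_mul_self]

theorem sup_sandwich (A C : Finset L) (M : Matrix L L R) : Sup A C (eS R A * M * eS R C) :=
  ((sup_eS A).mul (sup_univ M)).mul (sup_eS C)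

section dg
variable {O : Type} [CommRing O] [Algebra O R]

theorem dg_mul_dg (d d' : L → Oˣ) : dg R d * dg R d' = dg R (d * d') := by
  unfold dg
  rw [diagonal_mul_diagonal]
  congr 1
  funext i
  simp

@[simp] theorem dg_one : dg R (1 : L → Oˣ) = 1 := by
  simp [dg]

theorem dg_comm_eS (d : L → Oˣ) (A : Finset L) : dg R d * eS R A = eS R A * dg R d := by
  unfold dg eS
  rw [diagonal_mul_diagonal, diagonal_mul_diagonal]
  congr 1
  funext i
  exact mul_comm _ _

theorem Sup.dg_mul (h : Sup A C M) (d : L → Oˣ) : Sup A C (dg R d * M) := by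
  intro i j k
  rw [dg, diagonal_mul, h i j k, mul_zero]

theorem Sup.mul_dg (h : Sup A C M) (d : L → Oˣ) : Sup A C (M * dg R d) := by
  intro i j k
  rw [dg, mul_diagonal, h i j k, zero_mul]

theorem Sup.dg_mul_const (h : Sup A C M) {d : L → Oˣ} {c : Oˣ} (hd : ∀ i ∈ A, d i = c) :
    dg R d * M = algebraMap O R (c : O) • M := by
  ext i j
  rw [dg, diagonal_mul, Matrix.smul_apply, smul_eq_mul]
  by_cases h1 : i ∈ A
  · rw [hd i h1]
  · rw [h i j fun k => h1 k.1, mul_zero, mul_zero]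

theorem Sup.mul_dg_const (h : Sup A C M) {d : L → Oˣ} {c : Oˣ} (hd : ∀ i ∈ C, d i = c) :
    M * dg R d = algebraMap O R (c : O) • M := by
  ext i j
  rw [dg, mul_diagonal, Matrix.smul_apply, smul_eq_mul]
  by_cases h1 : j ∈ C
  · rw [hd j h1, mul_comm]
  · rw [h i j fun k => h1 k.2, mul_zero, zero_mul]

theorem dg_map {R' : Type} [CommRing R'] [Algebra O R'] (φ : R →ₐ[O] R') (d : L → Oˣ) :
    (dg R d).map φ = dg R' d := by
  unfold dg
  rw [diagonal_map (map_zero φ)]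
  congr 1
  funext i
  exact φ.commutes _

theorem pi_dg (X : Finset L) (d : L → Oˣ) : PI X X (dg R d * eS R X) (dg R d⁻¹ * eS R X) := by
  refine ⟨(sup_eS X).dg_mul d, (sup_eS X).dg_mul _, ?_, ?_⟩
  · rw [Matrix.mul_assoc, ((sup_eS X).dg_mul d).eS_mul subset_rfl, ← Matrix.mul_assoc, dg_mul_dg,
      inv_mul_cancel, dg_one, Matrix.one_mul]
  · rw [Matrix.mul_assoc, ((sup_eS X).dg_mul d⁻¹).eS_mul subset_rfl, ← Matrix.mul_assoc, dg_mul_dg,
      mul_inv_cancel, dg_one, Matrix.one_mul]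

theorem PI.dg_mul (h : PI X X1 M M') (d : L → Oˣ) : PI X X1 (dg R d * M) (M' * dg R d⁻¹) := by
  refine ⟨h.s1.dg_mul d, h.s2.mul_dg _, ?_, ?_⟩
  · rw [Matrix.mul_assoc, ← Matrix.mul_assoc (dg R d⁻¹), dg_mul_dg, inv_mul_cancel, dg_one, Matrix.one_mul, h.l]
  · rw [Matrix.mul_assoc, ← Matrix.mul_assoc M, h.r, ← dg_comm_eS, ← Matrix.mul_assoc, dg_mul_dg,
      mul_inv_cancel, dg_one, Matrix.one_mul]

theorem PI.smul (h : PI X X1 M M') (c : Oˣ) :
    PI X X1 (algebraMap O R (c : O) • M) (algebraMap O R ((c⁻¹ : Oˣ) : O) • M') := by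
  refine ⟨h.s1.smul _, h.s2.smul _, ?_, ?_⟩
  · rw [Matrix.smul_mul, Matrix.mul_smul, smul_smul, ← map_mul, Units.inv_mul, map_one, one_smul, h.l]
  · rw [Matrix.smul_mul, Matrix.mul_smul, smul_smul, ← map_mul, Units.mul_inv, map_one, one_smul, h.r]

end dg

theorem PI.refl (X : Finset L) : PI X X (eS R X) (eS R X) :=
  ⟨sup_eS X, sup_eS X, eS_mul_self X, eS_mul_self X⟩

theorem PI.symm (h : PI X X1 M M') : PI X1 X M' M :=
  ⟨h.s2, h.s1, h.r, h.l⟩

theorem PI.trans (h : PI X X1 M M') (h' : PI X1 X2 N N') : PI X X2 (N * M) (M' * N') := by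
  refine ⟨h'.s1.mul h.s1, h.s2.mul h'.s2, ?_, ?_⟩
  · rw [Matrix.mul_assoc, ← Matrix.mul_assoc N', h'.l, h.s1.eS_mul subset_rfl, h.l]
  · rw [Matrix.mul_assoc, ← Matrix.mul_assoc M, h.r, h'.s2.eS_mul subset_rfl, h'.r]

theorem PI.add (h : PI X X1 M M') (h' : PI Y Y1 N N') (hd : Disjoint X Y) (hd1 : Disjoint X1 Y1) :
    PI (X ∪ Y) (X1 ∪ Y1) (M + N) (M' + N') := by
  refine ⟨(h.s1.mono Finset.subset_union_left Finset.subset_union_left).add
      (h'.s1.mono Finset.subset_union_right Finset.subset_union_right),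
    (h.s2.mono Finset.subset_union_left Finset.subset_union_left).add
      (h'.s2.mono Finset.subset_union_right Finset.subset_union_right), ?_, ?_⟩
  · rw [Matrix.add_mul, Matrix.mul_add, Matrix.mul_add, h.l, h'.l, h.s2.mul_eq_zero h'.s1 hd1,
      h'.s2.mul_eq_zero h.s1 hd1.symm, add_zero, zero_add, eS_union hd]
  · rw [Matrix.add_mul, Matrix.mul_add, Matrix.mul_add, h.r, h'.r, h.s1.mul_eq_zero h'.s2 hd,
      h'.s1.mul_eq_zero h.s2 hd.symm, add_zero, zero_add, eS_union hd1]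

theorem mat_unip (hd : Disjoint X Y) (h : Sup X Y M) (h' : Sup X Y N) :
    (eS R (X ∪ Y) + M) * (eS R (X ∪ Y) + N) = eS R (X ∪ Y) + (M + N) := by
  rw [Matrix.add_mul, Matrix.mul_add, Matrix.mul_add, eS_mul_self, h'.eS_mul Finset.subset_union_left,
    h.mul_eS Finset.subset_union_right, h.mul_eq_zero h' hd.symm, add_zero, add_assoc, add_comm N]

theorem PI.unip (hd : Disjoint X Y) (h : Sup X Y M) :
    PI (X ∪ Y) (X ∪ Y) (eS R (X ∪ Y) + M) (eS R (X ∪ Y) - M) := by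
  have h1 := h.mono (Finset.subset_union_left (s₂ := Y)) (Finset.subset_union_right (s₁ := X))
  refine ⟨(sup_eS _).add h1, (sup_eS _).sub h1, ?_, ?_⟩
  · rw [sub_eq_add_neg, mat_unip hd h.neg h, neg_add_cancel, add_zero]
  · rw [sub_eq_add_neg, mat_unip hd h h.neg, add_neg_cancel, add_zero]

theorem PI.uniq (h : PI X X1 M M') (h' : PI X X1 M M'') : M' = M'' := by
  rw [← h.s2.mul_eS subset_rfl, ← h'.r, ← Matrix.mul_assoc, h.l, h'.s2.eS_mul subset_rfl]

theorem PI.map {R' F : Type} [CommRing R'] [FunLike F R R'] [RingHomClass F R R'] (h : PI X X1 M M')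
    (φ : F) : PI X X1 (M.map φ) (M'.map φ) := by
  refine ⟨h.s1.map φ, h.s2.map φ, ?_, ?_⟩
  · rw [← Matrix.map_mul, h.l, eS_map]
  · rw [← Matrix.map_mul, h.r, eS_map]

/-- a one sided inverse of a partial isomorphism is its inverse -/
theorem PI.eq_of_mul_left (h : PI X X1 M M') (hN : Sup X X1 N) (hl : N * M = eS R X) : N = M' := by
  rw [← hN.mul_eS subset_rfl, ← h.r, ← Matrix.mul_assoc, hl, h.s2.eS_mul subset_rfl]

theorem PI.eq_of_mul_right (h : PI X X1 M M') (hN : Sup X X1 N) (hr : M * N = eS R X1) : N = M' := by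
  rw [← hN.eS_mul subset_rfl, ← h.l, Matrix.mul_assoc, hr, h.s2.mul_eS subset_rfl]

theorem PI.univ (a : (Matrix L L R)ˣ) :
    PI Finset.univ Finset.univ (a : Matrix L L R) ((a⁻¹ : (Matrix L L R)ˣ) : Matrix L L R) :=
  ⟨sup_univ _, sup_univ _, by rw [eS_univ, Units.inv_mul], by rw [eS_univ, Units.mul_inv]⟩

theorem mat_quot (h : Sup X1 X (M * eS R X)) (hM : Sup (X1 ∪ Y1) (X ∪ Y) M) (hr : M * M' = eS R (X1 ∪ Y1))
    (hd : Disjoint X Y) (hd1 : Disjoint X1 Y1) :
    eS R Y1 * M * eS R Y * (eS R Y * M' * eS R Y1) = eS R Y1 := by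
  have e : eS R Y1 * M * eS R Y = eS R Y1 * M := by
    conv_rhs => rw [← hM.mul_eS subset_rfl, eS_union hd, Matrix.mul_add, Matrix.mul_add,
      h.eS_mul_zero hd1.symm, zero_add, ← Matrix.mul_assoc]
  rw [← Matrix.mul_assoc, ← Matrix.mul_assoc, Matrix.mul_assoc _ (eS R Y) (eS R Y), eS_mul_self, e,
    Matrix.mul_assoc (eS R Y1), hr, eS_mul_of_subset Finset.subset_union_right, eS_mul_self]

theorem Flag.symm (h : Flag X X1 M M') : Flag X1 X M' M :=
  ⟨h.2, h.1⟩

theorem Flag.trans (h : Flag X X1 M M') (h' : Flag X1 X2 N N') : Flag X X2 (N * M) (M' * N') := by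
  constructor
  · rw [Matrix.mul_assoc, ← h.1.eS_mul subset_rfl, ← Matrix.mul_assoc]
    exact h'.1.mul h.1
  · rw [Matrix.mul_assoc, ← h'.2.eS_mul subset_rfl, ← Matrix.mul_assoc]
    exact h.2.mul h'.2

/-- restriction of a partial isomorphism to a coordinate subspace which is mapped onto a coordinate
subspace -/
theorem Flag.pi (h : Flag X X1 M M') (hM : PI A A' M M') (hX : X ⊆ A) (hX1 : X1 ⊆ A') :
    PI X X1 (M * eS R X) (M' * eS R X1) := by
  refine ⟨h.1, h.2, ?_, ?_⟩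
  · rw [Matrix.mul_assoc, h.1.eS_mul subset_rfl, ← Matrix.mul_assoc, hM.l, eS_mul_of_superset hX]
  · rw [Matrix.mul_assoc, h.2.eS_mul subset_rfl, ← Matrix.mul_assoc, hM.r, eS_mul_of_superset hX1]

/-- the induced isomorphism of the quotients -/
theorem Flag.pi_quot (h : Flag X X1 M M') (hM : PI (X ∪ Y) (X1 ∪ Y1) M M') (hd : Disjoint X Y)
    (hd1 : Disjoint X1 Y1) : PI Y Y1 (eS R Y1 * M * eS R Y) (eS R Y * M' * eS R Y1) := by
  refine ⟨sup_sandwich _ _ _, sup_sandwich _ _ _, mat_quot h.2 hM.s2 hM.l hd1 hd, mat_quot h.1 hM.s1 hM.r hd hd1⟩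

/-- an isomorphism which respects two step flags is (graded part) * (unipotent).
Proof: `l1 = M e_X`, `l2 = e_Y1 M e_Y`, `v = l1' * (e_X1 M e_Y)`. -/
theorem Flag.lin2 (h : Flag X X1 M M') (hM : PI (X ∪ Y) (X1 ∪ Y1) M M') (hd : Disjoint X Y)
    (hd1 : Disjoint X1 Y1) :
    ∃ l1 l1' l2 l2' v : Matrix L L R, PI X X1 l1 l1' ∧ PI Y Y1 l2 l2' ∧ Sup X Y v ∧
      M = (l1 + l2) * (eS R (X ∪ Y) + v) := by
  have h1 := h.pi hM Finset.subset_union_left Finset.subset_union_left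
  have h2 := h.pi_quot hM hd hd1
  have h3 := sup_sandwich X1 Y M
  have h4 := h1.s2.mul h3
  refine ⟨_, _, _, _, _, h1, h2, h4, ?_⟩
  rw [Matrix.mul_add, (h1.add h2 hd hd1).s1.mul_eS subset_rfl, Matrix.add_mul,
    h2.s1.mul_eq_zero h4 hd.symm, add_zero, ← Matrix.mul_assoc (M * eS R X), h1.r, h3.eS_mul subset_rfl,
    add_assoc, ← Matrix.add_mul, ← Matrix.add_mul, add_comm (eS R Y1), ← eS_union hd1,
    hM.s1.eS_mul subset_rfl, ← Matrix.mul_add, ← eS_union hd, hM.s1.mul_eS subset_rfl]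

/-- converse of `Flag.lin2` -/
theorem flag_of_lin2 {l1 l1' l2 l2' v : Matrix L L R} (h1 : PI X X1 l1 l1') (h2 : PI Y Y1 l2 l2')
    (hv : Sup X Y v) (hd : Disjoint X Y) (hd1 : Disjoint X1 Y1) :
    PI (X ∪ Y) (X1 ∪ Y1) ((l1 + l2) * (eS R (X ∪ Y) + v)) ((eS R (X ∪ Y) - v) * (l1' + l2')) ∧
      Flag X X1 ((l1 + l2) * (eS R (X ∪ Y) + v)) ((eS R (X ∪ Y) - v) * (l1' + l2')) := by
  refine ⟨(PI.unip hd hv).trans (h1.add h2 hd hd1), ?_, ?_⟩
  · rw [Matrix.mul_assoc, Matrix.add_mul (eS R (X ∪ Y)), eS_mul_of_superset Finset.subset_union_left,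
      hv.mul_eS_zero hd.symm, add_zero, Matrix.add_mul, h1.s1.mul_eS subset_rfl,
      h2.s1.mul_eS_zero hd.symm, add_zero]
    exact h1.s1
  · rw [Matrix.mul_assoc, Matrix.add_mul, h1.s2.mul_eS subset_rfl, h2.s2.mul_eS_zero hd1.symm, add_zero,
      Matrix.sub_mul, h1.s2.eS_mul Finset.subset_union_left, hv.mul_eq_zero h1.s2 hd.symm, sub_zero]
    exact h1.s2

/-- moving a gap through the graded part -/
theorem gap_conj {l1 l1' l2 l2' v : Matrix L L R} (h1 : PI X X1 l1 l1') (h2 : PI Y Y1 l2 l2')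
    (hv : Sup X Y v) (hd : Disjoint X Y) (hd1 : Disjoint X1 Y1) :
    (l1 + l2) * (eS R (X ∪ Y) + v) = (eS R (X1 ∪ Y1) + l1 * v * l2') * (l1 + l2) := by
  have h3 := (h1.add h2 hd hd1).s1
  rw [Matrix.mul_add, h3.mul_eS subset_rfl, Matrix.add_mul (eS R (X1 ∪ Y1)), h3.eS_mul subset_rfl,
    Matrix.add_mul, h2.s1.mul_eq_zero hv hd.symm, add_zero, Matrix.mul_assoc (l1 * v), Matrix.mul_add,
    h2.s2.mul_eq_zero h1.s1 hd1.symm, zero_add, h2.l, (h1.s1.mul hv).mul_eS subset_rfl]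

theorem unip_mul (hd : Disjoint X Y) (h : Sup X Y M) (h' : Sup X Y N) :
    (eS R (X ∪ Y) + M) * (eS R (X ∪ Y) + N) = eS R (X ∪ Y) + (M + N) :=
  mat_unip hd h h'

end Crest.Agent.R3
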