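import Crest.Agent.R3.Occ

/-!
# R3 / Norm : rotation, normalisation of trivial steps, duplication of a state

All four are instances of `Red.local1` with `x' = x` and `y = y'`.

* `rot`: `seg_append` gives `Q'` with `Seg Q A Q'`, `Seg Q' C Q`.  The values `a = pA e`, `c = pC e'` are
  partial isomorphisms (`prodL_PI`, `PL.pi`); `u • (c a) = e_Q ↔ u • (a c) = e_Q'`.
* `n1`: a trivial step has gap `0` (`Sup.eq_zero`); its value is `dg d * x`.
* `n2`: `s` trivial without occurrences, so `s.X1 ∪ s.Y1 = s.X ∪ s.Y = Ω` and the value is `dg d * e_Ω`;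
  `Q` is trivial (`St.le.triv`).  Let `s.link Q1`, `Seg Q1 l Q`.  If `Q1` is trivial, `d` is a constant `c` on
  `Ω` (if `Ω = ∅` take `c = 1`): new face `⟨Q, u * c, l⟩`.  Otherwise `l = t :: l'` with `t.inS = Q1` (for
  `l = []` we would get `Q = Q1` non-trivial), `d = c1` on `t.X`, `d = c2` on `t.Y`; replace `t` by the step
  with `d' i = t.d i * (if i ∈ t.X1 then c1 else c2)` and gap `(c1⁻¹ c2) • n`
  (`(e + n) (c1 e_X + c2 e_Y) = (c1 e_X + c2 e_Y) (e + c1⁻¹ c2 n)`).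
* `dup`: `valG_dup`, `valG_absorb`, `SL.absorb`.
-/

set_option autoImplicit false
set_option linter.unusedSectionVars false

noncomputable section

open Matrix

namespace Crest.Agent.R3

variable {O L V : Type} [CommRing O] [Fintype L] [DecidableEq L]
variable {B : Type} [CommRing B] [Algebra O B] [Algebra O ℂ] {π : B →ₐ[O] ℂ}
variable {x : Asg V L ℂ} {D0 : Diag O L V} {Q : St L} {u : Oˣ}

/-- `Red.local1` with the same values of the variables -/
theorem norm_red {f f' : Face O L V} (hW : WF (f ::ₘ D0)) (hS : Sol x (f ::ₘ D0))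
    (hseg : Seg f'.Q f'.l f'.Q) (hocc : f'.occ = f.occ) (hgap : ∀ s ∈ f'.l, Sup s.X s.Y s.n)
    (heqn : f'.Eqn (prodL x f'.l))
    (hlift : ∀ (y : Asg V L B) (p' : Matrix L L B), VarOK y f.occ → PL π y f'.l p' → f'.Eqn p' →
      ∃ p, PL π y f.l p ∧ f.Eqn p) :
    Red π x (f ::ₘ D0) x (f' ::ₘ D0) := by
  refine Red.local1 hW hS hseg ?_ (fun _ _ _ => rfl) ?_ hgap heqn ?_
  · rw [hocc, ← occD_cons]
    exact hW.occ
  · rw [hocc]
    exact (sol_cons.1 hS).1.1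
  · intro y p' h1 h2 h3 h4
    rw [hocc] at h1 h2
    obtain ⟨p, hp, he⟩ := hlift y p' h2 h3 h4
    exact ⟨y, p, fun _ _ _ => rfl, h1, h2, hp, he⟩

section Alg
variable {R : Type} [CommRing R]

theorem norm_swap {X X' : Finset L} {a a' c c' : Matrix L L R} {k : R} (ha : PI X X' (a * eS R X) a')
    (hc : PI X' X (c * eS R X') c') (h : k • (c * a * eS R X) = eS R X) :
    k • (a * c * eS R X') = eS R X' := by
  have e1 : c * a * eS R X = c * eS R X' * (a * eS R X) := by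
    rw [Matrix.mul_assoc c (eS R X'), ha.s1.eS_mul subset_rfl, Matrix.mul_assoc]
  have e2 : a * c * eS R X' = a * eS R X * (c * eS R X') := by
    rw [Matrix.mul_assoc a (eS R X), hc.s1.eS_mul subset_rfl, Matrix.mul_assoc]
  have e3 : k • (c * eS R X') = a' :=
    ha.eq_of_mul_left (hc.s1.smul k) (by rw [Matrix.smul_mul, ← e1, h])
  rw [e2, ← Matrix.mul_smul, e3, ha.r]

theorem norm_slot0 {o : Option (V × Bool)} {X X1 : Finset L} (ho : slotOK o X X1)
    (h0 : slot o X X1 = 0) : X1 = X ∧ ∀ y : Asg V L R, blk y o X X1 = eS R X := by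
  rcases o with _ | p
  · exact ⟨ho.2 rfl, fun _ => rfl⟩
  · have hX : X = ∅ := by
      by_contra hX
      have : (⟨p.1, p.2, X, X1⟩ : Occ L V) ∈ slot (some p) X X1 :=
        mem_slot.2 ⟨rfl, Finset.nonempty_iff_ne_empty.2 hX, rfl, rfl⟩
      rw [h0] at this
      exact Multiset.notMem_zero _ this
    subst hX
    refine ⟨Finset.card_eq_zero.1 (by rw [← ho.1, Finset.card_empty]), fun y => ?_⟩
    rw [blk_empty, eS_empty]

theorem norm_sup_blk {o : Option (V × Bool)} {X X1 : Finset L} (ho : slotOK o X X1) (y : Asg V L R) :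
    Sup X1 X (blk y o X X1) := by
  rcases o with _ | p
  · rw [ho.2 rfl]
    exact sup_eS X
  · exact sup_sandwich _ _ _

variable [Algebra O R]

theorem norm_val_full (y : Asg V L R) (v : V) (b : Bool) (Ω Ω' : Finset L) :
    (Step.full v b Ω Ω' : Step O L V).valG y 0 = eS R Ω' * y v b * eS R Ω := by
  show dg R (1 : L → Oˣ) * (eS R Ω' * y v b * eS R Ω + eS R ∅) * (eS R (Ω ∪ ∅) + 0) = _
  rw [dg_one, eS_empty, add_zero, add_zero, Finset.union_empty, Matrix.one_mul, Matrix.mul_assoc,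
    eS_mul_self]

theorem norm_val_dgOnly (y : Asg V L R) (Ω : Finset L) (d : L → Oˣ) :
    (Step.dgOnly Ω d : Step O L V).valG y 0 = dg R d * eS R Ω := by
  show dg R d * (eS R Ω + eS R ∅) * (eS R (Ω ∪ ∅) + 0) = _
  rw [eS_empty, add_zero, add_zero, Finset.union_empty, Matrix.mul_assoc, eS_mul_self]

theorem norm_val_occ0 {s : Step O L V} (hs : s.ok) (hd : Disjoint s.X s.Y) (h0 : s.occ = 0)
    (y : Asg V L R) : s.valG y 0 = dg R s.d * eS R (s.X ∪ s.Y) := by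
  obtain ⟨h1, h2⟩ := add_eq_zero.1 h0
  unfold Step.valG
  rw [(norm_slot0 hs.2.1 h1).2, (norm_slot0 hs.2.2 h2).2, ← eS_union hd, add_zero, Matrix.mul_assoc,
    eS_mul_self]

end Alg

theorem norm_triv {s : Step O L V} (hok : s.ok) (hs : ¬ s.nontriv) :
    (s.X = ∅ ∧ s.X1 = ∅) ∨ (s.Y = ∅ ∧ s.Y1 = ∅) := by
  by_cases hX : s.X = ∅
  · exact Or.inl ⟨hX, Finset.card_eq_zero.1 (by rw [← hok.2.1.1, hX, Finset.card_empty])⟩
  · have hY : s.Y = ∅ := by
      by_contra hY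
      exact hs ⟨Finset.nonempty_iff_ne_empty.2 hX, Finset.nonempty_iff_ne_empty.2 hY⟩
    exact Or.inr ⟨hY, Finset.card_eq_zero.1 (by rw [← hok.2.2.1, hY, Finset.card_empty])⟩

theorem norm_link_triv {s : Step O L V} {Q1 : St L} (hl : s.link Q1) (h : s.X1 = ∅ ∨ s.Y1 = ∅) :
    ∀ i ∈ Q1.set, ∀ j ∈ Q1.set, (i ∈ Q1.X ↔ j ∈ Q1.X) → s.d i = s.d j := by
  intro i hi j hj hij
  refine hl.2.2 i hi j hj ?_ hij
  rw [hl.1] at hi hj
  rcases h with h | h
  · simp [h]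
  · rw [h, Finset.union_empty] at hi hj
    simp [hi, hj]

theorem norm_occ1 {s : Step O L V} (hok : s.ok) (hs : ¬ s.nontriv) {c : Occ L V} (hc : c ∈ s.occ) :
    s.X ∪ s.Y = c.X ∧ s.X1 ∪ s.Y1 = c.X1 ∧ c.X.card = c.X1.card ∧
      s.occ = slot (some (c.v, c.b)) c.X c.X1 ∧
      ∀ (R : Type) [CommRing R] [Algebra O R] (y : Asg V L R),
        s.valG y 0 = dg R s.d * (eS R c.X1 * y c.v c.b * eS R c.X) := by
  unfold Step.occ at hc ⊢
  unfold Step.valG
  rcases norm_triv hok hs with ⟨h1, h2⟩ | ⟨h1, h2⟩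
  · rw [h1, slot_empty, zero_add] at hc
    obtain ⟨k1, -, k3, k4⟩ := mem_slot.1 hc
    rw [h1, h2, k3, k4, k1, slot_empty, zero_add, Finset.empty_union, Finset.empty_union]
    refine ⟨rfl, rfl, hok.2.2.1, rfl, fun R _ _ y => ?_⟩
    rw [blk_empty, zero_add, add_zero]
    show dg R s.d * (eS R s.Y1 * y c.v c.b * eS R s.Y) * eS R s.Y = _
    rw [Matrix.mul_assoc, Matrix.mul_assoc _ (eS R s.Y), eS_mul_self]
  · rw [h1, slot_empty, add_zero] at hc
    obtain ⟨k1, -, k3, k4⟩ := mem_slot.1 hc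
    rw [h1, h2, k3, k4, k1, slot_empty, add_zero, Finset.union_empty, Finset.union_empty]
    refine ⟨rfl, rfl, hok.2.1.1, rfl, fun R _ _ y => ?_⟩
    rw [blk_empty, add_zero, add_zero]
    show dg R s.d * (eS R s.X1 * y c.v c.b * eS R s.X) * eS R s.X = _
    rw [Matrix.mul_assoc, Matrix.mul_assoc _ (eS R s.X), eS_mul_self]

/-- the step `t` preceded by the diagonal matrix `c1 e_X + c2 e_Y` -/
def normTw (t : Step O L V) (c1 c2 : Oˣ) : Step O L V :=
  ⟨t.X, t.Y, t.X1, t.Y1, t.o1, t.o2, t.d * fun i => if i ∈ t.X1 then c1 else c2,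
    algebraMap O ℂ ((c1⁻¹ * c2 : Oˣ) : O) • t.n⟩

theorem norm_val_tw {R : Type} [CommRing R] [Algebra O R] {t : Step O L V} (hok : t.ok)
    (hd : Disjoint t.X t.Y) {d : L → Oˣ} {c1 c2 : Oˣ} (h1 : ∀ i ∈ t.X, d i = c1) (h2 : ∀ i ∈ t.Y, d i = c2)
    (y : Asg V L R) {n : Matrix L L R} (hn : Sup t.X t.Y n) :
    t.valG y n * (dg R d * eS R (t.X ∪ t.Y)) =
      (normTw t c1 c2).valG y (algebraMap O R ((c1⁻¹ * c2 : Oˣ) : O) • n) := by
  have s1 := norm_sup_blk hok.2.1 y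
  have s2 := norm_sup_blk hok.2.2 y
  show dg R t.d * (blk y t.o1 t.X t.X1 + blk y t.o2 t.Y t.Y1) * (eS R (t.X ∪ t.Y) + n) * _ =
    dg R (t.d * fun i => if i ∈ t.X1 then c1 else c2) * (blk y t.o1 t.X t.X1 + blk y t.o2 t.Y t.Y1) *
      (eS R (t.X ∪ t.Y) + _)
  generalize blk y t.o1 t.X t.X1 = b1 at s1 ⊢
  generalize blk y t.o2 t.Y t.Y1 = b2 at s2 ⊢
  have e1 : dg R (fun i => if i ∈ t.X1 then c1 else c2) * b1 = algebraMap O R (c1 : O) • b1 :=
    s1.dg_mul_const fun i hi => if_pos hi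
  have e2 : dg R (fun i => if i ∈ t.X1 then c1 else c2) * b2 = algebraMap O R (c2 : O) • b2 :=
    s2.dg_mul_const fun i hi => if_neg fun h => Finset.disjoint_left.1 hok.1 h hi
  have e3 : b2 * n = 0 := s2.mul_eq_zero hn hd.symm
  have e4 : (eS R (t.X ∪ t.Y) + n) * (dg R d * eS R (t.X ∪ t.Y)) =
      dg R d * eS R (t.X ∪ t.Y) + algebraMap O R (c2 : O) • n := by
    rw [Matrix.add_mul, ← Matrix.mul_assoc, ← dg_comm_eS, Matrix.mul_assoc, eS_mul_self,
      ← Matrix.mul_assoc, hn.mul_dg_const h2, Matrix.smul_mul, hn.mul_eS Finset.subset_union_right]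
  have e5 : algebraMap O R (c1 : O) * algebraMap O R ((c1⁻¹ * c2 : Oˣ) : O) = algebraMap O R (c2 : O) := by
    rw [← map_mul, ← Units.val_mul, mul_inv_cancel_left]
  rw [← dg_mul_dg, Matrix.mul_assoc (dg R t.d * _), e4, Matrix.mul_assoc, Matrix.mul_assoc (dg R t.d),
    Matrix.mul_assoc (dg R t.d)]
  congr 1
  rw [Matrix.mul_add (dg R _) b1, e1, e2, Matrix.mul_add, Matrix.mul_add, ← Matrix.mul_assoc,
    Matrix.add_mul b1 b2 (dg R d), s1.mul_dg_const h1, s2.mul_dg_const h2]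
  congr 1
  simp only [Matrix.add_mul, Matrix.mul_smul, Matrix.smul_mul, e3, smul_zero, add_zero, smul_smul]
  rw [mul_comm, e5]

theorem mv_rot {A C : List (Step O L V)} (hW : WF (⟨Q, u, A ++ C⟩ ::ₘ D0))
    (hS : Sol x (⟨Q, u, A ++ C⟩ ::ₘ D0)) :
    ∃ Q' : St L, Q'.set.card = Q.set.card ∧
      Red π x (⟨Q, u, A ++ C⟩ ::ₘ D0) x (⟨Q', u, C ++ A⟩ ::ₘ D0) := by
  obtain ⟨Q', hA, hC⟩ := seg_append.1 (hW.seg _ (Multiset.mem_cons_self _ _))
  obtain ⟨⟨hv, hg, he⟩, -⟩ := sol_cons.1 hS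
  have hoc : occL (C ++ A) = occL (A ++ C) := by rw [occL_append, occL_append, add_comm]
  have hgA : ∀ s ∈ A, Sup s.X s.Y s.n := fun s hs => hg s (List.mem_append_left _ hs)
  have hgC : ∀ s ∈ C, Sup s.X s.Y s.n := fun s hs => hg s (List.mem_append_right _ hs)
  refine ⟨Q', hA.card_eq.symm, norm_red hW hS (seg_append.2 ⟨Q, hC, hA⟩) hoc ?_ ?_ ?_⟩
  · intro s hs
    exact (List.mem_append.1 hs).elim (hgC s) (hgA s)
  · have hv' : VarOK x (occL A + occL C) := by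
      rw [← occL_append]
      exact hv
    obtain ⟨a', ha⟩ := prodL_PI hA (varOK_add.1 hv').1 hgA
    obtain ⟨c', hc⟩ := prodL_PI hC (varOK_add.1 hv').2 hgC
    unfold Face.Eqn at he ⊢
    simp only [prodL_append] at he ⊢
    exact norm_swap ha hc he
  · intro y p' hy hp hq
    obtain ⟨pC, pA, h1, h2, rfl⟩ := PL_append.1 hp
    have hv' : VarOK y (occL A + occL C) := by
      rw [← occL_append]
      exact hy
    obtain ⟨a', ha⟩ := h2.pi hA (varOK_add.1 hv').1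
    obtain ⟨c', hc⟩ := h1.pi hC (varOK_add.1 hv').2
    exact ⟨pC * pA, PL_append.2 ⟨pA, pC, h2, h1, rfl⟩, norm_swap hc ha hq⟩

theorem mv_n1 {s : Step O L V} {l : List (Step O L V)} (hW : WF (⟨Q, u, s :: l⟩ ::ₘ D0))
    (hS : Sol x (⟨Q, u, s :: l⟩ ::ₘ D0)) (hs : ¬ s.nontriv) {c : Occ L V} (hc : c ∈ s.occ) :
    Red π x (⟨Q, u, s :: l⟩ ::ₘ D0) x
      (⟨Q, u, Step.full c.v c.b c.X c.X1 :: Step.dgOnly c.X1 s.d :: l⟩ ::ₘ D0) := by
  obtain ⟨hle, hok, Q1, hl, hseg⟩ := hW.seg _ (Multiset.mem_cons_self _ _)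
  obtain ⟨⟨hv, hg, he⟩, -⟩ := sol_cons.1 hS
  obtain ⟨k1, k2, k3, k4, k5⟩ := norm_occ1 hok hs hc
  have ht := norm_triv hok hs
  have ht1 : s.X = ∅ ∨ s.Y = ∅ := ht.imp And.left And.left
  have hn : s.n = 0 := (hg s List.mem_cons_self).eq_zero ht1
  have hval : ∀ (R : Type) [CommRing R] [Algebra O R] (y : Asg V L R),
      (Step.dgOnly c.X1 s.d : Step O L V).valG y 0 *
        (Step.full c.v c.b c.X c.X1 : Step O L V).valG y 0 = s.valG y 0 := by
    intro R _ _ y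
    rw [norm_val_dgOnly, norm_val_full, k5, Matrix.mul_assoc, ← Matrix.mul_assoc (eS R c.X1),
      ← Matrix.mul_assoc (eS R c.X1), eS_mul_self]
  refine norm_red hW hS ?_ ?_ ?_ ?_ ?_
  · refine (seg_full (l1 := [])).2 ⟨?_, k3, ?_⟩
    · refine St.triv_le (hle.triv ht1) ?_ (Finset.disjoint_empty_right _)
      rw [hle.1]
      exact k1.trans (Finset.union_empty _).symm
    · refine ⟨St.le_refl (Finset.disjoint_empty_right _),
        ⟨Finset.disjoint_empty_right _, ⟨rfl, fun _ => rfl⟩, ⟨rfl, fun _ => rfl⟩⟩, Q1, ⟨?_, hl.2.1, ?_⟩, hseg⟩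
      · rw [hl.1]
        exact k2.trans (Finset.union_empty _).symm
      · intro i hi j hj _ hij
        exact norm_link_triv hl (ht.imp And.right And.right) i hi j hj hij
  · show occL _ = occL _
    rw [occL_cons, occL_cons, occL_cons, occ_full, k4]
    congr 1
    exact zero_add _
  · intro t ht'
    rcases List.mem_cons.1 ht' with rfl | ht'
    · exact sup_zero _ _
    rcases List.mem_cons.1 ht' with rfl | ht'
    · exact sup_zero _ _
    · exact hg t (List.mem_cons_of_mem _ ht')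
  · have : prodL x (Step.full c.v c.b c.X c.X1 :: Step.dgOnly c.X1 s.d :: l) = prodL x (s :: l) := by
      show prodL x l * (Step.dgOnly c.X1 s.d : Step O L V).valG x 0 *
        (Step.full c.v c.b c.X c.X1 : Step O L V).valG x 0 = prodL x l * s.valG x s.n
      rw [Matrix.mul_assoc, hval, hn]
    show Face.Eqn _ (prodL x (Step.full c.v c.b c.X c.X1 :: Step.dgOnly c.X1 s.d :: l))
    rw [this]
    exact he
  · rintro y p' hy ⟨p1, p2, h1, ⟨p3, p4, h3, h4, rfl⟩, rfl⟩ hq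
    rw [SL_triv (Or.inr rfl) rfl] at h1 h3
    subst h1 h3
    refine ⟨_, ⟨_, p4, (SL_triv ht1 hn).2 rfl, h4, rfl⟩, ?_⟩
    rw [Matrix.mul_assoc, hval] at hq
    exact hq

theorem mv_n2 {s : Step O L V} {l : List (Step O L V)} (hW : WF (⟨Q, u, s :: l⟩ ::ₘ D0))
    (hS : Sol x (⟨Q, u, s :: l⟩ ::ₘ D0)) (hs : ¬ s.nontriv) (h0 : s.occ = 0) :
    ∃ (u' : Oˣ) (l' : List (Step O L V)), (l'.map Step.wt).sum = (l.map Step.wt).sum ∧
      ((∃ t ∈ l, t.nontriv) → ∃ t ∈ l', t.nontriv) ∧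
      Red π x (⟨Q, u, s :: l⟩ ::ₘ D0) x (⟨Q, u', l'⟩ ::ₘ D0) := by
  obtain ⟨hle, hok, Q1, hl, hseg⟩ := hW.seg _ (Multiset.mem_cons_self _ _)
  obtain ⟨⟨hv, hg, he⟩, -⟩ := sol_cons.1 hS
  have ht := norm_triv hok hs
  have ht1 : s.X = ∅ ∨ s.Y = ∅ := ht.imp And.left And.left
  have hn : s.n = 0 := (hg s List.mem_cons_self).eq_zero ht1
  have hd : Disjoint s.X s.Y := hle.2.1
  have hQ : Q.X = ∅ ∨ Q.Y = ∅ := hle.triv ht1
  have hΩ : Q.set = s.X ∪ s.Y := hle.1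
  have hΩ1 : Q1.set = s.X ∪ s.Y := by
    obtain ⟨h1, h2⟩ := add_eq_zero.1 h0
    rw [hl.1, (norm_slot0 (R := ℂ) hok.2.1 h1).1, (norm_slot0 (R := ℂ) hok.2.2 h2).1]
  have hQ1 : Q.le Q1 := St.triv_le hQ (hΩ.trans hΩ1.symm) hl.2.1
  have hdd := norm_link_triv hl (ht.imp And.right And.right)
  by_cases hT : Q1.X = ∅ ∨ Q1.Y = ∅
  · obtain ⟨c, hc⟩ : ∃ c : Oˣ, ∀ i ∈ Q1.set, s.d i = c := by
      rcases Q1.set.eq_empty_or_nonempty with h | ⟨j, hj⟩
      · exact ⟨1, fun i hi => by simp [h] at hi⟩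
      · refine ⟨s.d j, fun i hi => hdd i hi j hj ?_⟩
        rcases hT with h | h
        · simp [h]
        · unfold St.set at hi hj
          rw [h, Finset.union_empty] at hi hj
          simp [hi, hj]
    have key : ∀ (R : Type) [CommRing R] [Algebra O R] (y : Asg V L R) (p : Matrix L L R),
        (⟨Q, u * c, l⟩ : Face O L V).Eqn p ↔ (⟨Q, u, s :: l⟩ : Face O L V).Eqn (p * s.valG y 0) := by
      intro R _ _ y p
      unfold Face.Eqn
      simp only
      rw [norm_val_occ0 hok hd h0, hΩ, (sup_eS _).dg_mul_const (c := c) (hΩ1 ▸ hc), Matrix.mul_smul,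
        Matrix.smul_mul, Matrix.mul_assoc, eS_mul_self, smul_smul, ← map_mul, Units.val_mul]
    refine ⟨u * c, l, rfl, id, norm_red hW hS (hseg.mono_left hQ1) ?_ ?_ ?_ ?_⟩
    · show occL _ = occL _
      rw [occL_cons, h0, zero_add]
    · exact fun t ht' => hg t (List.mem_cons_of_mem _ ht')
    · refine (key ℂ x _).2 ?_
      rw [← hn]
      exact he
    · intro y p' hy hp hq
      exact ⟨_, ⟨_, p', (SL_triv ht1 hn).2 rfl, hp, rfl⟩, (key B y p').1 hq⟩
  · have hX1 : Q1.X.Nonempty := Finset.nonempty_iff_ne_empty.2 fun h => hT (Or.inl h)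
    have hY1 : Q1.Y.Nonempty := Finset.nonempty_iff_ne_empty.2 fun h => hT (Or.inr h)
    rcases l with _ | ⟨t, l⟩
    · exact absurd (St.le.triv hseg hQ) hT
    obtain ⟨hle2, hok2, Q2, hl2, hseg2⟩ := hseg
    obtain rfl := hle2.eq_of_nontriv hX1 hY1
    have hd2 : Disjoint t.X t.Y := hl.2.1
    have hnt : t.nontriv := ⟨hX1, hY1⟩
    obtain ⟨i1, hi1⟩ := hX1
    obtain ⟨i2, hi2⟩ := hY1
    have h1 : ∀ i ∈ t.X, s.d i = s.d i1 := fun i hi =>
      hdd i (Finset.mem_union_left _ hi) i1 (Finset.mem_union_left _ hi1) (iff_of_true hi hi1)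
    have h2 : ∀ i ∈ t.Y, s.d i = s.d i2 := fun i hi =>
      hdd i (Finset.mem_union_right _ hi) i2 (Finset.mem_union_right _ hi2)
        (iff_of_false (Finset.disjoint_right.1 hd2 hi) (Finset.disjoint_right.1 hd2 hi2))
    generalize s.d i1 = c1 at h1
    generalize s.d i2 = c2 at h2
    have hΩ2 : s.X ∪ s.Y = t.X ∪ t.Y := hΩ1.symm
    have hnt' : (normTw t c1 c2).nontriv := hnt
    have hgt : Sup t.X t.Y t.n := hg t (List.mem_cons_of_mem _ List.mem_cons_self)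
    refine ⟨u, normTw t c1 c2 :: l, ?_, fun _ => ⟨_, List.mem_cons_self, hnt'⟩,
      norm_red hW hS ⟨hQ1, hok2, Q2, ⟨hl2.1, hl2.2.1, ?_⟩, hseg2⟩ ?_ ?_ ?_ ?_⟩
    · rw [List.map_cons, List.map_cons, wt_nontriv hnt, wt_nontriv hnt']
    · intro i hi j hj hij hij'
      have hij1 : i ∈ t.X1 ↔ j ∈ t.X1 := hij
      show t.d i * (if i ∈ t.X1 then c1 else c2) = t.d j * (if j ∈ t.X1 then c1 else c2)
      rw [hl2.2.2 i hi j hj hij hij', if_congr hij1 rfl rfl]
    · show occL _ = occL _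
      rw [occL_cons, occL_cons, occL_cons, h0, zero_add]
      rfl
    · intro r hr
      rcases List.mem_cons.1 hr with rfl | hr
      · exact hgt.smul _
      · exact hg r (List.mem_cons_of_mem _ (List.mem_cons_of_mem _ hr))
    · have : prodL x (normTw t c1 c2 :: l) = prodL x (s :: t :: l) := by
        show prodL x l * (normTw t c1 c2).valG x (algebraMap O ℂ ((c1⁻¹ * c2 : Oˣ) : O) • t.n) =
          prodL x l * t.valG x t.n * s.valG x s.n
        rw [hn, norm_val_occ0 hok hd h0, hΩ2, Matrix.mul_assoc, norm_val_tw hok2 hd2 h1 h2 x hgt]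
      show Face.Eqn _ (prodL x (normTw t c1 c2 :: l))
      rw [this]
      exact he
    · rintro y p' hy ⟨p1, p2, ⟨n, hn0, hn', rfl⟩, h4, rfl⟩ hq
      have hn1 : Sup t.X t.Y n := hn'
      have hn2 : n.map π = algebraMap O ℂ ((c1⁻¹ * c2 : Oˣ) : O) • t.n := hn0
      have hsl : SL π y t (t.valG y (algebraMap O B ((c1⁻¹ * c2)⁻¹ : Oˣ) • n)) := by
        refine ⟨_, ?_, hn1.smul _, rfl⟩
        ext i j
        have := congrFun (congrFun hn2 i) j
        simp only [Matrix.map_apply, Matrix.smul_apply, smul_eq_mul] at this ⊢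
        rw [map_mul, this, AlgHom.commutes, ← mul_assoc, ← map_mul, ← Units.val_mul, inv_mul_cancel,
          Units.val_one, map_one, one_mul]
      refine ⟨_, ⟨_, _, (SL_triv ht1 hn).2 rfl, ⟨_, p2, hsl, h4, rfl⟩, rfl⟩, ?_⟩
      rw [norm_val_occ0 hok hd h0, hΩ2, Matrix.mul_assoc, norm_val_tw hok2 hd2 h1 h2 y (hn1.smul _),
        smul_smul, ← map_mul, ← Units.val_mul, mul_inv_cancel, Units.val_one, map_one, one_smul]
      exact hq

theorem mv_dup {h : Step O L V} {l : List (Step O L V)} (hW : WF (⟨Q, u, h :: l⟩ ::ₘ D0))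
    (hS : Sol x (⟨Q, u, h :: l⟩ ::ₘ D0)) :
    Red π x (⟨Q, u, h :: l⟩ ::ₘ D0) x (⟨Q, u, h.dup :: h :: l⟩ ::ₘ D0) := by
  obtain ⟨hle, hok, Q1, hl, hseg⟩ := hW.seg _ (Multiset.mem_cons_self _ _)
  obtain ⟨⟨hv, hg, he⟩, -⟩ := sol_cons.1 hS
  have hd : Disjoint h.X h.Y := hle.2.1
  refine norm_red hW hS ?_ ?_ ?_ ?_ ?_
  · exact ⟨hle, ⟨hd, ⟨rfl, fun _ => rfl⟩, ⟨rfl, fun _ => rfl⟩⟩, h.inS, ⟨rfl, hd, fun _ _ _ _ _ _ => rfl⟩,
      St.le_refl hd, hok, Q1, hl, hseg⟩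
  · show occL _ = occL _
    rw [occL_cons]
    exact zero_add _
  · intro t ht'
    rcases List.mem_cons.1 ht' with rfl | ht'
    · exact sup_zero _ _
    · exact hg t ht'
  · have : prodL x (h.dup :: h :: l) = prodL x (h :: l) := by
      show prodL x l * h.valG x h.n * h.dup.valG x 0 = prodL x l * h.valG x h.n
      rw [valG_dup hd (sup_zero _ _), add_zero, Matrix.mul_assoc, valG_mul_eS (hg h List.mem_cons_self)]
    show Face.Eqn _ (prodL x (h.dup :: h :: l))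
    rw [this]
    exact he
  · rintro y p' hy ⟨p1, p2, ⟨n, hn0, hn, rfl⟩, ⟨p3, p4, h3, h4, rfl⟩, rfl⟩ hq
    refine ⟨_, ⟨_, p4, h3.absorb hd hn hn0, h4, rfl⟩, ?_⟩
    rw [Matrix.mul_assoc, valG_dup hd hn] at hq
    exact hq

/-- an occurrence of full size can be made a full step at the end of its face
(`mv_rot`, `mv_n1`, `mv_rot`; the step is trivial by `occ_card_lt`) -/
theorem mv_mkFull {f : Face O L V} (hW : WF (f ::ₘ D0)) (hS : Sol x (f ::ₘ D0)) {c : Occ L V}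
    (hc : c ∈ f.occ) (hm : c.X.card = f.size) :
    ∃ (Q' : St L) (A : List (Step O L V)), Q'.set.card = f.size ∧
      Red π x (f ::ₘ D0) x (⟨Q', f.u, A ++ [Step.full c.v c.b c.X c.X1]⟩ ::ₘ D0) := by
  obtain ⟨Q, u, l⟩ := f
  obtain ⟨s, hs, hcs⟩ := mem_occL.1 hc
  obtain ⟨-, hd, hcard⟩ := (hW.seg _ (Multiset.mem_cons_self _ _)).step hs
  have hnt : ¬ s.nontriv := fun h => by
    have := occ_card_lt hcs h hd
    rw [hm, hcard] at this
    exact lt_irrefl _ this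
  obtain ⟨A, C, rfl⟩ := List.append_of_mem hs
  obtain ⟨Q1, hQ1, r1⟩ := mv_rot (π := π) hW hS
  have r2 := mv_n1 (π := π) r1.wf r1.sol hnt hcs
  obtain ⟨Q2, hQ2, r3⟩ := mv_rot (π := π) (A := [Step.full c.v c.b c.X c.X1]) r2.wf r2.sol
  exact ⟨Q2, _, hQ2.trans hQ1, r1.trans (r2.trans r3)⟩

end Crest.Agent.R3
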