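import Crest.Agent.R3.Val

/-!
# R3 / Occ : bookkeeping of occurrences, fresh names, local reductions, renaming, size zero

* `Red.local` is the tool used by all moves: only the faces `E` change, `D0` is the rest of the diagram.
* `lift_of_infinite`: rename the variables into `V ⊕ ℕ`.
* `PP_zero`: all steps have `X = Y = ∅` (`Seg.step`), so `occD D = 0`, all gaps are `0`, `eS ∅ = 0`.
-/

set_option autoImplicit false

noncomputable section

open Matrix

namespace Crest.Agent.R3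

variable {O L V : Type} [CommRing O] [Fintype L] [DecidableEq L]
variable {M N : Multiset (Occ L V)}

theorem occ_nodup_add : ((M + N).map Occ.name).Nodup ↔ (M.map Occ.name).Nodup ∧ (N.map Occ.name).Nodup ∧
    ∀ c ∈ M, ∀ c' ∈ N, c.name ≠ c'.name := by
  rw [Multiset.map_add, Multiset.nodup_add, Multiset.disjoint_map_map]

theorem OccOK.unique (h : OccOK M) {c c' : Occ L V} (hc : c ∈ M) (hc' : c' ∈ M) (hv : c.v = c'.v)
    (hb : c.b = c'.b) : c = c' := by
  exact Multiset.inj_on_of_nodup_map h.nodup c hc c' hc' (Prod.ext hv hb)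

/-- the same name cannot occur in both parts -/
theorem OccOK.disj (h : OccOK (M + N)) {c c' : Occ L V} (hc : c ∈ M) (hc' : c' ∈ N) :
    c.name ≠ c'.name := by
  exact (occ_nodup_add.1 h.nodup).2.2 c hc c' hc'

/-- an occurrence with the variable of `c` is `c` or its partner -/
theorem OccOK.eq_or_flip (h : OccOK M) {c c' : Occ L V} (hc : c ∈ M) (hc' : c' ∈ M) (hv : c'.v = c.v) :
    c' = c ∨ c' = c.flip := by
  by_cases hb : c'.b = c.b
  · exact Or.inl (h.unique hc' hc hv hb)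
  · exact Or.inr (h.unique hc' (h.flip c hc) hv (Bool.eq_not.2 hb))

theorem OccOK.occ_remove (h : OccOK (N + M)) (hN : ∀ c ∈ N, c.flip ∈ N) :
    OccOK M ∧ OccOK N ∧ ∀ c ∈ N, ∀ c' ∈ M, c'.v ≠ c.v := by
  have h1 := occ_nodup_add.1 h.nodup
  have h2 : ∀ c ∈ N, ∀ c' ∈ M, c'.v ≠ c.v := fun c hc c' hc' e => by
    rcases h.eq_or_flip (Multiset.mem_add.2 (Or.inl hc)) (Multiset.mem_add.2 (Or.inr hc')) e with
      rfl | rfl
    · exact h.disj hc hc' rfl
    · exact h.disj (hN c hc) hc' rfl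
  refine ⟨⟨h1.2.1, fun c hc => ?_⟩, ⟨h1.1, hN⟩, h2⟩
  exact (Multiset.mem_add.1 (h.flip c (Multiset.mem_add.2 (Or.inr hc)))).resolve_left
    fun h3 => h2 _ h3 c hc rfl

theorem OccOK.occ_add_fresh (h : OccOK M) (hN : (N.map Occ.v).Nodup)
    (hv : ∀ c ∈ N, ∀ c' ∈ M, c'.v ≠ c.v) : OccOK (N + N.map Occ.flip + M) := by
  refine ⟨occ_nodup_add.2 ⟨occ_nodup_add.2 ⟨?_, ?_, fun c hc c' hc' e => ?_⟩, h.nodup,
    fun c hc c' hc' e => ?_⟩, fun c hc => ?_⟩
  · refine Multiset.Nodup.of_map Prod.fst ?_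
    rwa [Multiset.map_map]
  · refine Multiset.Nodup.of_map Prod.fst ?_
    rwa [Multiset.map_map, Multiset.map_map]
  · obtain ⟨d, hd, rfl⟩ := Multiset.mem_map.1 hc'
    obtain rfl := Multiset.inj_on_of_nodup_map hN c hc d hd (congrArg Prod.fst e)
    simp [Occ.name, Occ.flip] at e
  · rcases Multiset.mem_add.1 hc with hc | hc
    · exact hv c hc c' hc' (congrArg Prod.fst e).symm
    · obtain ⟨d, hd, rfl⟩ := Multiset.mem_map.1 hc
      exact hv d hd c' hc' (congrArg Prod.fst e).symm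
  · simp only [Multiset.mem_add] at hc ⊢
    rcases hc with (hc | hc) | hc
    · exact Or.inl (Or.inr (Multiset.mem_map_of_mem _ hc))
    · obtain ⟨d, hd, rfl⟩ := Multiset.mem_map.1 hc
      exact Or.inl (Or.inl (by rwa [Occ.flip_flip]))
    · exact Or.inr (h.flip c hc)

theorem occ_slot_le (v : V) (b : Bool) (X X1 : Finset L) :
    (slot (some (v, b)) X X1).map Occ.v ≤ {v} := by
  simp only [slot]
  split_ifs <;> simp

/-- removing a variable -/
theorem OccOK.remove {c : Occ L V} (h : OccOK ({c} + {c.flip} + M)) :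
    OccOK M ∧ ∀ c' ∈ M, c'.v ≠ c.v := by
  have := h.occ_remove fun c' hc' => by
    rcases Multiset.mem_add.1 hc' with h1 | h1 <;> simp [Multiset.mem_singleton.1 h1]
  exact ⟨this.1, this.2.2 c (by simp)⟩

/-- removing a flip closed part -/
theorem OccOK.remove_closed (h : OccOK (N + M)) (hN : ∀ c ∈ N, c.flip ∈ N) :
    OccOK M ∧ OccOK N ∧ ∀ c ∈ N, ∀ c' ∈ M, c'.v ≠ c.v := by
  exact h.occ_remove hN

/-- adding a variable -/
theorem OccOK.add_pair (h : OccOK M) {c : Occ L V} (hc : ∀ c' ∈ M, c'.v ≠ c.v) :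
    OccOK ({c} + {c.flip} + M) := by
  exact h.occ_add_fresh (N := {c}) (by simp) fun c' hc' => Multiset.mem_singleton.1 hc' ▸ hc

theorem OccOK.add_slot (h : OccOK M) {v : V} (b : Bool) {X X1 : Finset L} (hX : X.card = X1.card)
    (hv : ∀ c' ∈ M, c'.v ≠ v) : OccOK (slot (some (v, b)) X X1 + slot (some (v, !b)) X1 X + M) := by
  rw [← slot_flip v b hX]
  refine h.occ_add_fresh (Multiset.nodup_of_le (occ_slot_le v b X X1) (by simp)) fun c hc c' hc' => ?_
  exact fun e => hv c' hc' (e.trans (congrArg Prod.fst (Option.some.inj (mem_slot.1 hc).1)).symm)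

/-- adding fresh variables -/
theorem OccOK.add_fresh (h : OccOK M) (hN : (N.map Occ.v).Nodup) (hv : ∀ c ∈ N, ∀ c' ∈ M, c'.v ≠ c.v) :
    OccOK (N + N.map Occ.flip + M) := by
  exact h.occ_add_fresh hN hv

/-- adding a family of fresh slots -/
theorem OccOK.add_slots (h : OccOK M) {κ : Type} [Fintype κ] {ν : κ → V} (hν : Function.Injective ν)
    (hf : ∀ i, ∀ c ∈ M, c.v ≠ ν i) (X X1 : κ → Finset L) (hX : ∀ i, (X i).card = (X1 i).card) :
    OccOK ((∑ i, slot (some (ν i, false)) (X i) (X1 i)) + (∑ i, slot (some (ν i, true)) (X1 i) (X i)) +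
      M) := by
  have e : (∑ i, slot (some (ν i, true)) (X1 i) (X i)) =
      (∑ i, slot (some (ν i, false)) (X i) (X1 i)).map Occ.flip := by
    rw [← Multiset.coe_mapAddMonoidHom, map_sum]
    exact Finset.sum_congr rfl fun i _ => (slot_flip (ν i) false (hX i)).symm
  rw [e]
  refine h.occ_add_fresh (Multiset.nodup_of_le ?_ (Finset.univ.nodup.map hν)) fun c hc c' hc' => ?_
  · rw [← Multiset.coe_mapAddMonoidHom Occ.v, map_sum, ← Finset.sum_multiset_singleton,
      ← Multiset.coe_mapAddMonoidHom ν, map_sum]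
    exact Finset.sum_le_sum fun i _ => occ_slot_le _ _ _ _
  · obtain ⟨i, -, hi⟩ := Multiset.mem_sum.1 hc
    exact fun e => hf i c' hc' (e.trans (congrArg Prod.fst (Option.some.inj (mem_slot.1 hi).1)).symm)

theorem exists_fresh [Infinite V] (M : Multiset (Occ L V)) (κ : Type) [Finite κ] :
    ∃ ν : κ → V, Function.Injective ν ∧ ∀ i, ∀ c ∈ M, c.v ≠ ν i := by
  have h : {v | v ∈ M.map Occ.v}ᶜ.Infinite := (M.map Occ.v).finite_toSet.infinite_compl
  obtain ⟨e, he⟩ := exists_injective_nat κ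
  exact ⟨fun i => h.natEmbedding _ (e i),
    Subtype.val_injective.comp ((h.natEmbedding _).injective.comp he),
    fun i c hc e' => (h.natEmbedding _ (e i)).2 (Multiset.mem_map.2 ⟨c, hc, e'⟩)⟩

theorem exists_asg {R κ : Type} (x : Asg V L R) {ν : κ → V} (hν : Function.Injective ν)
    (w : κ → Bool → Matrix L L R) :
    ∃ x' : Asg V L R, (∀ i b, x' (ν i) b = w i b) ∧ ∀ v, (∀ i, v ≠ ν i) → x' v = x v := by
  exact ⟨Function.extend ν w x, fun i b => by rw [hν.extend_apply],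
    fun v hv => Function.extend_apply' _ _ _ fun ⟨i, hi⟩ => hv i hi.symm⟩

theorem exists_asg1 {R : Type} (x : Asg V L R) (v : V) (b : Bool) (p p' : Matrix L L R) :
    ∃ x' : Asg V L R, x' v b = p ∧ x' v (!b) = p' ∧ ∀ v', v' ≠ v → x' v' = x v' := by
  classical
  refine ⟨Function.update x v fun b' => if b' = b then p else p', by simp, by simp, fun v' hv => ?_⟩
  rw [Function.update_of_ne hv]

variable {B : Type} [CommRing B] [Algebra O B] [Algebra O ℂ] {π : B →ₐ[O] ℂ}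

theorem occ_sol_singleton {x : Asg V L ℂ} {f : Face O L V} :
    Sol x {f} ↔ VarOK x f.occ ∧ (∀ s ∈ f.l, Sup s.X s.Y s.n) ∧ f.Eqn (prodL x f.l) :=
  ⟨fun h => ⟨occD_singleton f ▸ h.var, h.gap f (Multiset.mem_singleton_self f),
      h.eqn f (Multiset.mem_singleton_self f)⟩,
    fun h => ⟨by rw [occD_singleton]; exact h.1, fun g hg => Multiset.mem_singleton.1 hg ▸ h.2.1,
      fun g hg => Multiset.mem_singleton.1 hg ▸ h.2.2⟩⟩

theorem sol_add {x : Asg V L ℂ} {D D' : Diag O L V} : Sol x (D + D') ↔ Sol x D ∧ Sol x D' := by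
  refine ⟨fun h => ?_, fun h => ⟨?_, fun f hf => ?_, fun f hf => ?_⟩⟩
  · have hv := h.var
    rw [occD_add, varOK_add] at hv
    exact ⟨⟨hv.1, fun f hf => h.gap f (Multiset.mem_add.2 (Or.inl hf)),
        fun f hf => h.eqn f (Multiset.mem_add.2 (Or.inl hf))⟩,
      hv.2, fun f hf => h.gap f (Multiset.mem_add.2 (Or.inr hf)),
        fun f hf => h.eqn f (Multiset.mem_add.2 (Or.inr hf))⟩
  · rw [occD_add, varOK_add]
    exact ⟨h.1.var, h.2.var⟩
  · exact (Multiset.mem_add.1 hf).elim (h.1.gap f) (h.2.gap f)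
  · exact (Multiset.mem_add.1 hf).elim (h.1.eqn f) (h.2.eqn f)

theorem sol_cons {x : Asg V L ℂ} {f : Face O L V} {D : Diag O L V} :
    Sol x (f ::ₘ D) ↔ (VarOK x f.occ ∧ (∀ s ∈ f.l, Sup s.X s.Y s.n) ∧ f.Eqn (prodL x f.l)) ∧ Sol x D := by
  rw [← Multiset.singleton_add, sol_add, occ_sol_singleton]

theorem Sol.congr {x x' : Asg V L ℂ} {D : Diag O L V} (h : Sol x D) (ha : Agree x x' (occD D)) :
    Sol x' D := by
  refine ⟨h.var.congr ha, h.gap, fun f hf => ?_⟩
  rw [← prodL_congr (x := x) fun c hc => ha c (mem_occD.2 ⟨f, hf, hc⟩)]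
  exact h.eqn f hf

theorem Red.refl {x : Asg V L ℂ} {D : Diag O L V} (hW : WF D) (hS : Sol x D) : Red π x D x D :=
  ⟨hW, hS, id⟩

theorem Red.trans {V' V'' : Type} {x : Asg V L ℂ} {D : Diag O L V} {x' : Asg V' L ℂ} {D' : Diag O L V'}
    {x'' : Asg V'' L ℂ} {D'' : Diag O L V''} (h : Red π x D x' D') (h' : Red π x' D' x'' D'') :
    Red π x D x'' D'' :=
  ⟨h'.wf, h'.sol, fun hl => h.lift (h'.lift hl)⟩

/-- local reduction: the faces `E` are replaced by the faces `E'` -/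
theorem Red.local {x x' : Asg V L ℂ} {E E' D0 : Diag O L V} (hW : WF (E + D0)) (hS : Sol x (E + D0))
    (hseg : ∀ f ∈ E', Seg f.Q f.l f.Q) (hocc : OccOK (occD E' + occD D0))
    (hx : Agree x x' (occD D0)) (hsol : Sol x' E')
    (hlift : ∀ y' : Asg V L B, (∀ c ∈ occD E', ∀ b, (y' c.v b).map π = x' c.v b) →
      VarOK y' (occD E') → (∀ f ∈ E', ∃ p, PL π y' f.l p ∧ f.Eqn p) →
      ∃ y : Asg V L B, Agree y' y (occD D0) ∧ (∀ c ∈ occD E, ∀ b, (y c.v b).map π = x c.v b) ∧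
        VarOK y (occD E) ∧ ∀ f ∈ E, ∃ p, PL π y f.l p ∧ f.Eqn p) :
    Red π x (E + D0) x' (E' + D0) := by
  refine ⟨⟨fun f hf => (Multiset.mem_add.1 hf).elim (hseg f) fun h =>
      hW.seg f (Multiset.mem_add.2 (Or.inr h)), by rwa [occD_add]⟩,
    sol_add.2 ⟨hsol, (sol_add.1 hS).2.congr hx⟩, ?_⟩
  rintro ⟨y', h1, h2, h3⟩
  rw [occD_add] at h1 h2
  rw [varOK_add] at h2
  obtain ⟨y, ha, g1, g2, g3⟩ := hlift y' (fun c hc => h1 c (Multiset.mem_add.2 (Or.inl hc))) h2.1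
    fun f hf => h3 f (Multiset.mem_add.2 (Or.inl hf))
  refine ⟨y, fun c hc b => ?_, ?_, fun f hf => ?_⟩
  · rw [occD_add] at hc
    rcases Multiset.mem_add.1 hc with hc | hc
    · exact g1 c hc b
    · rw [← ha c hc b, h1 c (Multiset.mem_add.2 (Or.inr hc)) b, hx c hc b]
  · rw [occD_add, varOK_add]
    exact ⟨g2, h2.2.congr ha⟩
  · rcases Multiset.mem_add.1 hf with hf | hf
    · exact g3 f hf
    · obtain ⟨p, hp, he⟩ := h3 f (Multiset.mem_add.2 (Or.inr hf))
      exact ⟨p, hp.congr fun c hc => ha c (mem_occD.2 ⟨f, hf, hc⟩), he⟩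

/-- `Red.local` for one face replaced by one face -/
theorem Red.local1 {x x' : Asg V L ℂ} {f f' : Face O L V} {D0 : Diag O L V} (hW : WF (f ::ₘ D0))
    (hS : Sol x (f ::ₘ D0)) (hseg : Seg f'.Q f'.l f'.Q) (hocc : OccOK (f'.occ + occD D0))
    (hx : Agree x x' (occD D0)) (hvar : VarOK x' f'.occ) (hgap : ∀ s ∈ f'.l, Sup s.X s.Y s.n)
    (heqn : f'.Eqn (prodL x' f'.l))
    (hlift : ∀ (y' : Asg V L B) (p' : Matrix L L B), (∀ c ∈ f'.occ, ∀ b, (y' c.v b).map π = x' c.v b) →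
      VarOK y' f'.occ → PL π y' f'.l p' → f'.Eqn p' →
      ∃ (y : Asg V L B) (p : Matrix L L B), Agree y' y (occD D0) ∧
        (∀ c ∈ f.occ, ∀ b, (y c.v b).map π = x c.v b) ∧ VarOK y f.occ ∧ PL π y f.l p ∧ f.Eqn p) :
    Red π x (f ::ₘ D0) x' (f' ::ₘ D0) := by
  rw [← Multiset.singleton_add] at hW hS
  rw [← Multiset.singleton_add, ← Multiset.singleton_add]
  refine Red.local hW hS (fun g hg => Multiset.mem_singleton.1 hg ▸ hseg) (by rwa [occD_singleton]) hx
    (occ_sol_singleton.2 ⟨hvar, hgap, heqn⟩) fun y' h1 h2 h3 => ?_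
  rw [occD_singleton] at h1 h2 ⊢
  obtain ⟨p', hp', he'⟩ := h3 f' (Multiset.mem_singleton_self _)
  obtain ⟨y, p, a1, a2, a3, a4, a5⟩ := hlift y' p' h1 h2 hp' he'
  exact ⟨y, a1, a2, a3, fun g hg => Multiset.mem_singleton.1 hg ▸ ⟨p, a4, a5⟩⟩

section Ren
variable {V' : Type} (ρ : V → V')

/-- renaming of an occurrence -/
def Occ.occRen (c : Occ L V) : Occ L V' := ⟨ρ c.v, c.b, c.X, c.X1⟩

theorem occ_slot_ren (o : Option (V × Bool)) (X X1 : Finset L) :
    slot (o.map (Prod.map ρ id)) X X1 = (slot o X X1).map (Occ.occRen ρ) := by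
  cases o with
  | none => rfl
  | some p =>
    simp only [slot, Option.map_some]
    split_ifs <;> rfl

theorem occL_ren (l : List (Step O L V)) :
    occL (l.map (Step.ren ρ)) = (occL l).map (Occ.occRen ρ) := by
  induction l with
  | nil => rfl
  | cons s l ih =>
    rw [List.map_cons, occL_cons, occL_cons, ih, Multiset.map_add, Step.occ, Step.occ, Multiset.map_add,
      ← occ_slot_ren, ← occ_slot_ren]
    rfl

theorem occD_ren (D : Diag O L V) : occD (D.map (Face.ren ρ)) = (occD D).map (Occ.occRen ρ) := by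
  induction D using Multiset.induction_on with
  | empty => rfl
  | cons f D ih =>
    rw [Multiset.map_cons, occD_cons, occD_cons, ih, Multiset.map_add]
    exact congrArg (· + _) (occL_ren ρ f.l)

theorem occ_seg_ren {l : List (Step O L V)} : ∀ {Q Q' : St L}, Seg Q l Q' → Seg Q (l.map (Step.ren ρ)) Q' := by
  induction l with
  | nil => exact id
  | cons s l ih =>
    rintro Q Q' ⟨h1, ⟨h2, h3, h4⟩, Q1, h5, h6⟩
    exact ⟨h1, ⟨h2, ⟨h3.1, fun h => h3.2 (Option.map_eq_none_iff.1 h)⟩, h4.1,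
      fun h => h4.2 (Option.map_eq_none_iff.1 h)⟩, Q1, h5, ih h6⟩

theorem occ_valG_ren {R : Type} [CommRing R] [Algebra O R] (s : Step O L V) (x : Asg V' L R)
    (n : Matrix L L R) : (s.ren ρ).valG x n = s.valG (x ∘ ρ) n := by
  obtain ⟨X, Y, X1, Y1, _ | _, _ | _, d, m⟩ := s <;> rfl

theorem occ_prodL_ren (x : Asg V' L ℂ) (l : List (Step O L V)) :
    prodL x (l.map (Step.ren ρ)) = prodL (x ∘ ρ) l := by
  induction l with
  | nil => rfl
  | cons s l ih =>
    rw [List.map_cons, prodL, prodL, ih, occ_valG_ren]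
    rfl

theorem occ_PL_ren (y : Asg V' L B) (l : List (Step O L V)) :
    ∀ p, PL π y (l.map (Step.ren ρ)) p → PL π (y ∘ ρ) l p := by
  induction l with
  | nil => exact fun _ => id
  | cons s l ih =>
    rintro p ⟨p1, p2, ⟨n, h1, h2, h3⟩, h4, h5⟩
    exact ⟨p1, p2, ⟨n, h1, h2, h3.trans (occ_valG_ren ρ s y n)⟩, ih p2 h4, h5⟩

end Ren

/-- it is enough to treat infinite types of names: rename along `Sum.inl : V → V ⊕ ℕ` -/
theorem red_ren (x : Asg V L ℂ) (D : Diag O L V) (hW : WF D) (hS : Sol x D) :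
    Red π x D (Sum.elim x fun _ : ℕ => fun _ => 0) (D.map (Face.ren (Sum.inl : V → V ⊕ ℕ))) := by
  refine ⟨⟨fun f hf => ?_, ?_, fun c hc => ?_⟩, ⟨fun c hc => ?_, fun f hf s hs => ?_, fun f hf => ?_⟩, ?_⟩
  · obtain ⟨g, hg, rfl⟩ := Multiset.mem_map.1 hf
    exact occ_seg_ren _ (hW.seg g hg)
  · rw [occD_ren, Multiset.map_map]
    have := hW.occ.nodup.map (f := Prod.map (Sum.inl : V → V ⊕ ℕ) id)
      (Sum.inl_injective.prodMap Function.injective_id)
    rwa [Multiset.map_map] at this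
  · rw [occD_ren] at hc ⊢
    obtain ⟨d, hd, rfl⟩ := Multiset.mem_map.1 hc
    exact Multiset.mem_map.2 ⟨_, hW.occ.flip d hd, rfl⟩
  · rw [occD_ren] at hc
    obtain ⟨d, hd, rfl⟩ := Multiset.mem_map.1 hc
    exact hS.var d hd
  · obtain ⟨g, hg, rfl⟩ := Multiset.mem_map.1 hf
    obtain ⟨t, ht, rfl⟩ := List.mem_map.1 hs
    exact hS.gap g hg t ht
  · obtain ⟨g, hg, rfl⟩ := Multiset.mem_map.1 hf
    rw [Face.ren, occ_prodL_ren]
    exact hS.eqn g hg
  · rintro ⟨y, h1, h2, h3⟩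
    rw [occD_ren] at h1 h2
    refine ⟨y ∘ Sum.inl, fun c hc b => h1 _ (Multiset.mem_map_of_mem _ hc) b,
      fun c hc => h2 _ (Multiset.mem_map_of_mem _ hc), fun f hf => ?_⟩
    obtain ⟨p, hp, he⟩ := h3 _ (Multiset.mem_map_of_mem _ hf)
    exact ⟨p, occ_PL_ren _ y _ p hp, he⟩

theorem Face.size_ren {V' : Type} (ρ : V → V') (f : Face O L V) : (f.ren ρ).size = f.size := rfl

theorem Face.hasNT_ren {V' : Type} (ρ : V → V') (f : Face O L V) : (f.ren ρ).HasNT ↔ f.HasNT := by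
  constructor
  · rintro ⟨s, hs, h⟩
    obtain ⟨t, ht, rfl⟩ := List.mem_map.1 hs
    exact ⟨t, ht, h⟩
  · rintro ⟨s, hs, h⟩
    exact ⟨_, List.mem_map_of_mem hs, h⟩

theorem occ_PL_zero (π : B →ₐ[O] ℂ) (y : Asg V L B) (l : List (Step O L V)) (h : ∀ s ∈ l, s.n = 0) :
    ∃ p, PL π y l p := by
  induction l with
  | nil => exact ⟨1, rfl⟩
  | cons s l ih =>
    obtain ⟨p, hp⟩ := ih fun t ht => h t (List.mem_cons_of_mem _ ht)
    exact ⟨_, _, p, ⟨0, by rw [h s List.mem_cons_self]; simp, sup_zero _ _, rfl⟩, hp, rfl⟩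

theorem PP_zero (π : B →ₐ[O] ℂ) (L : Type) [Fintype L] [DecidableEq L] : PP π L 0 := by
  intro V D x hW hs hS
  have h0 : ∀ f ∈ D, f.Q.set.card = 0 := fun f hf => Nat.le_zero.1 (hs f hf)
  have h1 : ∀ c, c ∉ occD D := fun c hc => by
    obtain ⟨f, hf, hc⟩ := mem_occD.1 hc
    obtain ⟨a1, -, a2⟩ := (hW.seg f hf).occ_card hc
    have := a1.card_pos
    have := h0 f hf
    omega
  refine ⟨0, fun c hc => absurd hc (h1 c), fun c hc => absurd hc (h1 c), fun f hf => ?_⟩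
  obtain ⟨p, hp⟩ := occ_PL_zero π 0 f.l fun s hs' => (hS.gap f hf s hs').eq_zero (Or.inl (by
    have a1 := ((hW.seg f hf).step hs').2.2
    rw [h0 f hf, Finset.card_eq_zero, Finset.union_eq_empty] at a1
    exact a1.1))
  refine ⟨p, hp, ?_⟩
  rw [Face.Eqn, Finset.card_eq_zero.1 (h0 f hf), eS_empty, mul_zero, smul_zero]

end Crest.Agent.R3
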