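import Crest.Agent.R3.Mat

/-!
# R3 / Seg : combinatorics of states, links and segments

Everything is by unfolding the definitions and induction on the list.
-/

set_option autoImplicit false
set_option linter.unusedSectionVars false

noncomputable section

open Matrix

namespace Crest.Agent.R3

variable {O L V : Type} [CommRing O] [Fintype L] [DecidableEq L]
variable {Q Q' Q'' Q0 Q1 Q2 : St L} {l l1 l2 : List (Step O L V)} {s : Step O L V}

theorem St.le_trans (h : Q.le Q') (h' : Q'.le Q'') : Q.le Q'' := by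
  refine ⟨h.1.trans h'.1, h'.2.1, ?_⟩
  rcases h.2.2 with rfl | h1
  · exact h'.2.2
  · exact Or.inr h1

theorem St.le_refl (h : Disjoint Q.X Q.Y) : Q.le Q := by
  exact ⟨rfl, h, Or.inl rfl⟩

theorem St.triv_le (h : Q.X = ∅ ∨ Q.Y = ∅) (hs : Q.set = Q'.set) (hd : Disjoint Q'.X Q'.Y) : Q.le Q' := by
  exact ⟨hs, hd, Or.inr h⟩

theorem St.le.eq_of_nontriv (h : Q.le Q') (hX : Q.X.Nonempty) (hY : Q.Y.Nonempty) : Q = Q' := by
  rcases h.2.2 with h1 | h1 | h1
  · exact h1
  · exact absurd h1 hX.ne_empty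
  · exact absurd h1 hY.ne_empty

theorem St.le.triv (h : Q.le Q') (h' : Q'.X = ∅ ∨ Q'.Y = ∅) : Q.X = ∅ ∨ Q.Y = ∅ := by
  rcases h.2.2 with rfl | h1
  · exact h'
  · exact h1

theorem Step.link.mono (h : s.link Q) (h' : Q.le Q') : s.link Q' := by
  rcases h'.2.2 with rfl | h1
  · exact h
  refine ⟨h'.1.symm.trans h.1, h'.2.1, fun i hi j hj hij _ => ?_⟩
  rw [← h'.1] at hi hj
  refine h.2.2 i hi j hj hij ?_
  rcases h1 with h1 | h1
  · simp [h1]
  · rw [St.set, h1, Finset.union_empty] at hi hj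
    exact iff_of_true hi hj

theorem Seg.mono_left (h : Seg Q l Q') (h0 : Q0.le Q) : Seg Q0 l Q' := by
  cases l with
  | nil => exact St.le_trans h0 h
  | cons s l => exact ⟨St.le_trans h0 h.1, h.2⟩

theorem Seg.mono_right (h : Seg Q l Q') (h' : Q'.le Q'') : Seg Q l Q'' := by
  induction l generalizing Q with
  | nil => exact St.le_trans h h'
  | cons s l ih =>
    obtain ⟨a, b, Q1, c, d⟩ := h
    exact ⟨a, b, Q1, c, ih d⟩

theorem Seg.disj_right (h : Seg Q l Q') : Disjoint Q'.X Q'.Y := by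
  induction l generalizing Q with
  | nil => exact h.2.1
  | cons s l ih =>
    obtain ⟨-, -, Q1, -, d⟩ := h
    exact ih d

theorem seg_append : Seg Q (l1 ++ l2) Q' ↔ ∃ Q1, Seg Q l1 Q1 ∧ Seg Q1 l2 Q' := by
  induction l1 generalizing Q with
  | nil =>
    refine ⟨fun h => ?_, fun ⟨Q1, h1, h2⟩ => h2.mono_left h1⟩
    cases l2 with
    | nil => exact ⟨Q', h, St.le_refl h.2.1⟩
    | cons t l => exact ⟨t.inS, h.1, St.le_refl h.1.2.1, h.2⟩
  | cons s l ih =>
    constructor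
    · rintro ⟨a, b, Q1, c, d⟩
      obtain ⟨Q2, d1, d2⟩ := ih.1 d
      exact ⟨Q2, ⟨a, b, Q1, c, d1⟩, d2⟩
    · rintro ⟨Q2, ⟨a, b, Q1, c, d1⟩, d2⟩
      exact ⟨a, b, Q1, c, ih.2 ⟨Q2, d1, d2⟩⟩

/-- normal form of `Seg` for two consecutive steps -/
theorem seg_cons_cons {t : Step O L V} :
    Seg Q (s :: t :: l) Q' ↔ Q.le s.inS ∧ s.ok ∧ s.link t.inS ∧ Seg t.inS (t :: l) Q' := by
  exact ⟨fun ⟨a, b, _, c, d⟩ => ⟨a, b, c.mono d.1, St.le_refl d.1.2.1, d.2⟩,
    fun ⟨a, b, c, d⟩ => ⟨a, b, _, c, d⟩⟩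

theorem seg_single : Seg Q [s] Q' ↔ Q.le s.inS ∧ s.ok ∧ s.link Q' := by
  exact ⟨fun ⟨a, b, _, c, d⟩ => ⟨a, b, c.mono d⟩,
    fun ⟨a, b, c⟩ => ⟨a, b, _, c, St.le_refl c.2.1⟩⟩

theorem seg_step_card (a : Q.le s.inS) (b : s.ok) (c : s.link Q1) : Q.set.card = Q1.set.card := by
  rw [a.1, c.1, Finset.card_union_of_disjoint b.1, ← b.2.1.1, ← b.2.2.1]
  exact Finset.card_union_of_disjoint a.2.1

theorem Seg.card_eq (h : Seg Q l Q') : Q.set.card = Q'.set.card := by
  induction l generalizing Q with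
  | nil => exact congrArg Finset.card h.1
  | cons s l ih =>
    obtain ⟨a, b, Q1, c, d⟩ := h
    exact (seg_step_card a b c).trans (ih d)

theorem Seg.step (h : Seg Q l Q') (hs : s ∈ l) :
    s.ok ∧ Disjoint s.X s.Y ∧ (s.X ∪ s.Y).card = Q.set.card := by
  induction l generalizing Q with
  | nil => exact absurd hs List.not_mem_nil
  | cons t l ih =>
    obtain ⟨a, b, Q1, c, d⟩ := h
    rcases List.mem_cons.1 hs with rfl | hs
    · exact ⟨b, a.2.1, congrArg Finset.card a.1.symm⟩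
    · rw [seg_step_card a b c]
      exact ih d hs

theorem Seg.set_unique (h : Seg Q l Q1) (h' : Seg Q' l Q2) (hs : Q.set = Q'.set) : Q1.set = Q2.set := by
  induction l generalizing Q Q' with
  | nil => exact h.1.symm.trans (hs.trans h'.1)
  | cons s l ih =>
    obtain ⟨-, -, _, c, d⟩ := h
    obtain ⟨-, -, _, c', d'⟩ := h'
    exact ih d d' (c.1.trans c'.1.symm)

theorem Seg.triv_left (h : Seg Q l Q') {Ω : Finset L} (hΩ : Q.set = Ω) : Seg ⟨Ω, ∅⟩ l Q' := by
  have e : St.set ⟨Ω, ∅⟩ = Q.set := (Finset.union_empty Ω).trans hΩ.symm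
  cases l with
  | nil => exact St.triv_le (Or.inr rfl) (e.trans h.1) h.2.1
  | cons s l => exact ⟨St.triv_le (Or.inr rfl) (e.trans h.1.1) h.1.2.1, h.2⟩

theorem seg_full {v : V} {b : Bool} {Ω Ω' : Finset L} :
    Seg Q (l1 ++ Step.full v b Ω Ω' :: l2) Q' ↔
      Seg Q l1 ⟨Ω, ∅⟩ ∧ Ω.card = Ω'.card ∧ Seg ⟨Ω', ∅⟩ l2 Q' := by
  rw [seg_append]
  constructor
  · rintro ⟨Q1, h1, a, b, Q2, c, d⟩
    exact ⟨h1.mono_right a, b.2.1.1, d.triv_left (c.1.trans (Finset.union_empty _))⟩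
  · rintro ⟨h1, h2, h3⟩
    exact ⟨_, h1, St.le_refl (Finset.disjoint_empty_right _),
      ⟨Finset.disjoint_empty_right _, ⟨h2, fun h => by cases h⟩, rfl, fun _ => rfl⟩, ⟨Ω', ∅⟩,
      ⟨rfl, Finset.disjoint_empty_right _, fun _ _ _ _ _ _ => rfl⟩, h3⟩

theorem occL_nil : occL ([] : List (Step O L V)) = 0 := rfl

theorem occL_cons (s : Step O L V) (l : List (Step O L V)) : occL (s :: l) = s.occ + occL l := by
  simp [occL]

theorem occL_append (l1 l2 : List (Step O L V)) : occL (l1 ++ l2) = occL l1 + occL l2 := by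
  simp [occL]

theorem mem_occL {c : Occ L V} : c ∈ occL l ↔ ∃ s ∈ l, c ∈ s.occ := by
  induction l with
  | nil => simp [occL_nil]
  | cons s l ih => simp [occL_cons, ih]

theorem occD_cons (f : Face O L V) (D : Diag O L V) : occD (f ::ₘ D) = f.occ + occD D := by
  simp [occD]

theorem occD_add (D D' : Diag O L V) : occD (D + D') = occD D + occD D' := by
  simp [occD]

theorem occD_zero : occD (0 : Diag O L V) = 0 := rfl

theorem occD_singleton (f : Face O L V) : occD ({f} : Diag O L V) = f.occ := by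
  simp [occD]

theorem mem_occD {D : Diag O L V} {c : Occ L V} : c ∈ occD D ↔ ∃ f ∈ D, c ∈ f.occ := by
  induction D using Multiset.induction_on with
  | empty => simp [occD_zero]
  | cons f D ih => simp [occD_cons, ih]

theorem mem_slot {o : Option (V × Bool)} {X X1 : Finset L} {c : Occ L V} :
    c ∈ slot o X X1 ↔ o = some (c.v, c.b) ∧ X.Nonempty ∧ c.X = X ∧ c.X1 = X1 := by
  obtain ⟨v, b, Y, Y1⟩ := c
  rcases o with _ | ⟨v', b'⟩
  · simp [slot]
  · by_cases h : X.Nonempty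
    · simp only [slot, h, if_true, Multiset.mem_singleton, Occ.mk.injEq, Option.some.injEq,
        Prod.mk.injEq, true_and]
      exact ⟨fun ⟨a, b, c, d⟩ => ⟨⟨a.symm, b.symm⟩, c, d⟩, fun ⟨⟨a, b⟩, c, d⟩ => ⟨a.symm, b.symm, c, d⟩⟩
    · simp [slot, h]

@[simp] theorem slot_none (X X1 : Finset L) : slot (none : Option (V × Bool)) X X1 = 0 := rfl

@[simp] theorem slot_empty (o : Option (V × Bool)) (X1 : Finset L) : slot o ∅ X1 = 0 := by
  cases o <;> simp [slot]

theorem slot_flip (v : V) (b : Bool) {X X1 : Finset L} (h : X.card = X1.card) :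
    (slot (some (v, b)) X X1).map Occ.flip = slot (some (v, !b)) X1 X := by
  have e : X.Nonempty ↔ X1.Nonempty := by rw [← Finset.card_pos, ← Finset.card_pos, h]
  by_cases h1 : X1.Nonempty <;> simp [slot, e, h1, Occ.flip]

@[simp] theorem Occ.flip_flip (c : Occ L V) : c.flip.flip = c := by
  simp [Occ.flip]

theorem occ_full (v : V) (b : Bool) (Ω Ω' : Finset L) :
    (Step.full v b Ω Ω' : Step O L V).occ = slot (some (v, b)) Ω Ω' := by
  exact add_zero _

theorem occ_full_of_nonempty (v : V) (b : Bool) {Ω : Finset L} (Ω' : Finset L) (h : Ω.Nonempty) :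
    (Step.full v b Ω Ω' : Step O L V).occ = {⟨v, b, Ω, Ω'⟩} := by
  rw [occ_full]
  exact if_pos h

theorem Seg.occ_card (h : Seg Q l Q') {c : Occ L V} (hc : c ∈ occL l) :
    c.X.Nonempty ∧ c.X.card = c.X1.card ∧ c.X.card ≤ Q.set.card := by
  obtain ⟨s, hs, hc⟩ := mem_occL.1 hc
  obtain ⟨⟨-, a1, a2⟩, -, a3⟩ := h.step hs
  rw [← a3]
  rcases Multiset.mem_add.1 hc with hc | hc <;> obtain ⟨-, b1, b2, b3⟩ := mem_slot.1 hc <;>
    rw [b2, b3]
  · exact ⟨b1, a1.1, Finset.card_le_card Finset.subset_union_left⟩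
  · exact ⟨b1, a2.1, Finset.card_le_card Finset.subset_union_right⟩

theorem occ_card_lt {c : Occ L V} (hc : c ∈ s.occ) (hs : s.nontriv) (hd : Disjoint s.X s.Y) :
    c.X.card < (s.X ∪ s.Y).card := by
  have h1 := hs.1.card_pos
  have h2 := hs.2.card_pos
  rw [Finset.card_union_of_disjoint hd]
  rcases Multiset.mem_add.1 hc with hc | hc <;> rw [(mem_slot.1 hc).2.2.1] <;> omega

theorem occ_card_eq {c : Occ L V} (hc : c ∈ s.occ) (hs : ¬ s.nontriv) : c.X = s.X ∪ s.Y := by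
  rcases Multiset.mem_add.1 hc with hc | hc <;> obtain ⟨-, b1, b2, -⟩ := mem_slot.1 hc
  · rw [b2, Finset.not_nonempty_iff_eq_empty.1 fun h : s.Y.Nonempty => hs ⟨b1, h⟩,
      Finset.union_empty]
  · rw [b2, Finset.not_nonempty_iff_eq_empty.1 fun h : s.X.Nonempty => hs ⟨h, b1⟩,
      Finset.empty_union]

theorem not_nontriv_full (v : V) (b : Bool) (Ω Ω' : Finset L) :
    ¬ (Step.full v b Ω Ω' : Step O L V).nontriv := by
  exact fun h => Finset.not_nonempty_empty h.2

theorem wt_nontriv (h : s.nontriv) : s.wt = 0 := by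
  exact if_pos h

theorem wt_full (v : V) (b : Bool) (Ω Ω' : Finset L) : (Step.full v b Ω Ω' : Step O L V).wt = 1 := by
  rw [Step.wt, if_neg (not_nontriv_full v b Ω Ω'), if_pos ⟨v, b, Ω, Ω', rfl⟩]

theorem wt_dgOnly (Ω : Finset L) (d : L → Oˣ) : (Step.dgOnly Ω d : Step O L V).wt = 1 := by
  rw [Step.wt, if_neg fun h => Finset.not_nonempty_empty h.2,
    if_pos (show (Step.dgOnly Ω d : Step O L V).occ = 0 from rfl), ite_self]

theorem wt_of_occ_zero (h : ¬ s.nontriv) (h0 : s.occ = 0) : s.wt = 1 := by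
  rw [Step.wt, if_neg h, if_pos h0, ite_self]

theorem wt_of_bad (h : ¬ s.nontriv) (hf : ¬ s.IsFull) (h0 : s.occ ≠ 0) : s.wt = 3 := by
  rw [Step.wt, if_neg h, if_neg hf, if_neg h0]

/-- In a normal face the partner of a full variable is a full variable of the same face, if the other
faces keep their big occurrences among themselves.  Proof: the partner occurrence is not in `D0`
(otherwise `BigCl` puts the occurrence itself into `D0`, against `nodup`), so it belongs to a step of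
`f`, which is not non-trivial by `occ_card_lt`, hence full. -/
theorem partner_full {f : Face O L V} {D0 : Diag O L V} (hW : WF (f ::ₘ D0)) (hB : BigCl f.size D0)
    (hN : f.Normal) (h0 : 0 < f.size) {v : V} {b : Bool} {Ω Ω' : Finset L}
    (h : Step.full v b Ω Ω' ∈ f.l) : Step.full v (!b) Ω' Ω ∈ f.l := by
  have hS := hW.seg f (Multiset.mem_cons_self _ _)
  obtain ⟨⟨-, a1, -⟩, -, a3⟩ := hS.step h
  have e1 : Ω.card = f.size := (congrArg Finset.card (Finset.union_empty Ω)).symm.trans a3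
  have e2 : Ω'.card = f.size := a1.1.symm.trans e1
  have hc : (⟨v, b, Ω, Ω'⟩ : Occ L V) ∈ f.occ := mem_occL.2 ⟨_, h, by
    rw [occ_full_of_nonempty v b Ω' (Finset.card_pos.1 (e1 ▸ h0))]
    exact Multiset.mem_singleton_self _⟩
  have hn := hW.occ.nodup
  have hf := hW.occ.flip ⟨v, b, Ω, Ω'⟩
  rw [occD_cons] at hn hf
  rcases Multiset.mem_add.1 (hf (Multiset.mem_add.2 (Or.inl hc))) with h1 | h1
  · obtain ⟨t, ht, h2⟩ := mem_occL.1 h1
    rcases hN t ht with h3 | ⟨v', b', Ω1, Ω1', rfl⟩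
    · have h4 := occ_card_lt h2 h3 (hS.step ht).2.1
      rw [(hS.step ht).2.2] at h4
      exact absurd e2 h4.ne
    · rw [occ_full] at h2
      obtain ⟨b1, -, b2, b3⟩ := mem_slot.1 h2
      cases b1
      cases b2
      cases b3
      exact ht
  · have h2 := hB _ h1 e2
    rw [Occ.flip_flip] at h2
    rw [Multiset.map_add, Multiset.nodup_add] at hn
    exact absurd (Multiset.mem_map_of_mem _ h2)
      (Multiset.disjoint_left.1 hn.2.2 (Multiset.mem_map_of_mem _ hc))

theorem BigCl.add_small {m : ℕ} {D0 S : Diag O L V} (hB : BigCl m D0)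
    (hS : ∀ g ∈ S, Seg g.Q g.l g.Q ∧ g.size < m) : BigCl m (D0 + S) := by
  intro c hc hm
  rw [occD_add] at hc ⊢
  rcases Multiset.mem_add.1 hc with h | h
  · exact Multiset.mem_add.2 (Or.inl (hB c h hm))
  · obtain ⟨g, hg, h1⟩ := mem_occD.1 h
    exact absurd (((hS g hg).1.occ_card h1).2.2.trans_lt (hS g hg).2) (not_lt.2 hm.ge)

theorem bigCl_of_small {m : ℕ} {S : Diag O L V} (hS : ∀ g ∈ S, Seg g.Q g.l g.Q ∧ g.size < m) :
    BigCl m S := by
  have := BigCl.add_small (D0 := 0) (fun c hc => absurd hc (Multiset.notMem_zero c)) hS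
  rwa [zero_add] at this

end Crest.Agent.R3
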