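import Crest.Agent.R3.Norm

/-!
# R3 / Slide : sliding a block across a pair of full variables, cancellation, merging of faces

* `mv_slide`: the new value of the variable is `z* = z ∘ C` (`x' v b = x v b * (prodL x C * e)`,
  `x' v (!b) = c' * x v (!b)` with `c'` the inverse of the value of `C`).  The variable `v` does not occur
  in `P, C, R, S, D0` (`OccOK.remove`).  `Seg ⟨Ω0,∅⟩ C ⟨Ω,∅⟩` follows from `seg_append`, `seg_full`,
  `Seg.set_unique`, `Seg.triv_left`.  Lifting: given `y'` and the value `pC` of `C` in the new word put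
  `y v b = y' v b * pC'`, `y v (!b) = pC e * y' v (!b)` (`PL.pi`, `PL.map`, `PI.map_inv`).
* `mv_slide'`: `mv_rot`, `mv_slide`, `mv_rot`: rotate to `R ++ C ++ z :: (S ++ P) ++ [z̄]`.  After the first
  rotation choose the base state `⟨Ω', ∅⟩`... (any base state `Q'` given by `mv_rot` has the set `Ω'`;
  `Seg Q' R ⟨Ω0, ∅⟩` follows since `Q'` is trivial or can be compared through `seg_full`).  It may be easier
  to prove it directly in the same way as `mv_slide`.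
* `mv_cancel`: lift the eliminated variable by `PI.lift`.
* `mv_merge`: from the first equation `z = (u1 • a)⁻¹`; define `y v (!b) = u1 • (pA e)`, `y v b` its inverse.
-/

set_option autoImplicit false

noncomputable section

open Matrix

namespace Crest.Agent.R3

variable {O L V : Type} [CommRing O] [Fintype L] [DecidableEq L]
variable {B : Type} [CommRing B] [Algebra O B] [Algebra O ℂ] {π : B →ₐ[O] ℂ}
variable {x : Asg V L ℂ} {D0 : Diag O L V} {Q : St L} {u : Oˣ} {v : V} {b : Bool}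
  {Ω Ω' Ω0 : Finset L}

section aux
set_option linter.unusedSectionVars false

private theorem sl_set (Ω : Finset L) : (⟨Ω, ∅⟩ : St L).set = Ω := by simp [St.set]

private theorem sl_bool (b b' : Bool) : b' = b ∨ b' = !b := by cases b <;> cases b' <;> simp

private theorem sl_ne {Ω Ω' : Finset L} (hne : Ω.Nonempty) (h : Ω.card = Ω'.card) : Ω'.Nonempty := by
  rw [← Finset.card_pos] at hne ⊢; omega

private theorem sl_asg {R : Type} (y' : Asg V L R) (v : V) (b : Bool) (w w' : Matrix L L R)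
    {M : Multiset (Occ L V)} (hM : ∀ c ∈ M, c.v ≠ v) :
    ∃ y : Asg V L R, Agree y' y M ∧ y v b = w ∧ y v (!b) = w' := by
  obtain ⟨y, h1, h2, h3⟩ := exists_asg1 y' v b w w'
  exact ⟨y, fun c hc b' => by rw [h3 _ (hM c hc)], h1, h2⟩

private theorem sl_agree_add {R : Type} {y y' : Asg V L R} {M N : Multiset (Occ L V)}
    (h : Agree y y' (M + N)) : Agree y y' M ∧ Agree y y' N :=
  ⟨fun c hc => h c (Multiset.mem_add.2 (Or.inl hc)), fun c hc => h c (Multiset.mem_add.2 (Or.inr hc))⟩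

private theorem sl_var_pair {R : Type} [CommRing R] {y : Asg V L R} {N : Multiset (Occ L V)} :
    VarOK y ({⟨v, b, Ω, Ω'⟩} + {⟨v, !b, Ω', Ω⟩} + N) ↔ PI Ω Ω' (y v b) (y v (!b)) ∧ VarOK y N := by
  rw [varOK_add, varOK_add]
  constructor
  · rintro ⟨⟨h1, -⟩, h2⟩
    exact ⟨h1 _ (Multiset.mem_singleton_self _), h2⟩
  · rintro ⟨h1, h2⟩
    refine ⟨⟨fun c hc => ?_, fun c hc => ?_⟩, h2⟩
    · rw [Multiset.mem_singleton.1 hc]; exact h1
    · rw [Multiset.mem_singleton.1 hc]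
      simpa using h1.symm

private theorem sl_map_pair {y : Asg V L B} {N : Multiset (Occ L V)} :
    (∀ c ∈ ({⟨v, b, Ω, Ω'⟩} + {⟨v, !b, Ω', Ω⟩} + N : Multiset (Occ L V)), ∀ b',
      (y c.v b').map π = x c.v b') ↔
    (y v b).map π = x v b ∧ (y v (!b)).map π = x v (!b) ∧
      ∀ c ∈ N, ∀ b', (y c.v b').map π = x c.v b' := by
  constructor
  · intro h
    have h0 := h ⟨v, b, Ω, Ω'⟩ (by simp)
    exact ⟨h0 b, h0 (!b), fun c hc => h c (Multiset.mem_add.2 (Or.inr hc))⟩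
  · rintro ⟨h1, h2, h3⟩ c hc b'
    have hv : (y v b').map π = x v b' := by
      rcases sl_bool b b' with rfl | rfl
      · exact h1
      · exact h2
    rcases Multiset.mem_add.1 hc with hc | hc
    · rcases Multiset.mem_add.1 hc with hc | hc <;> rw [Multiset.mem_singleton.1 hc] <;> exact hv
    · exact h3 c hc b'

private theorem sl_map_congr {y y' : Asg V L B} {N : Multiset (Occ L V)} (ha : Agree y' y N)
    (h : ∀ c ∈ N, ∀ b', (y' c.v b').map π = x c.v b') : ∀ c ∈ N, ∀ b', (y c.v b').map π = x c.v b' :=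
  fun c hc b' => by rw [← ha c hc b']; exact h c hc b'

private theorem sl_remove {N M : Multiset (Occ L V)}
    (h : OccOK ({⟨v, b, Ω, Ω'⟩} + {⟨v, !b, Ω', Ω⟩} + N + M)) :
    OccOK (N + M) ∧ ∀ c ∈ N + M, c.v ≠ v := by
  rw [add_assoc] at h
  exact OccOK.remove (c := ⟨v, b, Ω, Ω'⟩) h

private theorem sl_prodL {l1 l2 : List (Step O L V)} (h : Sup Ω' Ω (x v b)) :
    prodL x (l1 ++ Step.full v b Ω Ω' :: l2) = prodL x l2 * x v b * prodL x l1 := by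
  rw [prodL_append]
  congr 1
  exact congrArg (prodL x l2 * ·) (valG_full h)

private theorem sl_PL {y : Asg V L B} {l1 l2 : List (Step O L V)} {p : Matrix L L B}
    (h : Sup Ω' Ω (y v b)) :
    PL π y (l1 ++ Step.full v b Ω Ω' :: l2) p ↔
      ∃ p1 p2, PL π y l1 p1 ∧ PL π y l2 p2 ∧ p = p2 * y v b * p1 := by
  rw [PL_append]
  constructor
  · rintro ⟨p1, p2, h1, ⟨q1, q2, h2, h3, rfl⟩, rfl⟩
    rw [SL_full h] at h2
    exact ⟨p1, q2, h1, h3, by rw [h2]⟩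
  · rintro ⟨p1, p2, h1, h2, rfl⟩
    exact ⟨p1, p2 * y v b, h1, ⟨y v b, p2, (SL_full h).2 rfl, h2, rfl⟩, rfl⟩

private theorem sl_occL {l1 l2 : List (Step O L V)} (hne : Ω.Nonempty) :
    occL (l1 ++ Step.full v b Ω Ω' :: l2) = {⟨v, b, Ω, Ω'⟩} + (occL l1 + occL l2) := by
  rw [occL_append, occL_cons, occ_full_of_nonempty _ _ _ hne]
  abel

private theorem sl_gap_full {l1 l2 : List (Step O L V)} :
    (∀ s ∈ l1 ++ Step.full v b Ω Ω' :: l2, Sup s.X s.Y s.n) ↔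
      (∀ s ∈ l1, Sup s.X s.Y s.n) ∧ ∀ s ∈ l2, Sup s.X s.Y s.n := by
  constructor
  · intro h
    exact ⟨fun s hs => h s (by simp [hs]), fun s hs => h s (by simp [hs])⟩
  · rintro ⟨h1, h2⟩ s hs
    rcases List.mem_append.1 hs with hs | hs
    · exact h1 s hs
    · rcases List.mem_cons.1 hs with rfl | hs
      · exact sup_zero _ _
      · exact h2 s hs

private theorem sl_gap_append {l1 l2 : List (Step O L V)} :
    (∀ s ∈ l1 ++ l2, Sup s.X s.Y s.n) ↔ (∀ s ∈ l1, Sup s.X s.Y s.n) ∧ ∀ s ∈ l2, Sup s.X s.Y s.n :=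
  List.forall_mem_append

/-- the type and the value of one variable are changed -/
private theorem sl_revar {f f' : Face O L V} {N : Multiset (Occ L V)} {Ω1 Ω1' : Finset L}
    (hW : WF (f ::ₘ D0)) (hS : Sol x (f ::ₘ D0))
    (ho : f.occ = {⟨v, b, Ω, Ω'⟩} + {⟨v, !b, Ω', Ω⟩} + N)
    (ho' : f'.occ = {⟨v, b, Ω1, Ω1'⟩} + {⟨v, !b, Ω1', Ω1⟩} + N)
    (hseg : Seg f'.Q f'.l f'.Q) (hgap : ∀ s ∈ f'.l, Sup s.X s.Y s.n)
    {z z' : Matrix L L ℂ} (hz : PI Ω1 Ω1' z z')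
    (heqn : ∀ x' : Asg V L ℂ, Agree x x' N → x' v b = z → x' v (!b) = z' → f'.Eqn (prodL x' f'.l))
    (hlift : ∀ (y' : Asg V L B) (p' : Matrix L L B), (∀ c ∈ N, ∀ b, (y' c.v b).map π = x c.v b) →
      (y' v b).map π = z → (y' v (!b)).map π = z' → VarOK y' N → PI Ω1 Ω1' (y' v b) (y' v (!b)) →
      PL π y' f'.l p' → f'.Eqn p' →
      ∃ w w' : Matrix L L B, w.map π = x v b ∧ w'.map π = x v (!b) ∧ PI Ω Ω' w w' ∧
        ∀ y : Asg V L B, Agree y' y N → y v b = w → y v (!b) = w' → ∃ p, PL π y f.l p ∧ f.Eqn p) :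
    ∃ x', Red π x (f ::ₘ D0) x' (f' ::ₘ D0) := by
  have h1 := hW.occ
  rw [occD_cons, ho] at h1
  obtain ⟨h2, h3⟩ := sl_remove h1
  obtain ⟨x', ha, hx1, hx2⟩ := sl_asg x v b z z' h3
  obtain ⟨haN, haD⟩ := sl_agree_add ha
  have hv := (sol_cons.1 hS).1.1
  rw [ho, sl_var_pair] at hv
  refine ⟨x', Red.local1 hW hS hseg ?_ haD ?_ hgap (heqn x' haN hx1 hx2) ?_⟩
  · rw [ho', add_assoc]
    exact OccOK.add_pair (c := ⟨v, b, Ω1, Ω1'⟩) h2 h3
  · rw [ho', sl_var_pair, hx1, hx2]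
    exact ⟨hz, hv.2.congr haN⟩
  · intro y' p' hm hv' hp he
    rw [ho', sl_map_pair, hx1, hx2] at hm
    rw [ho', sl_var_pair] at hv'
    have hm' : ∀ c ∈ N, ∀ b, (y' c.v b).map π = x c.v b := fun c hc b' => by
      rw [haN c hc b']; exact hm.2.2 c hc b'
    obtain ⟨w, w', k1, k2, k3, k4⟩ := hlift y' p' hm' hm.1 hm.2.1 hv'.2 hv'.1 hp he
    obtain ⟨y, hb, hy1, hy2⟩ := sl_asg y' v b w w' h3
    obtain ⟨hbN, hbD⟩ := sl_agree_add hb
    obtain ⟨p, k5, k6⟩ := k4 y hbN hy1 hy2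
    refine ⟨y, p, hbD, ?_, ?_, k5, k6⟩
    · rw [ho, sl_map_pair, hy1, hy2]
      exact ⟨k1, k2, sl_map_congr hbN hm'⟩
    · rw [ho, sl_var_pair, hy1, hy2]
      exact ⟨k3, hv'.2.congr hbN⟩

private theorem sl_alg1 {R : Type} [CommRing R] {pP pC pR pS z z' t t' e0 eQ : Matrix L L R}
    (h1 : t = z * (pC * e0)) (h2 : z' = pC * t') (h3 : e0 * (pP * eQ) = pP * eQ) :
    pS * z' * (pR * z * (pC * pP)) * eQ = pS * (pC * t' * (pR * t * pP)) * eQ := by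
  rw [h1, h2]
  simp only [Matrix.mul_assoc]
  rw [h3]

private theorem sl_alg2 {R : Type} [CommRing R] {pP pC pR pS z z' t t' e0 : Matrix L L R}
    (h1 : t' = z' * (pC * e0)) (h2 : z = pC * t) (h3 : e0 * (pR * z) = pR * z) :
    pS * z' * (pC * pR * z * pP) = pS * t' * (pR * pC * t * pP) := by
  have h4 : pR * pC * t * pP = pR * z * pP := by rw [h2]; simp only [Matrix.mul_assoc]
  have h5 : e0 * (pR * (z * pP)) = pR * (z * pP) := by
    rw [← Matrix.mul_assoc pR z pP, ← Matrix.mul_assoc e0 (pR * z) pP, h3]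
  rw [h4, h1]
  simp only [Matrix.mul_assoc]
  rw [h5]

private theorem sl_map_mul (M N : Matrix L L B) : (M * N).map π = M.map π * N.map π :=
  Matrix.map_mul (f := (π : B →+* ℂ))

private theorem sl_map_smul (c : O) (M : Matrix L L B) :
    (algebraMap O B c • M).map π = algebraMap O ℂ c • M.map π := by
  ext i j
  simp only [Matrix.map_apply, Matrix.smul_apply, smul_eq_mul, map_mul, AlgHom.commutes]

/-- the inverse of a block absorbs the projection -/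
private theorem sl_inv {R : Type} [CommRing R] {pC c' : Matrix L L R}
    (h : PI Ω0 Ω (pC * eS R Ω0) c') : pC * c' = eS R Ω := by
  rw [← h.r, Matrix.mul_assoc, h.s2.eS_mul (Finset.Subset.refl _)]

end aux

/-- the block `C` just before `z` moves to just after `z̄` -/
theorem mv_slide {P C R S : List (Step O L V)} (hne : Ω.Nonempty)
    (hW : WF (⟨Q, u, P ++ C ++ Step.full v b Ω Ω' :: R ++ Step.full v (!b) Ω' Ω :: S⟩ ::ₘ D0))
    (hS : Sol x (⟨Q, u, P ++ C ++ Step.full v b Ω Ω' :: R ++ Step.full v (!b) Ω' Ω :: S⟩ ::ₘ D0))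
    (hP : Seg Q P ⟨Ω0, ∅⟩) :
    ∃ x' : Asg V L ℂ,
      Red π x (⟨Q, u, P ++ C ++ Step.full v b Ω Ω' :: R ++ Step.full v (!b) Ω' Ω :: S⟩ ::ₘ D0) x'
        (⟨Q, u, P ++ Step.full v b Ω0 Ω' :: R ++ Step.full v (!b) Ω' Ω0 :: C ++ S⟩ ::ₘ D0) := by
  have hs := hW.seg _ (Multiset.mem_cons_self _ _)
  obtain ⟨⟨hv, hg, he⟩, -⟩ := sol_cons.1 hS
  dsimp only at hs hg he
  obtain ⟨hs1, -, sS⟩ := seg_full.1 hs
  obtain ⟨hs2, hc, sR⟩ := seg_full.1 hs1
  obtain ⟨Q1, hs3, hs4⟩ := seg_append.1 hs2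
  have sC : Seg ⟨Ω0, ∅⟩ C ⟨Ω, ∅⟩ := hs4.triv_left (by rw [hs3.set_unique hP rfl, sl_set])
  have hc0 : Ω0.card = Ω.card := by simpa only [sl_set] using sC.card_eq
  have hne' : Ω'.Nonempty := sl_ne hne hc
  have hne0 : Ω0.Nonempty := sl_ne hne hc0.symm
  rw [sl_gap_full, sl_gap_full, sl_gap_append] at hg
  obtain ⟨⟨⟨gP, gC⟩, gR⟩, gS⟩ := hg
  have ho : Face.occ (⟨Q, u, P ++ C ++ Step.full v b Ω Ω' :: R ++ Step.full v (!b) Ω' Ω :: S⟩ : Face O L V) =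
      {⟨v, b, Ω, Ω'⟩} + {⟨v, !b, Ω', Ω⟩} + (occL P + occL C + occL R + occL S) := by
    simp only [Face.occ]
    rw [sl_occL hne', sl_occL hne, occL_append]
    abel
  rw [ho, sl_var_pair, varOK_add, varOK_add, varOK_add] at hv
  obtain ⟨hz, ⟨⟨vP, vC⟩, vR⟩, vS⟩ := hv
  obtain ⟨c', hc'⟩ := prodL_PI sC vC gC
  obtain ⟨a', ha'⟩ := prodL_PI hP vP gP
  simp only [sl_set] at hc' ha'
  refine sl_revar hW hS ho (Ω1 := Ω0) (Ω1' := Ω') ?_ ?_ ?_ (hc'.trans hz) ?_ ?_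
  · simp only [Face.occ]
    rw [occL_append, sl_occL hne', sl_occL hne0]
    abel
  · exact seg_append.2 ⟨_, seg_full.2 ⟨seg_full.2 ⟨hP, hc0.trans hc, sR⟩, (hc0.trans hc).symm, sC⟩, sS⟩
  · dsimp only
    rw [sl_gap_append, sl_gap_full, sl_gap_full]
    exact ⟨⟨⟨gP, gR⟩, gC⟩, gS⟩
  · intro x' ha hx1 hx2
    obtain ⟨ha, aS⟩ := sl_agree_add ha
    obtain ⟨ha, aR⟩ := sl_agree_add ha
    obtain ⟨aP, aC⟩ := sl_agree_add ha
    have hz' := hc'.trans hz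
    unfold Face.Eqn at he ⊢
    dsimp only at he ⊢
    rw [prodL_append, sl_prodL (by rw [hx2]; exact hz'.s2), sl_prodL (by rw [hx1]; exact hz'.s1),
      ← prodL_congr aP, ← prodL_congr aC, ← prodL_congr aR, ← prodL_congr aS, hx1, hx2]
    rw [sl_prodL hz.s2, sl_prodL hz.s1, prodL_append] at he
    rw [← sl_alg1 (z' := x v (!b)) rfl ?_ (ha'.s1.eS_mul (Finset.Subset.refl _))]
    · exact he
    · rw [← Matrix.mul_assoc, sl_inv hc', hz.s2.eS_mul (Finset.Subset.refl _)]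
  · intro y' p' hm m1 m2 hv' hy hp he'
    rw [varOK_add, varOK_add, varOK_add] at hv'
    obtain ⟨⟨⟨wP, wC⟩, wR⟩, wS⟩ := hv'
    dsimp only at hp
    obtain ⟨q, pS, hq, kS, rfl⟩ := PL_append.1 hp
    obtain ⟨q1, pC, hq1, kC, rfl⟩ := (sl_PL hy.s2).1 hq
    obtain ⟨pP, pR, kP, kR, rfl⟩ := (sl_PL hy.s1).1 hq1
    obtain ⟨d', hd'⟩ := kC.pi sC wC
    obtain ⟨b', hb'⟩ := kP.pi hP wP
    simp only [sl_set] at hd' hb'
    have mC : (pC * eS B Ω0).map π = prodL x C * eS ℂ Ω0 := by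
      rw [sl_map_mul, eS_map, kC.map fun c hc => hm c (by simp [hc])]
    have md : d'.map π = c' := hd'.map_inv hc' mC
    have hw := hd'.symm.trans hy
    refine ⟨_, _, ?_, ?_, hw, ?_⟩
    · rw [sl_map_mul, m1, md, Matrix.mul_assoc, hc'.r, hz.s1.mul_eS (Finset.Subset.refl _)]
    · rw [sl_map_mul, m2, mC, ← Matrix.mul_assoc, hc'.r, hz.s2.eS_mul (Finset.Subset.refl _)]
    · intro y ha hy1 hy2
      obtain ⟨ha, aS⟩ := sl_agree_add ha
      obtain ⟨ha, aR⟩ := sl_agree_add ha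
      obtain ⟨aP, aC⟩ := sl_agree_add ha
      refine ⟨_, (sl_PL (by rw [hy2]; exact hw.s2)).2 ⟨_, _, (sl_PL (by rw [hy1]; exact hw.s1)).2
        ⟨_, _, PL_append.2 ⟨_, _, kP.congr aP, kC.congr aC, rfl⟩, kR.congr aR, rfl⟩, kS.congr aS, rfl⟩, ?_⟩
      unfold Face.Eqn at he' ⊢
      dsimp only at he' ⊢
      rw [sl_alg1 (t := y' v b) (t' := y' v (!b)) ?_ ?_ (hb'.s1.eS_mul (Finset.Subset.refl _))]
      · exact he'
      · rw [hy1, Matrix.mul_assoc, hd'.l, hy.s1.mul_eS (Finset.Subset.refl _)]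
      · rw [hy2, Matrix.mul_assoc, hy.s2.eS_mul (Finset.Subset.refl _)]

/-- the block `C` just before `z̄` moves to just after `z` -/
theorem mv_slide' {P C R S : List (Step O L V)} (hne : Ω.Nonempty)
    (hW : WF (⟨Q, u, P ++ Step.full v b Ω Ω' :: R ++ C ++ Step.full v (!b) Ω' Ω :: S⟩ ::ₘ D0))
    (hS : Sol x (⟨Q, u, P ++ Step.full v b Ω Ω' :: R ++ C ++ Step.full v (!b) Ω' Ω :: S⟩ ::ₘ D0))
    (hR : Seg ⟨Ω', ∅⟩ R ⟨Ω0, ∅⟩) :
    ∃ x' : Asg V L ℂ,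
      Red π x (⟨Q, u, P ++ Step.full v b Ω Ω' :: R ++ C ++ Step.full v (!b) Ω' Ω :: S⟩ ::ₘ D0) x'
        (⟨Q, u, P ++ Step.full v b Ω Ω0 :: C ++ R ++ Step.full v (!b) Ω0 Ω :: S⟩ ::ₘ D0) := by
  have e1 : P ++ Step.full v b Ω Ω' :: R ++ C = P ++ Step.full v b Ω Ω' :: (R ++ C) := by simp
  have e2 : P ++ Step.full v b Ω Ω0 :: C ++ R = P ++ Step.full v b Ω Ω0 :: (C ++ R) := by simp
  rw [e1] at hW hS
  rw [e1, e2]
  have hs := hW.seg _ (Multiset.mem_cons_self _ _)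
  obtain ⟨⟨hv, hg, he⟩, -⟩ := sol_cons.1 hS
  dsimp only at hs hg he
  obtain ⟨hs1, -, sS⟩ := seg_full.1 hs
  obtain ⟨sP, hc, hs2⟩ := seg_full.1 hs1
  obtain ⟨Q1, hs3, hs4⟩ := seg_append.1 hs2
  have sC : Seg ⟨Ω0, ∅⟩ C ⟨Ω', ∅⟩ := hs4.triv_left (by rw [hs3.set_unique hR rfl, sl_set])
  have hc0 : Ω0.card = Ω'.card := by simpa only [sl_set] using sC.card_eq
  have hc1 : Ω.card = Ω0.card := hc.trans hc0.symm
  have hne' : Ω'.Nonempty := sl_ne hne hc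
  have hne0 : Ω0.Nonempty := sl_ne hne hc1
  rw [sl_gap_full, sl_gap_full, sl_gap_append] at hg
  obtain ⟨⟨gP, gR, gC⟩, gS⟩ := hg
  have ho : Face.occ (⟨Q, u, P ++ Step.full v b Ω Ω' :: (R ++ C) ++ Step.full v (!b) Ω' Ω :: S⟩ : Face O L V) =
      {⟨v, b, Ω, Ω'⟩} + {⟨v, !b, Ω', Ω⟩} + (occL P + occL C + occL R + occL S) := by
    simp only [Face.occ]
    rw [sl_occL hne', sl_occL hne, occL_append]
    abel
  rw [ho, sl_var_pair, varOK_add, varOK_add, varOK_add] at hv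
  obtain ⟨hz, ⟨⟨vP, vC⟩, vR⟩, vS⟩ := hv
  obtain ⟨c', hc'⟩ := prodL_PI sC vC gC
  obtain ⟨a', ha'⟩ := prodL_PI hR vR gR
  simp only [sl_set] at hc' ha'
  refine sl_revar hW hS ho (Ω1 := Ω) (Ω1' := Ω0) ?_ ?_ ?_ (hz.trans hc'.symm) ?_ ?_
  · simp only [Face.occ]
    rw [sl_occL hne0, sl_occL hne, occL_append]
    abel
  · exact seg_full.2 ⟨seg_full.2 ⟨sP, hc1, seg_append.2 ⟨_, sC, hR⟩⟩, hc1.symm, sS⟩
  · dsimp only
    rw [sl_gap_full, sl_gap_full, sl_gap_append]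
    exact ⟨⟨gP, gC, gR⟩, gS⟩
  · intro x' ha hx1 hx2
    obtain ⟨ha, aS⟩ := sl_agree_add ha
    obtain ⟨ha, aR⟩ := sl_agree_add ha
    obtain ⟨aP, aC⟩ := sl_agree_add ha
    have hz' := hz.trans hc'.symm
    unfold Face.Eqn at he ⊢
    dsimp only at he ⊢
    rw [sl_prodL (by rw [hx2]; exact hz'.s2), sl_prodL (by rw [hx1]; exact hz'.s1), prodL_append,
      ← prodL_congr aP, ← prodL_congr aC, ← prodL_congr aR, ← prodL_congr aS, hx1, hx2]
    rw [sl_prodL hz.s2, sl_prodL hz.s1, prodL_append] at he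
    rw [← sl_alg2 (z := x v b) rfl ?_ ?_]
    · exact he
    · rw [← Matrix.mul_assoc, sl_inv hc', hz.s1.eS_mul (Finset.Subset.refl _)]
    · rw [← hz.s1.eS_mul (Finset.Subset.refl _), ← Matrix.mul_assoc (prodL x R),
        ← Matrix.mul_assoc, ha'.s1.eS_mul (Finset.Subset.refl _)]
  · intro y' p' hm m1 m2 hv' hy hp he'
    rw [varOK_add, varOK_add, varOK_add] at hv'
    obtain ⟨⟨⟨wP, wC⟩, wR⟩, wS⟩ := hv'
    dsimp only at hp
    obtain ⟨q, pS, hq, kS, rfl⟩ := (sl_PL hy.s2).1 hp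
    obtain ⟨pP, q1, kP, hq1, rfl⟩ := (sl_PL hy.s1).1 hq
    obtain ⟨pC, pR, kC, kR, rfl⟩ := PL_append.1 hq1
    obtain ⟨d', hd'⟩ := kC.pi sC wC
    obtain ⟨b', hb'⟩ := kR.pi hR wR
    simp only [sl_set] at hd' hb'
    have mC : (pC * eS B Ω0).map π = prodL x C * eS ℂ Ω0 := by
      rw [sl_map_mul, eS_map, kC.map fun c hc => hm c (by simp [hc])]
    have md : d'.map π = c' := hd'.map_inv hc' mC
    have hw := hy.trans hd'
    refine ⟨_, _, ?_, ?_, hw, ?_⟩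
    · rw [sl_map_mul, m1, mC, ← Matrix.mul_assoc, hc'.r, hz.s1.eS_mul (Finset.Subset.refl _)]
    · rw [sl_map_mul, m2, md, Matrix.mul_assoc, hc'.r, hz.s2.mul_eS (Finset.Subset.refl _)]
    · intro y ha hy1 hy2
      obtain ⟨ha, aS⟩ := sl_agree_add ha
      obtain ⟨ha, aR⟩ := sl_agree_add ha
      obtain ⟨aP, aC⟩ := sl_agree_add ha
      refine ⟨_, (sl_PL (by rw [hy2]; exact hw.s2)).2 ⟨_, _, (sl_PL (by rw [hy1]; exact hw.s1)).2
        ⟨_, _, kP.congr aP, PL_append.2 ⟨_, _, kR.congr aR, kC.congr aC, rfl⟩, rfl⟩, kS.congr aS, rfl⟩, ?_⟩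
      unfold Face.Eqn at he' ⊢
      dsimp only at he' ⊢
      rw [sl_alg2 (t := y' v b) (t' := y' v (!b)) (e0 := eS B Ω0) ?_ ?_ ?_]
      · exact he'
      · rw [hy2, Matrix.mul_assoc, hd'.l, hy.s2.mul_eS (Finset.Subset.refl _)]
      · rw [hy1, Matrix.mul_assoc, hy.s1.eS_mul (Finset.Subset.refl _)]
      · rw [hy1, ← hw.s1.eS_mul (Finset.Subset.refl _), ← Matrix.mul_assoc pR,
          ← Matrix.mul_assoc, hb'.s1.eS_mul (Finset.Subset.refl _)]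

theorem mv_cancel (hG : Good π) {P S : List (Step O L V)} (hne : Ω.Nonempty)
    (hW : WF (⟨Q, u, P ++ Step.full v b Ω Ω' :: Step.full v (!b) Ω' Ω :: S⟩ ::ₘ D0))
    (hS : Sol x (⟨Q, u, P ++ Step.full v b Ω Ω' :: Step.full v (!b) Ω' Ω :: S⟩ ::ₘ D0)) :
    Red π x (⟨Q, u, P ++ Step.full v b Ω Ω' :: Step.full v (!b) Ω' Ω :: S⟩ ::ₘ D0) x
      (⟨Q, u, P ++ S⟩ ::ₘ D0) := by
  have e1 : Step.full v (!b) Ω' Ω :: S = ([] : List (Step O L V)) ++ Step.full v (!b) Ω' Ω :: S := rfl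
  have hs := hW.seg _ (Multiset.mem_cons_self _ _)
  obtain ⟨⟨hv, hg, he⟩, -⟩ := sol_cons.1 hS
  dsimp only at hs hg he
  obtain ⟨sP, hc, hs1⟩ := seg_full.1 hs
  rw [e1] at hs1
  obtain ⟨-, -, sS⟩ := seg_full.1 hs1
  have hne' : Ω'.Nonempty := sl_ne hne hc
  rw [sl_gap_full, e1, sl_gap_full] at hg
  obtain ⟨gP, -, gS⟩ := hg
  have ho : Face.occ (⟨Q, u, P ++ Step.full v b Ω Ω' :: Step.full v (!b) Ω' Ω :: S⟩ : Face O L V) =
      {⟨v, b, Ω, Ω'⟩} + {⟨v, !b, Ω', Ω⟩} + (occL P + occL S) := by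
    simp only [Face.occ]
    rw [sl_occL hne, e1, sl_occL hne', occL_nil]
    abel
  have ho' : Face.occ (⟨Q, u, P ++ S⟩ : Face O L V) = occL P + occL S := occL_append _ _
  have h1 := hW.occ
  rw [occD_cons, ho] at h1
  obtain ⟨h2, h3⟩ := sl_remove h1
  rw [ho, sl_var_pair] at hv
  obtain ⟨hz, hvN⟩ := hv
  have alg : ∀ {R : Type} [CommRing R] {pP pS z z' a' : Matrix L L R}, PI Ω Ω' z z' →
      PI Q.set Ω (pP * eS R Q.set) a' → pS * z' * 1 * z * pP * eS R Q.set = pS * pP * eS R Q.set := by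
    intro R _ pP pS z z' a' k1 k2
    rw [Matrix.mul_one, Matrix.mul_assoc pS, k1.l]
    simp only [Matrix.mul_assoc]
    rw [k2.s1.eS_mul (Finset.Subset.refl _)]
  refine Red.local1 hW hS (seg_append.2 ⟨_, sP, sS⟩) (ho' ▸ h2) (fun _ _ _ => rfl) (ho' ▸ hvN)
    (sl_gap_append.2 ⟨gP, gS⟩) ?_ ?_
  · obtain ⟨a', ha'⟩ := prodL_PI sP (varOK_add.1 hvN).1 gP
    simp only [sl_set] at ha'
    unfold Face.Eqn at he ⊢
    dsimp only at he ⊢
    rw [sl_prodL hz.s1, e1, sl_prodL hz.s2] at he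
    rw [prodL_append, ← alg hz ha']
    exact he
  · intro y' p' hm hv' hp he'
    rw [ho'] at hm hv'
    obtain ⟨w, w', m1, m2, hw⟩ := hz.lift hG
    obtain ⟨y, ha, hy1, hy2⟩ := sl_asg y' v b w w' h3
    obtain ⟨aN, aD⟩ := sl_agree_add ha
    obtain ⟨aP, aS⟩ := sl_agree_add aN
    obtain ⟨pP, pS, kP, kS, rfl⟩ := PL_append.1 hp
    obtain ⟨a', ha'⟩ := kP.pi sP (varOK_add.1 hv').1
    simp only [sl_set] at ha'
    have k0 : PL π y ([] ++ Step.full v (!b) Ω' Ω :: S) (pS * y v (!b) * 1) :=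
      (sl_PL (by rw [hy2]; exact hw.s2)).2 ⟨_, _, rfl, kS.congr aS, rfl⟩
    refine ⟨y, _, aD, ?_, ?_, (sl_PL (by rw [hy1]; exact hw.s1)).2 ⟨_, _, kP.congr aP, k0, rfl⟩, ?_⟩
    · rw [ho, sl_map_pair, hy1, hy2]
      exact ⟨m1, m2, sl_map_congr aN hm⟩
    · rw [ho, sl_var_pair, hy1, hy2]
      exact ⟨hw, hv'.congr aN⟩
    · unfold Face.Eqn at he' ⊢
      dsimp only at he' ⊢
      rw [hy1, hy2, alg hw ha']
      exact he'

theorem mv_merge {Q2 : St L} {u2 : Oˣ} {A C : List (Step O L V)} (hne : Ω.Nonempty)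
    (hW : WF (⟨Q, u, A ++ [Step.full v b Ω Ω']⟩ ::ₘ ⟨Q2, u2, C ++ [Step.full v (!b) Ω' Ω]⟩ ::ₘ D0))
    (hS : Sol x (⟨Q, u, A ++ [Step.full v b Ω Ω']⟩ ::ₘ ⟨Q2, u2, C ++ [Step.full v (!b) Ω' Ω]⟩ ::ₘ D0)) :
    Red π x (⟨Q, u, A ++ [Step.full v b Ω Ω']⟩ ::ₘ ⟨Q2, u2, C ++ [Step.full v (!b) Ω' Ω]⟩ ::ₘ D0) x
      (⟨Q, u * u2, A ++ C⟩ ::ₘ D0) := by
  have hs := hW.seg _ (Multiset.mem_cons_self _ _)
  have hs' := hW.seg _ (Multiset.mem_cons_of_mem (Multiset.mem_cons_self _ _))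
  obtain ⟨⟨hv, hg, he⟩, hS'⟩ := sol_cons.1 hS
  obtain ⟨⟨hv2, hg2, he2⟩, -⟩ := sol_cons.1 hS'
  dsimp only at hs hs' hg he hg2 he2
  obtain ⟨sA, hc, l1⟩ := seg_full.1 hs
  obtain ⟨sC, -, l2⟩ := seg_full.1 hs'
  have l1' : (⟨Ω', ∅⟩ : St L).le Q := l1
  have l2' : (⟨Ω, ∅⟩ : St L).le Q2 := l2
  have eQ : Q.set = Ω' := by rw [← l1'.1, sl_set]
  have eQ2 : Q2.set = Ω := by rw [← l2'.1, sl_set]
  have hne' : Ω'.Nonempty := sl_ne hne hc
  have gA := (sl_gap_full.1 hg).1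
  have gC := (sl_gap_full.1 hg2).1
  have o1 : Face.occ (⟨Q, u, A ++ [Step.full v b Ω Ω']⟩ : Face O L V) = {⟨v, b, Ω, Ω'⟩} + occL A := by
    simp only [Face.occ]
    rw [sl_occL hne, occL_nil, add_zero]
  have o2 : Face.occ (⟨Q2, u2, C ++ [Step.full v (!b) Ω' Ω]⟩ : Face O L V) =
      {⟨v, !b, Ω', Ω⟩} + occL C := by
    simp only [Face.occ]
    rw [sl_occL hne', occL_nil, add_zero]
  set f1 : Face O L V := ⟨Q, u, A ++ [Step.full v b Ω Ω']⟩ with hf1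
  set f2 : Face O L V := ⟨Q2, u2, C ++ [Step.full v (!b) Ω' Ω]⟩ with hf2
  set f' : Face O L V := ⟨Q, u * u2, A ++ C⟩ with hf'
  have ho : occD (f1 ::ₘ {f2}) = {⟨v, b, Ω, Ω'⟩} + {⟨v, !b, Ω', Ω⟩} + (occL A + occL C) := by
    rw [occD_cons, occD_singleton, o1, o2]
    abel
  have ho' : occD ({f'} : Diag O L V) = occL A + occL C := by
    rw [occD_singleton]; exact occL_append _ _
  have e1 : f1 ::ₘ f2 ::ₘ D0 = (f1 ::ₘ {f2}) + D0 := by
    rw [Multiset.cons_add, Multiset.singleton_add]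
  have e2 : f' ::ₘ D0 = {f'} + D0 := (Multiset.singleton_add _ _).symm
  rw [o1, varOK_add] at hv
  rw [o2, varOK_add] at hv2
  have hz : PI Ω Ω' (x v b) (x v (!b)) := hv.1 _ (Multiset.mem_singleton_self _)
  rw [e1] at hW hS
  have h1 := hW.occ
  rw [occD_add, ho] at h1
  obtain ⟨h2, h3⟩ := sl_remove h1
  obtain ⟨a', ha'⟩ := prodL_PI sA hv.2 gA
  obtain ⟨c', hc'⟩ := prodL_PI sC hv2.2 gC
  simp only [sl_set, eQ, eQ2] at ha' hc'
  unfold Face.Eqn at he he2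
  simp only [hf1, hf2] at he he2
  rw [sl_prodL hz.s1, eQ] at he
  rw [sl_prodL hz.s2, eQ2] at he2
  have p0 : prodL x ([] : List (Step O L V)) = 1 := rfl
  rw [p0, Matrix.one_mul, Matrix.mul_assoc] at he he2
  have z1 : x v (!b) = algebraMap O ℂ (u : O) • (prodL x A * eS ℂ Ω') := by
    have := congrArg (x v (!b) * ·) he
    simp only [Matrix.mul_smul] at this
    rw [← Matrix.mul_assoc, hz.l, ha'.s1.eS_mul (Finset.Subset.refl _),
      hz.s2.mul_eS (Finset.Subset.refl _)] at this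
    exact this.symm
  have z2 : x v b = algebraMap O ℂ (u2 : O) • (prodL x C * eS ℂ Ω) := by
    have := congrArg (x v b * ·) he2
    simp only [Matrix.mul_smul] at this
    rw [← Matrix.mul_assoc, hz.r, hc'.s1.eS_mul (Finset.Subset.refl _),
      hz.s1.mul_eS (Finset.Subset.refl _)] at this
    exact this.symm
  have alg : ∀ {R : Type} [CommRing R] [Algebra O R] {pA pC a' : Matrix L L R},
      PI Ω' Ω (pA * eS R Ω') a' →
      (algebraMap O R (u2 : O) • (pC * eS R Ω)) * (algebraMap O R (u : O) • (pA * eS R Ω')) =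
        algebraMap O R ((u * u2 : Oˣ) : O) • (pC * pA * eS R Ω') := by
    intro R _ _ pA pC a' k
    rw [Matrix.smul_mul, Matrix.mul_smul, smul_smul, Matrix.mul_assoc,
      k.s1.eS_mul (Finset.Subset.refl _), Matrix.mul_assoc, Units.val_mul, map_mul, mul_comm]
  rw [e1, e2]
  refine Red.local hW hS ?_ (ho' ▸ h2) (fun _ _ _ => rfl) ?_ ?_
  · intro f hf
    rw [Multiset.mem_singleton.1 hf]
    exact seg_append.2 ⟨_, sA, (sC.triv_left eQ2).mono_right l1'⟩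
  · refine ⟨ho' ▸ varOK_add.2 ⟨hv.2, hv2.2⟩, fun f hf => ?_, fun f hf => ?_⟩
    · rw [Multiset.mem_singleton.1 hf]
      exact sl_gap_append.2 ⟨gA, gC⟩
    · rw [Multiset.mem_singleton.1 hf]
      unfold Face.Eqn
      simp only [hf']
      rw [prodL_append, eQ, ← alg ha', ← z1, ← z2, hz.r]
  · intro y' hm hv' hp
    rw [ho'] at hm hv'
    obtain ⟨p', hp, he'⟩ := hp f' (Multiset.mem_singleton_self _)
    obtain ⟨pA, pC, kA, kC, rfl⟩ := PL_append.1 hp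
    obtain ⟨d', hd'⟩ := kA.pi sA (varOK_add.1 hv').1
    obtain ⟨g', hg'⟩ := kC.pi sC (varOK_add.1 hv').2
    simp only [sl_set, eQ, eQ2] at hd' hg'
    unfold Face.Eqn at he'
    simp only [hf'] at he'
    rw [eQ, ← alg hd'] at he'
    have hw := hd'.smul u
    have hw1 := hw.eq_of_mul_left (hg'.s1.smul _) he'
    have m2 : (algebraMap O B (u : O) • (pA * eS B Ω')).map π = x v (!b) := by
      rw [sl_map_smul, sl_map_mul, eS_map, kA.map fun c hc => hm c (by simp [hc]), z1]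
    have m1 := hw.map_inv hz.symm m2
    obtain ⟨y, ha, hy1, hy2⟩ := sl_asg y' v b _ _ h3
    obtain ⟨aN, aD⟩ := sl_agree_add ha
    obtain ⟨aA, aC⟩ := sl_agree_add aN
    have hy : PI Ω Ω' (y v b) (y v (!b)) := by rw [hy1, hy2]; exact hw.symm
    refine ⟨y, aD, ?_, ?_, ?_⟩
    · rw [ho, sl_map_pair, hy1, hy2]
      exact ⟨m1, m2, sl_map_congr aN hm⟩
    · rw [ho, sl_var_pair]
      exact ⟨hy, hv'.congr aN⟩
    · intro f hf
      rcases Multiset.mem_cons.1 hf with rfl | hf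
      · refine ⟨_, (sl_PL hy.s1).2 ⟨_, 1, kA.congr aA, rfl, rfl⟩, ?_⟩
        unfold Face.Eqn
        simp only [hf1]
        rw [eQ, Matrix.one_mul, Matrix.mul_assoc, ← Matrix.mul_smul, ← hy2, hy.r]
      · rw [Multiset.mem_singleton.1 hf]
        refine ⟨_, (sl_PL hy.s2).2 ⟨_, 1, kC.congr aC, rfl, rfl⟩, ?_⟩
        unfold Face.Eqn
        simp only [hf2]
        rw [eQ2, Matrix.one_mul, Matrix.mul_assoc, ← Matrix.mul_smul, hw1, ← hy1, hy.l]

end Crest.Agent.R3
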