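import Crest.Agent.R3.SurfW

/-!
# R3 / SurfL : a lift of the solution of the diagram is a lift of the point of the punctured surface

If `ι` is empty everything is trivial.  Otherwise the handles and the `g_j` occur in the main face; `VarOK`
(`PI univ univ`) makes their lifts units.  Let `γ j k` (`0 ≤ k ≤ N`) be the lifted gap of `pstep j k` and
`ñ j = ∑ k ≤ N, ξ k • γ j k`.  It is `Nil` and lifts `n j = ∑ k, e_{lvl k} n e_{up (k+1)}`.  By downward induction on `k`
the value of `pstep j k` is `e_{up k} (dg ξ + ñ j) e_{up k}`, and the equation of `ssub j k` says that this value (for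
`k + 1`) is `blk y (inr (j, k+1), false)`.  For the main face use `PL_reverse`.
-/

set_option autoImplicit false

noncomputable section

open Matrix

namespace Crest.Agent.R3

variable {O ι : Type} [CommRing O] [Algebra O ℂ] [Fintype ι] [DecidableEq ι]
variable {B : Type} [CommRing B] [Algebra O B] {π : B →ₐ[O] ℂ}
variable {g s : ℕ} {η : Oˣ} {P : Fin s → Punc O ι} {N : ℕ}

theorem surfL_flat {α V : Type} {y : Asg V ι B} (f : α → List (Step O ι V)) {l : List α} (hl : l.Nodup) :
    ∀ p, PL π y (l.flatMap f).reverse p →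
      ∃ F : α → Matrix ι ι B, (∀ a ∈ l, PL π y (f a).reverse (F a)) ∧ p = (l.map F).prod := by
  classical
  induction l with
  | nil => exact fun p hp => ⟨fun _ => 1, fun a ha => absurd ha List.not_mem_nil, hp⟩
  | cons a l ih =>
    intro p hp
    rw [List.flatMap_cons, List.reverse_append, PL_append] at hp
    obtain ⟨p1, p2, h1, h2, rfl⟩ := hp
    obtain ⟨ha, hl⟩ := List.nodup_cons.1 hl
    obtain ⟨F, hF, rfl⟩ := ih hl p1 h1
    have e : ∀ b ∈ l, Function.update F a p2 b = F b := fun b hb =>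
      Function.update_of_ne (fun h : b = a => ha (h ▸ hb)) _ _
    refine ⟨Function.update F a p2, fun b hb => ?_, ?_⟩
    · rcases List.mem_cons.1 hb with rfl | hb
      · rwa [Function.update_self]
      · rw [e b hb]
        exact hF b hb
    · rw [List.map_cons, List.prod_cons, Function.update_self, List.map_congr_left e]

theorem surfL_val (y : Asg (SV g s) ι B) (Q : Punc O ι) (j : Fin s) (k : ℕ) (n : Matrix ι ι ℂ)
    {γ : Matrix ι ι B} (hγ : Sup (Q.lvl k) (Q.up (k + 1)) γ) :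
    (pstep Q j k n : Step O ι (SV g s)).valG y γ = algebraMap O B (Q.ξ k : O) • (eS B (Q.lvl k) + γ) +
      blk y (some (Sum.inr (j, k + 1), false)) (Q.up (k + 1)) (Q.up (k + 1)) := by
  have hY : Sup (Q.up (k + 1)) (Q.up (k + 1))
      (blk y (some (Sum.inr (j, k + 1), false)) (Q.up (k + 1)) (Q.up (k + 1))) := sup_sandwich _ _ _
  change dg B (fun i => if Q.lev i = k then Q.ξ k else 1) * (eS B (Q.lvl k) +
    blk y (some (Sum.inr (j, k + 1), false)) (Q.up (k + 1)) (Q.up (k + 1))) *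
    (eS B (Q.lvl k ∪ Q.up (k + 1)) + γ) = _
  generalize blk y (some (Sum.inr (j, k + 1), false)) (Q.up (k + 1)) (Q.up (k + 1)) = Y at *
  have h1 : Sup (Q.lvl k) Finset.univ (eS B (Q.lvl k) + γ) :=
    ((sup_eS _).mono subset_rfl (Finset.subset_univ _)).add (hγ.mono subset_rfl (Finset.subset_univ _))
  rw [Matrix.mul_assoc, Matrix.add_mul, Matrix.mul_add (eS B (Q.lvl k)), Matrix.mul_add Y,
    eS_mul_of_subset Finset.subset_union_left, hγ.eS_mul subset_rfl, hY.mul_eS Finset.subset_union_right,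
    hY.mul_eq_zero hγ (Q.disjoint_lvl_up k).symm, add_zero, Matrix.mul_add,
    h1.dg_mul_const (c := Q.ξ k) fun i hi => if_pos (Finset.mem_filter.1 hi).2,
    hY.dg_mul_const (c := 1) fun i hi => if_neg (by have := (Finset.mem_filter.1 hi).2; omega)]
  simp

theorem surfL_sub {y : Asg (SV g s) ι B} {n : Fin s → Matrix ι ι ℂ} {j : Fin s} {k : ℕ}
    (hv : VarOK y (ssub g P n j k).occ) {p : Matrix ι ι B} (hp : PL π y (ssub g P n j k).l p)
    (he : (ssub g P n j k).Eqn p) : ∃ γ : Matrix ι ι B,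
      γ.map π = (pstep (P j) j (k + 1) (n j) : Step O ι (SV g s)).n ∧
      Sup ((P j).lvl (k + 1)) ((P j).up (k + 1 + 1)) γ ∧
      blk y (some (Sum.inr (j, k + 1), false)) ((P j).up (k + 1)) ((P j).up (k + 1)) =
        (pstep (P j) j (k + 1) (n j) : Step O ι (SV g s)).valG y γ := by
  obtain ⟨_, p2, ⟨γ, h1, h2, rfl⟩, h3, rfl⟩ := hp
  refine ⟨γ, h1, h2, ?_⟩
  have hU := (P j).lvl_union_up (k + 1)
  have a1 : (P j).lvl (k + 1) ⊆ (P j).up (k + 1) := hU ▸ Finset.subset_union_left
  have a2 : (P j).up (k + 1 + 1) ⊆ (P j).up (k + 1) := hU ▸ Finset.subset_union_right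
  have hS : Sup ((P j).up (k + 1)) ((P j).up (k + 1))
      ((pstep (P j) j (k + 1) (n j) : Step O ι (SV g s)).valG y γ) := by
    rw [surfL_val y _ _ _ _ h2]
    exact ((((sup_eS _).mono a1 a1).add (Sup.mono h2 a1 a2)).smul _).add ((sup_sandwich _ _ _).mono a2 a2)
  rcases ((P j).up (k + 1)).eq_empty_or_nonempty with h0 | h0
  · rw [hS.eq_zero (Or.inl h0), h0, blk_empty]
  · have hI : PI ((P j).up (k + 1)) ((P j).up (k + 1)) (y (Sum.inr (j, k + 1)) true)
        (y (Sum.inr (j, k + 1)) false) :=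
      hv ⟨Sum.inr (j, k + 1), true, _, _⟩ (mem_occL.2 ⟨_, List.mem_cons_of_mem _ List.mem_cons_self, by
        rw [occ_full_of_nonempty _ _ _ h0]
        exact Multiset.mem_singleton_self _⟩)
    rw [PL_single, SL_full hI.s1] at h3
    subst h3
    have e : (ssub g P n j k).Q.set = (P j).up (k + 1) := Finset.union_empty _
    rw [Face.Eqn, e, show (ssub g P n j k).u = 1 from rfl, Units.val_one, map_one, one_smul, Matrix.mul_assoc,
      hS.mul_eS subset_rfl] at he
    rw [blk_some hI.s2, hI.eq_of_mul_right hS he]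

theorem surfL_punc {y : Asg (SV g s) ι B} {Q : Punc O ι} {j : Fin s} {n : Matrix ι ι ℂ} (hN : ∀ i, Q.lev i ≤ N)
    (hn : Q.Nil n) (γ : ℕ → Matrix ι ι B)
    (h1 : ∀ k ≤ N, (γ k).map π = (pstep Q j k n : Step O ι (SV g s)).n)
    (h2 : ∀ k ≤ N, Sup (Q.lvl k) (Q.up (k + 1)) (γ k))
    (h3 : ∀ k < N, blk y (some (Sum.inr (j, k + 1), false)) (Q.up (k + 1)) (Q.up (k + 1)) =
      (pstep Q j (k + 1) n : Step O ι (SV g s)).valG y (γ (k + 1))) :
    ∃ n' : Matrix ι ι B, n'.map π = n ∧ Q.Nil n' ∧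
      (pstep Q j 0 n : Step O ι (SV g s)).valG y (γ 0) = dg B (fun i => Q.ξ (Q.lev i)) + n' := by
  have key : ∀ m ≤ N, (pstep Q j 0 n : Step O ι (SV g s)).valG y (γ 0) =
      ∑ k ∈ Finset.range (m + 1), algebraMap O B (Q.ξ k : O) • (eS B (Q.lvl k) + γ k) +
        blk y (some (Sum.inr (j, m + 1), false)) (Q.up (m + 1)) (Q.up (m + 1)) := by
    intro m
    induction m with
    | zero => intro h; rw [surfL_val y _ _ _ _ (h2 0 h), Finset.sum_range_one]
    | succ m ih =>
      intro h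
      rw [ih (by omega), h3 m h, surfL_val y _ _ _ _ (h2 _ h), Finset.sum_range_succ _ (m + 1)]
      exact (add_assoc _ _ _).symm
  have hz : ∀ i l, ∀ k ∈ Finset.range (N + 1), k ≠ Q.lev i → γ k i l = 0 := fun i l k hk hne =>
    h2 k (Nat.lt_succ_iff.1 (Finset.mem_range.1 hk)) i l fun h => hne (Finset.mem_filter.1 h.1).2.symm
  have hs : ∀ i l, (∑ k ∈ Finset.range (N + 1), algebraMap O B (Q.ξ k : O) • γ k) i l =
      algebraMap O B (Q.ξ (Q.lev i) : O) * γ (Q.lev i) i l := fun i l => by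
    rw [Matrix.sum_apply, Finset.sum_eq_single_of_mem (Q.lev i) (Finset.mem_range.2 (Nat.lt_succ_of_le (hN i)))
      fun k hk hne => by rw [Matrix.smul_apply, hz i l k hk hne, smul_zero]]
    rfl
  refine ⟨∑ k ∈ Finset.range (N + 1), algebraMap O B (Q.ξ k : O) • γ k, ?_, fun i l h => ?_, ?_⟩
  · ext i l
    have e := congrFun (congrFun (h1 _ (hN i)) i) l
    rw [Matrix.map_apply] at e
    rw [Matrix.map_apply, hs, map_mul, AlgHom.commutes, e]
    change _ * (algebraMap O ℂ (((Q.ξ (Q.lev i))⁻¹ : Oˣ) : O) *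
      (eS ℂ (Q.lvl (Q.lev i)) * n * eS ℂ (Q.up (Q.lev i + 1))) i l) = _
    rw [← mul_assoc, ← map_mul, Units.mul_inv, map_one, one_mul, mat_mul_eS, mat_eS_mul,
      if_pos (show i ∈ Q.lvl (Q.lev i) from Finset.mem_filter.2 ⟨Finset.mem_univ _, rfl⟩)]
    split_ifs with h
    · rfl
    · exact (hn i l fun h' => h (Finset.mem_filter.2 ⟨Finset.mem_univ _, h'⟩)).symm
  · rw [hs, h2 _ (hN i) i l fun h' => h (Finset.mem_filter.1 h'.2).2, mul_zero]
  · have e : Q.up (N + 1) = ∅ := Finset.filter_eq_empty_iff.2 fun i _ => by have := hN i; omega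
    rw [key N le_rfl, e, blk_empty, add_zero]
    simp only [smul_add, Finset.sum_add_distrib]
    congr 1
    ext i l
    rw [Matrix.sum_apply, Finset.sum_eq_single_of_mem (Q.lev i) (Finset.mem_range.2 (Nat.lt_succ_of_le (hN i)))
      fun k _ hne => by
        rw [Matrix.smul_apply, sup_eS _ i l fun h => hne (Finset.mem_filter.1 h.1).2.symm, smul_zero]]
    simp only [Matrix.smul_apply, eS, dg, diagonal_apply, Punc.lvl, Finset.mem_filter, Finset.mem_univ, true_and,
      if_true, smul_eq_mul, mul_ite, mul_one, mul_zero]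

theorem sdiag_lift {T : Rep g ι ℂ} {c : Fin s → GLm ι ℂ × Matrix ι ι ℂ} (hN : ∀ j i, (P j).lev i ≤ N)
    (hn : ∀ j, (P j).Nil (c j).2) {x : Asg (SV g s) ι ℂ} (hx : SAsg x T (fun j => (c j).1))
    (hl : Lift π x (sdiag g η P (fun j => (c j).2) N)) : SurfL π η P T c := by
  rcases isEmpty_or_nonempty ι with h0 | h0
  · exact ⟨fun _ => (1, 1), fun _ => (1, 0),
      funext fun _ => Prod.ext (Units.ext (Subsingleton.elim _ _)) (Units.ext (Subsingleton.elim _ _)),
      fun _ => ⟨Units.ext (Subsingleton.elim _ _), Subsingleton.elim _ _⟩, fun _ _ _ _ => rfl,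
      Subsingleton.elim _ _⟩
  obtain ⟨y, hy, hv, hf⟩ := hl
  have hm : smain g η P (fun j => (c j).2) ∈ sdiag g η P (fun j => (c j).2) N := mem_sdiag.2 (Or.inl rfl)
  have hu : ∀ v : SV g s, Step.full v false Finset.univ Finset.univ ∈ sfac P (fun j => (c j).2) →
      ∃ u : GLm ι B, (u : Matrix ι ι B) = y v false ∧ ((u⁻¹ : GLm ι B) : Matrix ι ι B) = y v true ∧
        (u : Matrix ι ι B).map π = x v false := fun v h => by
    have h1 : (⟨v, false, Finset.univ, Finset.univ⟩ : Occ ι (SV g s)) ∈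
        occD (sdiag g η P (fun j => (c j).2) N) :=
      mem_occD.2 ⟨_, hm, mem_occL.2 ⟨_, List.mem_reverse.2 h, by
        rw [occ_full_of_nonempty _ _ _ Finset.univ_nonempty]
        exact Multiset.mem_singleton_self _⟩⟩
    exact ⟨⟨y v false, y v true, (hv _ h1).r.trans eS_univ, (hv _ h1).l.trans eS_univ⟩, rfl, rfl, hy _ h1 false⟩
  choose a a1 a2 a3 using fun i : Fin g => hu (Sum.inl (i, false))
    (List.mem_append_left _ (List.mem_flatMap.2 ⟨i, List.mem_finRange i, List.mem_cons_self⟩))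
  choose b b1 b2 b3 using fun i : Fin g => hu (Sum.inl (i, true))
    (List.mem_append_left _ (List.mem_flatMap.2
      ⟨i, List.mem_finRange i, List.mem_cons_of_mem _ List.mem_cons_self⟩))
  choose G G1 G2 G3 using fun j : Fin s => hu (Sum.inr (j, 0))
    (List.mem_append_right _ (List.mem_flatMap.2 ⟨j, List.mem_finRange j, List.mem_cons_self⟩))
  obtain ⟨p, hp, he⟩ := hf _ hm
  rw [show (smain g η P fun j => (c j).2).l = (sfac P fun j => (c j).2).reverse from rfl, sfac,
    List.reverse_append, PL_append] at hp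
  obtain ⟨p1, p2, h1, h2, rfl⟩ := hp
  obtain ⟨F1, hF1, rfl⟩ := surfL_flat _ (List.nodup_finRange s) p1 h1
  obtain ⟨F2, hF2, rfl⟩ := surfL_flat _ (List.nodup_finRange g) p2 h2
  have k2 : ∀ i, F2 i = ((comm (a i, b i) : GLm ι B) : Matrix ι ι B) := fun i => by
    obtain ⟨_, _, q4, ⟨_, _, q3, ⟨_, _, q2, ⟨_, _, q1, rfl, rfl⟩, rfl⟩, rfl⟩, e⟩ := hF2 i (List.mem_finRange i)
    rw [SL_full (sup_univ _)] at q1 q2 q3 q4
    simp only [e, q1, q2, q3, q4, comm, Units.val_mul, a1, a2, b1, b2, Matrix.one_mul]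
  have k1 : ∀ j, ∃ n' : Matrix ι ι B, n'.map π = (c j).2 ∧ (P j).Nil n' ∧ F1 j = (P j).val (G j, n') := by
    intro j
    obtain ⟨_, _, q3, ⟨_, _, ⟨γ0, r1, r2, q2⟩, ⟨_, _, q1, rfl, rfl⟩, rfl⟩, e⟩ := hF1 j (List.mem_finRange j)
    rw [SL_full (sup_univ _)] at q1 q3
    have hs : ∀ k, ∃ γ : Matrix ι ι B, k < N →
        γ.map π = (pstep (P j) j (k + 1) (c j).2 : Step O ι (SV g s)).n ∧
        Sup ((P j).lvl (k + 1)) ((P j).up (k + 1 + 1)) γ ∧
        blk y (some (Sum.inr (j, k + 1), false)) ((P j).up (k + 1)) ((P j).up (k + 1)) =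
          (pstep (P j) j (k + 1) (c j).2 : Step O ι (SV g s)).valG y γ := fun k => by
      by_cases hk : k < N
      · have h3 := mem_sdiag (g := g) (η := η) (P := P) (n := fun j => (c j).2).2 (Or.inr ⟨j, k, hk, rfl⟩)
        obtain ⟨p, hp, he⟩ := hf _ h3
        exact (surfL_sub (hv.mono fun c hc => mem_occD.2 ⟨_, h3, hc⟩) hp he).imp fun _ h _ => h
      · exact ⟨0, fun h => absurd h hk⟩
    choose γ hγ using hs
    obtain ⟨n', t1, t2, t3⟩ := surfL_punc (y := y) (j := j) (hN j) (hn j) (fun k => Nat.casesOn k γ0 γ)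
      (fun k hk => by
        cases k with
        | zero => exact r1
        | succ k => exact (hγ k hk).1)
      (fun k hk => by
        cases k with
        | zero => exact r2
        | succ k => exact (hγ k hk).2.1) fun k hk => (hγ k hk).2.2
    refine ⟨n', t1, t2, ?_⟩
    rw [e, Punc.val, ← t3, G1, G2, q1, q2, q3, Matrix.one_mul]
    rfl
  choose n' t1 t2 t3 using k1
  refine ⟨fun i => (a i, b i), fun j => (G j, n' j), funext fun i => Prod.ext
    (Units.ext ((a3 i).trans (hx.1 i).1)) (Units.ext ((b3 i).trans (hx.1 i).2.2.1)),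
    fun j => ⟨Units.ext ((G3 j).trans (hx.2 j).1), t1 j⟩, t2, ?_⟩
  have e1 : ((rel fun i => (a i, b i) : GLm ι B) : Matrix ι ι B) = ((List.finRange g).map F2).prod := by
    rw [rel, List.ofFn_eq_map, List.map_map, funext k2]
    exact (map_list_prod (Units.coeHom (Matrix ι ι B)) _).trans (by rw [List.map_map]; rfl)
  have e2 : (smain g η P fun j => (c j).2).Q.set = Finset.univ := Finset.union_empty _
  rw [Face.Eqn, e2, eS_univ, Matrix.mul_one] at he
  rw [e1, List.ofFn_eq_map, ← funext t3]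
  have e3 := congrArg (fun M => algebraMap O B (η : O) • M) he
  simp only [smul_smul] at e3
  rw [show (smain g η P fun j => (c j).2).u = η⁻¹ from rfl, ← map_mul, Units.mul_inv, map_one, one_smul,
    algebraMap_smul] at e3
  rw [e3, ← Algebra.algebraMap_eq_smul_one]
  rfl

end Crest.Agent.R3
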