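import Crest.Agent.R3.SurfS
import Crest.Agent.R3.SurfL

/-!
# R3 / Surf : punctured surfaces

`surf_all`: if `ι` is empty everything is trivial.  Otherwise shift the levels of each puncture so that the minimal
level is `0` (`lev' i = lev i - m`, `ξ' k = ξ (k + m)`; `Nil` and `val` do not change, over any ring).  If some level
is non-zero use `surf_RR`.  Otherwise all `n j = 0`, `val` is the scalar `ξ' 0`, `rel T = scalU (η * ∏ (ξ' j 0)⁻¹)`; use
`QL` and `GL_lift`.
-/

set_option autoImplicit false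
set_option linter.unusedSectionVars false

noncomputable section

open Matrix

namespace Crest.Agent.R3

variable {O ι : Type} [CommRing O] [Algebra O ℂ] [Fintype ι] [DecidableEq ι]
variable {B : Type} [CommRing B] [Algebra O B] {π : B →ₐ[O] ℂ}
variable {g s : ℕ} {η : Oˣ} {P : Fin s → Punc O ι}

theorem surf_RR (hR : RR π ι (Fintype.card ι)) (h0 : ∀ j, ∃ i, (P j).lev i = 0)
    (h1 : ∃ j i, (P j).lev i ≠ 0) {T : Rep g ι ℂ} {c : Fin s → GLm ι ℂ × Matrix ι ι ℂ}
    (h : SurfEq η P T c) : SurfL π η P T c := by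
  classical
  have hN : ∀ j i, (P j).lev i ≤ Finset.univ.sup fun q : Fin s × ι => (P q.1).lev q.2 :=
    fun j i => Finset.le_sup (f := fun q : Fin s × ι => (P q.1).lev q.2) (Finset.mem_univ (j, i))
  obtain ⟨x, hx, hs⟩ := sdiag_sol hN h
  exact sdiag_lift hN h.1 hx (hR _ _ x (sdiag_wf hN) sdiag_size (sdiag_single h0 h1) hs)

/-- shift of the levels -/
def surfSh (P : Punc O ι) (m : ℕ) : Punc O ι := ⟨fun i => P.lev i - m, fun k => P.ξ (k + m)⟩

theorem surf_sh_eq {R : Type} [CommRing R] [Algebra O R] {m : Fin s → ℕ} (hm : ∀ j i, m j ≤ (P j).lev i)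
    {T : Rep g ι R} {c : Fin s → GLm ι R × Matrix ι ι R} :
    SurfEq η (fun j => surfSh (P j) (m j)) T c ↔ SurfEq η P T c := by
  have h1 : ∀ j (n : Matrix ι ι R), (surfSh (P j) (m j)).Nil n ↔ (P j).Nil n := fun j n =>
    forall₂_congr fun i i' => imp_congr_left (not_congr (tsub_lt_tsub_iff_right (hm j i)))
  have h2 : ∀ j (p : GLm ι R × Matrix ι ι R), (surfSh (P j) (m j)).val p = (P j).val p := by
    intro j p
    unfold Punc.val surfSh
    simp only [Nat.sub_add_cancel (hm j _)]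
  unfold SurfEq
  simp only [h1, h2]

theorem surf_const_eq {R : Type} [CommRing R] [Algebra O R] {k : Fin s → ℕ} (hk : ∀ j i, (P j).lev i = k j)
    {T : Rep g ι R} {c : Fin s → GLm ι R × Matrix ι ι R} :
    SurfEq η P T c ↔ (∀ j, (c j).2 = 0) ∧ rel T = scalU ι R (η * (∏ j, (P j).ξ (k j))⁻¹) := by
  have h1 : ∀ j (n : Matrix ι ι R), (P j).Nil n ↔ n = 0 := fun j n =>
    ⟨fun h => Matrix.ext fun i i' => h i i' (by rw [hk, hk]; exact lt_irrefl _), fun h i i' _ => by rw [h]; rfl⟩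
  unfold SurfEq
  simp only [h1]
  refine and_congr_right fun hc => ?_
  have h2 : ∀ j, (P j).val (c j) = ((scalU ι R ((P j).ξ (k j)) : GLm ι R) : Matrix ι ι R) := by
    intro j
    unfold Punc.val
    rw [hc, add_zero, (sup_univ _).mul_dg_const (c := (P j).ξ (k j)) fun i _ => by rw [hk],
      Matrix.smul_mul, Units.mul_inv, scalU_val]
  let F : Oˣ →* GLm ι R := Units.map (algebraMap O (Matrix ι ι R)).toMonoidHom
  have h3 : (List.ofFn fun j => (P j).val (c j)).prod =
      ((F (∏ j, (P j).ξ (k j)) : GLm ι R) : Matrix ι ι R) := by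
    show _ = (Units.coeHom _).comp F _
    rw [← List.prod_ofFn, map_list_prod, List.map_ofFn]
    simp only [h2]
    rfl
  rw [h3, ← Units.val_mul, Units.val_inj]
  show _ = F η ↔ _ = F _
  rw [map_mul, map_inv, eq_mul_inv_iff_mul_eq]

theorem surf_all (hG : Good π) (hQ : QL π ι) (hR : RR π ι (Fintype.card ι)) {T : Rep g ι ℂ}
    {c : Fin s → GLm ι ℂ × Matrix ι ι ℂ} (h : SurfEq η P T c) : SurfL π η P T c := by
  by_cases hc : ∀ j, ∃ k, ∀ i, (P j).lev i = k
  · choose k hk using hc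
    obtain ⟨h1, h2⟩ := (surf_const_eq hk).1 h
    obtain ⟨T', h3, h4⟩ := hQ g _ T h2
    choose G hG' using fun j => GL_lift hG (c j).1
    refine ⟨T', fun j => (G j, 0), h3, fun j => ⟨hG' j, ?_⟩, (surf_const_eq hk).2 ⟨fun _ => rfl, h4⟩⟩
    rw [h1]
    exact Matrix.map_zero _ (map_zero π)
  · push Not at hc
    obtain ⟨j0, hj0⟩ := hc
    obtain ⟨i0, -⟩ := hj0 0
    choose a ha using fun j => Finset.exists_min_image Finset.univ (P j).lev ⟨i0, Finset.mem_univ _⟩
    have hm : ∀ j i, (P j).lev (a j) ≤ (P j).lev i := fun j i => (ha j).2 i (Finset.mem_univ _)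
    obtain ⟨i1, hi1⟩ := hj0 ((P j0).lev (a j0))
    obtain ⟨T', c', h1, h2, h3⟩ := surf_RR (P := fun j => surfSh (P j) ((P j).lev (a j))) hR
      (fun j => ⟨a j, Nat.sub_self _⟩)
      ⟨j0, i1, Nat.sub_ne_zero_of_lt (lt_of_le_of_ne (hm j0 i1) hi1.symm)⟩ ((surf_sh_eq hm).2 h)
    exact ⟨T', c', h1, h2, (surf_sh_eq hm).1 h3⟩

end Crest.Agent.R3
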