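import Crest.Agent.R3.SurfW

/-!
# R3 / SurfS : a point of the punctured surface is a solution of its diagram

Let `c0 = dg ξ + n` for the puncture `j`.  Put `x (inr (j, k+1)) false = e_{up (k+1)} c0 e_{up (k+1)}`; it is a partial
isomorphism (downward induction on `k` with `flag_of_lin2`, `PI.dg_mul`, or: `c0` is invertible and respects the
flag, `Flag.pi_quot`).  The value of `pstep j k` is `e_{up k} c0 e_{up k}`.  For the main face use `prodL_reverse`.
-/

set_option autoImplicit false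

noncomputable section

open Matrix

namespace Crest.Agent.R3

variable {O ι : Type} [CommRing O] [Algebra O ℂ] [Fintype ι] [DecidableEq ι]
variable {g s : ℕ} {η : Oˣ} {P : Fin s → Punc O ι} {N : ℕ}

/-- the block of `ξ + n` on the levels `≥ k` -/
def Punc.blkU (Q : Punc O ι) (n : Matrix ι ι ℂ) (k : ℕ) : Matrix ι ι ℂ :=
  eS ℂ (Q.up k) * (dg ℂ (fun i => Q.ξ (Q.lev i)) + n) * eS ℂ (Q.up k)

theorem Punc.blkU_sup (Q : Punc O ι) (n : Matrix ι ι ℂ) (k : ℕ) : Sup (Q.up k) (Q.up k) (Q.blkU n k) :=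
  sup_sandwich _ _ _

theorem Punc.blkU_split (Q : Punc O ι) {n : Matrix ι ι ℂ} (hn : Q.Nil n) (k : ℕ) :
    algebraMap O ℂ (Q.ξ k : O) • eS ℂ (Q.lvl k) + Q.blkU n (k + 1) +
      eS ℂ (Q.lvl k) * n * eS ℂ (Q.up (k + 1)) = Q.blkU n k := by
  ext i j
  have h0 := hn i j
  simp only [Punc.blkU, Matrix.add_apply, Matrix.smul_apply, mat_mul_eS, mat_eS_mul, Punc.lvl, Punc.up,
    Finset.mem_filter, Finset.mem_univ, true_and, smul_eq_mul]
  simp only [eS, dg, diagonal_apply, Finset.mem_filter, Finset.mem_univ, true_and]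
  by_cases hij : i = j
  · subst hij
    rw [h0 (lt_irrefl _)]
    rcases lt_trichotomy (Q.lev i) k with h | h | h
    · simp [h.ne, h.not_ge, show ¬ k + 1 ≤ Q.lev i by omega]
    · simp [h]
    · simp [h.ne', h.le, show k + 1 ≤ Q.lev i by omega]
  · simp only [if_neg hij, mul_zero, zero_add]
    by_cases hl : Q.lev i < Q.lev j
    · split_ifs <;> first | omega | simp
    · rw [h0 hl]
      simp

theorem Punc.blkU_step (Q : Punc O ι) {n : Matrix ι ι ℂ} (hn : Q.Nil n) (k : ℕ) :
    dg ℂ (fun i => if Q.lev i = k then Q.ξ k else 1) * (eS ℂ (Q.lvl k) + Q.blkU n (k + 1)) *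
      (eS ℂ (Q.lvl k ∪ Q.up (k + 1)) +
        algebraMap O ℂ (((Q.ξ k)⁻¹ : Oˣ) : O) • (eS ℂ (Q.lvl k) * n * eS ℂ (Q.up (k + 1)))) =
      Q.blkU n k := by
  have hU := Q.blkU_sup n (k + 1)
  have hv := sup_sandwich (Q.lvl k) (Q.up (k + 1)) n
  have e1 : dg ℂ (fun i => if Q.lev i = k then Q.ξ k else 1) * eS ℂ (Q.lvl k) =
      algebraMap O ℂ (Q.ξ k : O) • eS ℂ (Q.lvl k) :=
    (sup_eS _).dg_mul_const fun i hi => if_pos (Finset.mem_filter.1 hi).2
  have e2 : dg ℂ (fun i => if Q.lev i = k then Q.ξ k else 1) * Q.blkU n (k + 1) = Q.blkU n (k + 1) := by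
    rw [hU.dg_mul_const (c := 1) fun i hi => if_neg (by have := (Finset.mem_filter.1 hi).2; omega)]
    simp
  rw [Matrix.mul_add (dg _ _), e1, e2, ← Q.blkU_split hn k, Matrix.add_mul, Matrix.mul_add, Matrix.mul_add,
    Matrix.smul_mul, Matrix.smul_mul, Matrix.mul_smul, Matrix.mul_smul, smul_smul, ← map_mul, Units.mul_inv,
    map_one, one_smul, eS_mul_of_subset Finset.subset_union_left, hv.eS_mul subset_rfl,
    hU.mul_eS Finset.subset_union_right, hU.mul_eq_zero hv (Q.disjoint_lvl_up k).symm, smul_zero, add_zero]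
  abel

theorem Punc.blkU_pi (Q : Punc O ι) {n : Matrix ι ι ℂ} (hn : Q.Nil n) (hN : ∀ i, Q.lev i ≤ N) (k : ℕ) :
    ∃ M', PI (Q.up k) (Q.up k) (Q.blkU n k) M' := by
  have key : ∀ m k, N + 1 ≤ k + m → ∃ M', PI (Q.up k) (Q.up k) (Q.blkU n k) M' := by
    intro m
    induction m with
    | zero =>
      intro k hk
      have he : Q.up k = ∅ := by
        refine Finset.filter_eq_empty_iff.2 fun i _ => ?_
        have := hN i
        omega
      refine ⟨eS ℂ (Q.up k), ?_⟩
      rw [(Q.blkU_sup n k).eq_zero (Or.inl he), ← (sup_eS (R := ℂ) (Q.up k)).eq_zero (Or.inl he)]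
      exact PI.refl _
    | succ m ih =>
      intro k hk
      obtain ⟨M', h⟩ := ih (k + 1) (by omega)
      have h1 := (flag_of_lin2 (PI.refl (Q.lvl k)) h
        ((sup_sandwich (Q.lvl k) (Q.up (k + 1)) n).smul (algebraMap O ℂ (((Q.ξ k)⁻¹ : Oˣ) : O)))
        (Q.disjoint_lvl_up k) (Q.disjoint_lvl_up k)).1.dg_mul
        (fun i => if Q.lev i = k then Q.ξ k else 1)
      rw [← Matrix.mul_assoc, Q.blkU_step hn k, Q.lvl_union_up k] at h1
      exact ⟨_, h1⟩
  exact key (N + 1) k (by omega)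

/-- the assignment of a point of the punctured surface -/
def surfAsg (T : Rep g ι ℂ) (G : Fin s → GLm ι ℂ) (U U' : Fin s → ℕ → Matrix ι ι ℂ) : Asg (SV g s) ι ℂ
  | Sum.inl (i, false), false => ((T i).1 : Matrix ι ι ℂ)
  | Sum.inl (i, false), true => (((T i).1⁻¹ : GLm ι ℂ) : Matrix ι ι ℂ)
  | Sum.inl (i, true), false => ((T i).2 : Matrix ι ι ℂ)
  | Sum.inl (i, true), true => (((T i).2⁻¹ : GLm ι ℂ) : Matrix ι ι ℂ)
  | Sum.inr (j, 0), false => (G j : Matrix ι ι ℂ)
  | Sum.inr (j, 0), true => (((G j)⁻¹ : GLm ι ℂ) : Matrix ι ι ℂ)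
  | Sum.inr (j, k + 1), false => U j (k + 1)
  | Sum.inr (j, k + 1), true => U' j (k + 1)

theorem surfS_prod_flatMap {α β M : Type} [Monoid M] (l : List α) (f : α → List β) (φ : β → M) :
    ((l.flatMap f).map φ).prod = (l.map fun a => ((f a).map φ).prod).prod := by
  induction l with
  | nil => rfl
  | cons a l ih => rw [List.flatMap_cons, List.map_append, List.prod_append, ih, List.map_cons, List.prod_cons]

theorem pstep_val {x : Asg (SV g s) ι ℂ} {Q : Punc O ι} {n : Matrix ι ι ℂ} (hn : Q.Nil n) {j : Fin s} {k : ℕ}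
    (hx : x (Sum.inr (j, k + 1)) false = Q.blkU n (k + 1)) :
    (pstep Q j k n : Step O ι (SV g s)).valG x (pstep Q j k n : Step O ι (SV g s)).n = Q.blkU n k := by
  have hb : blk x (some (Sum.inr (j, k + 1), false)) (Q.up (k + 1)) (Q.up (k + 1)) = Q.blkU n (k + 1) := by
    rw [blk_some (by rw [hx]; exact Q.blkU_sup n _), hx]
  rw [← Q.blkU_step hn k, ← hb]
  rfl

theorem full_val {V : Type} {x : Asg V ι ℂ} (v : V) (b : Bool) :
    (Step.full v b Finset.univ Finset.univ : Step O ι V).valG x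
      (Step.full v b Finset.univ Finset.univ : Step O ι V).n = x v b :=
  valG_full (sup_univ _)

theorem pstep_varOK {x : Asg (SV g s) ι ℂ} {Q : Punc O ι} {n : Matrix ι ι ℂ} {j : Fin s} {k : ℕ}
    (hx : PI (Q.up (k + 1)) (Q.up (k + 1)) (x (Sum.inr (j, k + 1)) false) (x (Sum.inr (j, k + 1)) true)) :
    VarOK x (pstep Q j k n : Step O ι (SV g s)).occ := by
  refine varOK_add.2 ⟨fun c hc => ?_, varOK_slot hx⟩
  exact absurd hc (Multiset.notMem_zero c)

theorem sdiag_sol {T : Rep g ι ℂ} {c : Fin s → GLm ι ℂ × Matrix ι ι ℂ} (hN : ∀ j i, (P j).lev i ≤ N)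
    (h : SurfEq η P T c) :
    ∃ x : Asg (SV g s) ι ℂ, SAsg x T (fun j => (c j).1) ∧ Sol x (sdiag g η P (fun j => (c j).2) N) := by
  choose U' hU' using fun j k => (P j).blkU_pi (h.1 j) (hN j) k
  obtain ⟨x, hx, hx2, hx3⟩ : ∃ x : Asg (SV g s) ι ℂ, SAsg x T (fun j => (c j).1) ∧
      (∀ j k, x (Sum.inr (j, k + 1)) false = (P j).blkU (c j).2 (k + 1)) ∧
      ∀ j k, PI ((P j).up (k + 1)) ((P j).up (k + 1)) (x (Sum.inr (j, k + 1)) false)
        (x (Sum.inr (j, k + 1)) true) :=
    ⟨surfAsg T (fun j => (c j).1) (fun j => (P j).blkU (c j).2) U',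
      ⟨fun i => ⟨rfl, rfl, rfl, rfl⟩, fun j => ⟨rfl, rfl⟩⟩, fun j k => rfl, fun j k => hU' j (k + 1)⟩
  have hst : ∀ f ∈ sdiag g η P (fun j => (c j).2) N, ∀ t ∈ f.l, VarOK x t.occ ∧ Sup t.X t.Y t.n := by
    have hfull : ∀ (v : SV g s) (b : Bool) (A : Finset ι), PI A A (x v b) (x v (!b)) →
        VarOK x (Step.full v b A A : Step O ι (SV g s)).occ ∧
          Sup (Step.full v b A A : Step O ι (SV g s)).X (Step.full v b A A : Step O ι (SV g s)).Y
            (Step.full v b A A : Step O ι (SV g s)).n := by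
      intro v b A hp
      rw [occ_full]
      exact ⟨varOK_slot hp, sup_zero _ _⟩
    have hp : ∀ j k, VarOK x (pstep (P j) j k (c j).2 : Step O ι (SV g s)).occ ∧
        Sup (pstep (P j) j k (c j).2 : Step O ι (SV g s)).X (pstep (P j) j k (c j).2 : Step O ι (SV g s)).Y
          (pstep (P j) j k (c j).2 : Step O ι (SV g s)).n :=
      fun j k => ⟨pstep_varOK (hx3 j k), (sup_sandwich _ _ _).smul _⟩
    have ha : ∀ i, PI Finset.univ Finset.univ (x (Sum.inl (i, false)) false) (x (Sum.inl (i, false)) true) := by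
      intro i
      rw [(hx.1 i).1, (hx.1 i).2.1]
      exact PI.univ _
    have hb : ∀ i, PI Finset.univ Finset.univ (x (Sum.inl (i, true)) false) (x (Sum.inl (i, true)) true) := by
      intro i
      rw [(hx.1 i).2.2.1, (hx.1 i).2.2.2]
      exact PI.univ _
    have hg : ∀ j, PI Finset.univ Finset.univ (x (Sum.inr (j, 0)) false) (x (Sum.inr (j, 0)) true) := by
      intro j
      rw [(hx.2 j).1, (hx.2 j).2]
      exact PI.univ _
    intro f hf t ht
    rcases mem_sdiag.1 hf with rfl | ⟨j, k, -, rfl⟩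
    · simp only [smain, sfac, List.mem_reverse, List.mem_append, List.mem_flatMap, List.mem_cons,
        List.not_mem_nil, or_false] at ht
      rcases ht with ⟨i, -, rfl | rfl | rfl | rfl⟩ | ⟨j, -, rfl | rfl | rfl⟩
      · exact hfull _ _ _ (ha i)
      · exact hfull _ _ _ (hb i)
      · exact hfull _ _ _ (ha i).symm
      · exact hfull _ _ _ (hb i).symm
      · exact hfull _ _ _ (hg j)
      · exact hp j 0
      · exact hfull _ _ _ (hg j).symm
    · simp only [ssub, List.mem_cons, List.not_mem_nil, or_false] at ht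
      rcases ht with rfl | rfl
      · exact hp j (k + 1)
      · exact hfull _ _ _ (hx3 j k).symm
  refine ⟨x, hx, fun o ho => ?_, fun f hf t ht => (hst f hf t ht).2, fun f hf => ?_⟩
  · obtain ⟨f, hf, ho⟩ := mem_occD.1 ho
    obtain ⟨t, ht, ho⟩ := mem_occL.1 ho
    exact (hst f hf t ht).1 o ho
  · rcases mem_sdiag.1 hf with rfl | ⟨j, k, -, rfl⟩
    · have e : prodL x (sfac P (fun j => (c j).2) : List (Step O ι (SV g s))).reverse =
          ((rel T : GLm ι ℂ) : Matrix ι ι ℂ) * (List.ofFn fun j => (P j).val (c j)).prod := by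
        rw [prodL_reverse, sfac, List.map_append, List.prod_append, surfS_prod_flatMap, surfS_prod_flatMap]
        congr 1
        · rw [rel, ← Units.coeHom_apply, map_list_prod, List.ofFn_eq_map, List.map_map, List.map_map]
          congr 1
          refine List.map_congr_left fun i _ => ?_
          simp only [List.map_cons, List.map_nil, List.prod_cons, List.prod_nil, full_val, (hx.1 i).1,
            (hx.1 i).2.1, (hx.1 i).2.2.1, (hx.1 i).2.2.2, Function.comp_apply, comm, Units.coeHom_apply,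
            Units.val_mul, mul_one, mul_assoc]
        · rw [List.ofFn_eq_map]
          congr 1
          refine List.map_congr_left fun j _ => ?_
          simp only [List.map_cons, List.map_nil, List.prod_cons, List.prod_nil, full_val, (hx.2 j).1,
            (hx.2 j).2, pstep_val (h.1 j) (hx2 j 0), Punc.val, Punc.blkU, Punc.up_zero, eS_univ, mul_one,
            one_mul, mul_assoc]
      change algebraMap O ℂ ((η⁻¹ : Oˣ) : O) •
        (prodL x (sfac P (fun j => (c j).2) : List (Step O ι (SV g s))).reverse * eS ℂ (Finset.univ ∪ ∅)) =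
        eS ℂ (Finset.univ ∪ ∅)
      rw [e, h.2]
      change algebraMap O ℂ ((η⁻¹ : Oˣ) : O) • (algebraMap O (Matrix ι ι ℂ) (η : O) * _) = _
      rw [← Algebra.smul_def, algebraMap_smul, smul_smul, Units.inv_mul, one_smul]
    · change algebraMap O ℂ ((1 : Oˣ) : O) •
        (1 * (Step.full (Sum.inr (j, k + 1)) true ((P j).up (k + 1)) ((P j).up (k + 1)) :
            Step O ι (SV g s)).valG x 0 *
          (pstep (P j) j (k + 1) (c j).2 : Step O ι (SV g s)).valG x
            (pstep (P j) j (k + 1) (c j).2 : Step O ι (SV g s)).n * eS ℂ ((P j).up (k + 1) ∪ ∅)) =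
        eS ℂ ((P j).up (k + 1) ∪ ∅)
      rw [valG_full (hx3 j k).s2, pstep_val (h.1 j) (hx2 j (k + 1)), ← hx2 j k, Matrix.one_mul, (hx3 j k).l,
        Finset.union_empty, eS_mul_self, Units.val_one, map_one, one_smul]

end Crest.Agent.R3
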