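import Crest.Agent.R3.Occ

/-!
# R3 / SurfW : the diagram of a punctured surface is well formed

Occurrences (all with `X = X1`): `(inl (i, c), b)` and `(inr (j, 0), b)` on `univ`; `(inr (j, k+1), false)` on
`up (k+1)` in `pstep j k` (`0 ≤ k ≤ N`; for `k = N` the block is empty and the slot is ignored),
`(inr (j, k+1), true)` on `up (k+1)` in `ssub j k`, `k < N`.  So
`occD = N0 + N0.map flip` with `N0` the occurrences with exponent `false` (`OccOK.add_fresh` with `M = 0`).
All junctions of the main face can be taken to be `⟨univ, ∅⟩`: a list all of whose steps `s` satisfy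
`⟨univ,∅⟩.le s.inS`, `s.ok`, `s.link ⟨univ,∅⟩` is a segment.
-/

set_option autoImplicit false
set_option linter.unusedSectionVars false

noncomputable section

open Matrix

namespace Crest.Agent.R3

variable {O ι : Type} [CommRing O] [Algebra O ℂ] [Fintype ι] [DecidableEq ι]
variable {g s : ℕ} {η : Oˣ} {P : Fin s → Punc O ι} {n : Fin s → Matrix ι ι ℂ} {N : ℕ}

theorem Punc.mem_lvl {P : Punc O ι} {k : ℕ} {i : ι} : i ∈ P.lvl k ↔ P.lev i = k := by
  simp [Punc.lvl]

theorem Punc.mem_up {P : Punc O ι} {k : ℕ} {i : ι} : i ∈ P.up k ↔ k ≤ P.lev i := by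
  simp [Punc.up]

theorem Punc.lvl_union_up (P : Punc O ι) (k : ℕ) : P.lvl k ∪ P.up (k + 1) = P.up k := by
  ext i
  rw [Finset.mem_union, Punc.mem_lvl, Punc.mem_up, Punc.mem_up]
  omega

theorem Punc.disjoint_lvl_up (P : Punc O ι) (k : ℕ) : Disjoint (P.lvl k) (P.up (k + 1)) := by
  refine Finset.disjoint_left.2 fun i h h' => ?_
  rw [Punc.mem_lvl] at h
  rw [Punc.mem_up] at h'
  omega

theorem Punc.up_zero (P : Punc O ι) : P.up 0 = Finset.univ := by
  exact Finset.eq_univ_of_forall fun i => Punc.mem_up.2 (Nat.zero_le _)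

theorem mem_sdiag {f : Face O ι (SV g s)} :
    f ∈ sdiag g η P n N ↔ f = smain g η P n ∨ ∃ j, ∃ k < N, f = ssub g P n j k := by
  simp only [sdiag, Multiset.mem_cons, Multiset.mem_map, Finset.mem_val, Finset.mem_product,
    Finset.mem_univ, Finset.mem_range, true_and, Prod.exists, eq_comm (a := f)]

/-- steps from and to the junction `⟨Ω, ∅⟩` -/
def SurfWGd {V : Type} (Ω : Finset ι) (t : Step O ι V) : Prop :=
  St.le ⟨Ω, ∅⟩ t.inS ∧ t.ok ∧ t.link ⟨Ω, ∅⟩

theorem surfW_seg {V : Type} {Ω : Finset ι} {l : List (Step O ι V)} (h : ∀ t ∈ l, SurfWGd Ω t) :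
    Seg ⟨Ω, ∅⟩ l ⟨Ω, ∅⟩ := by
  induction l with
  | nil => exact St.le_refl (Finset.disjoint_empty_right _)
  | cons t l ih =>
    have := h t List.mem_cons_self
    exact ⟨this.1, this.2.1, _, this.2.2, ih fun t' ht' => h t' (List.mem_cons_of_mem _ ht')⟩

theorem surfW_full {V : Type} (v : V) (b : Bool) (Ω : Finset ι) :
    SurfWGd Ω (Step.full v b Ω Ω : Step O ι V) :=
  ⟨St.le_refl (Finset.disjoint_empty_right _),
    ⟨Finset.disjoint_empty_right _, ⟨rfl, fun _ => rfl⟩, ⟨rfl, fun _ => rfl⟩⟩,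
    rfl, Finset.disjoint_empty_right _, fun _ _ _ _ _ _ => rfl⟩

theorem surfW_pstep (Q : Punc O ι) (j : Fin s) (k : ℕ) (m : Matrix ι ι ℂ) :
    SurfWGd (Q.up k) (pstep (g := g) Q j k m) := by
  have e : St.set ⟨Q.up k, ∅⟩ = Q.lvl k ∪ Q.up (k + 1) :=
    (Finset.union_empty _).trans (Q.lvl_union_up k).symm
  exact ⟨St.triv_le (Or.inr rfl) e (Q.disjoint_lvl_up k),
    ⟨Q.disjoint_lvl_up k, ⟨rfl, fun _ => rfl⟩, ⟨rfl, fun _ => rfl⟩⟩, e,
    Finset.disjoint_empty_right _, fun a _ b _ h _ =>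
      if_congr (Punc.mem_lvl.symm.trans (h.trans Punc.mem_lvl)) rfl rfl⟩

theorem surfW_occ_pstep (Q : Punc O ι) (j : Fin s) (k : ℕ) (m : Matrix ι ι ℂ) :
    (pstep (g := g) Q j k m).occ =
      slot (some (Sum.inr (j, k + 1), false)) (Q.up (k + 1)) (Q.up (k + 1)) :=
  zero_add _

theorem surfW_occL_flatMap {V : Type} {m : ℕ} (f : Fin m → List (Step O ι V)) :
    occL ((List.finRange m).flatMap f) = ∑ i, occL (f i) := by
  rw [Fin.sum_univ_def]
  induction List.finRange m with
  | nil => rfl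
  | cons a l ih => rw [List.flatMap_cons, occL_append, ih, List.map_cons, List.sum_cons]

theorem surfW_occ (hN : ∀ j i, (P j).lev i ≤ N) : OccOK (occD (sdiag g η P n N)) := by
  have h := OccOK.add_slots (M := (0 : Multiset (Occ ι (SV g s))))
    ⟨Multiset.nodup_zero, fun c hc => absurd hc (Multiset.notMem_zero c)⟩
    (κ := (Fin g × Bool) ⊕ (Fin s × Fin (N + 2))) (ν := Sum.map id (Prod.map id Fin.val))
    (Function.injective_id.sumMap (Function.injective_id.prodMap Fin.val_injective))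
    (fun _ c hc => absurd hc (Multiset.notMem_zero c))
    (Sum.elim (fun _ => Finset.univ) fun q => (P q.1).up q.2)
    (Sum.elim (fun _ => Finset.univ) fun q => (P q.1).up q.2) fun _ => rfl
  have e0 : ∀ j, (P j).up (N + 1) = ∅ := fun j => Finset.eq_empty_of_forall_notMem fun i hi =>
    (Nat.lt_succ_of_le (hN j i)).not_ge (Punc.mem_up.1 hi)
  have e1 : ∀ (j : Fin s) (b : Bool), ∑ k : Fin (N + 2),
      slot (some ((Sum.inr (j, (k : ℕ)) : SV g s), b)) ((P j).up k) ((P j).up k) =
      ∑ k ∈ Finset.range (N + 2), slot (some (Sum.inr (j, k), b)) ((P j).up k) ((P j).up k) :=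
    fun j b => (Finset.sum_range fun k =>
      slot (some ((Sum.inr (j, k) : SV g s), b)) ((P j).up k) ((P j).up k)).symm
  simp only [Fintype.sum_sum_type, Fintype.sum_prod_type, Sum.map_inl, Sum.map_inr, Sum.elim_inl,
    Sum.elim_inr, Prod.map_apply, id, e1, Fintype.sum_bool, add_zero] at h
  convert h using 1
  rw [sdiag, occD_cons, occD, Multiset.map_map, ← Finset.sum_eq_multiset_sum, Finset.sum_product,
    Face.occ, smain, occL, List.map_reverse, List.sum_reverse, ← occL, sfac, occL_append,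
    surfW_occL_flatMap, surfW_occL_flatMap, add_add_add_comm, add_assoc, ← Finset.sum_add_distrib,
    ← Finset.sum_add_distrib, ← Finset.sum_add_distrib]
  simp only [Function.comp, Face.occ, ssub, occL_cons, occL_nil, occ_full, surfW_occ_pstep, add_zero]
  congr 1
  · exact Finset.sum_congr rfl fun i _ => by abel
  · refine Finset.sum_congr rfl fun j _ => ?_
    rw [Finset.sum_range_succ', Finset.sum_range_succ', Finset.sum_range_succ,
      Finset.sum_range_succ', e0, slot_empty, Punc.up_zero, Finset.sum_add_distrib]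
    abel

theorem sdiag_wf (hN : ∀ j i, (P j).lev i ≤ N) : WF (sdiag g η P n N) := by
  refine ⟨fun f hf => ?_, surfW_occ hN⟩
  rcases mem_sdiag.1 hf with rfl | ⟨j, k, -, rfl⟩
  · refine surfW_seg fun t ht => ?_
    simp only [smain, sfac, List.mem_reverse, List.mem_append, List.mem_flatMap, List.mem_cons,
      List.not_mem_nil, or_false] at ht
    rcases ht with ⟨i, -, rfl | rfl | rfl | rfl⟩ | ⟨j, -, rfl | rfl | rfl⟩
    all_goals first | exact surfW_full _ _ _ | exact (P j).up_zero ▸ surfW_pstep _ j 0 _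
  · refine surfW_seg fun t ht => ?_
    simp only [ssub, List.mem_cons, List.not_mem_nil, or_false] at ht
    rcases ht with rfl | rfl
    · exact surfW_pstep _ j _ _
    · exact surfW_full _ _ _

theorem sdiag_size : ∀ f ∈ sdiag g η P n N, f.size ≤ Fintype.card ι := by
  exact fun f _ => Finset.card_le_univ _

theorem sdiag_single (h0 : ∀ j, ∃ i, (P j).lev i = 0) (h1 : ∃ j i, (P j).lev i ≠ 0) :
    Single (Fintype.card ι) (sdiag g η P n N) := by
  obtain ⟨j, i, hi⟩ := h1
  refine ⟨_, _, rfl, ⟨pstep (P j) j 0 (n j), ?_, ?_, i, Punc.mem_up.2 (Nat.pos_of_ne_zero hi)⟩,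
    fun f hf => ?_⟩
  · exact List.mem_reverse.2 (List.mem_append_right _ (List.mem_flatMap.2
      ⟨j, List.mem_finRange j, List.mem_cons_of_mem _ List.mem_cons_self⟩))
  · exact (h0 j).imp fun a ha => Punc.mem_lvl.2 ha
  · obtain ⟨q, -, rfl⟩ := Multiset.mem_map.1 hf
    obtain ⟨a, ha⟩ := h0 q.1
    refine (Finset.card_lt_iff_ne_univ _).2 fun e => ?_
    have : a ∈ (P q.1).up (q.2 + 1) := by
      rw [← Finset.union_empty ((P q.1).up _)]
      exact e.ge (Finset.mem_univ a)
    rw [Punc.mem_up] at this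
    omega

end Crest.Agent.R3
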