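import Crest.Agent.R3.Mat

/-!
# R3 / TriA : the normal form data `TD`, the matrices `w`, `cM`, and frames

Labels: eight classes `C p c n`, `K`, `K' = τ K`, pairwise disjoint.  `w` fixes the classes and swaps `K`, `K'`.
`cM` is `±1` on the classes (`-1` on `C011`, `C101`), `e k ↦ - e k - e (τ k)`, `e (τ k) ↦ e k`.
Useful: `w * w = 1`, `w * eS A = eS (A.image τ) * w`.
`psi` is block triangular for the order `P < S, T < Z` with diagonal blocks `φ0, φ1, w φ2, φ3`; it is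
`Δ + N` with `Δ = φ0 + φ1 + w φ2 + φ3` a partial isomorphism and `Δ' N` nilpotent (`(Δ' N)^3 = 0`).
`psi_decomp`: `φ0 = e_nP Ψ e_P`, `φ1 = e_nS Ψ e_S`, `φ2 = w e_nT' Ψ e_T`, `φ3 = e_nZ Ψ e_Z` (inverses: the
corresponding blocks of `Ψ'`), `a = φ0' (e_nP Ψ e_S)`, `b = φ2' w (e_nT' Ψ e_Z)`, `c = - (e_nP Ψ e_T) φ2'`,
`e = - (e_nS Ψ e_Z) φ3'`, `z = e_nP Ψ e_Z`; the other blocks of `Ψ` and `Ψ'` vanish by the two flag conditions.
-/

set_option autoImplicit false
set_option linter.unusedSectionVars false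

noncomputable section

open Matrix

namespace Crest.Agent.R3

variable {L : Type} [Fintype L] [DecidableEq L] {R : Type} [CommRing R] {T : TD L} {J : Jn L}

theorem TD.rot3 (T : TD L) : T.rot.rot.rot = T := rfl

theorem TD.ok.rot (h : T.ok) : T.rot.ok :=
  ⟨fun p c n p' c' n' k => h.dC n p c n' p' c' fun e => k (by simp_all), fun p c n => h.dK n p c,
    fun p c n => h.dK' n p c, h.dKK, fun p c n => h.fix n p c, h.inv⟩

theorem TD.rot_all (T : TD L) : T.rot.all = T.all := by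
  ext i
  simp only [TD.all, TD.nP, TD.nS, TD.nT', TD.nZ, TD.K', TD.rot, Finset.mem_union]
  tauto

theorem TD.Fp_subset (T : TD L) : T.Fp ⊆ T.all :=
  Finset.subset_union_left.trans Finset.subset_union_left

theorem TD.Fc_subset (T : TD L) : T.Fc ⊆ T.all :=
  (Finset.union_subset_union Finset.subset_union_left subset_rfl).trans Finset.subset_union_left

theorem tria_mul_w (M : Matrix L L R) (i j : L) : (M * T.w R) i j = M i (T.τ j) := by
  simp [TD.w, Matrix.mul_apply]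

theorem TD.w_mul_w (h : T.ok) : T.w R * T.w R = 1 := by
  ext i j
  rw [tria_mul_w, TD.w, Matrix.of_apply, h.inv, Matrix.one_apply]

theorem TD.w_map {R' F : Type} [CommRing R'] [FunLike F R R'] [RingHomClass F R R'] (φ : F) :
    (T.w R).map φ = T.w R' := by
  ext i j
  simp only [TD.w, Matrix.map_apply, Matrix.of_apply]
  split_ifs <;> simp

theorem TD.cM_map {R' F : Type} [CommRing R'] [FunLike F R R'] [RingHomClass F R R'] (φ : F) :
    (T.cM R).map φ = T.cM R' := by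
  unfold TD.cM
  rw [Matrix.map_add _ (map_add φ), Matrix.map_sub _ (map_sub φ), Matrix.map_sub _ (map_sub φ), Matrix.map_mul,
    Matrix.map_mul, eS_map, eS_map, eS_map, eS_map, TD.w_map]

theorem tria_w_eS {A A' : Finset L} (h : ∀ j, j ∈ A ↔ T.τ j ∈ A') :
    T.w R * eS R A = eS R A' * T.w R := by
  ext i j
  rw [mat_mul_eS, mat_eS_mul, TD.w, Matrix.of_apply]
  by_cases e : i = T.τ j
  · simp only [e, h j]
  · simp only [e, if_false, ite_self]

theorem tria_mem_K' (j : L) : j ∈ T.K ↔ T.τ j ∈ T.K' := by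
  simp [TD.K']

theorem tria_mem_K (h : T.ok) (j : L) : j ∈ T.K' ↔ T.τ j ∈ T.K := by
  rw [tria_mem_K', h.inv]

theorem tria_mem_C (h : T.ok) (p c n : Bool) (j : L) : j ∈ T.C p c n ↔ T.τ j ∈ T.C p c n := by
  constructor
  · intro k; rwa [h.fix p c n j k]
  · intro k
    have := h.fix p c n _ k
    rw [h.inv] at this
    rwa [this]

theorem tria_wK : T.w R * eS R T.K = eS R T.K' * T.w R := tria_w_eS tria_mem_K'

theorem tria_wK' (h : T.ok) : T.w R * eS R T.K' = eS R T.K * T.w R := tria_w_eS (tria_mem_K h)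

theorem tria_wT (h : T.ok) : T.w R * eS R T.nT = eS R T.nT' * T.w R :=
  tria_w_eS fun j => by
    simp only [TD.nT, TD.nT', Finset.mem_union, ← tria_mem_C h, ← tria_mem_K']

theorem tria_wT' (h : T.ok) : T.w R * eS R T.nT' = eS R T.nT * T.w R :=
  tria_w_eS fun j => by
    simp only [TD.nT, TD.nT', Finset.mem_union, ← tria_mem_C h, ← tria_mem_K h]

theorem tria_sup_w {A A' X : Finset L} {M : Matrix L L R} (h : T.w R * eS R A = eS R A' * T.w R)
    (hM : Sup A X M) : Sup A' X (T.w R * M) := by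
  rw [← hM.eS_mul subset_rfl, ← Matrix.mul_assoc, h]
  exact ((sup_eS A').mul (sup_univ _)).mul hM

theorem tria_sup_w' {A A' X : Finset L} {M : Matrix L L R} (h : T.w R * eS R A = eS R A' * T.w R)
    (hM : Sup X A' M) : Sup X A (M * T.w R) := by
  rw [← hM.mul_eS subset_rfl, Matrix.mul_assoc, ← h]
  exact hM.mul ((sup_univ _).mul (sup_eS A))

theorem tria_pi_w (hT : T.ok) {A A' X : Finset L} {M M' : Matrix L L R}
    (h : T.w R * eS R A = eS R A' * T.w R) (h' : T.w R * eS R A' = eS R A * T.w R) (hM : PI X A M M') :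
    PI X A' (T.w R * M) (M' * T.w R) := by
  refine ⟨tria_sup_w h hM.s1, tria_sup_w' h' hM.s2, ?_, ?_⟩
  · rw [Matrix.mul_assoc, ← Matrix.mul_assoc (T.w R), TD.w_mul_w hT, Matrix.one_mul, hM.l]
  · rw [Matrix.mul_assoc, ← Matrix.mul_assoc M, hM.r, ← Matrix.mul_assoc, h, Matrix.mul_assoc,
      TD.w_mul_w hT, Matrix.mul_one]

/-- all classes -/
def tria_U (T : TD L) : Finset L :=
  T.C true true true ∪ T.C true true false ∪ T.C true false false ∪ T.C false true false ∪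
    T.C false false true ∪ T.C false false false ∪ (T.C false true true ∪ T.C true false true)

/-- the signs -/
def tria_D (R : Type) [CommRing R] (U A : Finset L) : Matrix L L R := eS R U - eS R A - eS R A

def tria_E (T : TD L) (R : Type) [CommRing R] : Matrix L L R :=
  -eS R T.K - T.w R * eS R T.K + T.w R * eS R T.K'

def tria_E2 (T : TD L) (R : Type) [CommRing R] : Matrix L L R :=
  T.w R * eS R T.K - T.w R * eS R T.K' - eS R T.K'

/-- disjointness of unions of classes -/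
macro "tria_disj " h:term : tactic =>
  `(tactic| (simp only [tria_U, TD.nP, TD.nS, TD.nT, TD.nT', TD.nZ, Finset.disjoint_union_left,
      Finset.disjoint_union_right]; repeat' apply And.intro) <;>
    first
      | exact TD.ok.dC $h _ _ _ _ _ _ (by decide)
      | exact TD.ok.dK $h _ _ _
      | exact TD.ok.dK' $h _ _ _
      | exact (TD.ok.dK $h _ _ _).symm
      | exact (TD.ok.dK' $h _ _ _).symm
      | exact TD.ok.dKK $h
      | exact (TD.ok.dKK $h).symm)

theorem tria_U_rot (T : TD L) : tria_U T.rot = tria_U T := by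
  ext i
  simp only [tria_U, TD.rot, Finset.mem_union]
  tauto

theorem tria_all (T : TD L) : T.all = tria_U T ∪ (T.K ∪ T.K') := by
  ext i
  simp only [TD.all, TD.nP, TD.nS, TD.nT', TD.nZ, tria_U, Finset.mem_union]
  tauto

theorem tria_dU (h : T.ok) : Disjoint (tria_U T) (T.K ∪ T.K') := by
  tria_disj h

theorem tria_cM (h : T.ok) :
    T.cM R = tria_D R (tria_U T) (T.C false true true ∪ T.C true false true) + tria_E T R := by
  unfold TD.cM tria_D tria_E tria_U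
  rw [eS_union (A := T.C false true true ∪ T.C true false true) (C := T.K) (by tria_disj h),
    eS_union (C := T.C false true true ∪ T.C true false true) (by tria_disj h)]
  abel

theorem tria_cM1 (h : T.ok) :
    T.rot.cM R = tria_D R (tria_U T) (T.C true false true ∪ T.C true true false) + tria_E T R := by
  rw [tria_cM h.rot, tria_U_rot]; rfl

theorem tria_cM2 (h : T.ok) :
    T.rot.rot.cM R = tria_D R (tria_U T) (T.C true true false ∪ T.C false true true) + tria_E T R := by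
  rw [tria_cM1 h.rot, tria_U_rot]; rfl

theorem tria_sup_D {U A : Finset L} (h : A ⊆ U) : Sup U U (tria_D R U A) :=
  ((sup_eS U).sub ((sup_eS A).mono h h)).sub ((sup_eS A).mono h h)

theorem tria_D_eS (U A X : Finset L) : Sup X X (tria_D R U A * eS R X) := by
  have k : ∀ Y : Finset L, Sup X X (eS R Y * eS R X) := fun Y => by
    rw [eS_mul_eS]; exact (sup_eS _).mono Finset.inter_subset_right Finset.inter_subset_right
  unfold tria_D
  rw [Matrix.sub_mul, Matrix.sub_mul]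
  exact ((k _).sub (k _)).sub (k _)

theorem tria_D3 {U A1 A2 A3 : Finset L} (h12 : Disjoint A1 A2) (h23 : Disjoint A2 A3) (h31 : Disjoint A3 A1)
    (s1 : A1 ⊆ U) (s2 : A2 ⊆ U) (s3 : A3 ⊆ U) :
    tria_D R U (A3 ∪ A1) * tria_D R U (A2 ∪ A3) * tria_D R U (A1 ∪ A2) = eS R U := by
  simp only [tria_D, eS, diagonal_sub, diagonal_mul_diagonal]
  congr 1
  funext i
  have k1 : i ∈ A1 → i ∉ A2 := fun k => Finset.disjoint_left.1 h12 k
  have k2 : i ∈ A2 → i ∉ A3 := fun k => Finset.disjoint_left.1 h23 k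
  have k3 : i ∈ A3 → i ∉ A1 := fun k => Finset.disjoint_left.1 h31 k
  have t1 : i ∈ A1 → i ∈ U := fun k => s1 k
  have t2 : i ∈ A2 → i ∈ U := fun k => s2 k
  have t3 : i ∈ A3 → i ∈ U := fun k => s3 k
  by_cases c1 : i ∈ A1 <;> by_cases c2 : i ∈ A2 <;> by_cases c3 : i ∈ A3 <;> by_cases c : i ∈ U <;> simp_all

theorem tria_s1 (T : TD L) : T.C false true true ⊆ tria_U T := by
  intro i; simp only [tria_U, Finset.mem_union]; tauto

theorem tria_s2 (T : TD L) : T.C true false true ⊆ tria_U T := by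
  intro i; simp only [tria_U, Finset.mem_union]; tauto

theorem tria_s3 (T : TD L) : T.C true true false ⊆ tria_U T := by
  intro i; simp only [tria_U, Finset.mem_union]; tauto

theorem tria_sup_x : Sup T.K' T.K (T.w R * eS R T.K) := tria_sup_w tria_wK (sup_eS _)

theorem tria_sup_y (h : T.ok) : Sup T.K T.K' (T.w R * eS R T.K') := tria_sup_w (tria_wK' h) (sup_eS _)

theorem tria_xy (h : T.ok) : T.w R * eS R T.K * (T.w R * eS R T.K') = eS R T.K' := by
  rw [Matrix.mul_assoc, (tria_sup_y h).eS_mul subset_rfl, ← Matrix.mul_assoc, TD.w_mul_w h, Matrix.one_mul]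

theorem tria_yx (h : T.ok) : T.w R * eS R T.K' * (T.w R * eS R T.K) = eS R T.K := by
  rw [Matrix.mul_assoc, tria_sup_x.eS_mul subset_rfl, ← Matrix.mul_assoc, TD.w_mul_w h, Matrix.one_mul]

theorem tria_sup_E (h : T.ok) : Sup (T.K ∪ T.K') (T.K ∪ T.K') (tria_E T R) :=
  (((sup_eS _).mono Finset.subset_union_left Finset.subset_union_left).neg.sub
    (tria_sup_x.mono Finset.subset_union_right Finset.subset_union_left)).add
    ((tria_sup_y h).mono Finset.subset_union_left Finset.subset_union_right)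

theorem tria_EE (h : T.ok) : tria_E T R * tria_E T R = tria_E2 T R := by
  have hx := tria_sup_x (T := T) (R := R)
  have hy := tria_sup_y (R := R) h
  unfold tria_E tria_E2
  simp only [Matrix.add_mul, Matrix.sub_mul, Matrix.mul_add, Matrix.mul_sub, Matrix.neg_mul, Matrix.mul_neg,
    eS_mul_self, hx.eS_mul_zero h.dKK, hy.eS_mul subset_rfl, hx.mul_eS subset_rfl, hy.mul_eS_zero h.dKK.symm,
    hx.mul_eq_zero hx h.dKK, hy.mul_eq_zero hy h.dKK.symm, tria_xy h, tria_yx h]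
  abel

theorem tria_EEE (h : T.ok) : tria_E2 T R * tria_E T R = eS R (T.K ∪ T.K') := by
  have hx := tria_sup_x (T := T) (R := R)
  have hy := tria_sup_y (R := R) h
  unfold tria_E tria_E2
  simp only [Matrix.sub_mul, Matrix.mul_add, Matrix.mul_sub, Matrix.mul_neg,
    eS_mul_of_disjoint h.dKK.symm, hy.eS_mul_zero h.dKK.symm, hx.eS_mul subset_rfl, hx.mul_eS subset_rfl,
    hy.mul_eS_zero h.dKK.symm, hx.mul_eq_zero hx h.dKK, hy.mul_eq_zero hy h.dKK.symm, tria_xy h, tria_yx h,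
    eS_union h.dKK]
  abel

theorem tria_E_K' (h : T.ok) : Sup T.K T.K' (tria_E T R * eS R T.K') := by
  have hx := tria_sup_x (T := T) (R := R)
  have hy := tria_sup_y (R := R) h
  unfold tria_E
  rw [Matrix.add_mul, Matrix.sub_mul, Matrix.neg_mul, eS_mul_of_disjoint h.dKK, hx.mul_eS_zero h.dKK,
    hy.mul_eS subset_rfl, neg_zero, sub_zero, zero_add]
  exact hy

theorem tria_E2_K (h : T.ok) : Sup T.K' T.K (tria_E2 T R * eS R T.K) := by
  have hx := tria_sup_x (T := T) (R := R)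
  have hy := tria_sup_y (R := R) h
  unfold tria_E2
  rw [Matrix.sub_mul, Matrix.sub_mul, eS_mul_of_disjoint h.dKK.symm, hy.mul_eS_zero h.dKK.symm,
    hx.mul_eS subset_rfl, sub_zero, sub_zero]
  exact hx

theorem tria_blk {U W : Finset L} {D D' E E' : Matrix L L R} (hd : Disjoint U W) (hD : Sup U U D)
    (hD' : Sup U U D') (hE : Sup W W E) (hE' : Sup W W E') : (D + E) * (D' + E') = D * D' + E * E' := by
  rw [Matrix.add_mul, Matrix.mul_add, Matrix.mul_add, hD.mul_eq_zero hE' hd, hE.mul_eq_zero hD' hd.symm,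
    add_zero, zero_add]

theorem tria_flag {U W A K1 K2 : Finset L} {D E : Matrix L L R} (hd : Disjoint U W) (hD : Sup U U D)
    (hE : Sup W W E) (hA : A ⊆ U) (hK : K1 ⊆ W) (h1 : Sup A A (D * eS R A)) (h2 : Sup K2 K1 (E * eS R K1)) :
    Sup (A ∪ K2) (A ∪ K1) ((D + E) * eS R (A ∪ K1)) := by
  rw [eS_union (hd.mono hA hK), tria_blk hd hD ((sup_eS A).mono hA hA) hE ((sup_eS K1).mono hK hK)]
  exact (h1.mono Finset.subset_union_left Finset.subset_union_left).add
    (h2.mono Finset.subset_union_right Finset.subset_union_right)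

theorem tria_cM21 (h : T.ok) : T.rot.rot.cM R * T.rot.cM R =
    tria_D R (tria_U T) (T.C true true false ∪ T.C false true true) *
      tria_D R (tria_U T) (T.C true false true ∪ T.C true true false) + tria_E2 T R := by
  rw [tria_cM1 h, tria_cM2 h, tria_blk (tria_dU h) (tria_sup_D (Finset.union_subset (tria_s3 T) (tria_s1 T)))
    (tria_sup_D (Finset.union_subset (tria_s2 T) (tria_s3 T))) (tria_sup_E h) (tria_sup_E h), tria_EE h]

theorem tria_sup_E2 (h : T.ok) : Sup (T.K ∪ T.K') (T.K ∪ T.K') (tria_E2 T R) := by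
  rw [← tria_EE h]; exact (tria_sup_E h).mul (tria_sup_E h)

theorem tria_sup_DD (T : TD L) : Sup (tria_U T) (tria_U T)
    (tria_D R (tria_U T) (T.C true true false ∪ T.C false true true) *
      tria_D R (tria_U T) (T.C true false true ∪ T.C true true false)) :=
  (tria_sup_D (Finset.union_subset (tria_s3 T) (tria_s1 T))).mul
    (tria_sup_D (Finset.union_subset (tria_s2 T) (tria_s3 T)))

theorem TD.sup_cM (h : T.ok) : Sup T.all T.all (T.cM R) := by
  rw [tria_cM h, tria_all]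
  exact ((tria_sup_D (Finset.union_subset (tria_s1 T) (tria_s2 T))).mono Finset.subset_union_left
    Finset.subset_union_left).add ((tria_sup_E h).mono Finset.subset_union_right Finset.subset_union_right)

theorem TD.cM_cube (h : T.ok) : T.rot.rot.cM R * T.rot.cM R * T.cM R = eS R T.all := by
  rw [tria_cM21 h, tria_cM h, tria_blk (tria_dU h) (tria_sup_DD T)
    (tria_sup_D (Finset.union_subset (tria_s1 T) (tria_s2 T))) (tria_sup_E2 h) (tria_sup_E h), tria_EEE h,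
    tria_D3 (h.dC _ _ _ _ _ _ (by decide)) (h.dC _ _ _ _ _ _ (by decide)) (h.dC _ _ _ _ _ _ (by decide))
      (tria_s1 T) (tria_s2 T) (tria_s3 T), tria_all, eS_union (tria_dU h)]

theorem TD.cM_PI (h : T.ok) : PI T.all T.all (T.cM R) (T.rot.rot.cM R * T.rot.cM R) := by
  have h1 := TD.sup_cM (R := R) h.rot
  have h2 := TD.sup_cM (R := R) h.rot.rot
  have h3 := TD.cM_cube (R := R) h.rot
  rw [TD.rot_all] at h1 h2 h2 h3
  exact ⟨TD.sup_cM h, h2.mul h1, TD.cM_cube h, by rw [← Matrix.mul_assoc]; exact h3⟩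

/-- `cM` maps `F_c` onto the `F_p` of the next step -/
theorem TD.cM_flag (h : T.ok) : Flag T.Fc T.rot.Fp (T.cM R) (T.rot.rot.cM R * T.rot.cM R) := by
  have e1 : T.Fc = T.nP ∪ (T.C false true true ∪ T.C false true false) ∪ T.K' := by
    simp only [TD.Fc, TD.nT', Finset.union_assoc]
  have e2 : T.rot.Fp = T.nP ∪ (T.C false true true ∪ T.C false true false) ∪ T.K := by
    ext i
    simp only [TD.Fp, TD.nP, TD.nS, TD.rot, Finset.mem_union]
    tauto
  have hA : T.nP ∪ (T.C false true true ∪ T.C false true false) ⊆ tria_U T := by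
    intro i; simp only [TD.nP, tria_U, Finset.mem_union]; tauto
  rw [e1, e2, tria_cM21 h, tria_cM h]
  refine ⟨tria_flag (tria_dU h) (tria_sup_D (Finset.union_subset (tria_s1 T) (tria_s2 T))) (tria_sup_E h) hA
    Finset.subset_union_right (tria_D_eS _ _ _) (tria_E_K' h),
    tria_flag (tria_dU h) (tria_sup_DD T) (tria_sup_E2 h) hA Finset.subset_union_left ?_ (tria_E2_K h)⟩
  rw [Matrix.mul_assoc, ← (tria_D_eS _ _ _).eS_mul subset_rfl, ← Matrix.mul_assoc]
  exact (tria_D_eS _ _ _).mul (tria_D_eS _ _ _)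

/-- `rot.cM * cM` maps `F_p` onto the `F_c` of the step after the next -/
theorem TD.cM_flag2 (h : T.ok) :
    Flag T.Fp T.rot.rot.Fc (T.rot.cM R * T.cM R) (T.rot.rot.cM R) :=
  (TD.cM_flag h.rot.rot).symm

theorem Fr.psi_map {R' : Type} [CommRing R'] (F : Fr L R) (φ : R →+* R') :
    (F.psi T).map φ = (F.map φ).psi T := by
  unfold Fr.psi Fr.map
  simp only [Matrix.map_add _ (map_add φ), Matrix.map_sub _ (map_sub φ), Matrix.map_mul, TD.w_map]

theorem tria_tri {X X1 Y Y1 : Finset L} {l1 l1' l2 l2' n : Matrix L L R} (h1 : PI X X1 l1 l1')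
    (h2 : PI Y Y1 l2 l2') (hn : Sup X1 Y n) (hd : Disjoint X Y) (hd1 : Disjoint X1 Y1) :
    ∃ M', PI (X ∪ Y) (X1 ∪ Y1) (l1 + l2 + n) M' := by
  have hv := h1.s2.mul hn
  have h := (flag_of_lin2 h1 h2 hv hd hd1).1
  rw [Matrix.mul_add, (h1.add h2 hd hd1).s1.mul_eS subset_rfl, Matrix.add_mul l1,
    h2.s1.mul_eq_zero hv hd.symm, add_zero, ← Matrix.mul_assoc, h1.r, hn.eS_mul subset_rfl] at h
  exact ⟨_, h⟩

theorem tria_J (hJ : J.ok) : J.P ∪ J.S = J.Xp ∧ J.P ∪ J.T = J.X ∧ J.P ∪ (J.S ∪ J.T) = J.Xp ∪ J.X ∧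
    J.P ∪ (J.S ∪ J.T) ∪ J.Z = J.X ∪ J.Y ∧ Disjoint J.P J.S ∧ Disjoint J.P J.T ∧ Disjoint J.S J.T ∧
    Disjoint (J.P ∪ (J.S ∪ J.T)) J.Z := by
  have k1 : ∀ i, i ∈ J.Xp → i ∉ J.Yp := fun i k => Finset.disjoint_left.1 hJ.1 k
  have k2 : ∀ i, i ∈ J.X → i ∉ J.Y := fun i k => Finset.disjoint_left.1 hJ.2.1 k
  have k3 : ∀ i, i ∈ J.Xp ∨ i ∈ J.Yp ↔ i ∈ J.X ∨ i ∈ J.Y := fun i => by
    rw [← Finset.mem_union, ← Finset.mem_union, hJ.2.2]
  simp only [Finset.ext_iff, Finset.disjoint_left, Jn.P, Jn.S, Jn.T, Jn.Z, Finset.mem_union, Finset.mem_inter]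
  refine ⟨?_, ?_, ?_, ?_, ?_, ?_, ?_, ?_⟩ <;> intro i <;> have := k1 i <;> have := k2 i <;> have := k3 i <;> tauto

theorem tria_T (hT : T.ok) : T.nP ∪ (T.nS ∪ T.nT') = T.Fp ∪ T.Fc ∧ T.nP ∪ (T.nS ∪ T.nT') ∪ T.nZ = T.all ∧
    Disjoint T.nP T.nS ∧ Disjoint T.nP T.nT' ∧ Disjoint T.nS T.nT' ∧
    Disjoint (T.nP ∪ (T.nS ∪ T.nT')) T.nZ := by
  refine ⟨?_, by simp only [TD.all, Finset.union_assoc], by tria_disj hT, by tria_disj hT, by tria_disj hT,
    by tria_disj hT⟩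
  ext i
  simp only [TD.Fp, TD.Fc, Finset.mem_union]
  tauto

theorem Fr.psi_PI (hT : T.ok) (hJ : J.ok) {F : Fr L R} (hF : F.ok T J) :
    ∃ Ψ', PI (J.X ∪ J.Y) T.all (F.psi T) Ψ' := by
  obtain ⟨-, -, -, j4, d1, d2, d3, d4⟩ := tria_J hJ
  obtain ⟨-, t2, e1, e2, e3, e4⟩ := tria_T hT
  have p2 := tria_pi_w hT (tria_wT hT) (tria_wT' hT) hF.p2
  obtain ⟨M1, h1⟩ := tria_tri hF.p0 (hF.p1.add p2 d3 e3)
    (((hF.p0.s1.mul hF.sa).mono subset_rfl Finset.subset_union_left).sub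
      ((hF.sc.mul hF.p2.s1).mono subset_rfl Finset.subset_union_right))
    (Finset.disjoint_union_right.2 ⟨d1, d2⟩) (Finset.disjoint_union_right.2 ⟨e1, e2⟩)
  obtain ⟨M2, h2⟩ := tria_tri h1 hF.p3
    ((((p2.s1.mul hF.sb).mono (Finset.subset_union_right.trans Finset.subset_union_right) subset_rfl).sub
      ((hF.se.mul hF.p3.s1).mono (Finset.subset_union_left.trans Finset.subset_union_right) subset_rfl)).add
      (hF.sz.mono Finset.subset_union_left subset_rfl)) d4 e4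
  rw [j4, t2] at h2
  refine ⟨M2, ?_⟩
  have e : F.psi T = F.φ 0 + (F.φ 1 + T.w R * F.φ 2) + (F.φ 0 * F.a - F.c * F.φ 2) + F.φ 3 +
      (T.w R * F.φ 2 * F.b - F.e * F.φ 3 + F.z) := by
    unfold Fr.psi; abel
  rw [e]
  exact h2

theorem tria_sup_iff {X X1 : Finset L} {M : Matrix L L R} :
    Sup X1 X (M * eS R X) ↔ ∀ i j, j ∈ X → i ∉ X1 → M i j = 0 := by
  constructor
  · intro h i j hj hi
    have := h i j fun k => hi k.1
    rwa [mat_mul_eS, if_pos hj] at this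
  · intro h i j k
    rw [mat_mul_eS]
    split_ifs with hj
    · exact h i j hj fun hi => k ⟨hi, hj⟩
    · rfl

theorem tria_inter {X X1 Y Y1 : Finset L} {M : Matrix L L R} (h : Sup X1 X (M * eS R X))
    (h' : Sup Y1 Y (M * eS R Y)) : Sup (X1 ∩ Y1) (X ∩ Y) (M * eS R (X ∩ Y)) := by
  rw [tria_sup_iff] at h h' ⊢
  intro i j hj hi
  rw [Finset.mem_inter] at hi hj
  by_cases c : i ∈ X1
  · exact h' i j hj.2 fun k => hi ⟨c, k⟩
  · exact h i j hj.1 c

theorem tria_union {X X1 Y Y1 : Finset L} {M : Matrix L L R} (h : Sup X1 X (M * eS R X))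
    (h' : Sup Y1 Y (M * eS R Y)) : Sup (X1 ∪ Y1) (X ∪ Y) (M * eS R (X ∪ Y)) := by
  rw [tria_sup_iff] at h h' ⊢
  intro i j hj hi
  rw [Finset.mem_union] at hi hj
  rcases hj with hj | hj
  · exact h i j hj fun k => hi (Or.inl k)
  · exact h' i j hj fun k => hi (Or.inr k)

theorem tria_quot {A A' X X1 Y Y1 : Finset L} {M M' : Matrix L L R} (hM : PI A A' M M') (h : Flag X X1 M M')
    (h' : Flag (X ∪ Y) (X1 ∪ Y1) M M') (hA : X ∪ Y ⊆ A) (hA' : X1 ∪ Y1 ⊆ A') (hd : Disjoint X Y)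
    (hd1 : Disjoint X1 Y1) : PI Y Y1 (eS R Y1 * M * eS R Y) (eS R Y * M' * eS R Y1) := by
  have h1 : Flag X X1 (M * eS R (X ∪ Y)) (M' * eS R (X1 ∪ Y1)) := by
    unfold Flag
    rw [Matrix.mul_assoc, Matrix.mul_assoc, eS_mul_of_superset Finset.subset_union_left,
      eS_mul_of_superset Finset.subset_union_left]
    exact h
  have h2 := h1.pi_quot (h'.pi hM hA hA') hd hd1
  rwa [Matrix.mul_assoc, Matrix.mul_assoc, Matrix.mul_assoc, Matrix.mul_assoc,
    eS_mul_of_superset Finset.subset_union_right, eS_mul_of_superset Finset.subset_union_right,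
    ← Matrix.mul_assoc, ← Matrix.mul_assoc] at h2

theorem tria_col {X X1 S A B : Finset L} {M : Matrix L L R} (h : Sup X1 X (M * eS R X)) (hS : S ⊆ X)
    (hAB : A ∪ B = X1) (hd : Disjoint A B) :
    eS R A * M * eS R S + eS R B * M * eS R S = M * eS R S := by
  rw [← Matrix.add_mul, ← Matrix.add_mul, ← eS_union hd, hAB, ← eS_mul_of_superset hS, ← Matrix.mul_assoc,
    Matrix.mul_assoc (eS R X1), h.eS_mul subset_rfl, Matrix.mul_assoc]

theorem psi_decomp (hT : T.ok) (hJ : J.ok) {Ψ Ψ' : Matrix L L R} (h : PI (J.X ∪ J.Y) T.all Ψ Ψ')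
    (hp : Flag J.Xp T.Fp Ψ Ψ') (hc : Flag J.X T.Fc Ψ Ψ') :
    ∃ F : Fr L R, F.ok T J ∧ F.psi T = Ψ := by
  obtain ⟨j1, j2, j3, j4, d1, d2, d3, d4⟩ := tria_J hJ
  obtain ⟨t1, t2, e1, e2, e3, e4⟩ := tria_T hT
  have t3 : T.Fp ∩ T.Fc = T.nP := by
    rw [TD.Fp, TD.Fc, ← Finset.union_inter_distrib_left, Finset.disjoint_iff_inter_eq_empty.1 e3,
      Finset.union_empty]
  have f0 : Flag J.P T.nP Ψ Ψ' := by
    rw [← t3]; exact ⟨tria_inter hp.1 hc.1, tria_inter hp.2 hc.2⟩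
  have f3 : Flag (J.P ∪ (J.S ∪ J.T)) (T.nP ∪ (T.nS ∪ T.nT')) Ψ Ψ' := by
    rw [j3, t1]; exact ⟨tria_union hp.1 hc.1, tria_union hp.2 hc.2⟩
  have f4 : Flag (J.X ∪ J.Y) T.all Ψ Ψ' :=
    ⟨by rw [h.s1.mul_eS subset_rfl]; exact h.s1, by rw [h.s2.mul_eS subset_rfl]; exact h.s2⟩
  have hXp : J.Xp ⊆ J.X ∪ J.Y := by rw [← hJ.2.2]; exact Finset.subset_union_left
  have p0 := f0.pi h (Finset.inter_subset_right.trans Finset.subset_union_left)
    (Finset.subset_union_left.trans T.Fp_subset)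
  have p1 := tria_quot h f0 (by rw [j1]; exact hp) (by rw [j1]; exact hXp) T.Fp_subset d1 e1
  have p2 := tria_quot h f0 (by rw [j2]; exact hc) (by rw [j2]; exact Finset.subset_union_left)
    T.Fc_subset d2 e2
  have p3 := tria_quot h f3 (by rw [j4, t2]; exact f4) j4.subset t2.subset d4 e4
  have p2' := tria_pi_w hT (tria_wT' hT) (tria_wT hT) p2
  have sS := sup_sandwich T.nP J.S Ψ
  have sT := sup_sandwich T.nP J.T Ψ
  have sZ1 := sup_sandwich T.nS J.Z Ψ
  have sZ2 := sup_sandwich T.nT' J.Z Ψ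
  refine ⟨⟨![Ψ * eS R J.P, eS R T.nS * Ψ * eS R J.S, T.w R * (eS R T.nT' * Ψ * eS R J.T),
      eS R T.nZ * Ψ * eS R J.Z],
    ![Ψ' * eS R T.nP, eS R J.S * Ψ' * eS R T.nS, eS R J.T * Ψ' * eS R T.nT' * T.w R,
      eS R J.Z * Ψ' * eS R T.nZ],
    Ψ' * eS R T.nP * (eS R T.nP * Ψ * eS R J.S), eS R J.T * Ψ' * eS R T.nT' * (eS R T.nT' * Ψ * eS R J.Z),
    -(eS R T.nP * Ψ * eS R J.T * (eS R J.T * Ψ' * eS R T.nT' * T.w R)),
    -(eS R T.nS * Ψ * eS R J.Z * (eS R J.Z * Ψ' * eS R T.nZ)), eS R T.nP * Ψ * eS R J.Z⟩,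
    ⟨p0, p1, p2', p3, p0.s2.mul sS, p2.s2.mul sZ2, (sT.mul p2'.s2).neg, (sZ1.mul p3.s2).neg,
      sup_sandwich _ _ _⟩, ?_⟩
  have ew : T.w R * (T.w R * (eS R T.nT' * Ψ * eS R J.T)) = eS R T.nT' * Ψ * eS R J.T := by
    rw [← Matrix.mul_assoc, TD.w_mul_w hT, Matrix.one_mul]
  have c1 := tria_col hp.1 (S := J.S) Finset.inter_subset_left rfl e1
  have c2 := tria_col hc.1 (S := J.T) Finset.inter_subset_right rfl e2
  have c3 := tria_col f4.1 (S := J.Z) (Finset.inter_subset_right.trans Finset.subset_union_right) t2 e4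
  rw [eS_union (Finset.disjoint_union_right.2 ⟨e1, e2⟩), eS_union e3, Matrix.add_mul, Matrix.add_mul,
    Matrix.add_mul, Matrix.add_mul] at c3
  have c4 := h.s1.mul_eS subset_rfl
  rw [← j4, eS_union d4, eS_union (Finset.disjoint_union_right.2 ⟨d1, d2⟩), eS_union d3, Matrix.mul_add,
    Matrix.mul_add, Matrix.mul_add, ← c1, ← c2, ← c3] at c4
  show Ψ * eS R J.P + eS R T.nS * Ψ * eS R J.S + T.w R * (T.w R * (eS R T.nT' * Ψ * eS R J.T)) +
    eS R T.nZ * Ψ * eS R J.Z + Ψ * eS R J.P * (Ψ' * eS R T.nP * (eS R T.nP * Ψ * eS R J.S)) +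
    T.w R * (T.w R * (eS R T.nT' * Ψ * eS R J.T)) *
      (eS R J.T * Ψ' * eS R T.nT' * (eS R T.nT' * Ψ * eS R J.Z)) -
    -(eS R T.nP * Ψ * eS R J.T * (eS R J.T * Ψ' * eS R T.nT' * T.w R)) *
      (T.w R * (eS R T.nT' * Ψ * eS R J.T)) -
    -(eS R T.nS * Ψ * eS R J.Z * (eS R J.Z * Ψ' * eS R T.nZ)) * (eS R T.nZ * Ψ * eS R J.Z) +
    eS R T.nP * Ψ * eS R J.Z = Ψ
  rw [ew, ← Matrix.mul_assoc (Ψ * eS R J.P), p0.r, sS.eS_mul subset_rfl,
    ← Matrix.mul_assoc (eS R T.nT' * Ψ * eS R J.T), p2.r, sZ2.eS_mul subset_rfl, Matrix.neg_mul,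
    Matrix.neg_mul, Matrix.mul_assoc (eS R T.nP * Ψ * eS R J.T), p2'.l, sT.mul_eS subset_rfl,
    Matrix.mul_assoc (eS R T.nS * Ψ * eS R J.Z), p3.l, sZ1.mul_eS subset_rfl]
  refine Eq.trans ?_ c4
  abel

end Crest.Agent.R3
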