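import Crest.Agent.R3.TriA
import Crest.Agent.R3.Occ

/-!
# R3 / TriF : the small faces of a step of a triangle

`p, s, t` are three consecutive steps, `J = p.jn s`, `J' = s.jn t`.  Note `J.P ∪ J.T = s.X`, `J.S ∪ J.Z = s.Y`,
`J'.P ∪ J'.S = s.X1`, `J'.T ∪ J'.Z = s.Y1`, `T.rot.nP ∪ T.rot.nS = T.nP ∪ T.nT`, `T.rot.nT ∪ T.rot.nZ = T.nS ∪ T.nZ`.
The cardinalities needed for `slotOK` come from `PI.card_eq`.  `εX` is constant on the four pieces
`C111, C011, C110, C010 ∪ K`; `εY` on `C101 ∪ K, C001, C100, C000`.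
-/

set_option autoImplicit false

noncomputable section

open Matrix

namespace Crest.Agent.R3

variable {O L V : Type} [CommRing O] [Fintype L] [DecidableEq L]
variable {B : Type} [CommRing B] [Algebra O B] [Algebra O ℂ] {π : B →ₐ[O] ℂ}
variable {p s t : Step O L V} {u : Oˣ} {T : TD L} {ν ν' : Fin 4 → V} {F F' : Fr L ℂ}

theorem jn_ok (hs : s.ok) (hl : s.link t.inS) : (s.jn t).ok := by
  exact ⟨hs.1, hl.2.1, hl.1.symm⟩

theorem tf_jn {J : Jn L} (h : J.ok) :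
    J.P ∪ J.T = J.X ∧ J.S ∪ J.Z = J.Y ∧ J.P ∪ J.S = J.Xp ∧ J.T ∪ J.Z = J.Yp ∧
      Disjoint J.P J.T ∧ Disjoint J.S J.Z ∧ Disjoint J.P J.S ∧ Disjoint J.T J.Z := by
  obtain ⟨h1, h2, h3⟩ := h
  refine ⟨?_, ?_, ?_, ?_, h1.mono Finset.inter_subset_left Finset.inter_subset_left,
    h1.mono Finset.inter_subset_left Finset.inter_subset_left,
    h2.mono Finset.inter_subset_right Finset.inter_subset_right,
    h2.mono Finset.inter_subset_right Finset.inter_subset_right⟩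
  · rw [Jn.P, Jn.T, ← Finset.union_inter_distrib_right, h3, Finset.union_inter_cancel_left]
  · rw [Jn.S, Jn.Z, ← Finset.union_inter_distrib_right, h3, Finset.union_inter_cancel_right]
  · rw [Jn.P, Jn.S, ← Finset.inter_union_distrib_left, ← h3, Finset.inter_comm, Finset.union_inter_cancel_left]
  · rw [Jn.T, Jn.Z, ← Finset.inter_union_distrib_left, ← h3, Finset.inter_comm, Finset.union_inter_cancel_right]

theorem tf_td (h : T.ok) :
    Disjoint T.nP T.nS ∧ Disjoint T.nT T.nZ ∧ Disjoint T.nP T.nT ∧ Disjoint T.nS T.nZ := by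
  simp only [TD.nP, TD.nS, TD.nT, TD.nZ, Finset.disjoint_union_left, Finset.disjoint_union_right]
  refine ⟨⟨⟨⟨?_, ?_⟩, ?_, ?_⟩, ?_, ?_⟩, ⟨⟨⟨?_, ?_⟩, ?_⟩, ⟨?_, ?_⟩, ?_⟩, ⟨⟨⟨?_, ?_⟩, ?_, ?_⟩, ?_, ?_⟩,
    ⟨⟨?_, ?_⟩, ?_⟩, ⟨?_, ?_⟩, ?_⟩ <;>
  first
    | exact h.dC _ _ _ _ _ _ (by decide)
    | exact h.dK _ _ _
    | exact (h.dK _ _ _).symm

theorem tf_rotX (T : TD L) : T.nP ∪ T.nT = T.rot.nP ∪ T.rot.nS := by
  ext i
  simp only [TD.nP, TD.nS, TD.nT, TD.rot, Finset.mem_union]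
  tauto

theorem tf_rotY (T : TD L) : T.nS ∪ T.nZ = T.rot.nT ∪ T.rot.nZ := by
  ext i
  simp only [TD.nZ, TD.nS, TD.nT, TD.rot, Finset.mem_union]
  tauto

theorem tf_εX (h : T.ok) {i j : L} (h1 : i ∈ T.rot.nP ↔ j ∈ T.rot.nP) (h2 : i ∈ T.nP ↔ j ∈ T.nP) :
    T.εX O i = T.εX O j := by
  have key : ∀ k, k ∈ T.C false true true ↔ k ∈ T.rot.nP ∧ k ∉ T.nP := by
    intro k
    have a1 := fun hk => Finset.disjoint_left.1 (h.dC false true true true true true (by decide)) (show k ∈ _ from hk)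
    have a2 := fun hk => Finset.disjoint_left.1 (h.dC false true true true true false (by decide)) (show k ∈ _ from hk)
    simp only [TD.nP, TD.rot, Finset.mem_union]
    tauto
  simp only [TD.εX, key, h1, h2]

theorem tf_εY (h : T.ok) {i j : L} (h1 : i ∈ T.rot.nT ↔ j ∈ T.rot.nT) (h2 : i ∈ T.nS ↔ j ∈ T.nS) :
    T.εY O i = T.εY O j := by
  have key : ∀ k, k ∈ T.C true false true ∪ T.K ↔ k ∈ T.rot.nT ∧ k ∈ T.nS := by
    intro k
    have a1 := fun hk => Finset.disjoint_left.1 (h.dC false false true true false false (by decide)) (show k ∈ _ from hk)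
    simp only [TD.nS, TD.nT, TD.rot, Finset.mem_union]
    tauto
  simp only [TD.εY, key, h1, h2]

theorem face_seg (hT : T.ok) (hJ : (p.jn s).ok) (hs : s.ok) (hl : s.link t.inS)
    (hF : F.ok T (p.jn s)) (hF' : F'.ok T.rot (s.jn t)) :
    Seg (faceX s u T (p.jn s) (s.jn t) ν ν' F F').Q (faceX s u T (p.jn s) (s.jn t) ν ν' F F').l
        (faceX s u T (p.jn s) (s.jn t) ν ν' F F').Q ∧
      Seg (faceY s u T (p.jn s) (s.jn t) ν ν' F F').Q (faceY s u T (p.jn s) (s.jn t) ν ν' F F').l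
        (faceY s u T (p.jn s) (s.jn t) ν ν' F F').Q := by
  have hJ' := jn_ok hs hl
  obtain ⟨u1, u2, -, -, d1, d2, -, -⟩ := tf_jn hJ
  obtain ⟨-, -, u3, u4, -, -, d3, d4⟩ := tf_jn hJ'
  obtain ⟨-, -, e3, e4⟩ := tf_td hT
  obtain ⟨e1, e2, -, -⟩ := tf_td hT.rot
  have ok0 : slotOK (none : Option (V × Bool)) (∅ : Finset L) ∅ := ⟨rfl, fun _ => rfl⟩
  have oks : ∀ {q : V × Bool} {X X1 : Finset L}, X.card = X1.card → slotOK (some q) X X1 :=
    fun h => ⟨h, fun h' => by cases h'⟩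
  constructor
  · simp only [faceX, seg_cons_cons, seg_single]
    refine ⟨St.le_refl (Finset.disjoint_empty_right _), ⟨Finset.disjoint_empty_right _, hs.2.1, ok0⟩,
      ⟨u3.trans (Finset.union_empty _).symm, d3, fun i hi j hj _ h2 => ?_⟩, St.le_refl d3,
      ⟨e1, oks hF'.p0.card_eq, oks hF'.p1.card_eq⟩, ⟨tf_rotX T, e3, fun i _ j _ h1 h2 => tf_εX hT h1 h2⟩,
      St.le_refl e3, ⟨d1, oks hF.p0.card_eq.symm, oks hF.p2.card_eq.symm⟩,
      (Finset.union_empty _).trans u1.symm, Finset.disjoint_empty_right _, fun _ _ _ _ _ _ => rfl⟩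
    have hi' : i ∈ s.X1 := u3.subset hi
    have hj' : j ∈ s.X1 := u3.subset hj
    refine hl.2.2 i (hl.1 ▸ Finset.mem_union_left _ hi') j (hl.1 ▸ Finset.mem_union_left _ hj')
      (iff_of_true hi' hj') ?_
    simpa [Step.inS, Jn.P, Step.jn, hi', hj'] using h2
  · simp only [faceY, seg_cons_cons, seg_single]
    refine ⟨St.le_refl (Finset.disjoint_empty_right _), ⟨Finset.disjoint_empty_right _, hs.2.2, ok0⟩,
      ⟨u4.trans (Finset.union_empty _).symm, d4, fun i hi j hj _ h2 => ?_⟩, St.le_refl d4,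
      ⟨e2, oks hF'.p2.card_eq, oks hF'.p3.card_eq⟩, ⟨tf_rotY T, e4, fun i _ j _ h1 h2 => tf_εY hT h1 h2⟩,
      St.le_refl e4, ⟨d2, oks hF.p1.card_eq.symm, oks hF.p3.card_eq.symm⟩,
      (Finset.union_empty _).trans u2.symm, Finset.disjoint_empty_right _, fun _ _ _ _ _ _ => rfl⟩
    have hi' : i ∈ s.Y1 := u4.subset hi
    have hj' : j ∈ s.Y1 := u4.subset hj
    refine hl.2.2 i (hl.1 ▸ Finset.mem_union_right _ hi') j (hl.1 ▸ Finset.mem_union_right _ hj')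
      (iff_of_false (Finset.disjoint_right.1 hs.1 hi') (Finset.disjoint_right.1 hs.1 hj')) ?_
    simpa [Step.inS, Jn.T, Step.jn, hi', hj'] using h2

theorem face_occ (hF : F.ok T (p.jn s)) :
    (faceX s u T (p.jn s) (s.jn t) ν ν' F F').occ + (faceY s u T (p.jn s) (s.jn t) ν ν' F F').occ =
      s.occ + jocc T.rot (s.jn t) ν' + (jocc T (p.jn s) ν).map Occ.flip := by
  simp only [faceX, faceY, Face.occ, occL_cons, occL_nil, Step.occ, jocc, Multiset.map_add, slot_none,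
    slot_flip _ _ hF.p0.card_eq, slot_flip _ _ hF.p1.card_eq, slot_flip _ _ hF.p2.card_eq,
    slot_flip _ _ hF.p3.card_eq, Bool.not_false]
  abel

theorem face_gap (hF : F.ok T (p.jn s)) (hF' : F'.ok T.rot (s.jn t)) :
    (∀ r ∈ (faceX s u T (p.jn s) (s.jn t) ν ν' F F').l, Sup r.X r.Y r.n) ∧
      ∀ r ∈ (faceY s u T (p.jn s) (s.jn t) ν ν' F F').l, Sup r.X r.Y r.n := by
  simp only [faceX, faceY, List.forall_mem_cons, List.not_mem_nil, false_imp_iff, implies_true, and_true]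
  exact ⟨⟨sup_zero _ _, hF'.sa, hF.sc⟩, sup_zero _ _, hF'.sb, hF.se⟩

theorem jocc_varOK {R : Type} [CommRing R] {x : Asg V L R} {G : Fr L R} {J : Jn L} (hG : G.ok T J)
    (hx : G.asg x ν) : VarOK x (jocc T J ν + (jocc T J ν).map Occ.flip) := by
  have key : ∀ {i : Fin 4} {X X1 : Finset L}, PI X X1 (G.φ i) (G.φ' i) →
      VarOK x (slot (some (ν i, false)) X X1) := by
    intro i X X1 h
    refine varOK_slot ?_
    rw [Bool.not_false, (hx i).1, (hx i).2]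
    exact h
  have h1 : VarOK x (jocc T J ν) :=
    varOK_add.2 ⟨varOK_add.2 ⟨varOK_add.2 ⟨key hG.p0, key hG.p1⟩, key hG.p2⟩, key hG.p3⟩
  refine varOK_add.2 ⟨h1, fun c hc => ?_⟩
  obtain ⟨c', hc', rfl⟩ := Multiset.mem_map.1 hc
  simpa only [Occ.flip, Bool.not_not] using (h1 c' hc').symm

theorem tf_blk_mul {R : Type} [CommRing R] (x : Asg V L R) (o : Option (V × Bool)) (X X1 : Finset L) :
    blk x o X X1 * eS R X = blk x o X X1 := by
  cases o with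
  | none => exact eS_mul_self X
  | some q => simp only [blk, Matrix.mul_assoc, eS_mul_self]

/-- the value of the word of a small face -/
theorem tf_val {R : Type} [CommRing R] [Algebra O R] (x : Asg V L R) (X X1 A1 A2 A3 A4 C1 C2 C3 C4 : Finset L)
    (o a1 a2 c1 c2 : Option (V × Bool)) (d ε : L → Oˣ) (n0 n1 n2 : Matrix L L ℂ) (a c : Matrix L L R) :
    1 * (⟨C1, C2, C3, C4, c1, c2, 1, n2⟩ : Step O L V).valG x c *
        (⟨A1, A2, A3, A4, a1, a2, ε, n1⟩ : Step O L V).valG x a *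
        (⟨X, ∅, X1, ∅, o, none, d, n0⟩ : Step O L V).valG x 0 * eS R (X ∪ ∅) =
      (blk x c1 C1 C3 + blk x c2 C2 C4) * (eS R (C1 ∪ C2) + c) * dg R ε * (blk x a1 A1 A3 + blk x a2 A2 A4) *
        (eS R (A1 ∪ A2) + a) * dg R d * blk x o X X1 := by
  simp only [Step.valG, dg_one, Matrix.one_mul, blk_empty, add_zero, Finset.union_empty, Matrix.mul_assoc,
    tf_blk_mul]

/-- complex equations -/
theorem face_eqn {x : Asg V L ℂ} (hJ : (p.jn s).ok) (hs : s.ok) (hv : VarOK x s.occ)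
    (hF : F.ok T (p.jn s)) (hF' : F'.ok T.rot (s.jn t)) (hx : F.asg x ν) (hx' : F'.asg x ν')
    (hX : EqX u s.d (blk x s.o1 s.X s.X1) T (p.jn s) (s.jn t) F F')
    (hY : EqY u s.d (blk x s.o2 s.Y s.Y1) T (p.jn s) (s.jn t) F F') :
    (faceX s u T (p.jn s) (s.jn t) ν ν' F F').Eqn
        (prodL x (faceX s u T (p.jn s) (s.jn t) ν ν' F F').l) ∧
      (faceY s u T (p.jn s) (s.jn t) ν ν' F F').Eqn
        (prodL x (faceY s u T (p.jn s) (s.jn t) ν ν' F F').l) := by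
  have k1 : ∀ {G : Fr L ℂ} {μ : Fin 4 → V} {i : Fin 4} {X X1 : Finset L}, G.asg x μ →
      PI X X1 (G.φ i) (G.φ' i) → blk x (some (μ i, false)) X X1 = G.φ i := by
    intro G μ i X X1 hG h
    rw [blk_some ((hG i).1 ▸ h.s1), (hG i).1]
  have k2 : ∀ {G : Fr L ℂ} {μ : Fin 4 → V} {i : Fin 4} {X X1 : Finset L}, G.asg x μ →
      PI X X1 (G.φ i) (G.φ' i) → blk x (some (μ i, true)) X1 X = G.φ' i := by
    intro G μ i X X1 hG h
    rw [blk_some ((hG i).2 ▸ h.s2), (hG i).2]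
  constructor
  · simp only [faceX, prodL, Face.Eqn, St.set]
    rw [tf_val, k2 hx hF.p0, k2 hx hF.p2, k1 hx' hF'.p0, k1 hx' hF'.p1, Finset.union_empty]
    exact hX
  · simp only [faceY, prodL, Face.Eqn, St.set]
    rw [tf_val, k2 hx hF.p1, k2 hx hF.p3, k1 hx' hF'.p2, k1 hx' hF'.p3, Finset.union_empty]
    exact hY

/-- The frame over `B` defined by an assignment `y` (on empty pieces the variables are not controlled, so
they are cut off), with prescribed gaps. -/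
def liftFr (y : Asg V L B) (T : TD L) (J : Jn L) (ν : Fin 4 → V) (a b c e z : Matrix L L B) : Fr L B :=
  ⟨![blk y (some (ν 0, false)) J.P T.nP, blk y (some (ν 1, false)) J.S T.nS,
      blk y (some (ν 2, false)) J.T T.nT, blk y (some (ν 3, false)) J.Z T.nZ],
    ![blk' y (some (ν 0, false)) J.P T.nP, blk' y (some (ν 1, false)) J.S T.nS,
      blk' y (some (ν 2, false)) J.T T.nT, blk' y (some (ν 3, false)) J.Z T.nZ], a, b, c, e, z⟩

theorem liftFr_ok {x : Asg V L ℂ} {y : Asg V L B} {J : Jn L} (hF : F.ok T J) (hx : F.asg x ν)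
    (hy : VarOK y (jocc T J ν)) (hm : ∀ c ∈ jocc T J ν, ∀ b, (y c.v b).map π = x c.v b)
    {a b c e z : Matrix L L B} (ha : Sup J.P J.S a ∧ a.map π = F.a) (hb : Sup J.T J.Z b ∧ b.map π = F.b)
    (hc : Sup T.nP T.nT c ∧ c.map π = F.c) (he : Sup T.nS T.nZ e ∧ e.map π = F.e)
    (hz : Sup T.nP J.Z z ∧ z.map π = F.z) :
    (liftFr y T J ν a b c e z).ok T J ∧ (liftFr y T J ν a b c e z).map (π : B →+* ℂ) = F := by
  simp only [jocc, varOK_add] at hy
  simp only [jocc, Multiset.mem_add] at hm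
  have oks : ∀ {q : V × Bool} {X X1 : Finset L}, X.card = X1.card → slotOK (some q) X X1 :=
    fun h => ⟨h, fun h' => by cases h'⟩
  have key : ∀ {i : Fin 4} {X X1 : Finset L}, PI X X1 (F.φ i) (F.φ' i) →
      (∀ c ∈ slot (some (ν i, false)) X X1, ∀ b, (y c.v b).map π = x c.v b) →
      (blk y (some (ν i, false)) X X1).map π = F.φ i ∧ (blk' y (some (ν i, false)) X X1).map π = F.φ' i := by
    intro i X X1 h h'
    rw [(blk_map h').1, (blk_map h').2, blk_some ((hx i).1 ▸ h.s1), blk'_some ((hx i).2 ▸ h.s2)]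
    exact hx i
  have k0 := key hF.p0 fun c hc => hm c (Or.inl (Or.inl (Or.inl hc)))
  have k1 := key hF.p1 fun c hc => hm c (Or.inl (Or.inl (Or.inr hc)))
  have k2 := key hF.p2 fun c hc => hm c (Or.inl (Or.inr hc))
  have k3 := key hF.p3 fun c hc => hm c (Or.inr hc)
  refine ⟨⟨blk_PI (oks hF.p0.card_eq) hy.1.1.1, blk_PI (oks hF.p1.card_eq) hy.1.1.2,
    blk_PI (oks hF.p2.card_eq) hy.1.2, blk_PI (oks hF.p3.card_eq) hy.2, ha.1, hb.1, hc.1, he.1, hz.1⟩, ?_⟩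
  obtain ⟨φ, φ', a0, b0, c0, e0, z0⟩ := F
  simp only [Fr.map, Fr.mk.injEq]
  refine ⟨funext fun i => ?_, funext fun i => ?_, ha.2, hb.2, hc.2, he.2, hz.2⟩
  · fin_cases i
    exacts [k0.1, k1.1, k2.1, k3.1]
  · fin_cases i
    exacts [k0.2, k1.2, k2.2, k3.2]

/-- reading off the gaps and the equation from a lift of `faceX` -/
theorem faceX_lift {y : Asg V L B} (hJ : (p.jn s).ok) {q : Matrix L L B}
    (hq : PL π y (faceX s u T (p.jn s) (s.jn t) ν ν' F F').l q)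
    (he : (faceX s u T (p.jn s) (s.jn t) ν ν' F F').Eqn q) (hs : s.ok) :
    ∃ a' c : Matrix L L B, (Sup (s.jn t).P (s.jn t).S a' ∧ a'.map π = F'.a) ∧
      (Sup T.nP T.nT c ∧ c.map π = F.c) ∧
      ∀ a b e z b' c' e' z', EqX u s.d (blk y s.o1 s.X s.X1) T (p.jn s) (s.jn t)
        (liftFr y T (p.jn s) ν a b c e z) (liftFr y T.rot (s.jn t) ν' a' b' c' e' z') := by
  obtain ⟨_, _, ⟨n0, -, hn0, rfl⟩, ⟨_, _, ⟨a', ha1, ha2, rfl⟩, ⟨_, _, ⟨c, hc1, hc2, rfl⟩, rfl, rfl⟩, rfl⟩, rfl⟩ := hq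
  obtain rfl : n0 = 0 := hn0.eq_zero (Or.inr rfl)
  refine ⟨a', c, ⟨ha2, ha1⟩, ⟨hc2, hc1⟩, fun a b e z b' c' e' z' => ?_⟩
  simp only [faceX, Face.Eqn, St.set] at he
  rw [tf_val, Finset.union_empty] at he
  exact he

theorem faceY_lift {y : Asg V L B} (hJ : (p.jn s).ok) {q : Matrix L L B}
    (hq : PL π y (faceY s u T (p.jn s) (s.jn t) ν ν' F F').l q)
    (he : (faceY s u T (p.jn s) (s.jn t) ν ν' F F').Eqn q) (hs : s.ok) :
    ∃ b' e : Matrix L L B, (Sup (s.jn t).T (s.jn t).Z b' ∧ b'.map π = F'.b) ∧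
      (Sup T.nS T.nZ e ∧ e.map π = F.e) ∧
      ∀ a b c z a' c' e' z', EqY u s.d (blk y s.o2 s.Y s.Y1) T (p.jn s) (s.jn t)
        (liftFr y T (p.jn s) ν a b c e z) (liftFr y T.rot (s.jn t) ν' a' b' c' e' z') := by
  obtain ⟨_, _, ⟨n0, -, hn0, rfl⟩, ⟨_, _, ⟨b', hb1, hb2, rfl⟩, ⟨_, _, ⟨e, he1, he2, rfl⟩, rfl, rfl⟩, rfl⟩, rfl⟩ := hq
  obtain rfl : n0 = 0 := hn0.eq_zero (Or.inr rfl)
  refine ⟨b', e, ⟨hb2, hb1⟩, ⟨he2, he1⟩, fun a b c z a' c' e' z' => ?_⟩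
  simp only [faceY, Face.Eqn, St.set] at he
  rw [tf_val, Finset.union_empty] at he
  exact he

end Crest.Agent.R3
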