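import Crest.Agent.R3.Seg
import Crest.Agent.R3.LiftB

/-!
# R3 / Val : values of slots, steps and words
-/

set_option autoImplicit false

noncomputable section

open Matrix

namespace Crest.Agent.R3

variable {O L V : Type} [CommRing O] [Fintype L] [DecidableEq L]

/-- inverse of the value of a step -/
def Step.valI {R : Type} [CommRing R] [Algebra O R] (s : Step O L V) (x : Asg V L R)
    (n : Matrix L L R) : Matrix L L R :=
  (eS R (s.X ∪ s.Y) - n) * (blk' x s.o1 s.X s.X1 + blk' x s.o2 s.Y s.Y1) * dg R s.d⁻¹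

/-- `x` and `x'` agree on the variables occurring in `M` -/
def Agree {R : Type} (x x' : Asg V L R) (M : Multiset (Occ L V)) : Prop :=
  ∀ c ∈ M, ∀ b, x c.v b = x' c.v b

section
variable {R : Type} [CommRing R] {x x' : Asg V L R} {o : Option (V × Bool)} {X X1 : Finset L}
  {M M' : Multiset (Occ L V)}

theorem VarOK.mono (h : VarOK x M) (hle : ∀ c ∈ M', c ∈ M) : VarOK x M' := fun c hc => h c (hle c hc)

theorem varOK_add : VarOK x (M + M') ↔ VarOK x M ∧ VarOK x M' := by
  simp only [VarOK, Multiset.mem_add, or_imp, forall_and]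

theorem VarOK.congr (h : VarOK x M) (ha : Agree x x' M) : VarOK x' M := by
  intro c hc
  rw [← ha c hc, ← ha c hc]
  exact h c hc

theorem varOK_slot {v : V} {b : Bool} (h : PI X X1 (x v b) (x v (!b))) :
    VarOK x (slot (some (v, b)) X X1) := by
  rintro ⟨v', b', Y, Y1⟩ hc
  obtain ⟨ho, -, rfl, rfl⟩ := mem_slot.1 hc
  cases ho
  exact h

private theorem val_mem {v : V} {b : Bool} (h : X.Nonempty) :
    (⟨v, b, X, X1⟩ : Occ L V) ∈ slot (some (v, b)) X X1 := mem_slot.2 ⟨rfl, h, rfl, rfl⟩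

theorem blk_PI (ho : slotOK o X X1) (hx : VarOK x (slot o X X1)) :
    PI X X1 (blk x o X X1) (blk' x o X X1) := by
  rcases o with _ | ⟨v, b⟩
  · rw [ho.2 rfl]
    exact PI.refl X
  · rcases X.eq_empty_or_nonempty with rfl | hX
    · obtain rfl : X1 = ∅ := Finset.card_eq_zero.1 ho.1.symm
      simpa [blk, blk'] using PI.refl (R := R) (∅ : Finset L)
    · have h : PI X X1 (x v b) (x v (!b)) := hx _ (val_mem hX)
      change PI X X1 (eS R X1 * x v b * eS R X) (eS R X * x v (!b) * eS R X1)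
      rwa [sup_iff.1 h.s1, sup_iff.1 h.s2]

theorem blk_some {v : V} {b : Bool} (h : Sup X1 X (x v b)) : blk x (some (v, b)) X X1 = x v b := by
  exact sup_iff.1 h

theorem blk'_some {v : V} {b : Bool} (h : Sup X X1 (x v (!b))) :
    blk' x (some (v, b)) X X1 = x v (!b) := by
  exact sup_iff.1 h

theorem blk_flip (v : V) (b : Bool) : blk x (some (v, !b)) X1 X = blk' x (some (v, b)) X X1 := rfl

@[simp] theorem blk_empty (X1 : Finset L) : blk x o ∅ X1 = 0 := by
  cases o <;> simp [blk]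

@[simp] theorem blk'_empty (X1 : Finset L) : blk' x o ∅ X1 = 0 := by
  cases o <;> simp [blk']

theorem blk_congr (h : Agree x x' (slot o X X1)) : blk x o X X1 = blk x' o X X1 := by
  rcases o with _ | ⟨v, b⟩
  · rfl
  · rcases X.eq_empty_or_nonempty with rfl | hX
    · rw [blk_empty, blk_empty]
    · simp only [blk, h _ (val_mem hX) b]

theorem blk'_congr (h : Agree x x' (slot o X X1)) : blk' x o X X1 = blk' x' o X X1 := by
  rcases o with _ | ⟨v, b⟩
  · rfl
  · rcases X.eq_empty_or_nonempty with rfl | hX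
    · rw [blk'_empty, blk'_empty]
    · simp only [blk', h _ (val_mem hX) (!b)]

variable [Algebra O R] {s : Step O L V} {n y : Matrix L L R}

theorem valG_congr (h : Agree x x' s.occ) (n : Matrix L L R) : s.valG x n = s.valG x' n := by
  unfold Step.valG
  rw [blk_congr fun c hc => h c (Multiset.mem_add.2 (Or.inl hc)),
    blk_congr fun c hc => h c (Multiset.mem_add.2 (Or.inr hc))]

theorem valG_PI (hs : s.ok) (hd : Disjoint s.X s.Y) (hx : VarOK x s.occ) (hn : Sup s.X s.Y n) :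
    PI (s.X ∪ s.Y) (s.X1 ∪ s.Y1) (s.valG x n) (s.valI x n) ∧
      Flag s.X s.X1 (s.valG x n) (s.valI x n) := by
  obtain ⟨h1, h2⟩ := varOK_add.1 hx
  obtain ⟨p, f1, f2⟩ := flag_of_lin2 (blk_PI hs.2.1 h1) (blk_PI hs.2.2 h2) hn hd hs.1
  unfold Step.valG Step.valI
  rw [Matrix.mul_assoc (dg R s.d)]
  refine ⟨p.dg_mul s.d, ?_, ?_⟩
  · rw [Matrix.mul_assoc (dg R s.d)]
    exact f1.dg_mul s.d
  · rw [Matrix.mul_assoc _ (dg R s.d⁻¹), dg_comm_eS, ← Matrix.mul_assoc]
    exact f2.mul_dg _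

theorem valG_mul_eS (hn : Sup s.X s.Y n) : s.valG x n * eS R (s.X ∪ s.Y) = s.valG x n := by
  unfold Step.valG
  rw [Matrix.mul_assoc _ (_ + n), Matrix.add_mul, eS_mul_self, hn.mul_eS Finset.subset_union_right]

theorem valG_full {v : V} {b : Bool} {Ω Ω' : Finset L} (h : Sup Ω' Ω (x v b)) :
    (Step.full v b Ω Ω' : Step O L V).valG x 0 = x v b := by
  simp [Step.valG, Step.full, blk_some h, h.mul_eS subset_rfl]

theorem valG_dup (hd : Disjoint s.X s.Y) (hn : Sup s.X s.Y n) :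
    s.dup.valG x n = eS R (s.X ∪ s.Y) + n := by
  change dg R 1 * (eS R s.X + eS R s.Y) * (eS R (s.X ∪ s.Y) + n) = _
  rw [dg_one, Matrix.one_mul, ← eS_union hd, Matrix.mul_add, eS_mul_self, hn.eS_mul Finset.subset_union_left]

theorem valG_absorb (hd : Disjoint s.X s.Y) (hn : Sup s.X s.Y n) (hy : Sup s.X s.Y y) :
    s.valG x n * (eS R (s.X ∪ s.Y) + y) = s.valG x (n + y) := by
  unfold Step.valG
  rw [Matrix.mul_assoc _ (_ + n), unip_mul hd hn hy]

end

variable {B : Type} [CommRing B] [Algebra O B] [Algebra O ℂ] {π : B →ₐ[O] ℂ}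
variable {x x' : Asg V L ℂ} {y y' : Asg V L B} {l l1 l2 : List (Step O L V)} {s : Step O L V}
  {p : Matrix L L B} {Q Q' : St L}

theorem blk_map {o : Option (V × Bool)} {X X1 : Finset L}
    (h : ∀ c ∈ slot o X X1, ∀ b, (y c.v b).map π = x c.v b) :
    (blk y o X X1).map π = blk x o X X1 ∧ (blk' y o X X1).map π = blk' x o X X1 := by
  rcases o with _ | ⟨v, b⟩
  · exact ⟨eS_map π X, eS_map π X⟩
  · rcases X.eq_empty_or_nonempty with rfl | hX
    · simp
    · have h' : ∀ b', (y v b').map π = x v b' := h _ (val_mem hX)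
      simp only [blk, blk', Matrix.map_mul, eS_map, h', and_self]

theorem valG_map (h : ∀ c ∈ s.occ, ∀ b, (y c.v b).map π = x c.v b) (n : Matrix L L B) :
    (s.valG y n).map π = s.valG x (n.map π) := by
  unfold Step.valG
  rw [Matrix.map_mul, Matrix.map_mul, Matrix.map_add _ (map_add π), Matrix.map_add _ (map_add π), dg_map, eS_map,
    (blk_map fun c hc => h c (Multiset.mem_add.2 (Or.inl hc))).1,
    (blk_map fun c hc => h c (Multiset.mem_add.2 (Or.inr hc))).1]

theorem prodL_append (x : Asg V L ℂ) (l1 l2 : List (Step O L V)) :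
    prodL x (l1 ++ l2) = prodL x l2 * prodL x l1 := by
  induction l1 with
  | nil => simp [prodL]
  | cons s l ih => simp only [List.cons_append, prodL, ih, Matrix.mul_assoc]

theorem prodL_single (x : Asg V L ℂ) (s : Step O L V) : prodL x [s] = s.valG x s.n := by
  simp [prodL]

private theorem val_agree {R : Type} {x x' : Asg V L R} (h : Agree x x' (occL (s :: l))) :
    Agree x x' s.occ ∧ Agree x x' (occL l) := by
  rw [occL_cons] at h
  exact ⟨fun c hc => h c (Multiset.mem_add.2 (Or.inl hc)), fun c hc => h c (Multiset.mem_add.2 (Or.inr hc))⟩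

theorem prodL_congr (h : Agree x x' (occL l)) : prodL x l = prodL x' l := by
  induction l with
  | nil => rfl
  | cons s l ih => rw [prodL, prodL, ih (val_agree h).2, valG_congr (val_agree h).1]

theorem prodL_reverse (x : Asg V L ℂ) (l : List (Step O L V)) :
    prodL x l.reverse = (l.map fun s => s.valG x s.n).prod := by
  induction l with
  | nil => rfl
  | cons s l ih => rw [List.reverse_cons, prodL_append, prodL_single, ih, List.map_cons, List.prod_cons]

theorem PL_append : PL π y (l1 ++ l2) p ↔ ∃ p1 p2, PL π y l1 p1 ∧ PL π y l2 p2 ∧ p = p2 * p1 := by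
  induction l1 generalizing p with
  | nil => simp [PL]
  | cons s l ih =>
    simp only [List.cons_append, PL, ih]
    constructor
    · rintro ⟨p1, _, h1, ⟨q1, q2, h2, h3, rfl⟩, rfl⟩
      exact ⟨_, q2, ⟨p1, q1, h1, h2, rfl⟩, h3, Matrix.mul_assoc _ _ _⟩
    · rintro ⟨_, q2, ⟨p1, q1, h1, h2, rfl⟩, h3, rfl⟩
      exact ⟨p1, _, h1, ⟨q1, q2, h2, h3, rfl⟩, (Matrix.mul_assoc _ _ _).symm⟩

theorem PL_single : PL π y [s] p ↔ SL π y s p := by
  simp [PL]

theorem PL_reverse : PL π y l.reverse p ↔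
    ∃ ps : List (Matrix L L B), List.Forall₂ (SL π y) l ps ∧ p = ps.prod := by
  induction l generalizing p with
  | nil => simp [PL]
  | cons s l ih =>
    simp only [List.reverse_cons, PL_append, PL_single, ih]
    constructor
    · rintro ⟨_, p2, ⟨ps, h1, rfl⟩, h2, rfl⟩
      exact ⟨p2 :: ps, .cons h2 h1, rfl⟩
    · rintro ⟨ps, h, rfl⟩
      cases h with
      | cons h2 h1 => exact ⟨_, _, ⟨_, h1, rfl⟩, h2, rfl⟩

theorem SL.congr (h : SL π y s p) (ha : Agree y y' s.occ) : SL π y' s p := by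
  obtain ⟨n, h1, h2, rfl⟩ := h
  exact ⟨n, h1, h2, valG_congr ha n⟩

theorem PL.congr (h : PL π y l p) (ha : Agree y y' (occL l)) : PL π y' l p := by
  induction l generalizing p with
  | nil => exact h
  | cons s l ih =>
    obtain ⟨p1, p2, h1, h2, rfl⟩ := h
    exact ⟨p1, p2, h1.congr (val_agree ha).1, ih h2 (val_agree ha).2, rfl⟩

theorem SL_triv (h : s.X = ∅ ∨ s.Y = ∅) (hn : s.n = 0) : SL π y s p ↔ p = s.valG y 0 := by
  constructor
  · rintro ⟨n, -, h2, rfl⟩
    rw [h2.eq_zero h]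
  · rintro rfl
    exact ⟨0, by rw [hn, Matrix.map_zero _ (map_zero π)], sup_zero _ _, rfl⟩

theorem SL_full {v : V} {b : Bool} {Ω Ω' : Finset L} (h : Sup Ω' Ω (y v b)) :
    SL π y (Step.full v b Ω Ω' : Step O L V) p ↔ p = y v b := by
  rw [SL_triv (Or.inr rfl) rfl, valG_full h]

/-- a unipotent factor in the kernel of `π` is absorbed by the gap -/
theorem SL.absorb (h : SL π y s p) (hd : Disjoint s.X s.Y) {z : Matrix L L B} (hz : Sup s.X s.Y z)
    (hz0 : z.map π = 0) : SL π y s (p * (eS B (s.X ∪ s.Y) + z)) := by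
  obtain ⟨n, h1, h2, rfl⟩ := h
  exact ⟨n + z, by rw [Matrix.map_add _ (map_add π), h1, hz0, add_zero], h2.add hz, valG_absorb hd h2 hz⟩

theorem SL.map (h : SL π y s p) (hy : ∀ c ∈ s.occ, ∀ b, (y c.v b).map π = x c.v b) :
    p.map π = s.valG x s.n := by
  obtain ⟨n, h1, -, rfl⟩ := h
  rw [valG_map hy, h1]

theorem PL.map (h : PL π y l p) (hy : ∀ c ∈ occL l, ∀ b, (y c.v b).map π = x c.v b) :
    p.map π = prodL x l := by
  induction l generalizing p with
  | nil =>
    rw [show p = 1 from h]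
    exact Matrix.map_one _ (map_zero π) (map_one π)
  | cons s l ih =>
    obtain ⟨p1, p2, h1, h2, rfl⟩ := h
    rw [occL_cons] at hy
    rw [Matrix.map_mul, prodL, ih h2 fun c hc => hy c (Multiset.mem_add.2 (Or.inr hc)),
      h1.map fun c hc => hy c (Multiset.mem_add.2 (Or.inl hc))]

private theorem val_pi (hp : PL π y l p) (h : Seg Q l Q') (hy : VarOK y (occL l)) :
    ∃ p', PI Q.set Q'.set (p * eS B Q.set) p' := by
  induction l generalizing p Q with
  | nil =>
    rw [show p = 1 from hp, Matrix.one_mul, ← h.1]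
    exact ⟨_, PI.refl _⟩
  | cons s l ih =>
    obtain ⟨_, p2, ⟨n, -, hn, rfl⟩, h2, rfl⟩ := hp
    obtain ⟨h1, hs, Q1, hl, hQ⟩ := h
    rw [occL_cons, varOK_add] at hy
    obtain ⟨p', hp'⟩ := ih h2 hQ hy.2
    have h3 := (valG_PI hs h1.2.1 hy.1 hn).1
    have e : Q.set = s.X ∪ s.Y := h1.1
    rw [hl.1] at hp'
    have h4 := h3.trans hp'
    rw [Matrix.mul_assoc, h3.s1.eS_mul subset_rfl] at h4
    rw [e, Matrix.mul_assoc, valG_mul_eS hn]
    exact ⟨_, h4⟩

private theorem val_id (x : Asg V L ℂ) (hn : ∀ s ∈ l, Sup s.X s.Y s.n) :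
    PL (AlgHom.id O ℂ) x l (prodL x l) := by
  induction l with
  | nil => rfl
  | cons s l ih =>
    exact ⟨_, _, ⟨s.n, rfl, hn s List.mem_cons_self, rfl⟩, ih fun t ht => hn t (List.mem_cons_of_mem _ ht), rfl⟩

private theorem val_mul_eS (hp : PL π y l p) (h : Seg Q l Q') (hl : l ≠ []) : p * eS B Q.set = p := by
  obtain ⟨s, l, rfl⟩ := List.exists_cons_of_ne_nil hl
  obtain ⟨_, p2, ⟨n, -, hn, rfl⟩, -, rfl⟩ := hp
  have e : Q.set = s.X ∪ s.Y := h.1.1
  rw [e, Matrix.mul_assoc, valG_mul_eS hn]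

theorem prodL_PI (h : Seg Q l Q') (hx : VarOK x (occL l)) (hn : ∀ s ∈ l, Sup s.X s.Y s.n) :
    ∃ p', PI Q.set Q'.set (prodL x l * eS ℂ Q.set) p' := by
  exact val_pi (val_id x hn) h hx

theorem PL.pi (hp : PL π y l p) (h : Seg Q l Q') (hy : VarOK y (occL l)) :
    ∃ p', PI Q.set Q'.set (p * eS B Q.set) p' := by
  exact val_pi hp h hy

theorem prodL_mul_eS (h : Seg Q l Q') (hl : l ≠ []) (hn : ∀ s ∈ l, Sup s.X s.Y s.n) :
    prodL x l * eS ℂ Q.set = prodL x l := by
  exact val_mul_eS (val_id x hn) h hl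

theorem PL.mul_eS (hp : PL π y l p) (h : Seg Q l Q') (hl : l ≠ []) : p * eS B Q.set = p := by
  exact val_mul_eS hp h hl

theorem PL_exists (hG : Good π) (y : Asg V L B) (hn : ∀ s ∈ l, Sup s.X s.Y s.n) :
    ∃ p, PL π y l p := by
  induction l with
  | nil => exact ⟨1, rfl⟩
  | cons s l ih =>
    obtain ⟨p2, h2⟩ := ih fun t ht => hn t (List.mem_cons_of_mem _ ht)
    obtain ⟨n, h1, h3⟩ := (hn s List.mem_cons_self).lift hG
    exact ⟨_, _, p2, ⟨n, h1, h3, rfl⟩, h2, rfl⟩

/-- inverses of lifts are lifts of inverses -/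
theorem PI.map_inv {X X1 : Finset L} {M M' : Matrix L L B} {N N' : Matrix L L ℂ} (h : PI X X1 M M')
    (h' : PI X X1 N N') (hm : M.map π = N) : M'.map π = N' := by
  have h1 := h.map π
  rw [hm] at h1
  exact h1.uniq h'

end Crest.Agent.R3
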