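import Crest.Agent.R3.Zcl
import Crest.Agent.R3.LiftB

/-!
# R3 / ZZ : lifting to the universal ring = lying in the closure of the integral points

* `CL → ZZ`: `Univ.cl` for `τ = co T'`; `mapRep (ev j) T'` is an `O`-point (`rel_mapRep`, `mapU_scalU`).
* `ZZ → CL`: `Univ.univ` for `S = {co T' | rel T' = η}`.  The entries `τ` define matrices `a, a'` over `B` with
  `a * a' = 1` (check after every `ev j`, `Univ.sep`), hence a representation over `B`; its relator is `η` by `sep`.
* `cl_closed`: `co T` is a continuous function of `gens T` at invertible points (`a⁻¹ = (det a)⁻¹ • adjugate a`,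
  `continuousAt_matrix_inv`), and `zcl` is closed.
-/

set_option autoImplicit false

noncomputable section

open Matrix

namespace Crest.Agent.R3

variable {O : Subring ℂ} {B J : Type} [CommRing B] [Algebra O B] {π : B →ₐ[O] ℂ}
  {ev : J → (B →ₐ[O] O)} {ι : Type} [Fintype ι] [DecidableEq ι] {η : Oˣ} {g : ℕ}

private theorem zz_co_map {R R' : Type} [CommRing R] [CommRing R'] (φ : R →+* R') (T : Rep g ι R) :
    co (mapRep φ T) = fun p => φ (co T p) := by
  funext ⟨i, b1, b2, r, c⟩
  cases b1 <;> cases b2 <;> simp only [co, mapRep, if_true, Bool.false_eq_true, if_false, ← map_inv] <;> rfl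

private theorem zz_co_inj {R : Type} [CommRing R] {T T' : Rep g ι R} (h : co T = co T') : T = T' := by
  refine rep_ext fun ⟨i, b⟩ => ?_
  ext r c
  have := congrFun h (i, b, false, r, c)
  cases b <;> exact this

theorem cl_iff_zz (hU : Univ O π ev) (T : Rep g ι ℂ) : CL π η T ↔ T ∈ ZZ O η g ι := by
  constructor
  · rintro ⟨T', rfl, h2⟩
    have h := hU.cl _ (co T')
    show co _ ∈ zcl _
    rw [zz_co_map]
    refine zcl_mono ?_ h
    rintro _ ⟨j, rfl⟩
    refine ⟨mapRep (ev j : B →+* O) T', ?_, ?_⟩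
    · rw [rel_mapRep, h2, mapU_scalU]
    · rw [zz_co_map, zz_co_map]; rfl
  · intro h
    have h1 : co T ∈ zcl ((fun s k => ((s k : O) : ℂ)) ''
        {s | ∃ T' : Rep g ι O, rel T' = scalU ι O η ∧ s = co T'}) := by
      refine zcl_mono ?_ h
      rintro _ ⟨T', h2, rfl⟩
      exact ⟨co T', ⟨T', h2, rfl⟩, by rw [zz_co_map]; rfl⟩
    obtain ⟨τ, h2, h3⟩ := hU.univ _ _ _ h1
    choose Tj hT1 hT2 using h3
    have hsep : ∀ M N : Matrix ι ι B, (∀ j, M.map (ev j) = N.map (ev j)) → M = N := by
      intro M N hMN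
      ext r c
      rw [← sub_eq_zero]
      refine hU.sep _ fun j => ?_
      rw [map_sub, sub_eq_zero]
      exact congrFun (congrFun (hMN j) r) c
    let M : Fin g → Bool → Bool → Matrix ι ι B := fun i b1 b2 => Matrix.of fun r c => τ (i, b1, b2, r, c)
    let a : J → Fin g → Bool → GLm ι O := fun j i b => if b then (Tj j i).2 else (Tj j i).1
    have hM1 : ∀ j i b, (M i b false).map (ev j) = (a j i b : Matrix ι ι O) := fun j i b => by
      ext r c
      exact congrArg Subtype.val (congrFun (hT2 j) (i, b, false, r, c))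
    have hM2 : ∀ j i b, (M i b true).map (ev j) = (((a j i b)⁻¹ : GLm ι O) : Matrix ι ι O) := fun j i b => by
      ext r c
      exact congrArg Subtype.val (congrFun (hT2 j) (i, b, true, r, c))
    have hmul : ∀ (j : J) (P Q : Matrix ι ι B), (P * Q).map (ev j) = P.map (ev j) * Q.map (ev j) :=
      fun j P Q => Matrix.map_mul (f := (ev j : B →+* O))
    have hone : ∀ j : J, (1 : Matrix ι ι B).map (ev j) = 1 := fun j =>
      Matrix.map_one _ (map_zero _) (map_one _)
    let u : Fin g → Bool → GLm ι B := fun i b =>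
      ⟨M i b false, M i b true,
        hsep _ _ fun j => by rw [hmul, hM1, hM2, hone, Units.mul_inv],
        hsep _ _ fun j => by rw [hmul, hM1, hM2, hone, Units.inv_mul]⟩
    let T'' : Rep g ι B := fun i => (u i false, u i true)
    have hco : co T'' = τ := by
      funext ⟨i, b1, b2, r, c⟩
      cases b1 <;> cases b2 <;> rfl
    refine ⟨T'', zz_co_inj ?_, Units.ext (hsep _ _ fun j => ?_)⟩
    · rw [zz_co_map, hco]
      funext p
      exact h2 p
    · have e1 : mapRep (ev j : B →+* O) T'' = Tj j := by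
        refine zz_co_inj ?_
        rw [zz_co_map, hco, ← hT2 j]
        rfl
      have e2 : mapU (ev j : B →+* O) (rel T'') = mapU (ev j : B →+* O) (scalU ι B η) := by
        rw [← rel_mapRep, e1, hT1, mapU_scalU]
      exact congrArg Units.val e2

theorem cl_closed (hU : Univ O π ev) {T : Rep g ι ℂ}
    (h : ∀ U : Set (Fin g × Bool → Matrix ι ι ℂ), IsOpen U → gens T ∈ U →
      ∃ T' : Rep g ι ℂ, gens T' ∈ U ∧ CL π η T') : CL π η T := by
  rw [cl_iff_zz hU]
  let F : (Fin g × Bool → Matrix ι ι ℂ) → (Fin g × Bool × Bool × ι × ι → ℂ) := fun A p =>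
    (if p.2.2.1 then (A (p.1, p.2.1))⁻¹ else A (p.1, p.2.1)) p.2.2.2.1 p.2.2.2.2
  have hF : ∀ T' : Rep g ι ℂ, F (gens T') = co T' := fun T' => by
    funext ⟨i, b1, b2, r, c⟩
    cases b1 <;> cases b2 <;> simp [F, co, gens]
  have hu : ∀ k, IsUnit (gens T k).det := fun ⟨i, b⟩ => by
    rw [← Matrix.isUnit_iff_isUnit_det]
    cases b
    · exact (T i).1.isUnit
    · exact (T i).2.isUnit
  have hc : ContinuousAt F (gens T) := by
    refine continuousAt_pi.2 fun ⟨i, b1, b2, r, c⟩ => ?_
    have h1 : Continuous fun M : Matrix ι ι ℂ => M r c := (continuous_apply_apply r c)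
    cases b2
    · exact (h1.comp (continuous_apply (i, b1))).continuousAt
    · have h2 : ContinuousAt (Inv.inv : Matrix ι ι ℂ → Matrix ι ι ℂ) (gens T (i, b1)) := by
        refine continuousAt_matrix_inv _ ?_
        obtain ⟨w, hw⟩ := hu (i, b1)
        rw [← hw]
        exact NormedRing.inverse_continuousAt w
      exact h1.continuousAt.comp
        (ContinuousAt.comp (f := fun A : Fin g × Bool → Matrix ι ι ℂ => A (i, b1)) h2
          (continuous_apply (i, b1)).continuousAt)
  have h1 : gens T ∈ closure {A | ∃ T' : Rep g ι ℂ, gens T' = A ∧ CL π η T'} := by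
    rw [mem_closure_iff]
    intro U hU' hT
    obtain ⟨T', h1, h2⟩ := h U hU' hT
    exact ⟨_, h1, T', rfl, h2⟩
  have h2 := hc.continuousWithinAt.mem_closure_image h1
  rw [hF] at h2
  refine (isClosed_zcl _).closure_subset_iff.2 ?_ h2
  rintro _ ⟨_, ⟨T', rfl, h3⟩, rfl⟩
  rw [hF]
  exact (cl_iff_zz hU T').1 h3

end Crest.Agent.R3
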