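import Crest.Agent.R3.Defs

/-!
# R3 / Zcl : Zariski closure

* `zcl_open`: if `p` vanishes on `S ∩ {Θ ≠ 0}` then `p * Θ` vanishes on `S`.
* `zcl_root1`: write `p(s, t) = ∑_{k < r} H_k(s) t^k` modulo `t^r = s k0` (division with remainder by the monic
  polynomial `t^r - X k0` in `(MvPolynomial κ ℂ)[t]`, `MvPolynomial.optionEquivLeft`).  For `s ∈ S` the `r` roots are
  distinct, so the remainder, a polynomial of degree `< r` in `t`, vanishes at `s`; its coefficients vanish on `S`,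
  hence at `x`.
* `zcl_root`: induction on the number of roots (`Fin n`, then transport; `zcl_rename`).
-/

set_option autoImplicit false

noncomputable section

open MvPolynomial

namespace Crest.Agent.R3

variable {κ κ' : Type} {S S' : Set (κ → ℂ)} {x : κ → ℂ}

theorem subset_zcl (S : Set (κ → ℂ)) : S ⊆ zcl S := fun _ hx _ hp => hp _ hx

theorem zcl_mono (h : S ⊆ S') : zcl S ⊆ zcl S' := fun _ hx p hp => hx p fun s hs => hp s (h hs)

theorem zcl_zcl (h : S ⊆ zcl S') : zcl S ⊆ zcl S' := fun _ hx p hp => hx p fun _ hs => h hs p hp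

theorem isClosed_zcl (S : Set (κ → ℂ)) : IsClosed (zcl S) := by
  have : zcl S = ⋂ p : MvPolynomial κ ℂ, ⋂ _ : (∀ s ∈ S, eval s p = 0), {x | eval x p = 0} := by
    ext x
    simp only [zcl, Set.mem_ofPred_eq, Set.mem_iInter]
  rw [this]
  exact isClosed_iInter fun p => isClosed_iInter fun _ =>
    isClosed_eq (MvPolynomial.continuous_eval p) continuous_const

theorem zcl_open (hx : x ∈ zcl S) {Θ : MvPolynomial κ ℂ} (hΘ : eval x Θ ≠ 0) :
    x ∈ zcl (S ∩ {s | eval s Θ ≠ 0}) := by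
  intro p hp
  have h := hx (p * Θ) fun s hs => by
    rw [map_mul]
    by_cases h0 : eval s Θ = 0
    · rw [h0, mul_zero]
    · rw [hp s ⟨hs, h0⟩, zero_mul]
  rw [map_mul] at h
  exact (mul_eq_zero.1 h).resolve_right hΘ

/-- polynomial maps are continuous for the Zariski topology -/
theorem zcl_poly (hx : x ∈ zcl S) (q : κ' → MvPolynomial κ ℂ) :
    (fun k => eval x (q k)) ∈ zcl ((fun s k => eval s (q k)) '' S) := by
  intro p hp
  have e : ∀ s : κ → ℂ, eval s (bind₁ q p) = eval (fun k => eval s (q k)) p := fun s =>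
    eval₂Hom_bind₁ _ _ _ _
  rw [← e]
  exact hx _ fun s hs => by rw [e]; exact hp _ ⟨s, hs, rfl⟩

theorem zcl_rename (hx : x ∈ zcl S) (e : κ' → κ) : (x ∘ e) ∈ zcl ((fun s => s ∘ e) '' S) := by
  intro p hp
  rw [← eval_rename]
  exact hx _ fun s hs => by rw [eval_rename]; exact hp _ ⟨s, hs, rfl⟩

theorem zcl_root1 (hx : x ∈ zcl S) {r : ℕ} (hr : 0 < r) (k0 : κ) (hS : ∀ s ∈ S, s k0 ≠ 0) {t0 : ℂ}
    (ht : t0 ^ r = x k0) :
    (fun o : Option κ => o.elim t0 x) ∈
      zcl {y | ∃ s ∈ S, ∃ t : ℂ, t ^ r = s k0 ∧ y = fun o : Option κ => o.elim t s} := by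
  intro p hp
  set P := optionEquivLeft ℂ κ p with hP
  set q : Polynomial (MvPolynomial κ ℂ) := Polynomial.X ^ r - Polynomial.C (X k0) with hq
  have hqm : q.Monic := Polynomial.monic_X_pow_sub_C _ hr.ne'
  have hmap : ∀ s : κ → ℂ, q.map (eval s) = Polynomial.X ^ r - Polynomial.C (s k0) := fun s => by
    simp [hq]
  have key : ∀ s : κ → ℂ, (P %ₘ q).map (eval s) = 0 ↔
      (Polynomial.X ^ r - Polynomial.C (s k0)) ∣ P.map (eval s) := fun s => by
    rw [Polynomial.map_modByMonic _ hqm, hmap,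
      Polynomial.modByMonic_eq_zero_iff_dvd (Polynomial.monic_X_pow_sub_C _ hr.ne')]
  have h1 : ∀ s ∈ S, (P %ₘ q).map (eval s) = 0 := by
    intro s hs
    rw [key]
    by_cases h0 : P.map (eval s) = 0
    · rw [h0]; exact dvd_zero _
    have hm := Polynomial.monic_X_pow_sub_C (s k0) hr.ne'
    refine (IsAlgClosed.splits _).dvd_of_roots_le_roots hm.ne_zero ?_
    rw [Multiset.le_iff_subset (Polynomial.nodup_roots
      (Polynomial.separable_X_pow_sub_C _ (by exact_mod_cast hr.ne') (hS s hs)))]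
    intro t ht
    rw [Polynomial.mem_roots hm.ne_zero, Polynomial.IsRoot.def] at ht
    rw [Polynomial.mem_roots h0, Polynomial.IsRoot.def, hP, ← optionEquivLeft_elim_eval]
    refine hp _ ⟨s, hs, t, ?_, rfl⟩
    simpa [sub_eq_zero] using ht
  have h2 : (P %ₘ q).map (eval x) = 0 := by
    ext n
    rw [Polynomial.coeff_map, Polynomial.coeff_zero]
    refine hx _ fun s hs => ?_
    rw [← Polynomial.coeff_map, h1 s hs, Polynomial.coeff_zero]
  rw [key] at h2
  rw [optionEquivLeft_elim_eval, ← hP]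
  obtain ⟨w, hw⟩ := h2
  rw [hw]
  simp [ht]

theorem zcl_root [Finite κ'] (hx : x ∈ zcl S) {r : ℕ} (hr : 0 < r) (k : κ' → κ)
    (hS : ∀ s ∈ S, ∀ i, s (k i) ≠ 0) {t0 : κ' → ℂ} (ht : ∀ i, t0 i ^ r = x (k i)) :
    Sum.elim x t0 ∈
      zcl {y | ∃ s ∈ S, ∃ t : κ' → ℂ, (∀ i, t i ^ r = s (k i)) ∧ y = Sum.elim s t} := by
  induction κ' using Finite.induction_empty_option with
  | @of_equiv α β e ih =>
    have h1 := zcl_rename (ih (k ∘ e) (fun s hs i => hS s hs (e i)) (t0 := t0 ∘ e) fun i => ht (e i))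
      (Sum.map id e.symm : κ ⊕ β → κ ⊕ α)
    have e1 : ∀ (s : κ → ℂ) (t : α → ℂ), Sum.elim s t ∘ (Sum.map id e.symm : κ ⊕ β → κ ⊕ α) =
        Sum.elim s (t ∘ e.symm) := fun s t => by
      funext a; cases a <;> rfl
    rw [e1] at h1
    have e2 : (t0 ∘ e) ∘ e.symm = t0 := by funext a; simp
    rw [e2] at h1
    refine zcl_mono ?_ h1
    rintro _ ⟨_, ⟨s, hs, t, h2, rfl⟩, rfl⟩
    refine ⟨s, hs, t ∘ e.symm, fun i => ?_, e1 s t⟩
    simpa using h2 (e.symm i)
  | h_empty =>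
    have h1 := zcl_rename hx (Sum.elim id PEmpty.elim : κ ⊕ PEmpty → κ)
    have e1 : ∀ (s : κ → ℂ), s ∘ (Sum.elim id PEmpty.elim : κ ⊕ PEmpty → κ) = Sum.elim s t0 := fun s => by
      funext a
      rcases a with a | a
      · rfl
      · exact a.elim
    rw [e1] at h1
    refine zcl_mono ?_ h1
    rintro _ ⟨s, hs, rfl⟩
    exact ⟨s, hs, t0, fun i => i.elim, e1 s⟩
  | @h_option α _ ih =>
    have h1 := ih (k ∘ some) (fun s hs i => hS s hs (some i)) (t0 := t0 ∘ some) fun i => ht (some i)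
    have h2 := zcl_root1 h1 hr (Sum.inl (k none)) (by
      rintro _ ⟨s, hs, t, -, rfl⟩
      exact hS s hs none) (t0 := t0 none) (ht none)
    let e : κ ⊕ Option α → Option (κ ⊕ α) :=
      Sum.elim (fun a => some (Sum.inl a)) (Option.map Sum.inr)
    have h3 := zcl_rename h2 e
    have e1 : ∀ (s : κ → ℂ) (t : α → ℂ) (c : ℂ),
        (fun o : Option (κ ⊕ α) => o.elim c (Sum.elim s t)) ∘ e =
          Sum.elim s (fun o : Option α => o.elim c t) := fun s t c => by
      funext a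
      rcases a with a | _ | a <;> rfl
    rw [e1] at h3
    have e2 : (fun o : Option α => o.elim (t0 none) (t0 ∘ some)) = t0 := by
      funext a; cases a <;> rfl
    rw [e2] at h3
    refine zcl_mono ?_ h3
    rintro _ ⟨_, ⟨_, ⟨s, hs, t, h4, rfl⟩, c, hc, rfl⟩, rfl⟩
    refine ⟨s, hs, _, fun i => ?_, e1 s t c⟩
    cases i with
    | none => exact hc
    | some i => exact h4 i

section Generic
variable {O B : Type} [CommRing O] [CommRing B] [Algebra O B] [Algebra O ℂ] {π : B →ₐ[O] ℂ}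
  {P P' : (B →ₐ[O] ℂ) → Prop}

theorem Generic.mono (h : Generic π P) (hP : ∀ φ, P φ → P' φ) : Generic π P' := by
  obtain ⟨κ, τ, Θ, h1, h2⟩ := h
  exact ⟨κ, τ, Θ, h1, fun φ hφ => hP φ (h2 φ hφ)⟩

theorem Generic.and (h : Generic π P) (h' : Generic π P') : Generic π fun φ => P φ ∧ P' φ := by
  obtain ⟨κ, τ, Θ, h1, h2⟩ := h
  obtain ⟨κ', τ', Θ', h1', h2'⟩ := h'
  have e : ∀ φ : B →ₐ[O] ℂ, eval (fun k => φ (Sum.elim τ τ' k)) (rename Sum.inl Θ * rename Sum.inr Θ') =
      eval (fun k => φ (τ k)) Θ * eval (fun k => φ (τ' k)) Θ' := fun φ => by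
    rw [map_mul, eval_rename, eval_rename]
    rfl
  refine ⟨κ ⊕ κ', Sum.elim τ τ', rename Sum.inl Θ * rename Sum.inr Θ', ?_, fun φ hφ => ?_⟩
  · rw [e]; exact mul_ne_zero h1 h1'
  · rw [e] at hφ
    exact ⟨h2 φ (left_ne_zero_of_mul hφ), h2' φ (right_ne_zero_of_mul hφ)⟩

theorem generic_forall {ι : Type} [Finite ι] {P : ι → (B →ₐ[O] ℂ) → Prop} (h : ∀ i, Generic π (P i)) :
    Generic π fun φ => ∀ i, P i φ := by
  induction ι using Finite.induction_empty_option with
  | @of_equiv α β e ih =>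
    exact (ih (P := fun i => P (e i)) fun i => h (e i)).mono fun φ hφ i => by
      simpa using hφ (e.symm i)
  | h_empty => exact ⟨PEmpty, PEmpty.elim, 1, by simp, fun φ _ i => i.elim⟩
  | @h_option α _ ih =>
    refine ((h none).and (ih (P := fun i => P (some i)) fun i => h (some i))).mono fun φ hφ i => ?_
    cases i with
    | none => exact hφ.1
    | some i => exact hφ.2 i

end Generic

end Crest.Agent.R3
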